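import Mathlib
import Crest.Prelude.Def_AffineMaximal

/-!
# Row 236 (affine Bernstein theorem, n ≤ 9, and the example in dimension 10): definitions

`Sol n` = a smooth, locally uniformly convex solution of the affine maximal equation on an open
convex set whose epigraph is closed.  Notation (all functions of `x ∈ Ω`):
* `H = D²u`, `Hi = H⁻¹`, `rho = (det H)^(-1/(n+2))`, `lr = log rho`;
* `G0 f g = Σ Hi i j ∂ᵢf ∂ⱼg`, `L0 f = Σ Hi i j ∂ᵢⱼ f` (Calabi-type carré du champ / operator);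
* `G = rho⁻¹ G0`, `Lap = rho⁻¹ (L0 + n G0 lr ·)` (Blaschke metric; volume `rho⁻¹ dx`);
* `X x = (x, u x)`, `nb x v = ⟨(-Du,1), v⟩`, `tp x w = nb x (w - X x)` (tangent plane functional,
  `≥ 0` on the epigraph `C`), `nu v = rho * nb · v` (conormal), `q z = rho * tp · z`,
  `xi φ = G lr (φ∘X) + φ(0,1)/rho` (affine normal).
-/

set_option autoImplicit false
open scoped ContDiff Topology
open Crest.GeometryTopology.CoordMetric Crest.GeometryTopology.AffineMaximal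
open MeasureTheory Set

noncomputable section
namespace Crest.Agent.R236

abbrev E (n : ℕ) : Type := EuclideanSpace ℝ (Fin n)
abbrev V (n : ℕ) : Type := E n × ℝ

/-- standard basis vector -/
abbrev ee {n : ℕ} (i : Fin n) : E n := EuclideanSpace.single i 1

/-- the vertical direction -/
abbrev up (n : ℕ) : V n := ((0 : E n), (1 : ℝ))

/-- positive part to a power (cut-off functions) -/
def pc (m : ℕ) (t : ℝ) : ℝ := (max t 0) ^ m

structure Sol (n : ℕ) where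
  Ω : Set (E n)
  u : E n → ℝ
  isOpen : IsOpen Ω
  convex : Convex ℝ Ω
  smooth : ContDiffOn ℝ ∞ u Ω
  pos : ∀ x ∈ Ω, (hessianMat u x).PosDef
  eqn : ∀ x ∈ Ω, affineMaximalOp n u x = 0
  closed : IsClosed {p : V n | p.1 ∈ Ω ∧ u p.1 ≤ p.2}

namespace Sol
variable {n : ℕ} (S : Sol n)

/-- the epigraph -/
def C : Set (V n) := {p : V n | p.1 ∈ S.Ω ∧ S.u p.1 ≤ p.2}
def X (x : E n) : V n := (x, S.u x)
def H (x : E n) : Matrix (Fin n) (Fin n) ℝ := hessianMat S.u x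
def Hi (x : E n) : Matrix (Fin n) (Fin n) ℝ := (S.H x)⁻¹
def rho (x : E n) : ℝ := (S.H x).det ^ (-(1 : ℝ) / ((n : ℝ) + 2))
def lr (x : E n) : ℝ := Real.log (S.rho x)
/-- the inverse Hessian as a bilinear form on covectors -/
def B (x : E n) (α β : E n →L[ℝ] ℝ) : ℝ := ∑ i, ∑ j, S.Hi x i j * α (ee i) * β (ee j)
def G0 (f g : E n → ℝ) (x : E n) : ℝ := S.B x (fderiv ℝ f x) (fderiv ℝ g x)
def L0 (f : E n → ℝ) (x : E n) : ℝ := ∑ i, ∑ j, S.Hi x i j * hessianMat f x i j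
def G (f g : E n → ℝ) (x : E n) : ℝ := (S.rho x)⁻¹ * S.G0 f g x
def Lap (f : E n → ℝ) (x : E n) : ℝ := (S.rho x)⁻¹ * (S.L0 f x + n * S.G0 S.lr f x)
def nb (x : E n) (v : V n) : ℝ := v.2 - fderiv ℝ S.u x v.1
def tp (x : E n) (w : V n) : ℝ := S.nb x (w - S.X x)
def nu (v : V n) (x : E n) : ℝ := S.rho x * S.nb x v
def q (z : V n) (x : E n) : ℝ := S.rho x * S.tp x z
/-- the affine function `φ (· - o)` along the graph -/
def af (φ : V n →L[ℝ] ℝ) (o : V n) (x : E n) : ℝ := φ (S.X x - o)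
def xi (φ : V n →L[ℝ] ℝ) (x : E n) : ℝ := S.G S.lr (S.af φ 0) x + φ (up n) / S.rho x
/-- the scale invariant density `q_z^{-n/2} dvol` -/
def mu (z : V n) (x : E n) : ℝ := S.q z x ^ (-(n : ℝ) / 2) * (S.rho x)⁻¹
/-- section with respect to the tangent plane at `x₀` -/
def sec (x₀ : E n) (h : ℝ) : Set (E n) := {x | x ∈ S.Ω ∧ S.tp x₀ (S.X x) ≤ h}
/-- sublevel set of `u` -/
def lev (h : ℝ) : Set (E n) := {x | x ∈ S.Ω ∧ S.u x ≤ h}

/-- uniform strict convexity (no approximate segment in the graph) -/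
def SC (η : ℝ) : Prop :=
  ∀ x ∈ S.Ω, ∀ x' ∈ S.Ω, ∀ W₀ ∈ S.C, ∀ W' ∈ S.C, 0 < S.tp x W₀ → S.tp x W' ≤ S.tp x W₀ →
    η * S.tp x' W' ≤ S.tp x' (S.X x) + S.tp x' W₀

/-- the sublevel set `{u ≤ 1}` is in Auerbach position -/
structure Aue : Prop where
  ee_mem : ∀ i, ee i ∈ S.lev 1
  cube : ∀ x ∈ S.lev 1, ∀ i, |x i| ≤ 1

/-- normalised section at the minimum point `0` -/
structure NormB (η : ℝ) : Prop where
  aue : S.Aue
  zero_mem : (0 : E n) ∈ S.Ω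
  u_zero : S.u 0 = 0
  du_zero : fderiv ℝ S.u 0 = 0
  sc : S.SC η

end Sol

/-- A `c`-centred cap of the epigraph: `{w ∈ C | l (w - z) ≤ 1}`. -/
structure Cap {n : ℕ} (S : Sol n) (c : ℝ) where
  l : V n →L[ℝ] ℝ
  z : V n
  z_mem : z ∈ S.C
  low : ∀ w ∈ S.C, l (w - z) ≤ 1 → -2 ≤ l (w - z)
  bdd : Bornology.IsBounded {w | w ∈ S.C ∧ l (w - z) ≤ 1}
  cen : ∀ x ∈ S.Ω, ∀ w ∈ S.C, l (w - z) ≤ 1 → c * S.tp x w ≤ S.tp x z

/-- the part of the graph below level `r` of the cap -/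
def Cap.sec {n : ℕ} {S : Sol n} {c : ℝ} (K : Cap S c) (r : ℝ) : Set (E n) :=
  {x | x ∈ S.Ω ∧ S.af K.l K.z x ≤ r}

/-- An approximate `j`-orthant configuration in a convex set `C`. -/
structure Cfg {W : Type*} [NormedAddCommGroup W] [NormedSpace ℝ W] (C : Set W) (j : ℕ)
    (η Λ : ℝ) where
  o : W
  e : Fin j → W
  y : Fin j → W →L[ℝ] ℝ
  dual : ∀ a b, y a (e b) = if a = b then 1 else 0
  o_mem : o ∈ C
  far_mem : ∀ a, o + Λ • e a ∈ C
  low : ∀ w ∈ C, ∑ a, y a (w - o) ≤ Λ → ∀ a, -η ≤ y a (w - o)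
  bdd : Bornology.IsBounded {w | w ∈ C ∧ ∑ a, y a (w - o) ≤ Λ}

namespace Cfg
variable {W : Type*} [NormedAddCommGroup W] [NormedSpace ℝ W] {C : Set W} {j : ℕ} {η Λ : ℝ}

def z (F : Cfg C j η Λ) : W := F.o + ∑ a, F.e a

def Centered (F : Cfg C j η Λ) (c : ℝ) : Prop :=
  ∀ (φ : W →L[ℝ] ℝ) (γ : ℝ), (∀ w ∈ C, 0 ≤ φ w + γ) → ∀ w ∈ C,
    ∑ a, F.y a (w - F.o) ≤ 2 * j → c * (φ w + γ) ≤ φ F.z + γ
end Cfg

/-- arbitrarily good approximate `j`-orthants exist -/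
def HasOrth {W : Type*} [NormedAddCommGroup W] [NormedSpace ℝ W] (C : Set W) (j : ℕ) : Prop :=
  ∀ η > (0 : ℝ), ∀ Λ > (0 : ℝ), Nonempty (Cfg C j η Λ)

namespace Sol
variable {n : ℕ} (S : Sol n) {j : ℕ} {η Λ : ℝ}

/-- coordinates of the graph point in a configuration -/
def yy (F : Cfg S.C j η Λ) (a : Fin j) : E n → ℝ := S.af (F.y a) F.o
/-- `p = ⟨ν, P''X - X⟩` -/
def pp (F : Cfg S.C j η Λ) (x : E n) : ℝ :=
  S.q F.o x + ∑ b, S.nu (F.e b) x * S.yy F b x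
/-- `⟨Z, ∇f⟩` with `Z = Σ_b ν(e_b) ∇y_b` -/
def ZG (F : Cfg S.C j η Λ) (f : E n → ℝ) (x : E n) : ℝ :=
  ∑ b, S.nu (F.e b) x * S.G (S.yy F b) f x
/-- the density `p^{-n/2} dvol` -/
def mp (F : Cfg S.C j η Λ) (x : E n) : ℝ := S.pp F x ^ (-(n : ℝ) / 2) * (S.rho x)⁻¹
/-- error density in the Følner argument -/
def err (F : Cfg S.C j η Λ) (a : Fin j) (x : E n) : ℝ :=
  S.mp F x * ((|S.pp F x * S.xi (F.y a) x| + |S.ZG F (S.yy F a) x|) / S.yy F a x)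

end Sol

/-- matrix of a linear map of `E n` (columns are the images of the basis vectors) -/
def mat {n : ℕ} (T : E n →L[ℝ] E n) : Matrix (Fin n) (Fin n) ℝ := fun i j => T (ee j) i

end Crest.Agent.R236
end
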