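import Crest.Agent.R236.Mass

/-!
# Caccioppoli estimates in a centred cap (no normalisation needed)

`Q = q z > 0` on `Ω`, `k = n/2`, `LQ = log Q`, `U = {x ∈ Ω | af l z x < 1}` (open).  From the Blaschke
identities, for `f = af ψ z`:  `xi ψ = G LQ f - f/Q`, `Lap f = n xi ψ`, `Lap LQ = n/Q - G LQ LQ`.
For `χ(t) = pc 3 (h - t)` (convex, `C²`):
(I)  `ibp` with `g = Q^{1-k} χ(f)`, function `LQ`:  `∫ Q^{1-k}[χ (n/Q - k G LQ LQ) + χ' G f LQ] rho⁻¹ = 0`;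
(II) `ibp` with `g = Q^{1-k} χ'(f)`, function `f`:
     `∫ Q^{1-k}[χ'' G f f + (n+1-k) χ' G LQ f - n χ' f/Q] rho⁻¹ = 0`.
(II) - (n+1-k)(I):  `∫ mu Q [χ'' G f f + k(n+1-k) χ G LQ LQ] = ∫ mu [(n+1-k) n χ + n χ' f]`.
Use it with `ψ' = l + (ε/M)ψ`, `ε = (1-r)/4`, `h = r + 2ε` (support in `sec (r+3ε)`, `h - f ≥ ε` on `sec r`) and
with `ψ' = l`; `G(εψ) ≤ 2 G(ψ') + 2 G(l)`; bound the right side by `mass_upper`.
`N = nu v / Q = nb · v / tp · z`:  `Q G N (af φ o) = -(φ v + N φ(X - z))`,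
`Lap N + 2 G LQ N = -n N/Q`.  `cacc_N`: `ibp` with `g = Q^{1-k} γ² N`, `γ = pc 2 (h - af l z)`, function `N`:
`∫ mu[γ² Q G N N - n γ² N² - (1+k) γ² N Q G LQ N + 2γγ' N Q G (af l z) N] = 0`; the last factor is bounded
(`|l v| ≤ 3`), absorb the third term by AM-GM.
`slab_af`, `slab_N`: same integrations by parts with `g = Q^{1-k} γ ψ₁(f)`, `ψ₁(t) = 2τ arctan((t - t₀)/τ)`,
`ψ₁' ≥ 1` on `|t - t₀| ≤ τ`, `ψ₁' ≥ 0`, `|ψ₁| ≤ πτ`; bound `|Q G a b| ≤ (Q G a a + Q G b b)/2`.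
-/

set_option autoImplicit false
open scoped ContDiff Topology
open Crest.GeometryTopology.CoordMetric Crest.GeometryTopology.AffineMaximal
open MeasureTheory Set

noncomputable section
namespace Crest.Agent.R236

variable {n : ℕ}

namespace Cap
variable {S : Sol n} {c : ℝ} (K : Cap S c)

/-- `log q_z` -/
def LQ (x : E n) : ℝ := Real.log (S.q K.z x)
/-- the normalised conormal `N_v = ν_v / q_z` -/
def N (v : V n) (x : E n) : ℝ := S.nb x v / S.tp x K.z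

theorem cacc_at {f : E n → ℝ} (hf : ContDiffOn ℝ ∞ f S.Ω) {x : E n} (hx : x ∈ S.Ω) :
    ContDiffAt ℝ 2 f x :=
  (hf.contDiffAt (S.isOpen.mem_nhds hx)).of_le (WithTop.coe_le_coe.2 le_top)

theorem cacc_diff {f : E n → ℝ} (hf : ContDiffOn ℝ ∞ f S.Ω) {x : E n} (hx : x ∈ S.Ω) :
    DifferentiableAt ℝ f x := (cacc_at hf hx).differentiableAt (by norm_num)

theorem contDiffOn_LQ (hc : 0 < c) : ContDiffOn ℝ ∞ K.LQ S.Ω :=
  (S.contDiffOn_q K.z).log fun _ hx => (K.q_pos hc hx).ne'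

theorem contDiffOn_N (hc : 0 < c) (v : V n) : ContDiffOn ℝ ∞ (K.N v) S.Ω :=
  (S.contDiffOn_nb v).div (S.contDiffOn_tp K.z) fun _ hx => (K.tp_z_pos hc hx).ne'

theorem cacc_G_LQ (hc : 0 < c) {x : E n} (hx : x ∈ S.Ω) (f : E n → ℝ) :
    S.G K.LQ f x = (S.q K.z x)⁻¹ * S.G (S.q K.z) f x :=
  S.G_comp_left (Real.hasDerivAt_log (K.q_pos hc hx).ne') (cacc_diff (S.contDiffOn_q K.z) hx)

theorem xi_eq (hc : 0 < c) {x : E n} (hx : x ∈ S.Ω) (ψ : V n →L[ℝ] ℝ) :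
    S.xi ψ x = S.G K.LQ (S.af ψ K.z) x - S.af ψ K.z x / S.q K.z x := by
  have hq := (K.q_pos hc hx).ne'
  rw [K.cacc_G_LQ hc hx, S.G_q_af hx]
  unfold Sol.af
  field_simp
  ring

theorem Lap_LQ (hc : 0 < c) {x : E n} (hx : x ∈ S.Ω) :
    S.Lap K.LQ x = n / S.q K.z x - S.G K.LQ K.LQ x := by
  have hq := K.q_pos hc hx
  have h1 := S.Lap_log (cacc_at (S.contDiffOn_q K.z) hx) hq
  rw [S.Lap_q hx] at h1
  rw [K.cacc_G_LQ hc hx, S.G_comm hx, K.cacc_G_LQ hc hx]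
  refine h1.trans ?_
  field_simp

theorem cacc_nu_eq (hc : 0 < c) {x : E n} (hx : x ∈ S.Ω) (v : V n) :
    S.nu v x = K.N v x * S.q K.z x := by
  have := (K.tp_z_pos hc hx).ne'
  unfold Sol.nu Cap.N Sol.q
  field_simp

theorem cacc_nu_ev (hc : 0 < c) {x : E n} (hx : x ∈ S.Ω) (v : V n) :
    S.nu v =ᶠ[𝓝 x] fun y => K.N v y * S.q K.z y := by
  filter_upwards [S.isOpen.mem_nhds hx] with y hy using K.cacc_nu_eq hc hy v

theorem q_G_N_af (hc : 0 < c) {x : E n} (hx : x ∈ S.Ω) (v : V n) (φ : V n →L[ℝ] ℝ) (o : V n) :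
    S.q K.z x * S.G (K.N v) (S.af φ o) x = -(φ v + K.N v x * φ (S.X x - K.z)) := by
  have h1 := S.G_nu_af hx v φ o
  rw [S.G_congr_left (K.cacc_nu_ev hc hx v), S.G_mul_left (cacc_diff (K.contDiffOn_N hc v) hx)
    (cacc_diff (S.contDiffOn_q K.z) hx), S.G_q_af hx, K.cacc_nu_eq hc hx] at h1
  linear_combination h1

theorem Lap_N (hc : 0 < c) {x : E n} (hx : x ∈ S.Ω) (v : V n) :
    S.Lap (K.N v) x = -2 * S.G K.LQ (K.N v) x - n * K.N v x / S.q K.z x := by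
  have hq := (K.q_pos hc hx).ne'
  have h1 := S.Lap_nu hx v
  rw [S.Lap_congr (K.cacc_nu_ev hc hx v), S.Lap_mul hx (cacc_at (K.contDiffOn_N hc v) hx)
    (cacc_at (S.contDiffOn_q K.z) hx), S.Lap_q hx, S.G_comm hx] at h1
  rw [K.cacc_G_LQ hc hx]
  field_simp
  linear_combination h1

/-! ### weighted integrals -/

/-- the integral against `mu` over a section -/
def I (s : ℝ) (F : E n → ℝ) : ℝ := ∫ x in K.sec s, S.mu K.z x * F x

/-- the energy form -/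
def QG (f g : E n → ℝ) (x : E n) : ℝ := S.q K.z x * S.G f g x

theorem cacc_sub (s : ℝ) : K.sec s ⊆ S.Ω := fun _ hx => hx.1

theorem cacc_int (hc : 0 < c) {s : ℝ} (hs : s ≤ 1) {F : E n → ℝ} (hF : ContinuousOn F S.Ω) :
    IntegrableOn (fun x => S.mu K.z x * F x) (K.sec s) :=
  (((continuousOn_mu hc K).mul hF).mono (K.cacc_sub s)).integrableOn_compact (K.isCompact_sec hs)

theorem I_add (hc : 0 < c) {s : ℝ} (hs : s ≤ 1) {F G : E n → ℝ} (hF : ContinuousOn F S.Ω)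
    (hG : ContinuousOn G S.Ω) : K.I s (fun x => F x + G x) = K.I s F + K.I s G := by
  unfold I
  rw [← integral_add (K.cacc_int hc hs hF) (K.cacc_int hc hs hG)]
  simp only [mul_add]

theorem I_mul (s a : ℝ) (F : E n → ℝ) : K.I s (fun x => a * F x) = a * K.I s F := by
  unfold I
  rw [← integral_const_mul]
  simp only [mul_left_comm]

theorem I_one (s : ℝ) : K.I s (fun _ => 1) = ∫ x in K.sec s, S.mu K.z x := by
  simp [I]

theorem I_congr (s : ℝ) (hs : s ≤ 1) {F G : E n → ℝ} (h : ∀ x ∈ S.Ω, F x = G x) :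
    K.I s F = K.I s G :=
  setIntegral_congr_fun (K.isCompact_sec hs).measurableSet fun x hx => by
    simp only [h x hx.1]

theorem cacc_int_le (hc : 0 < c) {s : ℝ} (hs : s ≤ 1) {A : Set (E n)} (hA : A ⊆ K.sec s)
    (hAm : MeasurableSet A) {T W : E n → ℝ} (hT : ContinuousOn T S.Ω) (hW : ContinuousOn W S.Ω)
    (h0 : ∀ x ∈ K.sec s, 0 ≤ W x) (h1 : ∀ x ∈ A, T x ≤ W x) :
    ∫ x in A, S.mu K.z x * T x ≤ K.I s W := by
  refine le_trans (setIntegral_mono_on ((K.cacc_int hc hs hT).mono_set hA)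
    ((K.cacc_int hc hs hW).mono_set hA) hAm fun x hx =>
      mul_le_mul_of_nonneg_left (h1 x hx) (mu_pos hc K (hA hx).1).le) ?_
  refine setIntegral_mono_set (K.cacc_int hc hs hW) ?_ hA.eventuallyLE
  exact (ae_restrict_iff' (K.isCompact_sec hs).measurableSet).2 (Filter.Eventually.of_forall
    fun x hx => mul_nonneg (mu_pos hc K hx.1).le (h0 x hx))

theorem cont_QG {f g : E n → ℝ} (hf : ContDiffOn ℝ ∞ f S.Ω) (hg : ContDiffOn ℝ ∞ g S.Ω) :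
    ContinuousOn (K.QG f g) S.Ω :=
  (S.contDiffOn_q K.z).continuousOn.mul (S.continuousOn_G S.isOpen subset_rfl
    (hf.of_le (WithTop.coe_le_coe.2 le_top)) (hg.of_le (WithTop.coe_le_coe.2 le_top)))

theorem QG_nonneg (hc : 0 < c) {x : E n} (hx : x ∈ S.Ω) (f : E n → ℝ) : 0 ≤ K.QG f f x :=
  mul_nonneg (K.q_pos hc hx).le (S.G_nonneg hx)

theorem QG_amgm (hc : 0 < c) {x : E n} (hx : x ∈ S.Ω) (f g : E n → ℝ) (a b : ℝ) :
    2 * a * b * K.QG f g x ≤ a ^ 2 * K.QG f f x + b ^ 2 * K.QG g g x := by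
  have h1 : K.QG f g x ^ 2 ≤ K.QG f f x * K.QG g g x := by
    have := mul_le_mul_of_nonneg_left (S.G_sq_le (f := f) (g := g) hx) (sq_nonneg (S.q K.z x))
    unfold QG
    nlinarith
  have h2 := K.QG_nonneg hc hx f
  have h3 := K.QG_nonneg hc hx g
  refine (le_abs_self _).trans (abs_le_of_sq_le_sq ?_ (by positivity))
  have h4 := mul_le_mul_of_nonneg_left h1 (sq_nonneg (2 * a * b))
  nlinarith [sq_nonneg (a ^ 2 * K.QG f f x - b ^ 2 * K.QG g g x)]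

/-- integration by parts against `q^{1 - n/2} dvol` -/
theorem wibp (hc : 0 < c) {s : ℝ} (hs : s ≤ 1) {f g : E n → ℝ} (hf : ContDiffOn ℝ ∞ f S.Ω)
    (hg : ContDiffOn ℝ 1 g S.Ω) (h0 : ∀ x ∈ S.Ω, s < S.af K.l K.z x → g x = 0) :
    K.I s (fun x => g x * (S.q K.z x * S.Lap f x) + (1 - (n : ℝ) / 2) * g x * K.QG K.LQ f x
      + K.QG g f x) = 0 := by
  have hP : ContDiffOn ℝ ∞ (fun x => Real.exp ((1 - (n : ℝ) / 2) * K.LQ x)) S.Ω :=
    (contDiffOn_const.mul (K.contDiffOn_LQ hc)).exp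
  have h1 := S.ibp S.isOpen subset_rfl (K.isCompact_sec hs) (K.cacc_sub s)
    (hf.of_le (WithTop.coe_le_coe.2 le_top))
    ((hP.of_le (WithTop.coe_le_coe.2 le_top)).mul hg) (fun x hx hx' => by
      rw [h0 x hx (lt_of_not_ge fun h => hx' ⟨hx, h⟩), mul_zero])
  rw [← h1]
  refine setIntegral_congr_fun (K.isCompact_sec hs).measurableSet fun x hx => ?_
  have hx' : x ∈ S.Ω := hx.1
  have hq := K.q_pos hc hx'
  have hgd : DifferentiableAt ℝ g x :=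
    (hg.contDiffAt (S.isOpen.mem_nhds hx')).differentiableAt (by norm_num)
  have e1 : Real.exp ((1 - (n : ℝ) / 2) * K.LQ x) = S.q K.z x * S.q K.z x ^ (-(n : ℝ) / 2) := by
    rw [show (1 - (n : ℝ) / 2) * K.LQ x = Real.log (S.q K.z x) + Real.log (S.q K.z x) * (-(n : ℝ) / 2)
      by unfold LQ; ring, Real.exp_add, Real.exp_log hq, Real.rpow_def_of_pos hq]
  have e2 : S.G (fun x => Real.exp ((1 - (n : ℝ) / 2) * K.LQ x)) f x =
      Real.exp ((1 - (n : ℝ) / 2) * K.LQ x) * (1 - (n : ℝ) / 2) * S.G K.LQ f x :=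
    S.G_comp_left (φ := fun t => Real.exp ((1 - (n : ℝ) / 2) * t))
      (by simpa using ((hasDerivAt_id (K.LQ x)).const_mul (1 - (n : ℝ) / 2)).exp)
      (cacc_diff (K.contDiffOn_LQ hc) hx')
  beta_reduce
  rw [S.G_mul_left (cacc_diff hP hx') hgd, e2, e1]
  unfold Sol.mu QG
  ring

/-- the level function of the cap -/
def L (x : E n) : ℝ := S.af K.l K.z x

theorem contDiffOn_L : ContDiffOn ℝ ∞ K.L S.Ω := S.contDiffOn_af K.l K.z

theorem L_low {s : ℝ} (hs : s ≤ 1) {x : E n} (hx : x ∈ K.sec s) : -2 ≤ K.L x ∧ K.L x ≤ s :=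
  ⟨K.low _ (S.X_mem hx.1) (hx.2.trans hs), hx.2⟩

theorem q_Lap_af (hc : 0 < c) {x : E n} (hx : x ∈ S.Ω) (ψ : V n →L[ℝ] ℝ) :
    S.q K.z x * S.Lap (S.af ψ K.z) x = n * K.QG K.LQ (S.af ψ K.z) x - n * S.af ψ K.z x := by
  have hq := (K.q_pos hc hx).ne'
  rw [S.Lap_af hx, K.xi_eq hc hx]
  unfold QG
  field_simp

theorem q_Lap_N (hc : 0 < c) {x : E n} (hx : x ∈ S.Ω) (v : V n) :
    S.q K.z x * S.Lap (K.N v) x = -2 * K.QG K.LQ (K.N v) x - n * K.N v x := by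
  have hq := (K.q_pos hc hx).ne'
  rw [K.Lap_N hc hx]
  unfold QG
  field_simp

theorem cut_deriv (m : ℕ) (s t : ℝ) :
    HasDerivAt (fun t => pc (m + 2) (s - t)) (-(((m : ℝ) + 2) * pc (m + 1) (s - t))) t := by
  exact ((hasDerivAt_pc m (s - t)).comp t ((hasDerivAt_id t).const_sub s)).congr_deriv (by simp)

theorem cut_smooth (m : ℕ) (s : ℝ) : ContDiffOn ℝ 1 (fun x => pc (m + 2) (s - K.L x)) S.Ω :=
  (contDiff_one_pc m).comp_contDiffOn
    (contDiffOn_const.sub (K.contDiffOn_L.of_le (WithTop.coe_le_coe.2 le_top)))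

theorem cut_cont (m : ℕ) (s : ℝ) : ContinuousOn (fun x => pc m (s - K.L x)) S.Ω :=
  (continuous_pc m).comp_continuousOn (continuousOn_const.sub K.contDiffOn_L.continuousOn)

theorem QG_cut {x : E n} (hx : x ∈ S.Ω) (m : ℕ) (s : ℝ) (f : E n → ℝ) :
    K.QG (fun x => pc (m + 2) (s - K.L x)) f x =
      -(((m : ℝ) + 2) * pc (m + 1) (s - K.L x)) * K.QG K.L f x := by
  unfold QG
  rw [S.G_comp_left (cut_deriv m s (K.L x)) (cacc_diff K.contDiffOn_L hx)]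
  ring

/-- the basic identity -/
theorem base_id (hc : 0 < c) {s : ℝ} (hs : s ≤ 1) :
    K.I s (fun x => 6 * pc 1 (s - K.L x) * K.QG K.L K.L x
      + (n : ℝ) / 2 * ((n : ℝ) / 2 + 1) * pc 3 (s - K.L x) * K.QG K.LQ K.LQ x
      - (((n : ℝ) / 2 + 1) * n * pc 3 (s - K.L x) - 3 * n * pc 2 (s - K.L x) * K.L x)) = 0 := by
  have hLQ := K.contDiffOn_LQ hc
  have hL := K.contDiffOn_L
  have h1 := K.wibp hc hs hLQ (K.cut_smooth 1 s) fun x _ h =>
    pc_of_nonpos (by norm_num) (sub_nonpos.2 h.le)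
  have h2 := K.wibp hc hs hL (K.cut_smooth 0 s) fun x _ h =>
    pc_of_nonpos (by norm_num) (sub_nonpos.2 h.le)
  rw [K.I_congr s hs (G := fun x => n * pc 3 (s - K.L x)
    - (n : ℝ) / 2 * pc 3 (s - K.L x) * K.QG K.LQ K.LQ x - 3 * pc 2 (s - K.L x) * K.QG K.L K.LQ x)
    fun x hx => by
      have hq := (K.q_pos hc hx).ne'
      rw [K.QG_cut hx, K.Lap_LQ hc hx]
      unfold QG
      field_simp
      ring] at h1
  rw [K.I_congr s hs (G := fun x => ((n : ℝ) / 2 + 1) * pc 2 (s - K.L x) * K.QG K.L K.LQ x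
    - n * pc 2 (s - K.L x) * K.L x - 2 * pc 1 (s - K.L x) * K.QG K.L K.L x)
    fun x hx => by
      have e : S.q K.z x * S.Lap K.L x = n * K.QG K.LQ K.L x - n * K.L x := K.q_Lap_af hc hx K.l
      have e' : K.QG K.LQ K.L x = K.QG K.L K.LQ x := by unfold QG; rw [S.G_comm hx]
      rw [K.QG_cut hx, e, e']
      push_cast
      ring] at h2
  have c1 := K.cut_cont 1 s
  have c2 := K.cut_cont 2 s
  have c3 := K.cut_cont 3 s
  have c4 := K.cont_QG hL hL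
  have c5 := K.cont_QG hL hLQ
  have c6 := K.cont_QG hLQ hLQ
  have c7 := hL.continuousOn
  have h3 := K.I_add hc hs (F := fun x => -((n : ℝ) / 2 + 1) * (n * pc 3 (s - K.L x)
    - (n : ℝ) / 2 * pc 3 (s - K.L x) * K.QG K.LQ K.LQ x - 3 * pc 2 (s - K.L x) * K.QG K.L K.LQ x))
    (G := fun x => -3 * (((n : ℝ) / 2 + 1) * pc 2 (s - K.L x) * K.QG K.L K.LQ x
    - n * pc 2 (s - K.L x) * K.L x - 2 * pc 1 (s - K.L x) * K.QG K.L K.L x))
    (by fun_prop) (by fun_prop)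
  rw [K.I_mul, K.I_mul, h1, h2, mul_zero, mul_zero, add_zero] at h3
  rw [← h3]
  exact K.I_congr s hs fun x _ => by ring

theorem cut_bd {s : ℝ} (hs : s ≤ 1) {x : E n} (hx : x ∈ K.sec s) (m : ℕ) :
    pc m (s - K.L x) = (s - K.L x) ^ m ∧ 0 ≤ s - K.L x ∧ s - K.L x ≤ 3 := by
  obtain ⟨h1, h2⟩ := K.L_low hs hx
  exact ⟨pc_of_nonneg m (by linarith), by linarith, by linarith⟩

theorem sec_mono {r s : ℝ} (h : r ≤ s) : K.sec r ⊆ K.sec s := fun _ hx => ⟨hx.1, hx.2.trans h⟩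

end Cap

theorem cacc_base (n : ℕ) (hn : 1 ≤ n) {c r : ℝ} (hc : 0 < c) (hr : r < 1) :
    ∃ A, ∀ (S : Sol n) (K : Cap S c),
      K.I r (K.QG K.L K.L) ≤ A ∧ K.I r (K.QG K.LQ K.LQ) ≤ A := by
  obtain ⟨s, hrs, hs⟩ := exists_between hr
  obtain ⟨A, hA⟩ := mass_upper n hc hs
  set ε := s - r with hε
  have hε0 : 0 < ε := by linarith
  have hn' : (1 : ℝ) ≤ n := by exact_mod_cast hn
  set C : ℝ := ((n : ℝ) / 2 + 1) * n * 27 + 54 * n with hC
  set a : ℝ := (6 * ε)⁻¹ + (ε ^ 3 / 2)⁻¹ with ha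
  refine ⟨a * (C * A), fun S K => ?_⟩
  have hLQ := K.contDiffOn_LQ hc
  have hL := K.contDiffOn_L
  have c1 := K.cut_cont 1 s
  have c2 := K.cut_cont 2 s
  have c3 := K.cut_cont 3 s
  have c4 := K.cont_QG hL hL
  have c6 := K.cont_QG hLQ hLQ
  have c7 := hL.continuousOn
  let F : E n → ℝ := fun x => 6 * pc 1 (s - K.L x) * K.QG K.L K.L x
      + (n : ℝ) / 2 * ((n : ℝ) / 2 + 1) * pc 3 (s - K.L x) * K.QG K.LQ K.LQ x
      - (((n : ℝ) / 2 + 1) * n * pc 3 (s - K.L x) - 3 * n * pc 2 (s - K.L x) * K.L x)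
  have cF : ContinuousOn F S.Ω := by fun_prop
  have hF : K.I s F = 0 := K.base_id hc hs.le
  have hW : K.I s (fun x => a * (F x + C * 1)) ≤ a * (C * A) := by
    rw [K.I_mul, K.I_add hc hs.le cF (by fun_prop), hF, zero_add, K.I_mul, K.I_one]
    exact mul_le_mul_of_nonneg_left (mul_le_mul_of_nonneg_left (hA S K) (by positivity))
      (by positivity)
  have key : ∀ x ∈ K.sec s, 6 * (s - K.L x) * K.QG K.L K.L x
      + (s - K.L x) ^ 3 / 2 * K.QG K.LQ K.LQ x ≤ F x + C * 1 := by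
    intro x hx
    obtain ⟨e1, h0, h3⟩ := K.cut_bd hs.le hx 1
    obtain ⟨h4, h5⟩ := K.L_low hs.le hx
    simp only [F, e1, (K.cut_bd hs.le hx 2).1, (K.cut_bd hs.le hx 3).1, pow_one]
    set θ := s - K.L x
    have p2 : θ ^ 2 ≤ 9 := by nlinarith
    have p3 : θ ^ 3 ≤ 27 := by nlinarith
    have q1 := K.QG_nonneg hc hx.1 K.LQ
    have b1 : ((n : ℝ) / 2 + 1) * n * θ ^ 3 ≤ ((n : ℝ) / 2 + 1) * n * 27 :=
      mul_le_mul_of_nonneg_left p3 (by positivity)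
    have b2 : -(θ ^ 2 * K.L x) ≤ 18 := by nlinarith [sq_nonneg θ]
    have b3 : θ ^ 3 / 2 * K.QG K.LQ K.LQ x ≤
        (n : ℝ) / 2 * ((n : ℝ) / 2 + 1) * θ ^ 3 * K.QG K.LQ K.LQ x := by
      refine mul_le_mul_of_nonneg_right ?_ q1
      have : (1 : ℝ) / 2 ≤ (n : ℝ) / 2 * ((n : ℝ) / 2 + 1) := by nlinarith
      nlinarith [pow_nonneg h0 3]
    nlinarith
  have key0 : ∀ x ∈ K.sec s, 0 ≤ a * (F x + C * 1) := by
    intro x hx
    obtain ⟨-, h0, -⟩ := K.cut_bd hs.le hx 1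
    have q1 := K.QG_nonneg hc hx.1 K.LQ
    have q2 := K.QG_nonneg hc hx.1 K.L
    exact mul_nonneg (by positivity) (le_trans (by positivity) (key x hx))
  have key1 : ∀ x ∈ K.sec r, 6 * ε * K.QG K.L K.L x + ε ^ 3 / 2 * K.QG K.LQ K.LQ x ≤
      F x + C * 1 := by
    intro x hx
    have q1 := K.QG_nonneg hc hx.1 K.LQ
    have q2 := K.QG_nonneg hc hx.1 K.L
    have h1 : ε ≤ s - K.L x := by
      have := (K.L_low hr.le hx).2
      linarith
    refine le_trans ?_ (key x (K.sec_mono hrs.le hx))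
    gcongr
  have hm := (K.isCompact_sec hr.le).measurableSet
  constructor
  · refine (K.cacc_int_le hc hs.le (K.sec_mono hrs.le) hm c4 (by fun_prop) key0 fun x hx => ?_).trans hW
    have q1 := K.QG_nonneg hc hx.1 K.LQ
    have q2 := K.QG_nonneg hc hx.1 K.L
    calc K.QG K.L K.L x = (6 * ε)⁻¹ * (6 * ε * K.QG K.L K.L x) := by field_simp
      _ ≤ a * (6 * ε * K.QG K.L K.L x + ε ^ 3 / 2 * K.QG K.LQ K.LQ x) :=
        mul_le_mul (le_add_of_nonneg_right (by positivity)) (le_add_of_nonneg_right (by positivity))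
          (by positivity) (by positivity)
      _ ≤ _ := mul_le_mul_of_nonneg_left (key1 x hx) (by positivity)
  · refine (K.cacc_int_le hc hs.le (K.sec_mono hrs.le) hm c6 (by fun_prop) key0 fun x hx => ?_).trans hW
    have q1 := K.QG_nonneg hc hx.1 K.LQ
    have q2 := K.QG_nonneg hc hx.1 K.L
    calc K.QG K.LQ K.LQ x = (ε ^ 3 / 2)⁻¹ * (ε ^ 3 / 2 * K.QG K.LQ K.LQ x) := by field_simp
      _ ≤ a * (6 * ε * K.QG K.L K.L x + ε ^ 3 / 2 * K.QG K.LQ K.LQ x) :=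
        mul_le_mul (le_add_of_nonneg_left (by positivity)) (le_add_of_nonneg_left (by positivity))
          (by positivity) (by positivity)
      _ ≤ _ := mul_le_mul_of_nonneg_left (key1 x hx) (by positivity)

/-- the functions to which the general estimates apply -/
structure Cap.Good {S : Sol n} {c : ℝ} (K : Cap S c) (a M : ℝ) (f : E n → ℝ) : Prop where
  smooth : ContDiffOn ℝ ∞ f S.Ω
  eqn : ∀ x ∈ S.Ω, S.q K.z x * S.Lap f x = a * K.QG K.LQ f x - n * f x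
  bd : ∀ x ∈ K.sec 1, |f x| ≤ M

/-- integration by parts with `g = θ² ψ(f)` -/
theorem Cap.Good.id {S : Sol n} {c : ℝ} {K : Cap S c} {a M : ℝ} {f : E n → ℝ} (h : K.Good a M f)
    (hc : 0 < c) {s : ℝ} (hs : s ≤ 1) {ψ ψ' : ℝ → ℝ} (hψ : ContDiff ℝ 1 ψ)
    (hψ' : ∀ t, HasDerivAt ψ (ψ' t) t) :
    K.I s (fun x => pc 2 (s - K.L x) * ψ' (f x) * K.QG f f x
      + (a + 1 - (n : ℝ) / 2) * pc 2 (s - K.L x) * ψ (f x) * K.QG K.LQ f x
      - n * pc 2 (s - K.L x) * ψ (f x) * f x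
      - 2 * pc 1 (s - K.L x) * ψ (f x) * K.QG K.L f x) = 0 := by
  have hψf : ContDiffOn ℝ 1 (fun x => ψ (f x)) S.Ω :=
    hψ.comp_contDiffOn (h.smooth.of_le (WithTop.coe_le_coe.2 le_top))
  have h1 := K.wibp hc hs h.smooth ((K.cut_smooth 0 s).mul hψf) fun x _ hx =>
    mul_eq_zero_of_left (pc_of_nonpos (by norm_num) (sub_nonpos.2 hx.le)) _
  rw [← h1]
  refine K.I_congr s hs fun x hx => ?_
  have d1 : DifferentiableAt ℝ (fun x => pc (0 + 2) (s - K.L x)) x :=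
    ((K.cut_smooth 0 s).contDiffAt (S.isOpen.mem_nhds hx)).differentiableAt (by norm_num)
  have d2 : DifferentiableAt ℝ (fun x => ψ (f x)) x :=
    (hψf.contDiffAt (S.isOpen.mem_nhds hx)).differentiableAt (by norm_num)
  have e1 := K.QG_cut hx 0 s f
  have e2 : K.QG (fun x => pc (0 + 2) (s - K.L x) * ψ (f x)) f x =
      pc 2 (s - K.L x) * ψ' (f x) * K.QG f f x
        + ψ (f x) * K.QG (fun x => pc (0 + 2) (s - K.L x)) f x := by
    unfold Cap.QG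
    rw [S.G_mul_left d1 d2, S.G_comp_left (hψ' (f x)) (Cap.cacc_diff h.smooth hx)]
    ring
  rw [e2, e1, h.eqn x hx]
  push_cast
  ring

theorem cacc_gen (n : ℕ) (hn : 1 ≤ n) {c r : ℝ} (hc : 0 < c) (hr : r < 1) (a M : ℝ) :
    ∃ A, ∀ (S : Sol n) (K : Cap S c) (f : E n → ℝ), K.Good a M f → K.I r (K.QG f f) ≤ A := by
  obtain ⟨s, hrs, hs⟩ := exists_between hr
  obtain ⟨A, hA⟩ := mass_upper n hc hs
  obtain ⟨A', hA'⟩ := cacc_base n hn hc hs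
  set ε := s - r with hε
  have hε0 : 0 < ε := by linarith
  set b : ℝ := a + 1 - (n : ℝ) / 2 with hb
  refine ⟨2 / ε ^ 2 * (9 * n * M ^ 2 * A + (9 * b ^ 2 * M ^ 2 * A' + 4 * M ^ 2 * A')),
    fun S K f h => ?_⟩
  have hLQ := K.contDiffOn_LQ hc
  have hL := K.contDiffOn_L
  have c1 := K.cut_cont 1 s
  have c2 := K.cut_cont 2 s
  have c3 := K.cont_QG h.smooth h.smooth
  have c4 := K.cont_QG hL hL
  have c5 := K.cont_QG hL h.smooth
  have c6 := K.cont_QG hLQ hLQ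
  have c7 := K.cont_QG hLQ h.smooth
  have c8 := h.smooth.continuousOn
  let F : E n → ℝ := fun x => pc 2 (s - K.L x) * 1 * K.QG f f x
      + b * pc 2 (s - K.L x) * f x * K.QG K.LQ f x
      - n * pc 2 (s - K.L x) * f x * f x - 2 * pc 1 (s - K.L x) * f x * K.QG K.L f x
  have cF : ContinuousOn F S.Ω := by fun_prop
  have hF : K.I s F = 0 := h.id hc hs.le (ψ := fun t => t) (ψ' := fun _ => 1) contDiff_id
    fun t => hasDerivAt_id t
  let W : E n → ℝ := fun x => F x + (9 * n * M ^ 2 * 1 + (9 * b ^ 2 * M ^ 2 * K.QG K.LQ K.LQ x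
    + 4 * M ^ 2 * K.QG K.L K.L x))
  have hW : K.I s (fun x => 2 / ε ^ 2 * W x) ≤
      2 / ε ^ 2 * (9 * n * M ^ 2 * A + (9 * b ^ 2 * M ^ 2 * A' + 4 * M ^ 2 * A')) := by
    rw [K.I_mul, K.I_add hc hs.le cF (by fun_prop), hF, zero_add,
      K.I_add hc hs.le (by fun_prop) (by fun_prop), K.I_add hc hs.le (by fun_prop) (by fun_prop),
      K.I_mul, K.I_mul, K.I_mul, K.I_one]
    have h1 := hA S K
    obtain ⟨h2, h3⟩ := hA' S K
    gcongr
  have key : ∀ x ∈ K.sec s, (s - K.L x) ^ 2 / 2 * K.QG f f x ≤ W x := by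
    intro x hx
    obtain ⟨e1, h0, h3⟩ := K.cut_bd hs.le hx 1
    simp only [W, F, e1, (K.cut_bd hs.le hx 2).1, pow_one]
    set θ := s - K.L x
    have p2 : θ ^ 2 ≤ 9 := by nlinarith
    have pf : f x ^ 2 ≤ M ^ 2 := sq_le_sq' (abs_le.1 (h.bd x (K.sec_mono hs.le hx))).1
      (abs_le.1 (h.bd x (K.sec_mono hs.le hx))).2
    have q1 := K.QG_nonneg hc hx.1 K.LQ
    have q2 := K.QG_nonneg hc hx.1 K.L
    have a1 := K.QG_amgm hc hx.1 K.LQ f (-(b * θ * f x)) (θ / 2)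
    have a2 := K.QG_amgm hc hx.1 K.L f (2 * f x) (θ / 2)
    have p3 : θ ^ 2 * f x ^ 2 ≤ 9 * M ^ 2 := mul_le_mul p2 pf (sq_nonneg _) (by norm_num)
    have b1 : (n : ℝ) * (θ ^ 2 * f x ^ 2) ≤ n * (9 * M ^ 2) :=
      mul_le_mul_of_nonneg_left p3 (Nat.cast_nonneg _)
    have b2 : b ^ 2 * (θ ^ 2 * f x ^ 2) * K.QG K.LQ K.LQ x ≤ b ^ 2 * (9 * M ^ 2) * K.QG K.LQ K.LQ x :=
      mul_le_mul_of_nonneg_right (mul_le_mul_of_nonneg_left p3 (sq_nonneg _)) q1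
    have b3 : f x ^ 2 * K.QG K.L K.L x ≤ M ^ 2 * K.QG K.L K.L x := mul_le_mul_of_nonneg_right pf q2
    nlinarith
  refine (K.cacc_int_le hc hs.le (K.sec_mono hrs.le) (K.isCompact_sec hr.le).measurableSet c3
    (by fun_prop) (fun x hx => ?_) fun x hx => ?_).trans hW
  · have q := K.QG_nonneg hc hx.1 f
    exact mul_nonneg (by positivity) (le_trans (by positivity) (key x hx))
  · have q := K.QG_nonneg hc hx.1 f
    have h1 : ε ≤ s - K.L x := by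
      have := (K.L_low hr.le hx).2
      linarith
    calc K.QG f f x = 2 / ε ^ 2 * (ε ^ 2 / 2 * K.QG f f x) := by field_simp
      _ ≤ 2 / ε ^ 2 * ((s - K.L x) ^ 2 / 2 * K.QG f f x) := by gcongr
      _ ≤ _ := mul_le_mul_of_nonneg_left (key x (K.sec_mono hrs.le hx)) (by positivity)

theorem slab_fun (t₀ : ℝ) {τ : ℝ} (hτ : 0 < τ) : ∃ ψ ψ' : ℝ → ℝ, ContDiff ℝ 1 ψ ∧ Continuous ψ' ∧
    (∀ t, HasDerivAt ψ (ψ' t) t) ∧ (∀ t, 0 ≤ ψ' t) ∧ (∀ t, |t - t₀| ≤ τ → 1 ≤ ψ' t) ∧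
    ∀ t, |ψ t| ≤ 4 * τ := by
  refine ⟨fun t => 2 * τ * Real.arctan ((t - t₀) / τ), fun t => 2 / (1 + ((t - t₀) / τ) ^ 2),
    contDiff_const.mul (Real.contDiff_arctan.comp (by fun_prop)),
    Continuous.div continuous_const (by fun_prop) fun t => by positivity, fun t => ?_,
    fun t => by positivity, fun t ht => ?_, fun t => ?_⟩
  · refine ((((hasDerivAt_id t).sub_const t₀).div_const τ).arctan.const_mul (2 * τ)).congr_deriv ?_
    simp only [id]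
    field_simp
  · rw [le_div_iff₀ (by positivity)]
    have : ((t - t₀) / τ) ^ 2 ≤ 1 := by
      rw [div_pow, div_le_one (by positivity)]
      exact sq_le_sq' (abs_le.1 ht).1 (abs_le.1 ht).2
    linarith
  · have h1 := Real.arctan_lt_pi_div_two ((t - t₀) / τ)
    have h2 := Real.neg_pi_div_two_lt_arctan ((t - t₀) / τ)
    have h3 := Real.pi_le_four
    rw [abs_le]
    constructor <;> nlinarith

theorem slab_gen (n : ℕ) (hn : 1 ≤ n) {c r : ℝ} (hc : 0 < c) (hr : r < 1) (a M : ℝ) (hM : 0 ≤ M) :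
    ∃ A, ∀ (S : Sol n) (K : Cap S c) (f : E n → ℝ), K.Good a M f → ∀ t₀ τ : ℝ, 0 < τ →
      ∫ x in K.sec r ∩ {x | |f x - t₀| ≤ τ}, S.mu K.z x * K.QG f f x ≤ A * τ := by
  obtain ⟨s, hrs, hs⟩ := exists_between hr
  obtain ⟨A, hA⟩ := mass_upper n hc hs
  obtain ⟨A', hA'⟩ := cacc_base n hn hc hs
  obtain ⟨A'', hA''⟩ := cacc_gen n hn hc hs a M
  set ε := s - r with hε
  have hε0 : 0 < ε := by linarith
  set b : ℝ := a + 1 - (n : ℝ) / 2 with hb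
  refine ⟨1 / ε ^ 2 * (36 * n * M * A + (18 * b ^ 2 * A' + (12 * A' + 30 * A''))),
    fun S K f h t₀ τ hτ => ?_⟩
  obtain ⟨ψ, ψ', s1, s2, s3, s4, s5, s6⟩ := slab_fun t₀ hτ
  have s1' := s1.continuous
  have hLQ := K.contDiffOn_LQ hc
  have hL := K.contDiffOn_L
  have c1 := K.cut_cont 1 s
  have c2 := K.cut_cont 2 s
  have c3 := K.cont_QG h.smooth h.smooth
  have c4 := K.cont_QG hL hL
  have c5 := K.cont_QG hL h.smooth
  have c6 := K.cont_QG hLQ hLQ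
  have c7 := K.cont_QG hLQ h.smooth
  have c8 := h.smooth.continuousOn
  let F : E n → ℝ := fun x => pc 2 (s - K.L x) * ψ' (f x) * K.QG f f x
      + b * pc 2 (s - K.L x) * ψ (f x) * K.QG K.LQ f x
      - n * pc 2 (s - K.L x) * ψ (f x) * f x - 2 * pc 1 (s - K.L x) * ψ (f x) * K.QG K.L f x
  have cF : ContinuousOn F S.Ω := by fun_prop
  have hF : K.I s F = 0 := h.id hc hs.le s1 s3
  let W : E n → ℝ := fun x => F x + τ * (36 * n * M * 1 + (18 * b ^ 2 * K.QG K.LQ K.LQ x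
    + (12 * K.QG K.L K.L x + 30 * K.QG f f x)))
  have hW : K.I s (fun x => 1 / ε ^ 2 * W x) ≤
      1 / ε ^ 2 * (36 * n * M * A + (18 * b ^ 2 * A' + (12 * A' + 30 * A''))) * τ := by
    rw [K.I_mul, K.I_add hc hs.le cF (by fun_prop), hF, zero_add, K.I_mul,
      K.I_add hc hs.le (by fun_prop) (by fun_prop), K.I_add hc hs.le (by fun_prop) (by fun_prop),
      K.I_add hc hs.le (by fun_prop) (by fun_prop),
      K.I_mul, K.I_mul, K.I_mul, K.I_mul, K.I_one, mul_comm τ, mul_assoc (1 / ε ^ 2)]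
    have h1 := hA S K
    obtain ⟨h2, h3⟩ := hA' S K
    have h4 := hA'' S K f h
    gcongr
  have key : ∀ x ∈ K.sec s, (s - K.L x) ^ 2 * ψ' (f x) * K.QG f f x ≤ W x := by
    intro x hx
    obtain ⟨e1, h0, h3⟩ := K.cut_bd hs.le hx 1
    simp only [W, F, e1, (K.cut_bd hs.le hx 2).1, pow_one]
    set θ := s - K.L x
    have p2 : θ ^ 2 ≤ 9 := by nlinarith
    have pf := h.bd x (K.sec_mono hs.le hx)
    have pψ := s6 (f x)
    have q1 := K.QG_nonneg hc hx.1 K.LQ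
    have q2 := K.QG_nonneg hc hx.1 K.L
    have q3 := K.QG_nonneg hc hx.1 f
    have gen : ∀ (u w X Y : ℝ), |u| ≤ w → 2 * X ≤ Y → -(2 * X) ≤ Y → 2 * u * X ≤ w * Y := by
      intro u w X Y h1 h2 h3
      obtain ⟨h4, h5⟩ := abs_le.1 h1
      nlinarith [mul_nonneg (sub_nonneg.2 h5) (sub_nonneg.2 h3),
        mul_nonneg (by linarith : 0 ≤ u + w) (sub_nonneg.2 h2)]
    have u1 : |θ ^ 2 * ψ (f x)| ≤ 9 * (4 * τ) := by
      rw [abs_mul, abs_of_nonneg (sq_nonneg θ)]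
      exact mul_le_mul p2 pψ (abs_nonneg _) (by norm_num)
    have u2 : |θ * ψ (f x)| ≤ 3 * (4 * τ) := by
      rw [abs_mul, abs_of_nonneg h0]
      exact mul_le_mul h3 pψ (abs_nonneg _) (by norm_num)
    have a1 := gen _ _ (-(b * K.QG K.LQ f x)) (b ^ 2 * K.QG K.LQ K.LQ x + K.QG f f x) u1
      (by linarith [K.QG_amgm hc hx.1 K.LQ f (-b) 1]) (by linarith [K.QG_amgm hc hx.1 K.LQ f b 1])
    have a2 := gen _ _ (K.QG K.L f x) (K.QG K.L K.L x + K.QG f f x) u2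
      (by linarith [K.QG_amgm hc hx.1 K.L f 1 1]) (by linarith [K.QG_amgm hc hx.1 K.L f (-1) 1])
    have a3 : θ ^ 2 * ψ (f x) * f x ≤ 9 * (4 * τ) * M := by
      refine (le_abs_self _).trans ?_
      rw [abs_mul]
      exact mul_le_mul u1 pf (abs_nonneg _) (by positivity)
    have a4 := mul_le_mul_of_nonneg_left a3 (Nat.cast_nonneg (α := ℝ) n)
    nlinarith
  have hm : MeasurableSet (K.sec r ∩ {x | |f x - t₀| ≤ τ}) := by
    have hcl : IsClosed (K.sec r ∩ (fun x => |f x - t₀|) ⁻¹' Iic τ) :=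
      ContinuousOn.preimage_isClosed_of_isClosed
        ((c8.mono (K.cacc_sub r)).sub continuousOn_const).abs (K.isCompact_sec hr.le).isClosed
        isClosed_Iic
    exact hcl.measurableSet
  refine (K.cacc_int_le hc hs.le (inter_subset_left.trans (K.sec_mono hrs.le)) hm c3
    (by fun_prop) (fun x hx => ?_) fun x hx => ?_).trans hW
  · have q := K.QG_nonneg hc hx.1 f
    have q' := s4 (f x)
    exact mul_nonneg (by positivity) (le_trans (by positivity) (key x hx))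
  · have q := K.QG_nonneg hc hx.1.1 f
    have q' := s5 (f x) hx.2
    have h1 : ε ≤ s - K.L x := by
      have := (K.L_low hr.le hx.1).2
      linarith
    calc K.QG f f x = 1 / ε ^ 2 * (ε ^ 2 * 1 * K.QG f f x) := by field_simp
      _ ≤ 1 / ε ^ 2 * ((s - K.L x) ^ 2 * ψ' (f x) * K.QG f f x) := by gcongr
      _ ≤ _ := mul_le_mul_of_nonneg_left (key x (K.sec_mono hrs.le hx.1)) (by positivity)

theorem Cap.good_af {S : Sol n} {c : ℝ} (K : Cap S c) (hc : 0 < c) {M : ℝ} {ψ : V n →L[ℝ] ℝ}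
    (h : ∀ w ∈ S.C, K.l (w - K.z) ≤ 1 → |ψ (w - K.z)| ≤ M) : K.Good n M (S.af ψ K.z) :=
  ⟨S.contDiffOn_af ψ K.z, fun _ hx => K.q_Lap_af hc hx ψ, fun _ hx => h _ (S.X_mem hx.1) hx.2⟩

theorem Cap.good_N {S : Sol n} {c : ℝ} (K : Cap S c) (hc : 0 < c) {v : V n}
    (h : ∀ x ∈ S.Ω, |K.N v x| ≤ c⁻¹) : K.Good (-2) c⁻¹ (K.N v) :=
  ⟨K.contDiffOn_N hc v, fun _ hx => K.q_Lap_N hc hx v, fun x hx => h x hx.1⟩

theorem cacc_LQ (n : ℕ) (hn : 1 ≤ n) {c r : ℝ} (hc : 0 < c) (hr : r < 1) :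
    ∃ A, ∀ (S : Sol n) (K : Cap S c),
      ∫ x in K.sec r, S.mu K.z x * (S.q K.z x * S.G K.LQ K.LQ x) ≤ A := by
  obtain ⟨A, hA⟩ := cacc_base n hn hc hr
  exact ⟨A, fun S K => (hA S K).2⟩

theorem cacc_af (n : ℕ) (hn : 1 ≤ n) {c r : ℝ} (hc : 0 < c) (hr : r < 1) (M : ℝ) (hM : 0 < M) :
    ∃ A, ∀ (S : Sol n) (K : Cap S c) (ψ : V n →L[ℝ] ℝ),
      (∀ w ∈ S.C, K.l (w - K.z) ≤ 1 → |ψ (w - K.z)| ≤ M) →
      ∫ x in K.sec r, S.mu K.z x * (S.q K.z x * S.G (S.af ψ K.z) (S.af ψ K.z) x) ≤ A := by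
  have _ := hM
  obtain ⟨A, hA⟩ := cacc_gen n hn hc hr n M
  exact ⟨A, fun S K ψ h => hA S K _ (K.good_af hc h)⟩

theorem cacc_N (n : ℕ) (hn : 1 ≤ n) {c r : ℝ} (hc : 0 < c) (hr : r < 1) :
    ∃ A, ∀ (S : Sol n) (K : Cap S c) (v : V n), |K.l v| ≤ 3 → (∀ x ∈ S.Ω, |K.N v x| ≤ c⁻¹) →
      ∫ x in K.sec r, S.mu K.z x * (S.q K.z x * S.G (K.N v) (K.N v) x) ≤ A := by
  obtain ⟨A, hA⟩ := cacc_gen n hn hc hr (-2) c⁻¹
  exact ⟨A, fun S K v _ h => hA S K _ (K.good_N hc h)⟩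

theorem slab_af (n : ℕ) (hn : 1 ≤ n) {c r : ℝ} (hc : 0 < c) (hr : r < 1) (M : ℝ) (hM : 0 < M) :
    ∃ A, ∀ (S : Sol n) (K : Cap S c) (ψ : V n →L[ℝ] ℝ),
      (∀ w ∈ S.C, K.l (w - K.z) ≤ 1 → |ψ (w - K.z)| ≤ M) →
      ∀ (t₀ τ : ℝ), 0 < τ →
      ∫ x in K.sec r ∩ {x | |S.af ψ K.z x - t₀| ≤ τ},
        S.mu K.z x * (S.q K.z x * S.G (S.af ψ K.z) (S.af ψ K.z) x) ≤ A * τ := by
  obtain ⟨A, hA⟩ := slab_gen n hn hc hr n M hM.le
  exact ⟨A, fun S K ψ h => hA S K _ (K.good_af hc h)⟩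

theorem slab_N (n : ℕ) (hn : 1 ≤ n) {c r : ℝ} (hc : 0 < c) (hr : r < 1) :
    ∃ A, ∀ (S : Sol n) (K : Cap S c) (v : V n), |K.l v| ≤ 3 → (∀ x ∈ S.Ω, |K.N v x| ≤ c⁻¹) →
      ∀ τ : ℝ, 0 < τ →
      ∫ x in K.sec r ∩ {x | |K.N v x| ≤ τ},
        S.mu K.z x * (S.q K.z x * S.G (K.N v) (K.N v) x) ≤ A * τ := by
  obtain ⟨A, hA⟩ := slab_gen n hn hc hr (-2) c⁻¹ (inv_pos.2 hc).le
  refine ⟨A, fun S K v _ h τ hτ => ?_⟩
  have := hA S K _ (K.good_N hc h) 0 τ hτ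
  simp only [sub_zero] at this
  exact this

end Crest.Agent.R236
end
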