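import Crest.Agent.R236.Basic

/-!
# Pointwise calculus for `hessianMat`, `B`, `G0`, `L0`, `G`, `Lap`; maximum principle; regularity

Recipes.  `hessianMat f x i j = fderiv (fun y => fderiv f y (ee j)) x (ee i)`.  For `ContDiffAt ℝ 2 f x`,
`f` is differentiable in a neighbourhood (`ContDiffAt.eventually`, `.differentiableAt`) and
`y ↦ fderiv f y` is `ContDiffAt ℝ 1` (`ContDiffAt.fderiv_right`); rewrite the inner derivative with
`Filter.EventuallyEq.fderiv_eq` and use `fderiv_add/mul/comp`.  Symmetry: `ContDiffAt.isSymmSndFDerivAt`.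
NSD Hessian at a local max: restrict to the line `t ↦ x + t v` (second derivative test: if `g''(0) > 0`,
`g'(0) = 0` then `g` is not locally maximal; e.g. `isLocalMin_of_deriv_deriv_pos` or mean value theorem).
`L0 ≤ 0`: `Hi` is PosDef (`Matrix.PosDef.inv`), write `Hi = Σ_k λ_k v_k v_kᵀ` or `Hi = Bᵀ B`
(`Matrix.PosSemidef` square root / `posSemidef_iff_eq_conjTranspose_mul_self`) so the sum is `Σ_k Hess(b_k,b_k)`.
-/

set_option autoImplicit false
open scoped ContDiff Topology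
open Crest.GeometryTopology.CoordMetric Crest.GeometryTopology.AffineMaximal
open MeasureTheory Set

noncomputable section
namespace Crest.Agent.R236

variable {n : ℕ}

/-! ### cut-offs -/
theorem pc_nonneg (m : ℕ) (t : ℝ) : 0 ≤ pc m t := pow_nonneg (le_max_right _ _) _
theorem pc_of_nonpos {m : ℕ} (hm : m ≠ 0) {t : ℝ} (ht : t ≤ 0) : pc m t = 0 := by
  simp [pc, max_eq_right ht, hm]
theorem pc_of_nonneg (m : ℕ) {t : ℝ} (ht : 0 ≤ t) : pc m t = t ^ m := by
  simp [pc, max_eq_left ht]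
theorem hasDerivAt_pc (m : ℕ) (t : ℝ) :
    HasDerivAt (pc (m + 2)) (((m : ℝ) + 2) * pc (m + 1) t) t := by
  rcases lt_trichotomy t 0 with h | h | h
  · have e : pc (m + 2) =ᶠ[𝓝 t] fun _ => (0 : ℝ) := by
      filter_upwards [Iio_mem_nhds h] with s hs
      exact pc_of_nonpos (by omega) (le_of_lt hs)
    rw [pc_of_nonpos (by omega) h.le, mul_zero]
    exact (hasDerivAt_const t (0 : ℝ)).congr_of_eventuallyEq e
  · subst h
    rw [pc_of_nonpos (by omega) le_rfl, mul_zero, hasDerivAt_iff_isLittleO_nhds_zero]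
    simp only [zero_add, smul_zero, sub_zero, pc_of_nonpos (show m + 2 ≠ 0 by omega) le_rfl]
    refine Asymptotics.IsBigO.trans_isLittleO (g := fun s : ℝ => s ^ (m + 2)) ?_
      (Asymptotics.isLittleO_pow_id (by omega))
    refine Asymptotics.IsBigO.of_bound 1 (Filter.Eventually.of_forall fun s => ?_)
    rw [one_mul, Real.norm_eq_abs, Real.norm_eq_abs, abs_of_nonneg (pc_nonneg _ _), abs_pow, pc]
    exact pow_le_pow_left₀ (le_max_right _ _) (max_le (le_abs_self s) (abs_nonneg s)) _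
  · have e : pc (m + 2) =ᶠ[𝓝 t] fun s => s ^ (m + 2) := by
      filter_upwards [Ioi_mem_nhds h] with s hs
      exact pc_of_nonneg _ (le_of_lt hs)
    rw [pc_of_nonneg _ h.le]
    refine ((hasDerivAt_pow (m + 2) t).congr_of_eventuallyEq e).congr_deriv ?_
    push_cast
    rfl
theorem continuous_pc (m : ℕ) : Continuous (pc m) := by
  unfold pc
  fun_prop
theorem deriv_pc (m : ℕ) : deriv (pc (m + 2)) = fun t => ((m : ℝ) + 2) * pc (m + 1) t :=
  funext fun t => (hasDerivAt_pc m t).deriv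
theorem contDiff_one_pc (m : ℕ) : ContDiff ℝ 1 (pc (m + 2)) := by
  rw [contDiff_one_iff_deriv]
  refine ⟨fun t => (hasDerivAt_pc m t).differentiableAt, ?_⟩
  rw [deriv_pc]
  exact continuous_const.mul (continuous_pc _)
theorem contDiff_two_pc (m : ℕ) : ContDiff ℝ 2 (pc (m + 3)) := by
  rw [show (2 : WithTop ℕ∞) = 1 + 1 from rfl, contDiff_succ_iff_deriv]
  refine ⟨fun t => (hasDerivAt_pc (m + 1) t).differentiableAt, by simp, ?_⟩
  rw [show m + 3 = (m + 1) + 2 from rfl, deriv_pc]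
  exact contDiff_const.mul (contDiff_one_pc m)

/-! ### Hessian rules -/
section hess
variable {f g : E n → ℝ} {x : E n}

theorem pderiv_eq (i : Fin n) (f : E n → ℝ) (x : E n) : pderiv i f x = fderiv ℝ f x (ee i) := rfl
theorem hess_apply (f : E n → ℝ) (x : E n) (i j : Fin n) :
    hessianMat f x i j = fderiv ℝ (fun y => fderiv ℝ f y (ee j)) x (ee i) := rfl
theorem calc_dfderiv (hf : ContDiffAt ℝ 2 f x) : DifferentiableAt ℝ (fderiv ℝ f) x :=
  (hf.fderiv_right (m := 1) (by norm_num)).differentiableAt one_ne_zero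
theorem calc_ev_diff (hf : ContDiffAt ℝ 2 f x) : ∀ᶠ y in 𝓝 x, DifferentiableAt ℝ f y :=
  (hf.eventually (by simp)).mono fun _ hy => hy.differentiableAt two_ne_zero
theorem calc_hasFDerivAt_apply (hf : ContDiffAt ℝ 2 f x) (w : E n) :
    HasFDerivAt (fun y => fderiv ℝ f y w) ((fderiv ℝ (fderiv ℝ f) x).flip w) x := by
  simpa using (calc_dfderiv hf).hasFDerivAt.clm_apply (hasFDerivAt_const w x)
theorem calc_diff_apply (hf : ContDiffAt ℝ 2 f x) (w : E n) :
    DifferentiableAt ℝ (fun y => fderiv ℝ f y w) x := (calc_hasFDerivAt_apply hf w).differentiableAt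
theorem calc_fderiv_apply (hf : ContDiffAt ℝ 2 f x) (v w : E n) :
    fderiv ℝ (fun y => fderiv ℝ f y w) x v = fderiv ℝ (fderiv ℝ f) x v w := by
  rw [(calc_hasFDerivAt_apply hf w).fderiv]
  rfl
theorem hess_eq_fderiv2 (hf : ContDiffAt ℝ 2 f x) (i j : Fin n) :
    hessianMat f x i j = fderiv ℝ (fderiv ℝ f) x (ee i) (ee j) := calc_fderiv_apply hf _ _
theorem calc_sum_ee (v : E n) : ∑ i, v i • ee i = v := by
  ext j
  simp [Finset.sum_apply, Pi.single_apply]
theorem calc_clm_eq_sum {W : Type*} [NormedAddCommGroup W] [NormedSpace ℝ W] (φ : E n →L[ℝ] W)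
    (v : E n) : φ v = ∑ i, v i • φ (ee i) := by
  conv_lhs => rw [← calc_sum_ee v]
  simp [map_sum]
theorem hess_congr (h : f =ᶠ[𝓝 x] g) : hessianMat f x = hessianMat g x := by
  ext i j
  rw [hess_apply, hess_apply]
  have : (fun y => fderiv ℝ f y (ee j)) =ᶠ[𝓝 x] fun y => fderiv ℝ g y (ee j) := by
    filter_upwards [h.fderiv (𝕜 := ℝ)] with y hy
    rw [hy]
  rw [this.fderiv_eq]
theorem hess_symm (hf : ContDiffAt ℝ 2 f x) (i j : Fin n) :
    hessianMat f x i j = hessianMat f x j i := by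
  rw [hess_eq_fderiv2 hf, hess_eq_fderiv2 hf]
  exact hf.isSymmSndFDerivAt (by simp) _ _
theorem hess_const (c : ℝ) : hessianMat (fun _ : E n => c) x = 0 := by
  ext i j
  simp [hess_apply]
theorem hess_clm (φ : E n →L[ℝ] ℝ) : hessianMat (fun y => φ y) x = 0 := by
  ext i j
  have : (fun y : E n => fderiv ℝ (fun y => φ y) y (ee j)) = fun _ => φ (ee j) := by
    funext y
    rw [show (fun y => φ y) = ⇑φ from rfl, φ.fderiv]
  rw [hess_apply, this]
  simp
theorem hess_add (hf : ContDiffAt ℝ 2 f x) (hg : ContDiffAt ℝ 2 g x) :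
    hessianMat (fun y => f y + g y) x = hessianMat f x + hessianMat g x := by
  ext i j
  have : (fun y => fderiv ℝ (fun y => f y + g y) y (ee j)) =ᶠ[𝓝 x]
      fun y => fderiv ℝ f y (ee j) + fderiv ℝ g y (ee j) := by
    filter_upwards [calc_ev_diff hf, calc_ev_diff hg] with y h1 h2
    rw [fderiv_fun_add h1 h2]
    rfl
  rw [hess_apply, this.fderiv_eq, fderiv_fun_add (calc_diff_apply hf _) (calc_diff_apply hg _)]
  rfl
theorem hess_const_mul (c : ℝ) (hf : ContDiffAt ℝ 2 f x) :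
    hessianMat (fun y => c * f y) x = c • hessianMat f x := by
  ext i j
  have : (fun y => fderiv ℝ (fun y => c * f y) y (ee j)) =ᶠ[𝓝 x]
      fun y => c * fderiv ℝ f y (ee j) := by
    filter_upwards [calc_ev_diff hf] with y h1
    rw [fderiv_const_mul h1]
    rfl
  rw [hess_apply, this.fderiv_eq, fderiv_const_mul (calc_diff_apply hf _)]
  rfl
theorem hess_mul (hf : ContDiffAt ℝ 2 f x) (hg : ContDiffAt ℝ 2 g x) (i j : Fin n) :
    hessianMat (fun y => f y * g y) x i j = f x * hessianMat g x i j + g x * hessianMat f x i j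
      + fderiv ℝ f x (ee i) * fderiv ℝ g x (ee j) + fderiv ℝ g x (ee i) * fderiv ℝ f x (ee j) := by
  have : (fun y => fderiv ℝ (fun y => f y * g y) y (ee j)) =ᶠ[𝓝 x]
      fun y => f y * fderiv ℝ g y (ee j) + g y * fderiv ℝ f y (ee j) := by
    filter_upwards [calc_ev_diff hf, calc_ev_diff hg] with y h1 h2
    rw [fderiv_fun_mul h1 h2]
    rfl
  have d1 := hf.differentiableAt two_ne_zero
  have d2 := hg.differentiableAt two_ne_zero
  have e1 := calc_diff_apply hf (ee j)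
  have e2 := calc_diff_apply hg (ee j)
  rw [hess_apply, this.fderiv_eq, fderiv_fun_add (d1.fun_mul e2) (d2.fun_mul e1), fderiv_fun_mul d1 e2,
    fderiv_fun_mul d2 e1, hess_apply, hess_apply]
  simp only [add_apply, smul_apply, smul_eq_mul]
  ring
theorem hess_comp {φ : ℝ → ℝ} (hφ : ContDiffAt ℝ 2 φ (f x)) (hf : ContDiffAt ℝ 2 f x) (i j : Fin n) :
    hessianMat (fun y => φ (f y)) x i j = deriv φ (f x) * hessianMat f x i j
      + deriv (deriv φ) (f x) * (fderiv ℝ f x (ee i) * fderiv ℝ f x (ee j)) := by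
  have hφ1 : ∀ᶠ t in 𝓝 (f x), DifferentiableAt ℝ φ t :=
    (hφ.eventually (by simp)).mono fun _ hy => hy.differentiableAt two_ne_zero
  have d1 := hf.differentiableAt two_ne_zero
  have : (fun y => fderiv ℝ (fun y => φ (f y)) y (ee j)) =ᶠ[𝓝 x]
      fun y => deriv φ (f y) * fderiv ℝ f y (ee j) := by
    filter_upwards [calc_ev_diff hf, d1.continuousAt.eventually hφ1] with y h1 h2
    have h4 : HasFDerivAt (fun y => φ (f y)) (deriv φ (f y) • fderiv ℝ f y) y :=
      h2.hasDerivAt.comp_hasFDerivAt y h1.hasFDerivAt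
    rw [h4.fderiv]
    rfl
  have hd : DifferentiableAt ℝ (deriv φ) (f x) := by
    have h1 : DifferentiableAt ℝ (fderiv ℝ φ) (f x) :=
      (hφ.fderiv_right (m := 1) (by norm_num)).differentiableAt one_ne_zero
    exact h1.clm_apply (differentiableAt_const (1 : ℝ))
  have h3 : HasFDerivAt (fun y => deriv φ (f y)) (deriv (deriv φ) (f x) • fderiv ℝ f x) x :=
    hd.hasDerivAt.comp_hasFDerivAt x d1.hasFDerivAt
  have e1 := calc_diff_apply hf (ee j)
  rw [hess_apply, this.fderiv_eq, fderiv_fun_mul h3.differentiableAt e1, h3.fderiv, hess_apply]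
  simp only [add_apply, smul_apply, smul_eq_mul]
  ring
/-- second directional derivative as a quadratic form in the Hessian -/
theorem fderiv_fderiv_eq (hf : ContDiffAt ℝ 2 f x) (v w : E n) :
    fderiv ℝ (fun y => fderiv ℝ f y w) x v = ∑ i, ∑ j, hessianMat f x i j * v i * w j := by
  rw [calc_fderiv_apply hf, calc_clm_eq_sum (fderiv ℝ (fderiv ℝ f) x) v,
    sum_apply]
  refine Finset.sum_congr rfl fun i _ => ?_
  rw [smul_apply, calc_clm_eq_sum _ w, smul_eq_mul, Finset.mul_sum]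
  refine Finset.sum_congr rfl fun j _ => ?_
  rw [hess_eq_fderiv2 hf, smul_eq_mul]
  ring
theorem hess_nonpos_of_isLocalMax (hf : ContDiffAt ℝ 2 f x) (hm : IsLocalMax f x) (v : E n) :
    ∑ i, ∑ j, hessianMat f x i j * v i * v j ≤ 0 := by
  rw [← fderiv_fderiv_eq hf]
  by_contra hpos
  push Not at hpos
  have hl : ∀ t : ℝ, HasDerivAt (fun t : ℝ => x + t • v) v t := fun t => by
    simpa using ((hasDerivAt_id t).smul_const v).const_add x
  have hc : Filter.Tendsto (fun t : ℝ => x + t • v) (𝓝 0) (𝓝 x) := by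
    simpa using (hl 0).continuousAt.tendsto
  set g : ℝ → ℝ := fun t => f (x + t • v) with hg
  have hgd : ∀ᶠ t in 𝓝 (0 : ℝ), HasDerivAt g (fderiv ℝ f (x + t • v) v) t := by
    filter_upwards [hc.eventually (calc_ev_diff hf)] with t ht
    exact ht.hasFDerivAt.comp_hasDerivAt t (hl t)
  have hg1 : deriv g =ᶠ[𝓝 0] fun t => fderiv ℝ f (x + t • v) v := hgd.mono fun t ht => ht.deriv
  have hg2 : HasDerivAt (fun t : ℝ => fderiv ℝ f (x + t • v) v)
      (fderiv ℝ (fun y => fderiv ℝ f y v) x v) 0 := by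
    have h0 : HasFDerivAt (fun y => fderiv ℝ f y v) (fderiv ℝ (fun y => fderiv ℝ f y v) x)
        (x + (0 : ℝ) • v) := by
      simpa using (calc_diff_apply hf v).hasFDerivAt
    exact h0.comp_hasDerivAt (0 : ℝ) (hl 0)
  have hdd : deriv (deriv g) 0 = fderiv ℝ (fun y => fderiv ℝ f y v) x v := by
    rw [hg1.deriv_eq, hg2.deriv]
  have hmax : IsLocalMax g 0 := by
    have : IsLocalMax f (x + (0 : ℝ) • v) := by simpa using hm
    exact this.comp_continuous (g := fun t : ℝ => x + t • v) (hl 0).continuousAt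
  have hmin : IsLocalMin g 0 :=
    isLocalMin_of_deriv_deriv_pos (hdd ▸ hpos) hmax.deriv_eq_zero
      hgd.self_of_nhds.continuousAt
  have hconst : g =ᶠ[𝓝 0] fun _ => g 0 := by
    filter_upwards [hmax, hmin] with t h1 h2
    exact le_antisymm h1 h2
  have : deriv (deriv g) 0 = 0 := by
    rw [hconst.deriv.deriv_eq]
    simp
  linarith
theorem contDiffOn_fderiv_apply {U : Set (E n)} (hU : IsOpen U) (hf : ContDiffOn ℝ ∞ f U) (v : E n) :
    ContDiffOn ℝ ∞ (fun y => fderiv ℝ f y v) U := (hf.fderiv_of_isOpen hU (m := ∞) le_rfl).clm_apply contDiffOn_const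
theorem contDiffOn_hess {U : Set (E n)} (hU : IsOpen U) (hf : ContDiffOn ℝ ∞ f U) (i j : Fin n) :
    ContDiffOn ℝ ∞ (fun y => hessianMat f y i j) U := contDiffOn_fderiv_apply hU (contDiffOn_fderiv_apply hU hf (ee j)) (ee i)
theorem continuousOn_hess {U : Set (E n)} (hU : IsOpen U) (hf : ContDiffOn ℝ 2 f U) (i j : Fin n) :
    ContinuousOn (fun y => hessianMat f y i j) U := by
  have h1 : ContDiffOn ℝ 1 (fun y => fderiv ℝ f y (ee j)) U :=
    (hf.fderiv_of_isOpen hU (m := 1) (by norm_num)).clm_apply contDiffOn_const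
  exact (h1.continuousOn_fderiv_of_isOpen hU le_rfl).clm_apply continuousOn_const
end hess

namespace Sol
variable (S : Sol n) {x : E n}

theorem u_at (hx : x ∈ S.Ω) : ContDiffAt ℝ ∞ S.u x := S.smooth.contDiffAt (S.isOpen.mem_nhds hx)
theorem u_at_two (hx : x ∈ S.Ω) : ContDiffAt ℝ 2 S.u x :=
  contDiffAt_infty.1 (S.u_at hx) 2
theorem H_posDef (hx : x ∈ S.Ω) : (S.H x).PosDef := S.pos x hx
theorem Hi_posDef (hx : x ∈ S.Ω) : (S.Hi x).PosDef := (S.H_posDef hx).inv
theorem det_pos (hx : x ∈ S.Ω) : 0 < (S.H x).det := (S.H_posDef hx).det_pos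
theorem rho_pos (hx : x ∈ S.Ω) : 0 < S.rho x := Real.rpow_pos_of_pos (S.det_pos hx) _
theorem det_eq_rho (hx : x ∈ S.Ω) : (S.H x).det = (S.rho x ^ (n + 2))⁻¹ := by
  have h := S.det_pos hx
  have hn : (n : ℝ) + 2 ≠ 0 := by positivity
  rw [rho, ← Real.rpow_natCast, ← Real.rpow_mul h.le]
  have : -(1 : ℝ) / ((n : ℝ) + 2) * ((n + 2 : ℕ) : ℝ) = -1 := by
    push_cast
    field_simp
  rw [this, Real.rpow_neg_one, inv_inv]
theorem Hi_symm (hx : x ∈ S.Ω) (i j : Fin n) : S.Hi x i j = S.Hi x j i := by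
  have := (S.Hi_posDef hx).1.apply j i
  simpa using this

/-! regularity on `Ω` -/
theorem contDiffOn_H (i j : Fin n) : ContDiffOn ℝ ∞ (fun y => S.H y i j) S.Ω := contDiffOn_hess S.isOpen S.smooth i j
theorem calc_contDiffOn_det {U : Set (E n)} {M : E n → Matrix (Fin n) (Fin n) ℝ}
    (h : ∀ i j, ContDiffOn ℝ ∞ (fun y => M y i j) U) : ContDiffOn ℝ ∞ (fun y => (M y).det) U := by
  simp only [Matrix.det_apply']
  exact ContDiffOn.sum fun σ _ => contDiffOn_const.mul (contDiffOn_prod fun i _ => h _ _)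
theorem contDiffOn_det : ContDiffOn ℝ ∞ (fun y => (S.H y).det) S.Ω := calc_contDiffOn_det S.contDiffOn_H
theorem contDiffOn_Hi (i j : Fin n) : ContDiffOn ℝ ∞ (fun y => S.Hi y i j) S.Ω := by
  have h1 : ContDiffOn ℝ ∞ (fun y => ((S.H y).updateRow j (Pi.single i 1)).det) S.Ω := by
    refine calc_contDiffOn_det fun a b => ?_
    simp only [Matrix.updateRow_apply]
    split_ifs
    · exact contDiffOn_const
    · exact S.contDiffOn_H a b
  refine ((S.contDiffOn_det.inv fun y hy => (S.det_pos hy).ne').mul h1).congr fun y _ => ?_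
  rw [Hi, Matrix.inv_def, Matrix.smul_apply, Matrix.adjugate_apply, Ring.inverse_eq_inv',
    smul_eq_mul]
  rfl
theorem contDiffOn_rho : ContDiffOn ℝ ∞ S.rho S.Ω := S.contDiffOn_det.rpow_const_of_ne fun _ hy => (S.det_pos hy).ne' 
theorem contDiffOn_lr : ContDiffOn ℝ ∞ S.lr S.Ω := S.contDiffOn_rho.log fun _ hy => (S.rho_pos hy).ne' 
theorem contDiffOn_nb (v : V n) : ContDiffOn ℝ ∞ (fun y => S.nb y v) S.Ω := contDiffOn_const.sub (contDiffOn_fderiv_apply S.isOpen S.smooth v.1)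
theorem contDiffOn_tp (w : V n) : ContDiffOn ℝ ∞ (fun y => S.tp y w) S.Ω := by
  have h1 : ContDiffOn ℝ ∞ (fun y => (w.2 - S.u y) - fderiv ℝ S.u y (w.1 - y)) S.Ω :=
    (contDiffOn_const.sub S.smooth).sub
      ((S.smooth.fderiv_of_isOpen S.isOpen (m := ∞) le_rfl).clm_apply
        (contDiffOn_const.sub contDiffOn_id))
  exact h1
theorem contDiffOn_nu (v : V n) : ContDiffOn ℝ ∞ (S.nu v) S.Ω := S.contDiffOn_rho.mul (S.contDiffOn_nb v)
theorem contDiffOn_q (z : V n) : ContDiffOn ℝ ∞ (S.q z) S.Ω := S.contDiffOn_rho.mul (S.contDiffOn_tp z)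
theorem contDiffOn_af (φ : V n →L[ℝ] ℝ) (o : V n) : ContDiffOn ℝ ∞ (S.af φ o) S.Ω := φ.contDiff.comp_contDiffOn ((contDiffOn_id.prodMk S.smooth).sub contDiffOn_const)
theorem contDiffOn_G0 {f g : E n → ℝ} (hf : ContDiffOn ℝ ∞ f S.Ω) (hg : ContDiffOn ℝ ∞ g S.Ω) :
    ContDiffOn ℝ ∞ (S.G0 f g) S.Ω := by
  unfold G0 B
  exact ContDiffOn.sum fun i _ => ContDiffOn.sum fun j _ =>
    ((S.contDiffOn_Hi i j).mul (contDiffOn_fderiv_apply S.isOpen hf (ee i))).mul
      (contDiffOn_fderiv_apply S.isOpen hg (ee j))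
theorem contDiffOn_xi (φ : V n →L[ℝ] ℝ) : ContDiffOn ℝ ∞ (S.xi φ) S.Ω := by
  have hr : ∀ y ∈ S.Ω, S.rho y ≠ 0 := fun _ hy => (S.rho_pos hy).ne'
  exact ((S.contDiffOn_rho.inv hr).mul
    (S.contDiffOn_G0 S.contDiffOn_lr (S.contDiffOn_af φ 0))).add
      (contDiffOn_const.div S.contDiffOn_rho hr)

section cont
variable {U : Set (E n)} {f g : E n → ℝ}
theorem continuousOn_G0 (hU : IsOpen U) (hUΩ : U ⊆ S.Ω) (hf : ContDiffOn ℝ 1 f U)
    (hg : ContDiffOn ℝ 1 g U) : ContinuousOn (S.G0 f g) U := by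
  unfold G0 B
  exact continuousOn_finsetSum _ fun i _ => continuousOn_finsetSum _ fun j _ =>
    (((S.contDiffOn_Hi i j).continuousOn.mono hUΩ).mul
      ((hf.continuousOn_fderiv_of_isOpen hU le_rfl).clm_apply continuousOn_const)).mul
      ((hg.continuousOn_fderiv_of_isOpen hU le_rfl).clm_apply continuousOn_const)
theorem continuousOn_G (hU : IsOpen U) (hUΩ : U ⊆ S.Ω) (hf : ContDiffOn ℝ 1 f U)
    (hg : ContDiffOn ℝ 1 g U) : ContinuousOn (S.G f g) U := ((S.contDiffOn_rho.continuousOn.mono hUΩ).inv₀ fun _ hy => (S.rho_pos (hUΩ hy)).ne').mul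
    (S.continuousOn_G0 hU hUΩ hf hg)
theorem continuousOn_L0 (hU : IsOpen U) (hUΩ : U ⊆ S.Ω) (hf : ContDiffOn ℝ 2 f U) :
    ContinuousOn (S.L0 f) U := continuousOn_finsetSum _ fun i _ => continuousOn_finsetSum _ fun j _ =>
    ((S.contDiffOn_Hi i j).continuousOn.mono hUΩ).mul (continuousOn_hess hU hf i j)
theorem continuousOn_Lap (hU : IsOpen U) (hUΩ : U ⊆ S.Ω) (hf : ContDiffOn ℝ 2 f U) :
    ContinuousOn (S.Lap f) U := ((S.contDiffOn_rho.continuousOn.mono hUΩ).inv₀ fun _ hy => (S.rho_pos (hUΩ hy)).ne').mul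
    ((S.continuousOn_L0 hU hUΩ hf).add (continuousOn_const.mul
      (S.continuousOn_G0 hU hUΩ ((S.contDiffOn_lr.mono hUΩ).of_le (by simp))
        (hf.of_le (by norm_num)))))
end cont

/-! the bilinear form `B` -/
section B
variable (α β γ : E n →L[ℝ] ℝ)
theorem B_comm (hx : x ∈ S.Ω) : S.B x α β = S.B x β α := by
  rw [B, B, Finset.sum_comm]
  refine Finset.sum_congr rfl fun i _ => Finset.sum_congr rfl fun j _ => ?_
  rw [S.Hi_symm hx j i]
  ring
@[simp] theorem B_add_left : S.B x (α + β) γ = S.B x α γ + S.B x β γ := by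
  simp only [B, add_apply, mul_add, add_mul, Finset.sum_add_distrib]
@[simp] theorem B_add_right : S.B x α (β + γ) = S.B x α β + S.B x α γ := by
  simp only [B, add_apply, mul_add, Finset.sum_add_distrib]
@[simp] theorem B_smul_left (c : ℝ) : S.B x (c • α) β = c * S.B x α β := by
  simp only [B, smul_apply, smul_eq_mul, Finset.mul_sum]
  refine Finset.sum_congr rfl fun i _ => Finset.sum_congr rfl fun j _ => ?_
  ring
@[simp] theorem B_smul_right (c : ℝ) : S.B x α (c • β) = c * S.B x α β := by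
  simp only [B, smul_apply, smul_eq_mul, Finset.mul_sum]
  refine Finset.sum_congr rfl fun i _ => Finset.sum_congr rfl fun j _ => ?_
  ring
@[simp] theorem B_neg_left : S.B x (-α) β = -S.B x α β := by
  rw [← neg_one_smul ℝ α, B_smul_left]
  ring
@[simp] theorem B_neg_right : S.B x α (-β) = -S.B x α β := by
  rw [← neg_one_smul ℝ β, B_smul_right]
  ring
@[simp] theorem B_sub_left : S.B x (α - β) γ = S.B x α γ - S.B x β γ := by
  rw [sub_eq_add_neg, B_add_left, B_neg_left]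
  ring
@[simp] theorem B_sub_right : S.B x α (β - γ) = S.B x α β - S.B x α γ := by
  rw [sub_eq_add_neg, B_add_right, B_neg_right]
  ring
@[simp] theorem B_zero_left : S.B x 0 β = 0 := by
  simp [B]
@[simp] theorem B_zero_right : S.B x α 0 = 0 := by
  simp [B]
theorem B_sum_left {ι : Type*} (s : Finset ι) (a : ι → E n →L[ℝ] ℝ) :
    S.B x (∑ i ∈ s, a i) β = ∑ i ∈ s, S.B x (a i) β := by
  classical
  induction s using Finset.induction_on with
  | empty => simp
  | insert i s hi ih => rw [Finset.sum_insert hi, Finset.sum_insert hi, B_add_left, ih]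
theorem B_sum_right {ι : Type*} (s : Finset ι) (a : ι → E n →L[ℝ] ℝ) :
    S.B x α (∑ i ∈ s, a i) = ∑ i ∈ s, S.B x α (a i) := by
  classical
  induction s using Finset.induction_on with
  | empty => simp
  | insert i s hi ih => rw [Finset.sum_insert hi, Finset.sum_insert hi, B_add_right, ih]
theorem B_nonneg (hx : x ∈ S.Ω) : 0 ≤ S.B x α α := by
  have := (S.Hi_posDef hx).posSemidef.dotProduct_mulVec_nonneg (fun i => α (ee i))
  simp only [dotProduct, Matrix.mulVec, star_trivial, Finset.mul_sum] at this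
  refine this.trans_eq ?_
  refine Finset.sum_congr rfl fun i _ => Finset.sum_congr rfl fun j _ => ?_
  ring
theorem B_sq_le (hx : x ∈ S.Ω) : S.B x α β ^ 2 ≤ S.B x α α * S.B x β β := by
  have h : ∀ t : ℝ, 0 ≤ S.B x β β * (t * t) + (2 * S.B x α β) * t + S.B x α α := fun t => by
    have := S.B_nonneg (α + t • β) hx
    simp only [B_add_left, B_add_right, B_smul_left, B_smul_right] at this
    rw [S.B_comm β α hx] at this
    linarith
  have := discrim_le_zero h
  rw [discrim] at this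
  linarith
/-- pairing with the differential of `∂_v u` evaluates at `v` -/
theorem B_du (hx : x ∈ S.Ω) (v : E n) :
    S.B x (fderiv ℝ (fun y => fderiv ℝ S.u y v) x) β = β v := by
  have h2 : ContDiffAt ℝ 2 S.u x := S.u_at_two hx
  have hv : ∀ i, fderiv ℝ (fun y => fderiv ℝ S.u y v) x (ee i) = ∑ k, S.H x i k * v k := fun i => by
    rw [calc_fderiv_apply h2, calc_clm_eq_sum _ v]
    refine Finset.sum_congr rfl fun k _ => ?_
    rw [H, hess_eq_fderiv2 h2, smul_eq_mul, mul_comm]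
  have hinv : S.Hi x * S.H x = 1 :=
    Matrix.nonsing_inv_mul _ (isUnit_iff_ne_zero.2 (S.det_pos hx).ne')
  rw [B, Finset.sum_comm, calc_clm_eq_sum β v]
  refine Finset.sum_congr rfl fun j _ => ?_
  rw [← Finset.sum_mul, smul_eq_mul]
  congr 1
  simp only [hv, Finset.mul_sum]
  rw [Finset.sum_comm]
  have : ∀ k, ∑ i, S.Hi x i j * (S.H x i k * v k) = (1 : Matrix (Fin n) (Fin n) ℝ) j k * v k :=
    fun k => by
      rw [← hinv, Matrix.mul_apply, Finset.sum_mul]
      refine Finset.sum_congr rfl fun i _ => ?_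
      rw [S.Hi_symm hx i j]
      ring
  simp [this, Matrix.one_apply]
/-- `β(v)² ≤ B(β,β) · H(v,v)` -/
theorem apply_sq_le (hx : x ∈ S.Ω) (v : E n) :
    β v ^ 2 ≤ S.B x β β * ∑ i, ∑ j, S.H x i j * v i * v j := by
  have h2 : ContDiffAt ℝ 2 S.u x := S.u_at_two hx
  have h := S.B_sq_le (fderiv ℝ (fun y => fderiv ℝ S.u y v) x) β hx
  rw [S.B_du β hx, S.B_du _ hx, fderiv_fderiv_eq h2] at h
  rw [mul_comm]
  exact h
end B

/-! rules for `L0`, `G`, `Lap` -/
section rules
variable {f g h : E n → ℝ}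
theorem L0_congr (e : f =ᶠ[𝓝 x] g) : S.L0 f x = S.L0 g x := by
  rw [L0, L0, hess_congr e]
theorem L0_const (c : ℝ) : S.L0 (fun _ => c) x = 0 := by
  simp [L0, hess_const]
theorem L0_clm (φ : E n →L[ℝ] ℝ) : S.L0 (fun y => φ y) x = 0 := by
  simp [L0, hess_clm]
theorem L0_u (hx : x ∈ S.Ω) : S.L0 S.u x = n := by
  have hinv : S.Hi x * S.H x = 1 :=
    Matrix.nonsing_inv_mul _ (isUnit_iff_ne_zero.2 (S.det_pos hx).ne')
  have h2 : ContDiffAt ℝ 2 S.u x := S.u_at_two hx
  have : ∀ i, ∑ j, S.Hi x i j * hessianMat S.u x i j = 1 := fun i => by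
    have := congrFun (congrFun hinv i) i
    rw [Matrix.mul_apply, Matrix.one_apply_eq] at this
    rw [← this]
    refine Finset.sum_congr rfl fun j _ => ?_
    rw [hess_symm h2 i j, H]
  simp [L0, this]
theorem L0_add (hf : ContDiffAt ℝ 2 f x) (hg : ContDiffAt ℝ 2 g x) :
    S.L0 (fun y => f y + g y) x = S.L0 f x + S.L0 g x := by
  simp only [L0, hess_add hf hg, Matrix.add_apply, mul_add, Finset.sum_add_distrib]
theorem L0_sub (hf : ContDiffAt ℝ 2 f x) (hg : ContDiffAt ℝ 2 g x) :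
    S.L0 (fun y => f y - g y) x = S.L0 f x - S.L0 g x := by
  have hg' : ContDiffAt ℝ 2 (fun y => (-1 : ℝ) * g y) x := contDiffAt_const.mul hg
  have e : (fun y => f y - g y) = fun y => f y + (-1 : ℝ) * g y := by
    funext y
    ring
  rw [e]
  simp only [L0, hess_add hf hg', hess_const_mul (-1) hg, Matrix.add_apply, Matrix.smul_apply,
    smul_eq_mul, ← Finset.sum_sub_distrib]
  refine Finset.sum_congr rfl fun i _ => Finset.sum_congr rfl fun j _ => ?_
  ring
theorem L0_const_mul (c : ℝ) (hf : ContDiffAt ℝ 2 f x) :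
    S.L0 (fun y => c * f y) x = c * S.L0 f x := by
  simp only [L0, hess_const_mul c hf, Matrix.smul_apply, smul_eq_mul, Finset.mul_sum]
  refine Finset.sum_congr rfl fun i _ => Finset.sum_congr rfl fun j _ => ?_
  ring
theorem L0_sum {ι : Type*} (s : Finset ι) {F : ι → E n → ℝ} (hF : ∀ i ∈ s, ContDiffAt ℝ 2 (F i) x) :
    S.L0 (fun y => ∑ i ∈ s, F i y) x = ∑ i ∈ s, S.L0 (F i) x := by
  classical
  induction s using Finset.induction_on with
  | empty => simpa using S.L0_const 0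
  | insert i s hi ih =>
    have h1 := hF i (Finset.mem_insert_self _ _)
    have h2 : ∀ k ∈ s, ContDiffAt ℝ 2 (F k) x := fun k hk => hF k (Finset.mem_insert_of_mem hk)
    simp only [Finset.sum_insert hi]
    rw [S.L0_add h1 (ContDiffAt.sum h2), ih h2]
theorem L0_mul (hx : x ∈ S.Ω) (hf : ContDiffAt ℝ 2 f x) (hg : ContDiffAt ℝ 2 g x) :
    S.L0 (fun y => f y * g y) x = f x * S.L0 g x + g x * S.L0 f x + 2 * S.G0 f g x := by
  have hc : S.G0 g f x = S.G0 f g x := S.B_comm _ _ hx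
  rw [two_mul]
  nth_rewrite 2 [← hc]
  simp only [L0, G0, B, hess_mul hf hg, Finset.mul_sum, ← Finset.sum_add_distrib]
  refine Finset.sum_congr rfl fun i _ => Finset.sum_congr rfl fun j _ => ?_
  ring
theorem L0_comp {φ : ℝ → ℝ} (hφ : ContDiffAt ℝ 2 φ (f x)) (hf : ContDiffAt ℝ 2 f x) :
    S.L0 (fun y => φ (f y)) x
      = deriv φ (f x) * S.L0 f x + deriv (deriv φ) (f x) * S.G0 f f x := by
  simp only [L0, G0, B, hess_comp hφ hf, Finset.mul_sum, ← Finset.sum_add_distrib]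
  refine Finset.sum_congr rfl fun i _ => Finset.sum_congr rfl fun j _ => ?_
  ring
theorem L0_log (hf : ContDiffAt ℝ 2 f x) (h0 : 0 < f x) :
    S.L0 (fun y => Real.log (f y)) x = S.L0 f x / f x - S.G0 f f x / f x ^ 2 := by
  rw [S.L0_comp (Real.contDiffAt_log.2 h0.ne') hf, Real.deriv_log, Real.deriv_log', deriv_inv]
  ring
theorem L0_nonpos_of_isLocalMax (hx : x ∈ S.Ω) (hf : ContDiffAt ℝ 2 f x) (hm : IsLocalMax f x) :
    S.L0 f x ≤ 0 := by
  obtain ⟨m, v, hv⟩ := Matrix.posSemidef_iff_eq_sum_vecMulVec.1 (S.Hi_posDef hx).posSemidef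
  have e : S.L0 f x = ∑ k, ∑ i, ∑ j, hessianMat f x i j * v k i * v k j := by
    rw [L0, hv, Finset.sum_comm (s := Finset.univ (α := Fin m))]
    refine Finset.sum_congr rfl fun i _ => ?_
    rw [Finset.sum_comm]
    refine Finset.sum_congr rfl fun j _ => ?_
    rw [Matrix.sum_apply, Finset.sum_mul]
    refine Finset.sum_congr rfl fun k _ => ?_
    simp only [Matrix.vecMulVec_apply, star_trivial]
    ring
  rw [e]
  exact Finset.sum_nonpos fun k _ => hess_nonpos_of_isLocalMax hf hm (WithLp.toLp 2 (v k))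

theorem G_comm (hx : x ∈ S.Ω) : S.G f g x = S.G g f x := by
  rw [G, G, G0, G0, S.B_comm _ _ hx]
theorem G_nonneg (hx : x ∈ S.Ω) : 0 ≤ S.G f f x := mul_nonneg (inv_nonneg.2 (S.rho_pos hx).le) (S.B_nonneg _ hx)
theorem G_sq_le (hx : x ∈ S.Ω) : S.G f g x ^ 2 ≤ S.G f f x * S.G g g x := by
  have h := S.B_sq_le (fderiv ℝ f x) (fderiv ℝ g x) hx
  simp only [G, G0]
  have := mul_le_mul_of_nonneg_left h (sq_nonneg (S.rho x)⁻¹)
  linarith
theorem G_congr_left (e : f =ᶠ[𝓝 x] g) : S.G f h x = S.G g h x := by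
  rw [G, G, G0, G0, e.fderiv_eq]
theorem G_add_left (hf : DifferentiableAt ℝ f x) (hg : DifferentiableAt ℝ g x) :
    S.G (fun y => f y + g y) h x = S.G f h x + S.G g h x := by
  simp only [G, G0, fderiv_fun_add hf hg, B_add_left, mul_add]
theorem G_const_left (c : ℝ) : S.G (fun _ => c) h x = 0 := by
  simp [G, G0]
theorem G_mul_left (hf : DifferentiableAt ℝ f x) (hg : DifferentiableAt ℝ g x) :
    S.G (fun y => f y * g y) h x = f x * S.G g h x + g x * S.G f h x := by
  simp only [G, G0, fderiv_fun_mul hf hg, B_add_left, B_smul_left]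
  ring
theorem G_comp_left {φ : ℝ → ℝ} {φ' : ℝ} (hφ : HasDerivAt φ φ' (f x)) (hf : DifferentiableAt ℝ f x) :
    S.G (fun y => φ (f y)) h x = φ' * S.G f h x := by
  have : fderiv ℝ (fun y => φ (f y)) x = φ' • fderiv ℝ f x :=
    (hφ.comp_hasFDerivAt x hf.hasFDerivAt).fderiv
  simp only [G, G0, this, B_smul_left]
  ring
theorem G_sum_left {ι : Type*} (s : Finset ι) {F : ι → E n → ℝ}
    (hF : ∀ i ∈ s, DifferentiableAt ℝ (F i) x) :
    S.G (fun y => ∑ i ∈ s, F i y) h x = ∑ i ∈ s, S.G (F i) h x := by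
  simp only [G, G0, fderiv_fun_sum hF, B_sum_left, Finset.mul_sum]

theorem Lap_congr (e : f =ᶠ[𝓝 x] g) : S.Lap f x = S.Lap g x := by
  rw [Lap, Lap, S.L0_congr e, G0, G0, e.fderiv_eq]
theorem Lap_add (hf : ContDiffAt ℝ 2 f x) (hg : ContDiffAt ℝ 2 g x) :
    S.Lap (fun y => f y + g y) x = S.Lap f x + S.Lap g x := by
  simp only [Lap, S.L0_add hf hg, G0, fderiv_fun_add (hf.differentiableAt two_ne_zero)
    (hg.differentiableAt two_ne_zero), B_add_right]
  ring
theorem Lap_sum {ι : Type*} (s : Finset ι) {F : ι → E n → ℝ} (hF : ∀ i ∈ s, ContDiffAt ℝ 2 (F i) x) :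
    S.Lap (fun y => ∑ i ∈ s, F i y) x = ∑ i ∈ s, S.Lap (F i) x := by
  have hd : ∀ i ∈ s, DifferentiableAt ℝ (F i) x := fun i hi => (hF i hi).differentiableAt two_ne_zero
  simp only [Lap, S.L0_sum s hF, G0, fderiv_fun_sum hd, B_sum_right, Finset.mul_sum,
    ← Finset.sum_add_distrib]
theorem Lap_mul (hx : x ∈ S.Ω) (hf : ContDiffAt ℝ 2 f x) (hg : ContDiffAt ℝ 2 g x) :
    S.Lap (fun y => f y * g y) x = f x * S.Lap g x + g x * S.Lap f x + 2 * S.G f g x := by
  simp only [Lap, S.L0_mul hx hf hg, G, G0, fderiv_fun_mul (hf.differentiableAt two_ne_zero)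
    (hg.differentiableAt two_ne_zero), B_add_right, B_smul_right]
  ring
theorem Lap_comp {φ : ℝ → ℝ} (hφ : ContDiffAt ℝ 2 φ (f x)) (hf : ContDiffAt ℝ 2 f x) :
    S.Lap (fun y => φ (f y)) x
      = deriv φ (f x) * S.Lap f x + deriv (deriv φ) (f x) * S.G f f x := by
  have : fderiv ℝ (fun y => φ (f y)) x = deriv φ (f x) • fderiv ℝ f x :=
    ((hφ.differentiableAt two_ne_zero).hasDerivAt.comp_hasFDerivAt x
      (hf.differentiableAt two_ne_zero).hasFDerivAt).fderiv
  simp only [Lap, S.L0_comp hφ hf, G, G0, this, B_smul_right]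
  ring
theorem Lap_log (hf : ContDiffAt ℝ 2 f x) (h0 : 0 < f x) :
    S.Lap (fun y => Real.log (f y)) x = S.Lap f x / f x - S.G f f x / f x ^ 2 := by
  rw [S.Lap_comp (Real.contDiffAt_log.2 h0.ne') hf, Real.deriv_log, Real.deriv_log', deriv_inv]
  ring
end rules

end Sol

end Crest.Agent.R236
end
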