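import Crest.Agent.R236.Basic

/-!
# Approximate orthant configurations (pure convex geometry)

`crossing`: if `l₂ w ≤ Λ₀` but `l₁ w > Λ₁`, the segment from `o` to `w` meets `{l₁ = Λ₁}` at `w'`, and
`l₂ w' ≤ max (l₂ o) (l₂ w) ≤ Λ₀`, contradiction.

`step`: let `φ + γ ≥ 0` on `C`, `w ∈ C`, `Σ y_a(w-o) ≤ 2j`, `φ z + γ < c (φ w + γ)`; normalise
`Φ := (φ + γ)/(φ w + γ)`, so `Φ w = 1`, `Φ z < c`.  `z` is the convex combination
`(1 - j/Λ₁) o + Σ (1/Λ₁)(o + Λ₁ e_a)`, so `Φ o ≤ 2c`, `Φ(o + Λ₁ e_a) ≤ Λ₁ c`, `|φ' e_a| ≤ 2c`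
(`φ'` the linear part of `Φ`).  `|y_a(w-o)| ≤ 3j`.  Put `e₀' = w - o - Σ y_a(w-o) e_a`,
`y₀' = φ' - Σ φ'(e_a) y_a`, `κ = y₀' e₀' = 1 - Φ o - Σ φ'(e_a) y_a(w-o) ∈ [1/2, 2]`,
`e₀ = μ e₀'`, `y₀ = y₀'/(μ κ)`, `o' = o + ε Σ e_a`, with `ε = min(η₀/2, 1/2)`, `μ = ε/(3 j Λ₀ + Λ₀)`... ,
`η₁ = min(η₀/2,1)`, `Λ₁ = Λ₀ + 10 j + η₀ + 10`, `c` tiny (`c ≪ μ η₀/(j² Λ₁)`).  New data: `Fin.cons e₀ e`,
`Fin.cons y₀ y`.  `o' + Λ₀ e₀ = o + Λ₀μ (w-o) + Σ (ε - Λ₀ μ y_a(w-o)) e_a` and `o' + Λ₀ e_a` are convex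
combinations of `o, w, o + Λ₁ e_b`.  On the old cap `y_a(·-o') ≥ -η₁ - ε`, and
`y₀'(w'-o') = Φ w' - Φ o' - Σ φ'(e_a) y_a(w'-o') ≥ -C c`; the new cap lies in the old one by `crossing`.
-/

set_option autoImplicit false
open scoped ContDiff Topology
open Crest.GeometryTopology.CoordMetric Crest.GeometryTopology.AffineMaximal
open MeasureTheory Set

noncomputable section
namespace Crest.Agent.R236

variable {W : Type*} [NormedAddCommGroup W] [NormedSpace ℝ W] {C : Set W}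

theorem crossing (hC : Convex ℝ C) {o : W} (ho : o ∈ C) (l₁ l₂ : W →L[ℝ] ℝ) {Λ₁ Λ₀ : ℝ}
    (h1 : l₁ o ≤ Λ₁) (h2 : l₂ o ≤ Λ₀) (htop : ∀ w ∈ C, l₁ w = Λ₁ → Λ₀ < l₂ w) :
    ∀ w ∈ C, l₂ w ≤ Λ₀ → l₁ w ≤ Λ₁ := by
  intro w hw hw2
  by_contra hcon
  have hlt : Λ₁ < l₁ w := not_le.1 hcon
  have hd : 0 < l₁ w - l₁ o := by linarith
  set t := (Λ₁ - l₁ o) / (l₁ w - l₁ o) with ht
  have ht0 : 0 ≤ t := div_nonneg (by linarith) hd.le
  have ht1 : t ≤ 1 := by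
    rw [ht, div_le_one hd]
    linarith
  have hm : o + t • (w - o) ∈ C := hC.add_smul_sub_mem ho hw ⟨ht0, ht1⟩
  have h3 := htop _ hm (by
    rw [map_add, map_smul, map_sub, smul_eq_mul, ht, div_mul_cancel₀ _ hd.ne']
    ring)
  rw [map_add, map_smul, map_sub, smul_eq_mul] at h3
  nlinarith

theorem config_comb_mem (hC : Convex ℝ C) {ι : Type*} [Fintype ι] {o : W} (ho : o ∈ C) (p : ι → W)
    (hp : ∀ i, p i ∈ C) (t : ι → ℝ) (ht : ∀ i, 0 ≤ t i) (hs : ∑ i, t i ≤ 1) :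
    o + ∑ i, t i • (p i - o) ∈ C := by
  have h := hC.sum_mem (t := (Finset.univ : Finset (Option ι)))
    (w := fun i => i.elim (1 - ∑ i, t i) t) (z := fun i => i.elim o p)
    (fun i _ => by
      cases i with
      | none => exact sub_nonneg.2 hs
      | some i => exact ht i)
    (by simp [Fintype.sum_option])
    (fun i _ => by
      cases i with
      | none => exact ho
      | some i => exact hp i)
  rw [Fintype.sum_option] at h
  simp only [Option.elim_none, Option.elim_some] at h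
  convert h using 1
  simp only [smul_sub, Finset.sum_sub_distrib, ← Finset.sum_smul, sub_smul, one_smul]
  abel

theorem config_ray_mem (hC : Convex ℝ C) {o e : W} (ho : o ∈ C) {Λ Λ' : ℝ} (he : o + Λ • e ∈ C)
    (h0 : 0 ≤ Λ') (hΛ : Λ' ≤ Λ) : o + Λ' • e ∈ C := by
  rcases eq_or_lt_of_le (h0.trans hΛ) with h | h
  · have : Λ' = 0 := le_antisymm (h ▸ hΛ) h0
    rw [this, zero_smul, add_zero]
    exact ho
  · have := hC.add_smul_mem ho he (t := Λ' / Λ) ⟨by positivity, (div_le_one h).2 hΛ⟩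
    rwa [smul_smul, div_mul_cancel₀ _ h.ne'] at this

namespace Cfg
variable {j : ℕ} {η Λ : ℝ}

/-- points of the simplex spanned by `o, o + Λ e_a` lie in `C` -/
theorem simplex_mem (hC : Convex ℝ C) (F : Cfg C j η Λ) (hΛ : 0 < Λ) (t : Fin j → ℝ)
    (ht : ∀ a, 0 ≤ t a) (hs : ∑ a, t a ≤ Λ) : F.o + ∑ a, t a • F.e a ∈ C := by
  have h := config_comb_mem hC F.o_mem (fun a => F.o + Λ • F.e a) F.far_mem (fun a => t a / Λ)
    (fun a => div_nonneg (ht a) hΛ.le) (by rw [← Finset.sum_div, div_le_one hΛ]; exact hs)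
  simpa only [add_sub_cancel_left, smul_smul, div_mul_cancel₀ _ hΛ.ne'] using h

theorem y_sum (F : Cfg C j η Λ) (t : Fin j → ℝ) (a : Fin j) : F.y a (∑ b, t b • F.e b) = t a := by
  simp [map_sum, F.dual]

/-- weakening -/
def mono (hC : Convex ℝ C) (F : Cfg C j η Λ) {η' Λ' : ℝ} (hη : η ≤ η') (h0 : 0 ≤ Λ') (hΛ : Λ' ≤ Λ) :
    Cfg C j η' Λ' where
  o := F.o
  e := F.e
  y := F.y
  dual := F.dual
  o_mem := F.o_mem
  far_mem := fun a => config_ray_mem hC F.o_mem (F.far_mem a) h0 hΛ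
  low := fun w hw hs a => (neg_le_neg hη).trans (F.low w hw (hs.trans hΛ) a)
  bdd := F.bdd.subset fun _ hw => ⟨hw.1, hw.2.trans hΛ⟩

theorem rescale_low (F : Cfg C j η Λ) (s : Fin j → ℝ) {m M η' : ℝ} (hm : 0 < m)
    (hs : ∀ a, m ≤ s a ∧ s a ≤ M) (hη0 : 0 ≤ η') (hη : η ≤ η' * m) {w : W} (hw : w ∈ C)
    (hle : ∑ a, F.y a (w - F.o) ≤ Λ) (a : Fin j) : -η' ≤ (s a)⁻¹ * F.y a (w - F.o) := by
  have hsa : 0 < s a := hm.trans_le (hs a).1
  have h1 := F.low w hw hle a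
  rw [← div_eq_inv_mul, le_div_iff₀ hsa]
  have h2 : η' * m ≤ η' * s a := mul_le_mul_of_nonneg_left (hs a).1 hη0
  linarith

theorem rescale_cap (hC : Convex ℝ C) (F : Cfg C j η Λ) (s : Fin j → ℝ) {m M η' Λ' : ℝ} (hm : 0 < m)
    (hs : ∀ a, m ≤ s a ∧ s a ≤ M) (hη0 : 0 ≤ η') (hη : η ≤ η' * m) (h0 : 0 ≤ Λ')
    (hM : 0 ≤ M) (hΛ : M * (Λ' + j * η') < Λ) {w : W} (hw : w ∈ C)
    (hle : ∑ a, (s a)⁻¹ * F.y a (w - F.o) ≤ Λ') : ∑ a, F.y a (w - F.o) ≤ Λ := by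
  have hΛ0 : 0 ≤ Λ := le_trans (by positivity) hΛ.le
  have e1 : ∀ x, (∑ a, F.y a) x - (∑ a, F.y a) F.o = ∑ a, F.y a (x - F.o) := fun x => by
    rw [← map_sub, _root_.sum_apply]
  have e2 : ∀ x, (∑ a, (s a)⁻¹ • F.y a) x - (∑ a, (s a)⁻¹ • F.y a) F.o =
      ∑ a, (s a)⁻¹ * F.y a (x - F.o) := fun x => by
    rw [← map_sub, _root_.sum_apply]
    rfl
  have h := crossing hC F.o_mem (∑ a, F.y a) (∑ a, (s a)⁻¹ • F.y a)
    (Λ₁ := (∑ a, F.y a) F.o + Λ) (Λ₀ := (∑ a, (s a)⁻¹ • F.y a) F.o + Λ') (by linarith) (by linarith)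
    (fun x hx hx1 => by
      have h1 : ∑ a, F.y a (x - F.o) = Λ := by linarith [e1 x]
      have h2 : ∀ a, F.y a (x - F.o) ≤ M * ((s a)⁻¹ * F.y a (x - F.o) + η') := fun a => by
        have hsa : 0 < s a := hm.trans_le (hs a).1
        have h3 := F.rescale_low s hm hs hη0 hη hx h1.le a
        have h4 : s a * ((s a)⁻¹ * F.y a (x - F.o) + η') ≤
            M * ((s a)⁻¹ * F.y a (x - F.o) + η') :=
          mul_le_mul_of_nonneg_right (hs a).2 (by linarith)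
        rw [mul_add, mul_inv_cancel_left₀ hsa.ne'] at h4
        have h5 : 0 ≤ s a * η' := by positivity
        linarith
      have h3 := Finset.sum_le_sum fun a (_ : a ∈ Finset.univ) => h2 a
      rw [h1, ← Finset.mul_sum, Finset.sum_add_distrib, Finset.sum_const, Finset.card_univ,
        Fintype.card_fin, nsmul_eq_mul] at h3
      by_contra hcon
      have h4 : ∑ a, (s a)⁻¹ * F.y a (x - F.o) ≤ Λ' := by linarith [e2 x, not_lt.1 hcon]
      have h5 : M * (∑ a, (s a)⁻¹ * F.y a (x - F.o) + j * η') ≤ M * (Λ' + j * η') := by gcongr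
      linarith)
    w hw (by linarith [e2 w])
  linarith [e1 w]

/-- rescaling of the axes by factors `s a ∈ [m, M]` -/
def rescale (hC : Convex ℝ C) (F : Cfg C j η Λ) (s : Fin j → ℝ) {m M η' Λ' : ℝ} (hm : 0 < m)
    (hs : ∀ a, m ≤ s a ∧ s a ≤ M) (hη0 : 0 ≤ η') (hη : η ≤ η' * m) (h0 : 0 ≤ Λ')
    (hM : 0 ≤ M) (hΛ : M * (Λ' + j * η') < Λ) : Cfg C j η' Λ' where
  o := F.o
  e := fun a => s a • F.e a
  y := fun a => (s a)⁻¹ • F.y a
  dual := fun a b => by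
    have hsa : 0 < s a := hm.trans_le (hs a).1
    simp only [_root_.smul_apply, map_smul, F.dual, smul_eq_mul]
    split_ifs with h
    · subst h
      field_simp
    · simp
  o_mem := F.o_mem
  far_mem := fun a => by
    have hsa : 0 < s a := hm.trans_le (hs a).1
    rw [smul_smul]
    refine config_ray_mem hC F.o_mem (F.far_mem a) (by positivity) ?_
    have h1 : Λ' * s a ≤ Λ' * M := mul_le_mul_of_nonneg_left (hs a).2 h0
    have h2 : 0 ≤ M * (j * η') := by positivity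
    nlinarith
  low := fun w hw hle a =>
    F.rescale_low s hm hs hη0 hη hw (F.rescale_cap hC s hm hs hη0 hη h0 hM hΛ hw hle) a
  bdd := F.bdd.subset fun _ hw => ⟨hw.1, F.rescale_cap hC s hm hs hη0 hη h0 hM hΛ hw.1 hw.2⟩

theorem le_finrank [FiniteDimensional ℝ W] (F : Cfg C j η Λ) : j ≤ Module.finrank ℝ W := by
  have h : LinearIndependent ℝ F.e := by
    rw [Fintype.linearIndependent_iff]
    intro t ht a
    rw [← F.y_sum t a, ht, map_zero]
  simpa using h.fintype_card_le_finrank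

theorem abs_y_le (F : Cfg C j η Λ) (hη : η ≤ 1) {w : W} (hw : w ∈ C) {B : ℝ} (hB : 0 ≤ B)
    (hBΛ : B ≤ Λ) (hle : ∑ a, F.y a (w - F.o) ≤ B) (a : Fin j) : |F.y a (w - F.o)| ≤ B + j := by
  have h1 : ∀ b, 0 ≤ F.y b (w - F.o) + 1 := fun b => by
    have := F.low w hw (hle.trans hBΛ) b
    linarith
  have h2 := Finset.single_le_sum (f := fun b => F.y b (w - F.o) + 1) (fun b _ => h1 b)
    (Finset.mem_univ a)
  rw [Finset.sum_add_distrib, Finset.sum_const, Finset.card_univ, Fintype.card_fin, nsmul_eq_mul,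
    mul_one] at h2
  have h3 : (1 : ℝ) ≤ j := by exact_mod_cast Nat.succ_le_of_lt a.pos
  rw [abs_le]
  constructor <;> linarith [h1 a]

theorem abs_sum_mul_le {b v : Fin j → ℝ} {c B : ℝ} (hc : 0 ≤ c) (hb : ∀ a, |b a| ≤ c)
    (hv : ∀ a, |v a| ≤ B) : |∑ a, b a * v a| ≤ j * (c * B) := by
  refine (Finset.abs_sum_le_sum_abs _ _).trans ?_
  refine (Finset.sum_le_sum fun a _ => show |b a * v a| ≤ c * B from ?_).trans ?_
  · rw [abs_mul]
    exact mul_le_mul (hb a) (hv a) (abs_nonneg _) hc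
  · rw [Finset.sum_const, Finset.card_univ, Fintype.card_fin, nsmul_eq_mul]

/-- the normalised form of `step` -/
theorem step_aux (hC : Convex ℝ C) {j : ℕ} (hj : 1 ≤ j) {η₀ Λ₀ ε Λ₁ μ c : ℝ} (hη₀ : 0 < η₀)
    (hΛ₀ : 0 < Λ₀) (hε : 0 < ε) (hε1 : ε ≤ 1 / 2) (hε2 : ε ≤ η₀ / 2)
    (hΛ₁ : Λ₁ = Λ₀ + η₀ + 2 * j + 1) (hμ : 0 < μ) (hμε : Λ₀ * μ * (3 * j) = ε) (hc : 0 < c)
    (hc1 : c * (2 + 3 * j ^ 2) ≤ 1 / 2) (hc2 : 2 * (c * (2 + j * (Λ₁ + j))) ≤ μ * η₀)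
    (F : Cfg C j ε Λ₁) (φ : W →L[ℝ] ℝ) (γ : ℝ) (hφ : ∀ w ∈ C, 0 ≤ φ w + γ) {w : W} (hw : w ∈ C)
    (hw2 : ∑ a, F.y a (w - F.o) ≤ 2 * j) (hw1 : φ w + γ = 1) (hz : φ F.z + γ ≤ c) :
    Nonempty (Cfg C (j + 1) η₀ Λ₀) := by
  have hj' : (1 : ℝ) ≤ j := by exact_mod_cast hj
  have hΛp : 0 < Λ₁ := by linarith
  have hsm := F.simplex_mem hC hΛp
  have hz' : φ F.o + γ + ∑ a, φ (F.e a) ≤ c := by
    rw [Cfg.z, map_add, map_sum] at hz
    linarith
  have hφs : ∀ t : Fin j → ℝ, φ (F.o + ∑ a, t a • F.e a) = φ F.o + ∑ a, t a * φ (F.e a) := fun t => by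
    simp [map_sum]
  -- the affine function is small on the simplex
  have hA0 : 0 ≤ φ F.o + γ := hφ _ F.o_mem
  have hA : φ F.o + γ ≤ 2 * c := by
    have h1 := hφ _ (hsm (fun _ => 2) (fun _ => by norm_num) (by simp; linarith))
    rw [hφs, ← Finset.mul_sum] at h1
    linarith
  have hb : ∀ a, |φ (F.e a)| ≤ c := fun a => by
    have h1 := hφ _ (hsm (fun b => 1 + if b = a then 1 else 0)
      (fun b => by split_ifs <;> norm_num) (by simp [Finset.sum_add_distrib]; linarith))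
    have h2 := hφ _ (hsm (fun b => 1 - if b = a then 1 else 0)
      (fun b => by split_ifs <;> norm_num) (by simp [Finset.sum_sub_distrib]; linarith))
    rw [hφs] at h1 h2
    simp only [add_mul, sub_mul, one_mul, ite_mul, zero_mul, Finset.sum_add_distrib,
      Finset.sum_sub_distrib, Finset.sum_ite_eq', Finset.mem_univ, if_true] at h1 h2
    rw [abs_le]
    constructor <;> linarith
  set v : Fin j → ℝ := fun a => F.y a (w - F.o) with hv
  have hv3 : ∀ a, |v a| ≤ 3 * j := fun a =>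
    (F.abs_y_le (by linarith) hw (by positivity) (by linarith) hw2 a).trans (le_of_eq (by ring))
  set e₀ : W := w - F.o - ∑ a, v a • F.e a with he₀
  set y₀ : W →L[ℝ] ℝ := φ - ∑ a, φ (F.e a) • F.y a with hy₀
  have hy₀x : ∀ x, y₀ x = φ x - ∑ a, φ (F.e a) * F.y a x := fun x => by
    rw [hy₀, _root_.sub_apply, _root_.sum_apply]
    rfl
  have hye : ∀ a, F.y a e₀ = 0 := fun a => by
    rw [he₀, map_sub, F.y_sum]
    exact sub_self _
  have hy0e : ∀ a, y₀ (F.e a) = 0 := fun a => by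
    rw [hy₀x]
    simp [F.dual]
  have hy0s : ∀ t : Fin j → ℝ, y₀ (∑ a, t a • F.e a) = 0 := fun t => by
    simp [map_sum, hy0e]
  have hy0o : ∀ x, y₀ (x - F.o) =
      (φ x + γ) - (φ F.o + γ) - ∑ a, φ (F.e a) * F.y a (x - F.o) := fun x => by
    rw [hy₀x, map_sub]
    ring
  set κ := y₀ e₀ with hκ
  have hκ1 : 1 / 2 ≤ κ := by
    rw [hκ, he₀, map_sub, hy0s, hy0o, hw1]
    have h1 := abs_le.1 (abs_sum_mul_le hc.le hb hv3)
    have h2 : (j : ℝ) * (c * (3 * j)) = c * (2 + 3 * j ^ 2) - 2 * c := by ring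
    linarith [h1.2]
  have hκp : 0 < κ := by linarith
  set o' : W := F.o + ∑ a, ε • F.e a with ho'
  have hxo : ∀ x, x - o' = x - F.o - ∑ a, ε • F.e a := fun x => by
    rw [ho']
    abel
  have hyo' : ∀ a x, F.y a (x - o') = F.y a (x - F.o) - ε := fun a x => by
    rw [hxo, map_sub, F.y_sum (fun _ => ε)]
  have hy0o' : ∀ x, y₀ (x - o') = y₀ (x - F.o) := fun x => by
    rw [hxo, map_sub, hy0s (fun _ => ε), sub_zero]
  -- lower bound for the new coordinate on the old cap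
  have hlow0 : ∀ x ∈ C, ∑ a, F.y a (x - F.o) ≤ Λ₁ → -η₀ ≤ (μ * κ)⁻¹ * y₀ (x - o') := by
    intro x hx hle
    rw [← div_eq_inv_mul, le_div_iff₀ (by positivity), hy0o', hy0o]
    have h1 := abs_le.1 (abs_sum_mul_le hc.le hb
      (fun a => F.abs_y_le (by linarith) hx hΛp.le le_rfl hle a))
    have h2 := hφ x hx
    have h3 : μ * η₀ * (1 / 2) ≤ μ * η₀ * κ := by gcongr
    have h4 : c * (2 + j * (Λ₁ + j)) = 2 * c + j * (c * (Λ₁ + j)) := by ring
    have h5 : -η₀ * (μ * κ) = -(μ * η₀ * κ) := by ring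
    linarith [h1.2]
  have hεj : ε * j ≤ j := mul_le_of_le_one_left (by positivity) (by linarith)
  have hsum' : ∀ x, ∑ a, F.y a (x - o') = ∑ a, F.y a (x - F.o) - j * ε := fun x => by
    simp only [hyo', Finset.sum_sub_distrib, Finset.sum_const, Finset.card_univ, Fintype.card_fin,
      nsmul_eq_mul]
  have hcap : ∀ x ∈ C, (μ * κ)⁻¹ * y₀ (x - o') + ∑ a, F.y a (x - o') ≤ Λ₀ →
      ∑ a, F.y a (x - F.o) ≤ Λ₁ := by
    intro x hx hle
    have e1 : ∀ x, (∑ a, F.y a) x - (∑ a, F.y a) F.o = ∑ a, F.y a (x - F.o) := fun x => by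
      rw [← map_sub, _root_.sum_apply]
    have e2 : ∀ x, ((μ * κ)⁻¹ • y₀ + ∑ a, F.y a) x - ((μ * κ)⁻¹ • y₀ + ∑ a, F.y a) o' =
        (μ * κ)⁻¹ * y₀ (x - o') + ∑ a, F.y a (x - o') := fun x => by
      rw [← map_sub, _root_.add_apply, _root_.sum_apply]
      rfl
    have h := crossing hC F.o_mem (∑ a, F.y a) ((μ * κ)⁻¹ • y₀ + ∑ a, F.y a)
      (Λ₁ := (∑ a, F.y a) F.o + Λ₁) (Λ₀ := ((μ * κ)⁻¹ • y₀ + ∑ a, F.y a) o' + Λ₀) (by linarith)
      (by
        have h1 := e2 F.o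
        rw [hy0o', hsum'] at h1
        simp only [sub_self, map_zero, Finset.sum_const_zero, mul_zero] at h1
        have h2 : 0 ≤ j * ε := by positivity
        linarith)
      (fun x hx hx1 => by
        have h1 : ∑ a, F.y a (x - F.o) = Λ₁ := by linarith [e1 x]
        have h2 := hlow0 x hx h1.le
        have h3 := e2 x
        rw [hsum', h1] at h3
        linarith)
      x hx (by linarith [e2 x])
    linarith [e1 x]
  have hτ : Λ₀ * μ ≤ 1 / 2 := by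
    have h1 : Λ₀ * μ * 1 ≤ Λ₀ * μ * (3 * j) := by
      gcongr
      linarith
    linarith
  refine ⟨⟨o', Fin.cons (μ • e₀) F.e, Fin.cons ((μ * κ)⁻¹ • y₀) F.y, ?_, ?_, ?_, ?_, ?_⟩⟩
  · intro a b
    refine Fin.cases ?_ (fun a => ?_) a <;> refine Fin.cases ?_ (fun b => ?_) b
    · simp only [Fin.cons_zero, _root_.smul_apply, map_smul, smul_eq_mul, if_true, ← hκ]
      field_simp
    · simp [hy0e, (Fin.succ_ne_zero b).symm]
    · simp [hye]
    · simp [F.dual]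
  · exact hsm (fun _ => ε) (fun _ => hε.le) (by simp; linarith)
  · intro a
    refine Fin.cases ?_ (fun a => ?_) a
    · have h1 : F.o + (2 * (Λ₀ * μ)) • (w - F.o) ∈ C :=
        hC.add_smul_sub_mem F.o_mem hw ⟨by positivity, by linarith⟩
      have hs : ∀ a, |Λ₀ * μ * v a| ≤ ε := fun a => by
        rw [abs_mul, abs_of_pos (by positivity), ← hμε]
        gcongr
        exact hv3 a
      have h2 := hsm (fun a => 2 * (ε - Λ₀ * μ * v a))
        (fun a => by linarith [(abs_le.1 (hs a)).2])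
        ((Finset.sum_le_sum fun a _ => show 2 * (ε - Λ₀ * μ * v a) ≤ 2 by
          linarith [(abs_le.1 (hs a)).1]).trans (by simp; linarith))
      have h3 := hC h1 h2 (a := 1 / 2) (b := 1 / 2) (by norm_num) (by norm_num) (by norm_num)
      convert h3 using 1
      have e3 : ∑ a, (2 * (ε - Λ₀ * μ * v a)) • F.e a =
          (2 : ℝ) • (∑ a, ε • F.e a - (Λ₀ * μ) • ∑ a, v a • F.e a) := by
        rw [Finset.smul_sum, ← Finset.sum_sub_distrib, Finset.smul_sum]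
        refine Finset.sum_congr rfl fun a _ => ?_
        module
      rw [Fin.cons_zero, e3, ho', he₀]
      module
    · have h2 := hsm (fun b => ε + if b = a then Λ₀ else 0)
        (fun b => by split_ifs <;> positivity) (by simp [Finset.sum_add_distrib]; linarith)
      convert h2 using 1
      simp only [Fin.cons_succ, add_smul, ite_smul, zero_smul, Finset.sum_add_distrib,
        Finset.sum_ite_eq', Finset.mem_univ, if_true, ho', add_assoc]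
  · intro x hx hle a
    rw [Fin.sum_univ_succ] at hle
    have h1 := hcap x hx hle
    refine Fin.cases ?_ (fun a => ?_) a
    · exact hlow0 x hx h1
    · rw [Fin.cons_succ, hyo']
      linarith [F.low x hx h1 a]
  · refine F.bdd.subset fun x hx => ⟨hx.1, hcap x hx.1 ?_⟩
    have hle := hx.2
    rw [Fin.sum_univ_succ] at hle
    exact hle

theorem step (hC : Convex ℝ C) {j : ℕ} (hj : 1 ≤ j) {η₀ Λ₀ : ℝ} (hη₀ : 0 < η₀) (hΛ₀ : 0 < Λ₀) :
    ∃ η₁ > (0 : ℝ), ∃ Λ₁ > (0 : ℝ), ∃ c > (0 : ℝ), ∀ F : Cfg C j η₁ Λ₁, ¬ F.Centered c →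
      Nonempty (Cfg C (j + 1) η₀ Λ₀) := by
  have hj' : (1 : ℝ) ≤ j := by exact_mod_cast hj
  set ε : ℝ := min (η₀ / 2) (1 / 2) with hε
  have hε0 : 0 < ε := lt_min (by positivity) (by norm_num)
  set Λ₁ : ℝ := Λ₀ + η₀ + 2 * j + 1 with hΛ₁
  have hΛp : 0 < Λ₁ := by positivity
  set μ : ℝ := ε / (Λ₀ * (3 * j)) with hμ
  have hμ0 : 0 < μ := by positivity
  set c : ℝ := min (1 / 2 / (2 + 3 * j ^ 2)) (μ * η₀ / 2 / (2 + j * (Λ₁ + j))) with hc
  have hc0 : 0 < c := lt_min (by positivity) (by positivity)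
  refine ⟨ε, hε0, Λ₁, hΛp, c, hc0, fun F hF => ?_⟩
  simp only [Cfg.Centered, not_forall, not_le] at hF
  obtain ⟨φ, γ, hφ, w, hw, hw2, hlt⟩ := hF
  have hz : F.z ∈ C := by
    have := F.simplex_mem hC hΛp (fun _ => 1) (fun _ => zero_le_one) (by simp; linarith)
    simpa only [one_smul, Cfg.z] using this
  have hD : 0 < φ w + γ := by
    have h1 := hφ _ hz
    by_contra hcon
    have : c * (φ w + γ) ≤ 0 := mul_nonpos_of_nonneg_of_nonpos hc0.le (not_lt.1 hcon)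
    linarith
  have e1 : ∀ x, ((φ w + γ)⁻¹ • φ) x + (φ w + γ)⁻¹ * γ = (φ x + γ) / (φ w + γ) := fun x => by
    rw [_root_.smul_apply, smul_eq_mul, ← mul_add, div_eq_inv_mul]
  refine step_aux hC hj hη₀ hΛ₀ hε0 (min_le_right _ _) (min_le_left _ _) hΛ₁ hμ0 ?_ hc0 ?_ ?_ F
    ((φ w + γ)⁻¹ • φ) ((φ w + γ)⁻¹ * γ) (fun x hx => ?_) hw hw2 ?_ ?_
  · rw [hμ]
    field_simp
  · rw [← le_div_iff₀ (by positivity)]
    exact min_le_left _ _
  · rw [mul_comm 2, ← le_div_iff₀ (by positivity), ← le_div_iff₀ (by positivity)]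
    exact min_le_right _ _
  · rw [e1]
    exact div_nonneg (hφ x hx) hD.le
  · rw [e1, div_self hD.ne']
  · rw [e1, div_le_iff₀ hD]
    exact hlt.le
end Cfg

/-- maximal number of orthant directions: all good configurations are uniformly centred -/
theorem exists_centered [FiniteDimensional ℝ W] (hC : Convex ℝ C) (h2 : HasOrth C 2) :
    ∃ j, 2 ≤ j ∧ HasOrth C j ∧ ∃ c > (0 : ℝ), ∃ η₁ > (0 : ℝ), ∃ Λ₁ > (0 : ℝ),
      ∀ η ≤ η₁, ∀ Λ ≥ Λ₁, ∀ F : Cfg C j η Λ, F.Centered c := by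
  classical
  have hb : ∀ j, HasOrth C j → j ≤ Module.finrank ℝ W := fun j hj => by
    obtain ⟨F⟩ := hj 1 one_pos 1 one_pos
    exact F.le_finrank
  set j := Nat.findGreatest (HasOrth C) (Module.finrank ℝ W) with hj
  have h1 : 2 ≤ j := Nat.le_findGreatest (hb 2 h2) h2
  have h3 : HasOrth C j := Nat.findGreatest_spec (hb 2 h2) h2
  have h4 : ¬ HasOrth C (j + 1) := fun h =>
    Nat.findGreatest_is_greatest (Nat.lt_succ_self j) (hb _ h) h
  simp only [HasOrth, not_forall] at h4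
  obtain ⟨η₀, hη₀, Λ₀, hΛ₀, hne⟩ := h4
  obtain ⟨η₁, hη₁, Λ₁, hΛ₁, c, hc, hs⟩ := Cfg.step hC (j := j) (by omega) hη₀ hΛ₀
  refine ⟨j, h1, h3, c, hc, η₁, hη₁, Λ₁, hΛ₁, fun η hη Λ hΛ F => ?_⟩
  by_contra hcon
  exact hne (hs (F.mono hC hη hΛ₁.le hΛ) hcon)

/-- No approximate wedge implies uniform strict convexity.  Take `η₀, Λ₀` without `2`-configuration and
the constants of `step` for `j = 1` (WLOG `Λ₁ ≥ 2` by `mono`); the `1`-configuration is `o`,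
`e = (W₀-o)/Λ₁`, `y = Λ₁ l / l(W₀-o)`; test centredness at `o + (2/Λ₁)(W'-o)`; `η = 2c/Λ₁`. -/
theorem strict_of_not_hasOrth (hC : Convex ℝ C) (h2 : ¬ HasOrth C 2) :
    ∃ η > (0 : ℝ), ∀ o ∈ C, ∀ l : W →L[ℝ] ℝ, (∀ w ∈ C, 0 ≤ l (w - o)) →
      (∀ h, Bornology.IsBounded {w | w ∈ C ∧ l (w - o) ≤ h}) →
      ∀ W₀ ∈ C, 0 < l (W₀ - o) → ∀ (φ : W →L[ℝ] ℝ) (γ : ℝ), (∀ w ∈ C, 0 ≤ φ w + γ) →
      ∀ W' ∈ C, l (W' - o) ≤ l (W₀ - o) → η * (φ W' + γ) ≤ (φ o + γ) + (φ W₀ + γ) := by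
  simp only [HasOrth, not_forall] at h2
  obtain ⟨η₀, hη₀, Λ₀, hΛ₀, hne⟩ := h2
  obtain ⟨η₁, hη₁, Λ₁, hΛ₁, c, hc, hs⟩ := Cfg.step hC (j := 1) le_rfl hη₀ hΛ₀
  set Λ : ℝ := max Λ₁ 2 with hΛ
  have hΛ2 : 2 ≤ Λ := le_max_right _ _
  have hΛp : 0 < Λ := by linarith
  refine ⟨c * (2 / Λ), by positivity, fun o ho l hl hbd W₀ hW₀ hL φ γ hφ W' hW' hle => ?_⟩
  let F : Cfg C 1 η₁ Λ :=
    { o := o
      e := fun _ => Λ⁻¹ • (W₀ - o)
      y := fun _ => (Λ / l (W₀ - o)) • l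
      dual := fun a b => by
        rw [if_pos (Subsingleton.elim a b), _root_.smul_apply, map_smul, smul_eq_mul,
          smul_eq_mul]
        field_simp
      o_mem := ho
      far_mem := fun _ => by
        rw [smul_smul, mul_inv_cancel₀ hΛp.ne', one_smul, add_sub_cancel]
        exact hW₀
      low := fun w hw _ _ => by
        rw [_root_.smul_apply, smul_eq_mul]
        have := mul_nonneg (div_pos hΛp hL).le (hl w hw)
        linarith
      bdd := (hbd (l (W₀ - o))).subset fun w hw => ⟨hw.1, by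
        have h1 := hw.2
        rw [Fin.sum_univ_one, _root_.smul_apply, smul_eq_mul, div_mul_eq_mul_div,
          div_le_iff₀ hL] at h1
        exact le_of_mul_le_mul_left h1 hΛp⟩ }
  have hF : F.Centered c := by
    by_contra hcon
    exact hne (hs (F.mono hC le_rfl hΛ₁.le (le_max_left _ _)) hcon)
  have ht : 2 / Λ ≤ 1 := (div_le_one hΛp).2 hΛ2
  have h1 := hF φ γ hφ (o + (2 / Λ) • (W' - o))
    (hC.add_smul_sub_mem ho hW' ⟨by positivity, ht⟩) (by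
      simp only [F, Fin.sum_univ_one, add_sub_cancel_left, _root_.smul_apply, map_smul,
        smul_eq_mul, Nat.cast_one, mul_one]
      calc 2 / Λ * (Λ / l (W₀ - o) * l (W' - o)) ≤ 2 / Λ * (Λ / l (W₀ - o) * l (W₀ - o)) := by
            gcongr
        _ = 2 := by field_simp)
  simp only [F, Cfg.z, Fin.sum_univ_one, map_add, map_smul, map_sub, smul_eq_mul] at h1
  have a1 := hφ o ho
  have a2 := hφ W₀ hW₀
  have a3 : 0 ≤ c * ((1 - 2 / Λ) * (φ o + γ)) := mul_nonneg hc.le (mul_nonneg (by linarith) a1)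
  have a4 : 0 ≤ Λ⁻¹ * (φ o + γ) := by positivity
  have a5 : Λ⁻¹ * (φ W₀ + γ) ≤ φ W₀ + γ :=
    mul_le_of_le_one_left a2 (inv_le_one_of_one_le₀ (by linarith))
  nlinarith

end Crest.Agent.R236
end
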