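import Crest.Agent.R236.Cacc
import Crest.Agent.R236.Config

/-!
# Estimates on one cell of a centred configuration

`Cfg.cap`: `l = j⁻¹ Σ y_a`, `z = o + Σ e_a`, so `l(w - z) = j⁻¹ Σ y_a(w-o) - 1`.  `cen`: apply `Centered`
to `φ = nbL x`, `γ = -nb x (X x)`.  On the cap `-1 ≤ y_a(w-o) ≤ 3j`, so `|y_a(w - z)| ≤ 3j`;
`|N (e_b)| ≤ 1/c` (`abs_nb_le` with `z + e_b`, `z`; `simplex_mem`), `l e_b = 1/j`.
`pp_eq`: `pp = rho · tp x (o + Σ yy_b e_b)`.  If all `yy_b ∈ [b,1]`: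
`o + Σ yy e = b z + (1-b) w`, `w ∈ C` (or directly `tp(o + Σ yy e) = b tp z + (1-b) tp(..)`), so `pp ≥ b Q`;
if all `yy ≥ 0`, `Σ yy ≤ 2j` then `c pp ≤ Q`.
`cell_upper`: the cell is a closed subset of `sec 0`; `mp ≤ b^{-n/2} mu`; `|pp xi| ≤ (Q|G LQ f| + |f|)/c`
(`xi_eq`, `f = af y_a z`), `|ZG| ≤ Σ_b Q |G y_b y_a|/c` (`G_af_base`), AM-GM, `cacc_LQ`, `cacc_af`.
`cell_lower`: the region is compact (closed in `sec 1`) and `pp ≥ b Q > 0` on it (`b = min c₁ (1/2)`, uses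
`4j ≤ Λ`), so `mp` is integrable there.  `mass_lower` on `sec (5/8)`.  For each `a` pick `b ≠ a` (`j ≥ 2`).  On `{yy_a < c₁}`
(`yy_a ≥ -η ≥ -c₁`): `z - e_a ± e_b ∈ C` gives `|N_b| ≤ 1 - N_a = t_a - N_a yy_a`,
`t_a := 1 + N_a (yy_a - 1) = -Q G N_a y_a`; so either `|N_b| ≤ τ` or `t_a ≥ τ/2` (if `c₁ ≤ cτ/2`).
On `{|N_b| ≤ τ}`, `τ ≤ 1/(6j)`: `1/2 ≤ |Q G N_b y_b| ≤ (s⁻¹ Q G N_b N_b + s Q G y_b y_b)/2`, so the mass is
`≤ A τ/s + A s` (`slab_N`, `cacc_af`).  On `{t_a ≥ τ/2, |yy_a| ≤ c₁}`: `τ/2 ≤ (s' Q G N_a N_a + Q G y_a y_a/s')/2`,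
mass `≤ (s' A + A c₁/s')/τ` (`cacc_N`, `slab_af` with `t₀ = -1`).  Choose `s, τ, s', c₁` in this order so that
each mass is `≤ a/(4j)`; the rest has `mu`-mass `≥ a/2` and there `mp ≥ c^{n/2} mu`.
-/

set_option autoImplicit false
open scoped ContDiff Topology
open Crest.GeometryTopology.CoordMetric Crest.GeometryTopology.AffineMaximal
open MeasureTheory Set

noncomputable section
namespace Crest.Agent.R236

variable {n : ℕ}

namespace Cfg
variable {W : Type*} [NormedAddCommGroup W] [NormedSpace ℝ W] {C : Set W} {j : ℕ} {η Λ : ℝ}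
  (F : Cfg C j η Λ)

theorem cl_y_sub_z (a : Fin j) (w : W) : F.y a (w - F.z) = F.y a (w - F.o) - 1 := by
  have h : w - F.z = (w - F.o) - ∑ b, F.e b := by simp only [z]; abel
  rw [h, map_sub (F.y a) (w - F.o), map_sum]
  simp [F.dual]

theorem cl_l_eq (hj : 1 ≤ j) (w : W) :
    ((j : ℝ)⁻¹ • ∑ a, F.y a) (w - F.z) = (j : ℝ)⁻¹ * ∑ a, F.y a (w - F.o) - 1 := by
  have hj0 : (j : ℝ) ≠ 0 := by positivity
  simp only [smul_apply, sum_apply, smul_eq_mul,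
    F.cl_y_sub_z, Finset.sum_sub_distrib, Finset.sum_const, Finset.card_univ, Fintype.card_fin,
    nsmul_eq_mul, mul_one]
  field_simp

theorem cl_l_le_iff (hj : 1 ≤ j) (w : W) (r : ℝ) :
    ((j : ℝ)⁻¹ • ∑ a, F.y a) (w - F.z) ≤ r ↔ ∑ a, F.y a (w - F.o) ≤ (1 + r) * j := by
  have hj0 : (0 : ℝ) < j := by positivity
  rw [F.cl_l_eq hj, sub_le_iff_le_add, inv_mul_le_iff₀ hj0, mul_comm, add_comm]

theorem cl_z_eq : F.z = F.o + ∑ a, (1 : ℝ) • F.e a := by simp [z]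

theorem cl_z_add_e (b : Fin j) :
    F.z + F.e b = F.o + ∑ a, (1 + if a = b then 1 else 0 : ℝ) • F.e a := by
  simp [z, add_smul, Finset.sum_add_distrib, add_assoc, ite_smul]

theorem cl_z_sub_add_e (a b : Fin j) (σ : ℝ) :
    F.z - F.e a + σ • F.e b
      = F.o + ∑ d, ((1 - if d = a then 1 else 0) + if d = b then σ else 0 : ℝ) • F.e d := by
  simp only [z, add_smul, sub_smul, Finset.sum_add_distrib, Finset.sum_sub_distrib, ite_smul,
    one_smul, zero_smul, Finset.sum_ite_eq', Finset.mem_univ, if_true]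
  abel

theorem cl_abs_y_le (hj : 1 ≤ j) (hη : η ≤ 1) (hΛ : 2 * j ≤ Λ) {w : W} (hw : w ∈ C)
    (h : ∑ a, F.y a (w - F.o) ≤ 2 * j) (a : Fin j) : |F.y a (w - F.z)| ≤ 3 * j := by
  have hj1 : (1 : ℝ) ≤ j := by exact_mod_cast hj
  have hlow := F.low w hw (h.trans hΛ)
  have h1 : F.y a (w - F.o) + 1 ≤ ∑ b, (F.y b (w - F.o) + 1) :=
    Finset.single_le_sum (f := fun b => F.y b (w - F.o) + 1)
      (fun b _ => by linarith [hlow b]) (Finset.mem_univ a)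
  simp only [Finset.sum_add_distrib, Finset.sum_const, Finset.card_univ, Fintype.card_fin,
    nsmul_eq_mul, mul_one] at h1
  rw [F.cl_y_sub_z, abs_le]
  constructor <;> linarith [hlow a]

end Cfg

/-- the cap of a centred configuration -/
def Cfg.cap {S : Sol n} {j : ℕ} {η Λ c : ℝ} (F : Cfg S.C j η Λ) (hj : 1 ≤ j) (hη : η ≤ 1)
    (hΛ : 2 * j ≤ Λ) (hF : F.Centered c) : Cap S c where
  l := (j : ℝ)⁻¹ • ∑ a, F.y a
  z := F.z
  z_mem := by
    have hj1 : (1 : ℝ) ≤ j := by exact_mod_cast hj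
    rw [F.cl_z_eq]
    exact F.simplex_mem S.convex_C (by linarith) _ (fun _ => zero_le_one) (by simp; linarith)
  low := by
    intro w hw h
    have hj0 : (0 : ℝ) < j := by positivity
    rw [F.cl_l_le_iff hj] at h
    have hlow := F.low w hw (by linarith)
    have h1 : ∑ _a : Fin j, (-1 : ℝ) ≤ ∑ a, F.y a (w - F.o) :=
      Finset.sum_le_sum fun a _ => by linarith [hlow a]
    simp only [Finset.sum_const, Finset.card_univ, Fintype.card_fin, nsmul_eq_mul] at h1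
    rw [F.cl_l_eq hj, le_sub_iff_add_le, le_inv_mul_iff₀ hj0]
    linarith
  bdd := by
    refine F.bdd.subset fun w hw => ⟨hw.1, ?_⟩
    have h := hw.2
    rw [F.cl_l_le_iff hj] at h
    linarith
  cen := by
    intro x hx w hw h
    rw [F.cl_l_le_iff hj] at h
    have e : ∀ w, S.nbL x w + -S.nb x (S.X x) = S.tp x w := fun w => by
      rw [S.nbL_apply, Sol.tp, S.nb_sub]; ring
    have := hF (S.nbL x) (-S.nb x (S.X x)) (fun w hw => by rw [e]; exact S.tp_nonneg hx hw) w hw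
      (by linarith)
    rwa [e, e] at this

namespace Sol
variable (S : Sol n) {j : ℕ} {η Λ : ℝ}
theorem pp_eq (F : Cfg S.C j η Λ) (x : E n) :
    S.pp F x = S.rho x * S.tp x (F.o + ∑ b, S.yy F b x • F.e b) := by
  have h : F.o + ∑ b, S.yy F b x • F.e b - S.X x = (F.o - S.X x) + ∑ b, S.yy F b x • F.e b := by
    abel
  simp only [pp, q, tp, nu]
  rw [h, S.nb_add, S.nb_sum, mul_add, Finset.mul_sum]
  congr 1
  refine Finset.sum_congr rfl fun b _ => ?_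
  rw [S.nb_smul]; ring
theorem contDiffOn_pp (F : Cfg S.C j η Λ) : ContDiffOn ℝ ∞ (S.pp F) S.Ω :=
  (S.contDiffOn_q F.o).add (ContDiffOn.sum fun b _ =>
    (S.contDiffOn_nu (F.e b)).mul (S.contDiffOn_af _ _))
theorem contDiffOn_yy (F : Cfg S.C j η Λ) (a : Fin j) : ContDiffOn ℝ ∞ (S.yy F a) S.Ω :=
  S.contDiffOn_af _ _
end Sol

/-! ### generic helpers -/

theorem cl_amgm_abs {x P Q s : ℝ} (hs : 0 < s) (hP : 0 ≤ P) (hQ : 0 ≤ Q) (h : x ^ 2 ≤ P * Q) :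
    |x| ≤ (s⁻¹ * P + s * Q) / 2 := by
  refine abs_le_of_sq_le_sq' ?_ (by positivity) |> abs_le.2
  have e : ((s⁻¹ * P + s * Q) / 2) ^ 2 = P * Q + ((s⁻¹ * P - s * Q) / 2) ^ 2 := by
    field_simp; ring
  rw [e]
  nlinarith [sq_nonneg ((s⁻¹ * P - s * Q) / 2)]

theorem cl_isCompact_inter_preimage {β : Type*} [TopologicalSpace β] {T : Set (E n)}
    (hT : IsCompact T) {f : E n → β} (hf : ContinuousOn f T) {t : Set β} (ht : IsClosed t) :
    IsCompact (T ∩ f ⁻¹' t) :=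
  hT.of_isClosed_subset (hf.preimage_isClosed_of_isClosed hT.isClosed ht) inter_subset_left

theorem cl_integral_cover {ι : Type*} [Fintype ι] {T R : Set (E n)} {P P' : ι → Set (E n)}
    {f : E n → ℝ} (hT : MeasurableSet T) (hR : MeasurableSet R) (hP : ∀ i, MeasurableSet (P i))
    (hP' : ∀ i, MeasurableSet (P' i)) (hRT : R ⊆ T) (hPT : ∀ i, P i ⊆ T) (hP'T : ∀ i, P' i ⊆ T)
    (hf : IntegrableOn f T) (h0 : ∀ x ∈ T, 0 ≤ f x)
    (hcov : ∀ x ∈ T, x ∈ R ∨ ∃ i, x ∈ P i ∨ x ∈ P' i) :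
    ∫ x in T, f x ≤ (∫ x in R, f x) + ∑ i, ((∫ x in P i, f x) + ∫ x in P' i, f x) := by
  have e : ∀ {D : Set (E n)}, MeasurableSet D → D ⊆ T →
      ∫ x in D, f x = ∫ x in T, D.indicator f x := fun hD hDT => by
    rw [setIntegral_indicator hD, inter_eq_right.2 hDT]
  have hi : ∀ {D : Set (E n)}, MeasurableSet D → IntegrableOn (D.indicator f) T :=
    fun hD => hf.indicator hD
  have hi2 : ∀ i, IntegrableOn (fun x => (P i).indicator f x + (P' i).indicator f x) T :=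
    fun i => (hi (hP i)).add (hi (hP' i))
  have hi3 : IntegrableOn (fun x => ∑ i, ((P i).indicator f x + (P' i).indicator f x)) T :=
    integrable_finsetSum _ fun i _ => hi2 i
  have e2 : ∀ i, ((∫ x in P i, f x) + ∫ x in P' i, f x)
      = ∫ x in T, ((P i).indicator f x + (P' i).indicator f x) := fun i => by
    rw [e (hP i) (hPT i), e (hP' i) (hP'T i), integral_add (hi (hP i)) (hi (hP' i))]
  rw [Finset.sum_congr rfl fun i _ => e2 i, ← integral_finsetSum _ fun i _ => hi2 i, e hR hRT,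
    ← integral_add (hi hR) hi3]
  refine setIntegral_mono_on hf ((hi hR).add hi3) hT fun x hx => ?_
  have hn : ∀ D : Set (E n), 0 ≤ D.indicator f x := fun D => by
    by_cases h : x ∈ D <;> simp [h, h0 x hx]
  have hs : 0 ≤ ∑ i, ((P i).indicator f x + (P' i).indicator f x) :=
    Finset.sum_nonneg fun i _ => add_nonneg (hn _) (hn _)
  rcases hcov x hx with h | ⟨i, h⟩
  · rw [indicator_of_mem h]; linarith
  · have h1 : (P i).indicator f x + (P' i).indicator f x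
        ≤ ∑ i, ((P i).indicator f x + (P' i).indicator f x) :=
      Finset.single_le_sum (f := fun i => (P i).indicator f x + (P' i).indicator f x)
        (fun i _ => add_nonneg (hn _) (hn _)) (Finset.mem_univ i)
    rcases h with h | h
    · rw [indicator_of_mem h] at h1; linarith [hn R, hn (P' i)]
    · rw [indicator_of_mem h (f := f)] at h1; linarith [hn R, hn (P i)]

theorem cl_integral_mono_sub {T P : Set (E n)} {g : E n → ℝ} (hT : MeasurableSet T) (hPT : P ⊆ T)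
    (hg : IntegrableOn g T) (h0 : ∀ x ∈ T, 0 ≤ g x) : ∫ x in P, g x ≤ ∫ x in T, g x :=
  setIntegral_mono_set hg ((ae_restrict_iff' hT).2 (Filter.Eventually.of_forall h0))
    hPT.eventuallyLE

theorem cl_integral_piece {T P P₀ : Set (E n)} {f g₁ g₂ : E n → ℝ} {α β A₁ A₂ : ℝ}
    (hT : MeasurableSet T) (hP : MeasurableSet P) (hP₀ : MeasurableSet P₀) (hPP : P ⊆ P₀)
    (hPT : P₀ ⊆ T) (hf : IntegrableOn f T) (hg₁ : IntegrableOn g₁ T) (hg₂ : IntegrableOn g₂ T)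
    (h₁ : ∀ x ∈ T, 0 ≤ g₁ x) (h₂ : ∀ x ∈ T, 0 ≤ g₂ x) (hα : 0 ≤ α) (hβ : 0 ≤ β)
    (hA₁ : ∫ x in P₀, g₁ x ≤ A₁) (hA₂ : ∫ x in T, g₂ x ≤ A₂)
    (h : ∀ x ∈ P, f x ≤ α * g₁ x + β * g₂ x) : ∫ x in P, f x ≤ α * A₁ + β * A₂ := by
  have hPT' := hPP.trans hPT
  have i₁ : IntegrableOn (fun x => α * g₁ x) P := (hg₁.mono_set hPT').const_mul α
  have i₂ : IntegrableOn (fun x => β * g₂ x) P := (hg₂.mono_set hPT').const_mul β
  have b₁ := (cl_integral_mono_sub hP₀ hPP (hg₁.mono_set hPT) fun x hx => h₁ x (hPT hx)).trans hA₁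
  have b₂ := (cl_integral_mono_sub hT hPT' hg₂ h₂).trans hA₂
  calc ∫ x in P, f x ≤ ∫ x in P, (α * g₁ x + β * g₂ x) :=
        setIntegral_mono_on (hf.mono_set hPT') (i₁.add i₂) hP h
    _ = α * (∫ x in P, g₁ x) + β * ∫ x in P, g₂ x := by
        rw [integral_add i₁ i₂, integral_const_mul, integral_const_mul]
    _ ≤ α * A₁ + β * A₂ := by gcongr

namespace Sol
variable (S : Sol n) {j : ℕ} {η Λ : ℝ} {x : E n}

theorem cl_abs_G_le (hx : x ∈ S.Ω) (f g : E n → ℝ) {s : ℝ} (hs : 0 < s) :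
    |S.G f g x| ≤ (s⁻¹ * S.G f f x + s * S.G g g x) / 2 :=
  cl_amgm_abs hs (S.G_nonneg hx) (S.G_nonneg hx) (S.G_sq_le hx)

theorem cl_G_af_af_base (hx : x ∈ S.Ω) (φ ψ : V n →L[ℝ] ℝ) (o o' : V n) :
    S.G (S.af φ o) (S.af ψ o) x = S.G (S.af φ o') (S.af ψ o') x := by
  rw [S.G_af_base hx _ ψ o o', S.G_comm hx, S.G_af_base hx _ φ o o', S.G_comm hx]

theorem cl_tp_add (w v : V n) : S.tp x (w + v) = S.tp x w + S.nb x v := by
  rw [tp, tp, ← S.nb_add]; congr 1; abel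

theorem cl_pp_ge (F : Cfg S.C j η Λ) (hΛ : 0 < Λ) (hx : x ∈ S.Ω) {b : ℝ} (hb1 : b < 1)
    (h : ∀ a, b ≤ S.yy F a x) (hs : ∑ a, (S.yy F a x - b) ≤ (1 - b) * Λ) :
    b * S.q F.z x ≤ S.pp F x := by
  have hb : 0 < 1 - b := by linarith
  have hw := F.simplex_mem S.convex_C hΛ (fun a => (1 - b)⁻¹ * (S.yy F a x - b))
    (fun a => mul_nonneg (inv_nonneg.2 hb.le) (by linarith [h a]))
    (by rw [← Finset.mul_sum, inv_mul_le_iff₀ hb]; exact hs)
  have h1 := S.tp_nonneg hx hw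
  rw [S.pp_eq, q, F.cl_z_eq]
  simp only [S.cl_tp_add, S.nb_sum, S.nb_smul, one_mul] at h1 ⊢
  have h2 : ∑ a, (1 - b)⁻¹ * (S.yy F a x - b) * S.nb x (F.e a)
      = (1 - b)⁻¹ * (∑ a, S.yy F a x * S.nb x (F.e a) - b * ∑ a, S.nb x (F.e a)) := by
    rw [Finset.mul_sum, ← Finset.sum_sub_distrib, Finset.mul_sum]
    exact Finset.sum_congr rfl fun a _ => by ring
  rw [h2] at h1
  have h3 := mul_nonneg hb.le h1
  rw [mul_add, mul_inv_cancel_left₀ hb.ne'] at h3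
  have h4 := mul_nonneg (S.rho_pos hx).le h3
  nlinarith [h4]

theorem cl_mu_QG_nonneg {c : ℝ} (hc : 0 < c) (K : Cap S c) (hx : x ∈ S.Ω) (f : E n → ℝ) :
    0 ≤ S.mu K.z x * (S.q K.z x * S.G f f x) :=
  mul_nonneg (mu_pos hc K hx).le (mul_nonneg (K.q_pos hc hx).le (S.G_nonneg hx))

theorem cl_integrableOn_mu {c : ℝ} (hc : 0 < c) (K : Cap S c) {T : Set (E n)} (hT : IsCompact T)
    (hTΩ : T ⊆ S.Ω) : IntegrableOn (S.mu K.z) T :=
  ((continuousOn_mu hc K).mono hTΩ).integrableOn_compact hT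

theorem cl_integrableOn_mu_QG {c : ℝ} (hc : 0 < c) (K : Cap S c) {T : Set (E n)} (hT : IsCompact T)
    (hTΩ : T ⊆ S.Ω) {f : E n → ℝ} (hf : ContDiffOn ℝ ∞ f S.Ω) :
    IntegrableOn (fun x => S.mu K.z x * (S.q K.z x * S.G f f x)) T := by
  have hf1 : ContDiffOn ℝ 1 f S.Ω := hf.of_le (by exact_mod_cast le_top)
  exact (((continuousOn_mu hc K).mul ((S.contDiffOn_q K.z).continuousOn.mul
    (S.continuousOn_G S.isOpen subset_rfl hf1 hf1))).mono hTΩ).integrableOn_compact hT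

end Sol

namespace Cfg
variable {S : Sol n} {j : ℕ} {η Λ c : ℝ} (F : Cfg S.C j η Λ) (hj : 1 ≤ j) (hη : η ≤ 1)
  (hΛ : 2 * j ≤ Λ) (hF : F.Centered c) {x : E n}

theorem cl_cap_z : (F.cap hj hη hΛ hF).z = F.z := rfl

theorem cl_cap_le_iff (w : V n) (r : ℝ) :
    (F.cap hj hη hΛ hF).l (w - (F.cap hj hη hΛ hF).z) ≤ r ↔
      ∑ a, F.y a (w - F.o) ≤ (1 + r) * j := F.cl_l_le_iff hj w r

theorem cl_mem_sec_iff (r : ℝ) :
    x ∈ (F.cap hj hη hΛ hF).sec r ↔ x ∈ S.Ω ∧ ∑ a, S.yy F a x ≤ (1 + r) * j :=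
  and_congr_right fun _ => F.cl_l_le_iff hj (S.X x) r

theorem cl_cap_abs_y (a : Fin j) : ∀ w ∈ S.C, (F.cap hj hη hΛ hF).l (w - (F.cap hj hη hΛ hF).z) ≤ 1 →
    |F.y a (w - (F.cap hj hη hΛ hF).z)| ≤ 3 * j := fun w hw h => by
  rw [F.cl_cap_le_iff] at h
  exact F.cl_abs_y_le hj hη hΛ hw (by linarith) a

theorem cl_cap_l_e (b : Fin j) : (F.cap hj hη hΛ hF).l (F.e b) = (j : ℝ)⁻¹ := by
  change ((j : ℝ)⁻¹ • ∑ a, F.y a) (F.e b) = _
  simp [sum_apply, F.dual]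

theorem cl_cap_abs_l_e (b : Fin j) : |(F.cap hj hη hΛ hF).l (F.e b)| ≤ 3 := by
  have hj1 : (1 : ℝ) ≤ j := by exact_mod_cast hj
  rw [F.cl_cap_l_e, abs_of_nonneg (by positivity)]
  exact (inv_le_one_of_one_le₀ hj1).trans (by norm_num)

include hj hη hΛ hF in
theorem cl_abs_nb_e (hc : 0 < c) (hx : x ∈ S.Ω) (b : Fin j) : c * |S.nb x (F.e b)| ≤ S.tp x F.z := by
  have hj1 : (1 : ℝ) ≤ j := by exact_mod_cast hj
  have hm : F.z + F.e b ∈ S.C := by
    rw [F.cl_z_add_e]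
    refine F.simplex_mem S.convex_C (by linarith) _ (fun a => by split_ifs <;> norm_num) ?_
    simp [Finset.sum_add_distrib]; linarith
  have h := (F.cap hj hη hΛ hF).abs_nb_le hc hx hm
    (by rw [F.cl_cap_z, add_sub_cancel_left, F.cl_cap_l_e]; exact inv_le_one_of_one_le₀ hj1)
    (F.cap hj hη hΛ hF).z_mem (by simp)
  rwa [F.cl_cap_z, add_sub_cancel_left] at h

theorem cl_abs_N_e (hc : 0 < c) (b : Fin j) :
    ∀ x ∈ S.Ω, |(F.cap hj hη hΛ hF).N (F.e b) x| ≤ c⁻¹ := fun x hx => by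
  have h := F.cl_abs_nb_e hj hη hΛ hF hc hx b
  have h0 : 0 < S.tp x F.z := (F.cap hj hη hΛ hF).tp_z_pos hc hx
  rw [Cap.N, F.cl_cap_z, abs_div, abs_of_pos h0, div_le_iff₀ h0, le_inv_mul_iff₀ hc]
  exact h

include hj hη hΛ hF in
theorem cl_abs_nu_e (hc : 0 < c) (hx : x ∈ S.Ω) (b : Fin j) :
    |S.nu (F.e b) x| ≤ c⁻¹ * S.q F.z x := by
  have h := F.cl_abs_nb_e hj hη hΛ hF hc hx b
  have hρ := S.rho_pos hx
  rw [Sol.nu, Sol.q, abs_mul, abs_of_pos hρ, le_inv_mul_iff₀ hc]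
  nlinarith [mul_le_mul_of_nonneg_left h hρ.le]

include hj hη hΛ hF in
theorem cl_pp_le (hc : 0 < c) (hx : x ∈ S.Ω) (h : ∀ a, 0 ≤ S.yy F a x)
    (hs : ∑ a, S.yy F a x ≤ 2 * j) : S.pp F x ≤ c⁻¹ * S.q F.z x := by
  have hj1 : (1 : ℝ) ≤ j := by exact_mod_cast hj
  have hw := F.simplex_mem S.convex_C (by linarith) (fun a => S.yy F a x) h (hs.trans hΛ)
  have h1 := (F.cap hj hη hΛ hF).cen x hx _ hw (by
    rw [F.cl_cap_le_iff, add_sub_cancel_left]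
    simp only [F.y_sum]
    linarith)
  rw [F.cl_cap_z] at h1
  have hρ := S.rho_pos hx
  rw [S.pp_eq, Sol.q, le_inv_mul_iff₀ hc]
  nlinarith [mul_le_mul_of_nonneg_left h1 hρ.le]

theorem cl_af_z_eq (a : Fin j) (x : E n) : S.af (F.y a) F.z x = S.yy F a x - 1 := F.cl_y_sub_z a _

theorem cl_abs_N_le_one_sub (hc : 0 < c) (hx : x ∈ S.Ω) {a b : Fin j} (hab : b ≠ a) :
    |(F.cap hj hη hΛ hF).N (F.e b) x| ≤ 1 - (F.cap hj hη hΛ hF).N (F.e a) x := by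
  have hj1 : (1 : ℝ) ≤ j := by exact_mod_cast hj
  have h0 : 0 < S.tp x F.z := (F.cap hj hη hΛ hF).tp_z_pos hc hx
  have key : ∀ σ : ℝ, -1 ≤ σ → σ ≤ 1 →
      0 ≤ S.tp x F.z - S.nb x (F.e a) + σ * S.nb x (F.e b) := fun σ h1 h2 => by
    have hm : F.z - F.e a + σ • F.e b ∈ S.C := by
      rw [F.cl_z_sub_add_e]
      refine F.simplex_mem S.convex_C (by linarith) _ (fun d => ?_) ?_
      · by_cases hda : d = a
        · have hdb : ¬ d = b := fun h => hab (h.symm.trans hda)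
          simp [hda, hab.symm]
        · by_cases hdb : d = b
          · simp only [if_neg hda, if_pos hdb]; linarith
          · simp [hda, hdb]
      · simp [Finset.sum_add_distrib, Finset.sum_sub_distrib]; linarith
    have h := S.tp_nonneg hx hm
    rw [S.cl_tp_add, sub_eq_add_neg, S.cl_tp_add, S.nb_smul, ← neg_one_smul ℝ, S.nb_smul] at h
    linarith
  have k1 := key 1 (by norm_num) le_rfl
  have k2 := key (-1) le_rfl (by norm_num)
  simp only [Cap.N, F.cl_cap_z]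
  rw [abs_div, abs_of_pos h0, one_sub_div h0.ne', div_le_div_iff_of_pos_right h0, abs_le]
  constructor <;> linarith

end Cfg

set_option maxHeartbeats 400000 in
theorem cell_upper (n j : ℕ) (hn : 1 ≤ n) (hj : 1 ≤ j) {c b : ℝ} (hc : 0 < c) (hb : 0 < b)
    (hb1 : b < 1) :
    ∃ A, ∀ (S : Sol n) (η Λ : ℝ) (F : Cfg S.C j η Λ), η ≤ 1 → 2 * j ≤ Λ → F.Centered c →
      IsCompact {x | x ∈ S.Ω ∧ ∀ a, b ≤ S.yy F a x ∧ S.yy F a x ≤ 1} ∧
      (∀ x ∈ S.Ω, (∀ a, b ≤ S.yy F a x ∧ S.yy F a x ≤ 1) → 0 < S.pp F x) ∧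
      ∀ a, ∫ x in {x | x ∈ S.Ω ∧ ∀ a, b ≤ S.yy F a x ∧ S.yy F a x ≤ 1}, S.err F a x ≤ A := by
  obtain ⟨A₀, hA₀⟩ := mass_upper n hc (r := 0) zero_lt_one
  obtain ⟨A₁, hA₁⟩ := cacc_LQ n hn hc (r := 0) zero_lt_one
  have hj1 : (1 : ℝ) ≤ j := by exact_mod_cast hj
  obtain ⟨A₂, hA₂⟩ := cacc_af n hn hc (r := 0) zero_lt_one (3 * j) (by positivity)
  set κ : ℝ := b ^ (-(n : ℝ) / 2) * b⁻¹ * c⁻¹ with hκ
  have hκ0 : 0 ≤ κ := by positivity
  refine ⟨κ * (3 * j * A₀ + A₁ / 2 + (1 + j) / 2 * A₂ + ∑ _d : Fin j, A₂ / 2), ?_⟩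
  intro S η Λ F hη hΛ hF
  set K := F.cap hj hη hΛ hF with hK
  have hT : IsCompact (K.sec 0) := K.isCompact_sec zero_le_one
  have hTΩ : K.sec 0 ⊆ S.Ω := fun x hx => hx.1
  set D := {x | x ∈ S.Ω ∧ ∀ a, b ≤ S.yy F a x ∧ S.yy F a x ≤ 1} with hD
  have hDT : D ⊆ K.sec 0 := fun x hx => by
    rw [hK, F.cl_mem_sec_iff]
    refine ⟨hx.1, (Finset.sum_le_sum fun a _ => (hx.2 a).2).trans ?_⟩
    simp
  have hDc : IsCompact D := by
    have e : D = K.sec 0 ∩ (fun x a => S.yy F a x) ⁻¹' (Set.pi univ fun _ => Icc b 1) := by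
      ext x
      constructor
      · exact fun hx => ⟨hDT hx, fun a _ => hx.2 a⟩
      · exact fun hx => ⟨hx.1.1, fun a => hx.2 a (mem_univ a)⟩
    rw [e]
    exact cl_isCompact_inter_preimage hT
      (continuousOn_pi.2 fun a => (S.contDiffOn_yy F a).continuousOn.mono hTΩ)
      (isClosed_set_pi fun _ _ => isClosed_Icc)
  have hge : ∀ x ∈ D, b * S.q F.z x ≤ S.pp F x := fun x hx => by
    refine S.cl_pp_ge F (by linarith) hx.1 hb1 (fun a => (hx.2 a).1) ?_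
    have h1 : ∑ a, (S.yy F a x - b) ≤ ∑ _a : Fin j, (1 - b) :=
      Finset.sum_le_sum fun a _ => by linarith [(hx.2 a).2]
    simp only [Finset.sum_const, Finset.card_univ, Fintype.card_fin, nsmul_eq_mul] at h1
    nlinarith
  have hpos : ∀ x ∈ D, 0 < S.pp F x := fun x hx =>
    (mul_pos hb (K.q_pos hc hx.1)).trans_le (hge x hx)
  refine ⟨hDc, fun x hx h => hpos x ⟨hx, h⟩, fun a => ?_⟩
  set m : (E n → ℝ) → E n → ℝ := fun f x => S.mu K.z x * (S.q K.z x * S.G f f x) with hm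
  set f : Fin j → E n → ℝ := fun d => S.af (F.y d) K.z with hf
  have i0 := S.cl_integrableOn_mu hc K hT hTΩ
  have i1 : IntegrableOn (m K.LQ) (K.sec 0) :=
    S.cl_integrableOn_mu_QG hc K hT hTΩ (K.contDiffOn_LQ hc)
  have i2 : ∀ d, IntegrableOn (m (f d)) (K.sec 0) := fun d =>
    S.cl_integrableOn_mu_QG hc K hT hTΩ (S.contDiffOn_af _ _)
  have b2 : ∀ d, ∫ x in K.sec 0, m (f d) x ≤ A₂ := fun d =>
    hA₂ S K (F.y d) (F.cl_cap_abs_y hj hη hΛ hF d)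
  have b1 : ∫ x in K.sec 0, m K.LQ x ≤ A₁ := hA₁ S K
  have b0 := hA₀ S K
  have i0' : IntegrableOn (fun x => 3 * j * S.mu K.z x) (K.sec 0) := i0.const_mul _
  have i1' : IntegrableOn (fun x => m K.LQ x / 2) (K.sec 0) := i1.div_const _
  have i2' : IntegrableOn (fun x => (1 + j) / 2 * m (f a) x) (K.sec 0) := (i2 a).const_mul _
  have i3 : ∀ d, IntegrableOn (fun x => m (f d) x / 2) (K.sec 0) := fun d => (i2 d).div_const _
  have i3' : IntegrableOn (fun x => ∑ d, m (f d) x / 2) (K.sec 0) :=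
    integrable_finsetSum _ fun d _ => i3 d
  have i01 : IntegrableOn (fun x => 3 * j * S.mu K.z x + m K.LQ x / 2) (K.sec 0) := i0'.add i1'
  have i012 : IntegrableOn
      (fun x => 3 * j * S.mu K.z x + m K.LQ x / 2 + (1 + j) / 2 * m (f a) x) (K.sec 0) :=
    i01.add i2'
  set g : E n → ℝ := fun x =>
    3 * j * S.mu K.z x + m K.LQ x / 2 + (1 + j) / 2 * m (f a) x + ∑ d, m (f d) x / 2 with hg
  have ig : IntegrableOn g (K.sec 0) := i012.add i3'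
  have hm0 : ∀ f, ∀ x ∈ S.Ω, 0 ≤ m f x := fun f x hx => S.cl_mu_QG_nonneg hc K hx f
  have g0 : ∀ x ∈ K.sec 0, 0 ≤ g x := fun x hx => by
    have h1 := hm0 K.LQ x hx.1
    have h2 := hm0 (f a) x hx.1
    have h3 : 0 ≤ ∑ d, m (f d) x / 2 :=
      Finset.sum_nonneg fun d _ => div_nonneg (hm0 _ x hx.1) zero_le_two
    have h4 := (mu_pos hc K hx.1).le
    exact add_nonneg (add_nonneg (add_nonneg (mul_nonneg (by linarith) h4)
      (div_nonneg h1 zero_le_two)) (mul_nonneg (by linarith) h2)) h3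
  have bg : ∫ x in K.sec 0, g x
      ≤ 3 * j * A₀ + A₁ / 2 + (1 + j) / 2 * A₂ + ∑ _d : Fin j, A₂ / 2 := by
    simp only [hg]
    rw [integral_add i012 i3', integral_add i01 i2', integral_add i0' i1', integral_const_mul,
      integral_const_mul, integral_div, integral_finsetSum _ fun d _ => i3 d]
    simp only [integral_div]
    exact add_le_add (add_le_add (add_le_add (mul_le_mul_of_nonneg_left b0 (by linarith))
      (div_le_div_of_nonneg_right b1 zero_le_two)) (mul_le_mul_of_nonneg_left (b2 a) (by linarith)))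
      (Finset.sum_le_sum fun d _ => div_le_div_of_nonneg_right (b2 d) zero_le_two)
  have hpt : ∀ x ∈ D, S.err F a x ≤ κ * g x := fun x hx => by
    have hΩ := hx.1
    have hQ : 0 < S.q K.z x := K.q_pos hc hΩ
    have hρ := S.rho_pos hΩ
    have hμ := mu_pos hc K hΩ
    have hmp : S.mp F x ≤ b ^ (-(n : ℝ) / 2) * S.mu K.z x := by
      have h1 : S.pp F x ^ (-(n : ℝ) / 2) ≤ (b * S.q K.z x) ^ (-(n : ℝ) / 2) :=
        Real.rpow_le_rpow_of_nonpos (mul_pos hb hQ) (hge x hx)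
          (by have : (0 : ℝ) ≤ n := Nat.cast_nonneg n
              linarith)
      rw [Real.mul_rpow hb.le hQ.le] at h1
      rw [Sol.mp, Sol.mu, ← mul_assoc]
      exact mul_le_mul_of_nonneg_right h1 (inv_nonneg.2 hρ.le)
    have hsum : ∑ d, S.yy F d x ≤ 2 * j := by
      have := ((F.cl_mem_sec_iff hj hη hΛ hF 0).1 (hDT hx)).2
      linarith
    have hple : S.pp F x ≤ c⁻¹ * S.q K.z x :=
      F.cl_pp_le hj hη hΛ hF hc hΩ (fun d => hb.le.trans (hx.2 d).1) hsum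
    have hfa : |f a x| ≤ 3 * j := F.cl_abs_y_le hj hη hΛ (S.X_mem hΩ) hsum a
    have hxi : |S.pp F x * S.xi (F.y a) x| ≤ c⁻¹ * (3 * j +
        (S.q K.z x * S.G K.LQ K.LQ x + S.q K.z x * S.G (f a) (f a) x) / 2) := by
      have h1 := S.cl_abs_G_le hΩ K.LQ (f a) zero_lt_one
      rw [inv_one, one_mul, one_mul] at h1
      have h2 : |S.q K.z x * S.xi (F.y a) x| ≤ 3 * j +
          (S.q K.z x * S.G K.LQ K.LQ x + S.q K.z x * S.G (f a) (f a) x) / 2 := by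
        have e : S.q K.z x * S.xi (F.y a) x = S.q K.z x * S.G K.LQ (f a) x - f a x := by
          rw [K.xi_eq hc hΩ]; simp only [hf]; field_simp
        rw [e]
        refine (abs_sub _ _).trans ?_
        rw [abs_mul, abs_of_pos hQ]
        nlinarith [mul_le_mul_of_nonneg_left h1 hQ.le]
      rw [abs_mul, abs_of_pos hQ] at h2
      rw [abs_mul, abs_of_pos (hpos x hx)]
      calc S.pp F x * |S.xi (F.y a) x| ≤ c⁻¹ * S.q K.z x * |S.xi (F.y a) x| := by gcongr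
        _ = c⁻¹ * (S.q K.z x * |S.xi (F.y a) x|) := by ring
        _ ≤ _ := by gcongr
    have hZ : |S.ZG F (S.yy F a) x| ≤ c⁻¹ * ∑ d,
        (S.q K.z x * S.G (f d) (f d) x + S.q K.z x * S.G (f a) (f a) x) / 2 := by
      rw [Sol.ZG, Finset.mul_sum]
      refine (Finset.abs_sum_le_sum_abs _ _).trans (Finset.sum_le_sum fun d _ => ?_)
      have h1 := S.cl_abs_G_le hΩ (f d) (f a) zero_lt_one
      rw [inv_one, one_mul, one_mul] at h1
      have h2 : S.G (S.yy F d) (S.yy F a) x = S.G (f d) (f a) x := S.cl_G_af_af_base hΩ _ _ _ _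
      have h3 : |S.nu (F.e d) x| ≤ c⁻¹ * S.q K.z x := F.cl_abs_nu_e hj hη hΛ hF hc hΩ d
      rw [abs_mul, h2]
      calc |S.nu (F.e d) x| * |S.G (f d) (f a) x|
          ≤ (c⁻¹ * S.q K.z x) * ((S.G (f d) (f d) x + S.G (f a) (f a) x) / 2) := by gcongr
        _ = _ := by ring
    have hdiv : (|S.pp F x * S.xi (F.y a) x| + |S.ZG F (S.yy F a) x|) / S.yy F a x
        ≤ b⁻¹ * (c⁻¹ * (3 * j +
        (S.q K.z x * S.G K.LQ K.LQ x + S.q K.z x * S.G (f a) (f a) x) / 2) + c⁻¹ * ∑ d,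
        (S.q K.z x * S.G (f d) (f d) x + S.q K.z x * S.G (f a) (f a) x) / 2) := by
      rw [div_eq_inv_mul]
      exact mul_le_mul (inv_anti₀ hb (hx.2 a).1) (add_le_add hxi hZ) (by positivity)
        (by positivity)
    have hd0 : 0 ≤ (|S.pp F x * S.xi (F.y a) x| + |S.ZG F (S.yy F a) x|) / S.yy F a x :=
      div_nonneg (by positivity) (hb.le.trans (hx.2 a).1)
    refine (mul_le_mul hmp hdiv hd0 (by positivity)).trans (le_of_eq ?_)
    have e : ∑ d, m (f d) x / 2 = S.mu K.z x * ∑ d, S.q K.z x * S.G (f d) (f d) x / 2 := by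
      rw [Finset.mul_sum]
      exact Finset.sum_congr rfl fun d _ => by simp only [hm]; ring
    simp only [hg, e, add_div, Finset.sum_add_distrib, Finset.sum_const, Finset.card_univ,
      Fintype.card_fin, nsmul_eq_mul]
    simp only [hm, hκ]
    ring
  have he0 : ∀ x ∈ D, 0 ≤ S.err F a x := fun x hx =>
    mul_nonneg (mul_nonneg (Real.rpow_nonneg (hpos x hx).le _)
      (inv_nonneg.2 (S.rho_pos hx.1).le)) (div_nonneg (by positivity) (hb.le.trans (hx.2 a).1))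
  calc ∫ x in D, S.err F a x ≤ ∫ x in D, κ * g x :=
        integral_mono_of_nonneg
          ((ae_restrict_iff' hDc.measurableSet).2 (Filter.Eventually.of_forall he0))
          ((ig.mono_set hDT).const_mul κ)
          ((ae_restrict_iff' hDc.measurableSet).2 (Filter.Eventually.of_forall hpt))
    _ = κ * ∫ x in D, g x := integral_const_mul _ _
    _ ≤ κ * ∫ x in K.sec 0, g x :=
        mul_le_mul_of_nonneg_left (cl_integral_mono_sub hT.measurableSet hDT ig g0) hκ0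
    _ ≤ _ := mul_le_mul_of_nonneg_left bg hκ0

set_option maxHeartbeats 400000 in
theorem cell_lower (n j : ℕ) (hn : 1 ≤ n) (hj : 2 ≤ j) {c : ℝ} (hc : 0 < c) :
    ∃ c₁ > (0 : ℝ), ∃ c₂ > (0 : ℝ), c₁ < 1 ∧ ∀ (S : Sol n) (η Λ : ℝ) (F : Cfg S.C j η Λ),
      η ≤ c₁ → 4 * j ≤ Λ → F.Centered c →
      c₂ ≤ ∫ x in {x | x ∈ S.Ω ∧ (∀ a, c₁ ≤ S.yy F a x) ∧ ∑ a, S.yy F a x ≤ 2 * j}, S.mp F x := by
  have hj' : 1 ≤ j := by omega
  have hj1 : (1 : ℝ) ≤ j := by exact_mod_cast hj'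
  have hr : (5 / 8 : ℝ) < 1 := by norm_num
  obtain ⟨a₀, ha₀, hmass⟩ := mass_lower n hn hc
  obtain ⟨A₁, hA₁⟩ := slab_N n hn hc hr
  obtain ⟨A₂, hA₂⟩ := cacc_af n hn hc hr (3 * j) (by positivity)
  obtain ⟨A₃, hA₃⟩ := cacc_N n hn hc hr
  obtain ⟨A₄, hA₄⟩ := slab_af n hn hc hr (3 * j) (by positivity)
  obtain ⟨A, hA, h1A, h2A, h3A, h4A⟩ : ∃ A : ℝ, 0 < A ∧ A₁ ≤ A ∧ A₂ ≤ A ∧ A₃ ≤ A ∧ A₄ ≤ A :=
    ⟨|A₁| + |A₂| + |A₃| + |A₄| + 1, by positivity,
      by linarith [le_abs_self A₁, abs_nonneg A₂, abs_nonneg A₃, abs_nonneg A₄],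
      by linarith [le_abs_self A₂, abs_nonneg A₁, abs_nonneg A₃, abs_nonneg A₄],
      by linarith [le_abs_self A₃, abs_nonneg A₂, abs_nonneg A₁, abs_nonneg A₄],
      by linarith [le_abs_self A₄, abs_nonneg A₂, abs_nonneg A₃, abs_nonneg A₁]⟩
  obtain ⟨δ, hδ, hδA⟩ : ∃ δ : ℝ, 0 < δ ∧ j * (4 * (δ * A)) = a₀ / 2 :=
    ⟨a₀ / (8 * j * A), by positivity, by field_simp; ring⟩
  obtain ⟨τ, hτ, hτ1, hτ2⟩ : ∃ τ : ℝ, 0 < τ ∧ τ ≤ δ * δ ∧ τ * (3 * j) ≤ 1 / 2 := by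
    refine ⟨min (δ * δ) (1 / (6 * j)), by positivity, min_le_left _ _, ?_⟩
    have h := min_le_right (δ * δ) (1 / (6 * (j : ℝ)))
    rw [le_div_iff₀ (by positivity)] at h
    linarith
  obtain ⟨c₁, hc₁, hc1, hc2, hc3⟩ : ∃ c₁ : ℝ, 0 < c₁ ∧ c₁ ≤ 1 / 2 ∧ c₁ ≤ c * τ / 2 ∧
      c₁ ≤ δ * τ * (δ * τ) :=
    ⟨min (1 / 2) (min (c * τ / 2) (δ * τ * (δ * τ))), by positivity, min_le_left _ _,
      (min_le_right _ _).trans (min_le_left _ _), (min_le_right _ _).trans (min_le_right _ _)⟩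
  refine ⟨c₁, hc₁, (c⁻¹) ^ (-(n : ℝ) / 2) * (a₀ / 2), by positivity, by linarith, ?_⟩
  intro S η Λ F hη' hΛ' hF
  have hη : η ≤ 1 := by linarith
  have hΛ : 2 * (j : ℝ) ≤ Λ := by linarith
  have hoth : ∀ a : Fin j, ∃ b : Fin j, b ≠ a := fun a =>
    haveI : Nontrivial (Fin j) := Fin.nontrivial_iff_two_le.2 hj
    exists_ne a
  choose β hβ using hoth
  obtain ⟨K, hK⟩ : ∃ K, K = F.cap hj' hη hΛ hF := ⟨_, rfl⟩
  have hz : K.z = F.z := by rw [hK]; rfl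
  have hsec : ∀ r x, x ∈ K.sec r ↔ x ∈ S.Ω ∧ ∑ a, S.yy F a x ≤ (1 + r) * j := fun r x => by
    rw [hK]; exact F.cl_mem_sec_iff hj' hη hΛ hF r
  have hl : ∀ b, |K.l (F.e b)| ≤ 3 := fun b => by rw [hK]; exact F.cl_cap_abs_l_e hj' hη hΛ hF b
  have hN : ∀ b, ∀ x ∈ S.Ω, |K.N (F.e b) x| ≤ c⁻¹ := fun b => by
    rw [hK]; exact F.cl_abs_N_e hj' hη hΛ hF hc b
  have hy : ∀ a, ∀ w ∈ S.C, K.l (w - K.z) ≤ 1 → |F.y a (w - K.z)| ≤ 3 * j := fun a => by
    rw [hK]; exact F.cl_cap_abs_y hj' hη hΛ hF a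
  have hNN : ∀ a, ∀ x ∈ S.Ω, |K.N (F.e (β a)) x| ≤ 1 - K.N (F.e a) x := fun a x hx => by
    rw [hK]; exact F.cl_abs_N_le_one_sub hj' hη hΛ hF hc hx (hβ a)
  clear hK
  obtain ⟨f, hf⟩ : ∃ f : Fin j → E n → ℝ, ∀ d, f d = S.af (F.y d) K.z := ⟨_, fun _ => rfl⟩
  have hfy : ∀ d x, f d x = S.yy F d x - 1 := fun d x => by rw [hf, hz]; exact F.cl_af_z_eq d x
  have hfs : ∀ d, ContDiffOn ℝ ∞ (f d) S.Ω := fun d => by rw [hf]; exact S.contDiffOn_af _ _
  have hGN : ∀ d, ∀ x ∈ S.Ω, S.q K.z x * S.G (K.N (F.e d)) (f d) x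
      = -(1 + K.N (F.e d) x * f d x) := fun d x hx => by
    rw [hf, K.q_G_N_af hc hx, F.dual, if_pos rfl]; rfl
  have hT : IsCompact (K.sec (5 / 8)) := K.isCompact_sec hr.le
  have hTΩ : K.sec (5 / 8) ⊆ S.Ω := fun x hx => hx.1
  have hT1 : IsCompact (K.sec 1) := K.isCompact_sec le_rfl
  have hT1Ω : K.sec 1 ⊆ S.Ω := fun x hx => hx.1
  have hTsum : ∀ x ∈ K.sec (5 / 8), ∑ a, S.yy F a x ≤ 2 * j := fun x hx => by
    have := ((hsec _ x).1 hx).2
    linarith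
  have hfT : ∀ d, ∀ x ∈ K.sec (5 / 8), |f d x| ≤ 3 * j := fun d x hx => by
    rw [hf]
    exact hy d _ (S.X_mem hx.1) (le_trans hx.2 hr.le)
  obtain ⟨R, hR⟩ : ∃ R, R = {x | x ∈ S.Ω ∧ (∀ a, c₁ ≤ S.yy F a x) ∧ ∑ a, S.yy F a x ≤ 2 * j} :=
    ⟨_, rfl⟩
  rw [← hR]
  have hRmem : ∀ x, x ∈ R ↔ x ∈ S.Ω ∧ (∀ a, c₁ ≤ S.yy F a x) ∧ ∑ a, S.yy F a x ≤ 2 * j :=
    fun x => by rw [hR]; rfl
  have hRc : IsCompact R := by
    have e : R = K.sec 1 ∩ (fun x a => S.yy F a x) ⁻¹' (Set.pi univ fun _ => Ici c₁) := by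
      ext x
      rw [hRmem, mem_inter_iff, hsec]
      constructor
      · exact fun hx => ⟨⟨hx.1, by linarith [hx.2.2]⟩, fun a _ => hx.2.1 a⟩
      · exact fun hx => ⟨hx.1.1, fun a => hx.2 a (mem_univ a), by linarith [hx.1.2]⟩
    rw [e]
    exact cl_isCompact_inter_preimage hT1
      (continuousOn_pi.2 fun a => (S.contDiffOn_yy F a).continuousOn.mono hT1Ω)
      (isClosed_set_pi fun _ _ => isClosed_Ici)
  have hRΩ : R ⊆ S.Ω := fun x hx => ((hRmem x).1 hx).1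
  have hRpos : ∀ x ∈ R, 0 < S.pp F x := fun x hx => by
    obtain ⟨hΩ, h1, h2⟩ := (hRmem x).1 hx
    refine (mul_pos hc₁ (K.q_pos hc hΩ)).trans_le ?_
    rw [hz]
    refine S.cl_pp_ge F (by linarith) hΩ (by linarith) h1 ?_
    simp only [Finset.sum_sub_distrib, Finset.sum_const, Finset.card_univ, Fintype.card_fin,
      nsmul_eq_mul]
    nlinarith
  have hRi : IntegrableOn (S.mp F) R := by
    refine ContinuousOn.integrableOn_compact hRc ?_
    exact (((S.contDiffOn_pp F).continuousOn.mono hRΩ).rpow_const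
      fun x hx => Or.inl (hRpos x hx).ne').mul
      ((S.contDiffOn_rho.continuousOn.mono hRΩ).inv₀ fun x hx => (S.rho_pos (hRΩ hx)).ne')
  have hRpt : ∀ x ∈ R, (c⁻¹) ^ (-(n : ℝ) / 2) * S.mu K.z x ≤ S.mp F x := fun x hx => by
    obtain ⟨hΩ, h1, h2⟩ := (hRmem x).1 hx
    have hQ : 0 < S.q K.z x := K.q_pos hc hΩ
    have hple : S.pp F x ≤ c⁻¹ * S.q K.z x := by
      rw [hz]
      exact F.cl_pp_le hj' hη hΛ hF hc hΩ (fun d => hc₁.le.trans (h1 d)) h2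
    have h3 : (c⁻¹ * S.q K.z x) ^ (-(n : ℝ) / 2) ≤ S.pp F x ^ (-(n : ℝ) / 2) :=
      Real.rpow_le_rpow_of_nonpos (hRpos x hx) hple
        (by have : (0 : ℝ) ≤ n := Nat.cast_nonneg n
            linarith)
    rw [Real.mul_rpow (inv_nonneg.2 hc.le) hQ.le] at h3
    rw [Sol.mp, Sol.mu, ← mul_assoc]
    exact mul_le_mul_of_nonneg_right h3 (inv_nonneg.2 (S.rho_pos hΩ).le)
  have iμ := S.cl_integrableOn_mu hc K hT hTΩ
  have iμR := S.cl_integrableOn_mu hc K hRc hRΩ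
  have hμ0 : ∀ x ∈ S.Ω, 0 ≤ S.mu K.z x := fun x hx => (mu_pos hc K hx).le
  have iN : ∀ d, IntegrableOn (fun x => S.mu K.z x * (S.q K.z x *
      S.G (K.N (F.e d)) (K.N (F.e d)) x)) (K.sec (5 / 8)) := fun d =>
    S.cl_integrableOn_mu_QG hc K hT hTΩ (K.contDiffOn_N hc _)
  have iF : ∀ d, IntegrableOn (fun x => S.mu K.z x * (S.q K.z x * S.G (f d) (f d) x))
      (K.sec (5 / 8)) := fun d => S.cl_integrableOn_mu_QG hc K hT hTΩ (hfs d)
  have hNc : ∀ d, ContinuousOn (K.N (F.e d)) (K.sec (5 / 8)) := fun d =>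
    (K.contDiffOn_N hc _).continuousOn.mono hTΩ
  have hfc : ∀ d, ContinuousOn (f d) (K.sec (5 / 8)) := fun d => (hfs d).continuousOn.mono hTΩ
  -- the three kinds of pieces
  obtain ⟨P, hP⟩ : ∃ P : Fin j → Set (E n),
      ∀ a, P a = K.sec (5 / 8) ∩ {x | |K.N (F.e (β a)) x| ≤ τ} := ⟨_, fun _ => rfl⟩
  obtain ⟨P₀, hP₀⟩ : ∃ P₀ : Fin j → Set (E n),
      ∀ a, P₀ a = K.sec (5 / 8) ∩ {x | |f a x - (-1)| ≤ c₁} := ⟨_, fun _ => rfl⟩
  obtain ⟨P', hP'⟩ : ∃ P' : Fin j → Set (E n),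
      ∀ a, P' a = P₀ a ∩ {x | τ / 2 ≤ 1 + K.N (F.e a) x * f a x} := ⟨_, fun _ => rfl⟩
  have hPT : ∀ a, P a ⊆ K.sec (5 / 8) := fun a => by rw [hP]; exact inter_subset_left
  have hP₀T : ∀ a, P₀ a ⊆ K.sec (5 / 8) := fun a => by rw [hP₀]; exact inter_subset_left
  have hP'₀ : ∀ a, P' a ⊆ P₀ a := fun a => by rw [hP']; exact inter_subset_left
  have hPc : ∀ a, IsCompact (P a) := fun a => by
    rw [hP]
    exact cl_isCompact_inter_preimage hT (hNc (β a)).abs (isClosed_Iic (a := τ))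
  have hP₀c : ∀ a, IsCompact (P₀ a) := fun a => by
    rw [hP₀]
    exact cl_isCompact_inter_preimage hT ((hfc a).sub continuousOn_const).abs (isClosed_Iic (a := c₁))
  have hP'c : ∀ a, IsCompact (P' a) := fun a => by
    rw [hP']
    exact cl_isCompact_inter_preimage (hP₀c a)
      ((continuousOn_const.add ((hNc a).mul (hfc a))).mono (hP₀T a)) (isClosed_Ici (a := τ / 2))
  have bP : ∀ a, ∫ x in P a, S.mu K.z x ≤ 2 * (δ * A) := fun a => by
    have h1 := hA₁ S K (F.e (β a)) (hl _) (hN _) τ hτ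
    rw [← hP] at h1
    have h2 := hA₂ S K (F.y (β a)) (hy _)
    rw [← hf] at h2
    refine (cl_integral_piece hT.measurableSet (hPc a).measurableSet (hPc a).measurableSet
      subset_rfl (hPT a) iμ (iN (β a)) (iF (β a))
      (fun x hx => S.cl_mu_QG_nonneg hc K hx.1 _) (fun x hx => S.cl_mu_QG_nonneg hc K hx.1 _)
      (inv_nonneg.2 hδ.le) hδ.le h1 h2 fun x hx => ?_).trans ?_
    · have hxT := hPT a hx
      have hΩ := hxT.1
      have hQ : 0 < S.q K.z x := K.q_pos hc hΩ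
      have hx2 : |K.N (F.e (β a)) x| ≤ τ := by rw [hP] at hx; exact hx.2
      have h3 : |K.N (F.e (β a)) x * f (β a) x| ≤ 1 / 2 := by
        rw [abs_mul]
        exact (mul_le_mul hx2 (hfT _ x hxT) (abs_nonneg _) hτ.le).trans hτ2
      have h4 := mul_le_mul_of_nonneg_left (S.cl_abs_G_le hΩ (K.N (F.e (β a))) (f (β a)) hδ) hQ.le
      have h5 : 1 / 2 ≤ S.q K.z x * |S.G (K.N (F.e (β a))) (f (β a)) x| := by
        rw [← abs_of_pos hQ, ← abs_mul, hGN _ x hΩ, abs_neg]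
        exact le_trans (by linarith [(abs_le.1 h3).1]) (le_abs_self _)
      have h6 := mul_le_mul_of_nonneg_left (h5.trans h4) (hμ0 x hΩ)
      linarith
    · have h3 : δ⁻¹ * (A₁ * τ) ≤ δ * A := by
        rw [inv_mul_le_iff₀ hδ]
        calc A₁ * τ ≤ A * τ := mul_le_mul_of_nonneg_right h1A hτ.le
          _ ≤ A * (δ * δ) := mul_le_mul_of_nonneg_left hτ1 hA.le
          _ = _ := by ring
      have h4 : δ * A₂ ≤ δ * A := mul_le_mul_of_nonneg_left h2A hδ.le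
      linarith
  have bP' : ∀ a, ∫ x in P' a, S.mu K.z x ≤ 2 * (δ * A) := fun a => by
    have h1 := hA₄ S K (F.y a) (hy _) (-1) c₁ hc₁
    rw [← hf, ← hP₀] at h1
    have h2 := hA₃ S K (F.e a) (hl _) (hN _)
    have hs : 0 < δ * τ := mul_pos hδ hτ
    refine (cl_integral_piece hT.measurableSet (hP'c a).measurableSet (hP₀c a).measurableSet
      (hP'₀ a) (hP₀T a) iμ (iF a) (iN a)
      (fun x hx => S.cl_mu_QG_nonneg hc K hx.1 _) (fun x hx => S.cl_mu_QG_nonneg hc K hx.1 _)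
      (α := τ⁻¹ * (δ * τ)⁻¹) (by positivity) hδ.le h1 h2 fun x hx => ?_).trans ?_
    · have hxT := hP₀T a (hP'₀ a hx)
      have hΩ := hxT.1
      have hQ : 0 < S.q K.z x := K.q_pos hc hΩ
      have hx2 : τ / 2 ≤ 1 + K.N (F.e a) x * f a x := by rw [hP'] at hx; exact hx.2
      have h4 := mul_le_mul_of_nonneg_left (S.cl_abs_G_le hΩ (f a) (K.N (F.e a)) hs) hQ.le
      have h5 : τ / 2 ≤ S.q K.z x * |S.G (f a) (K.N (F.e a)) x| := by
        rw [← abs_of_pos hQ, ← abs_mul, S.G_comm hΩ, hGN _ x hΩ, abs_neg]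
        exact le_trans hx2 (le_abs_self _)
      have h6 := mul_le_mul_of_nonneg_left (h5.trans h4)
        (mul_nonneg (hμ0 x hΩ) (inv_nonneg.2 hτ.le))
      have e1 : S.mu K.z x * τ⁻¹ * (τ / 2) = S.mu K.z x / 2 := by field_simp
      have e2 : S.mu K.z x * τ⁻¹ * (S.q K.z x * (((δ * τ)⁻¹ * S.G (f a) (f a) x
          + δ * τ * S.G (K.N (F.e a)) (K.N (F.e a)) x) / 2))
          = (τ⁻¹ * (δ * τ)⁻¹ * (S.mu K.z x * (S.q K.z x * S.G (f a) (f a) x))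
          + δ * (S.mu K.z x * (S.q K.z x * S.G (K.N (F.e a)) (K.N (F.e a)) x))) / 2 := by
        field_simp
      rw [e1, e2] at h6
      linarith
    · have h3 : τ⁻¹ * (δ * τ)⁻¹ * (A₄ * c₁) ≤ δ * A := by
        rw [mul_assoc, inv_mul_le_iff₀ hτ, inv_mul_le_iff₀ hs]
        calc A₄ * c₁ ≤ A * c₁ := mul_le_mul_of_nonneg_right h4A hc₁.le
          _ ≤ A * (δ * τ * (δ * τ)) := mul_le_mul_of_nonneg_left hc3 hA.le
          _ = _ := by ring
      have h4 : δ * A₃ ≤ δ * A := mul_le_mul_of_nonneg_left h3A hδ.le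
      linarith
  have hcov : ∀ x ∈ K.sec (5 / 8), x ∈ K.sec (5 / 8) ∩ R ∨ ∃ a, x ∈ P a ∨ x ∈ P' a := by
    intro x hx
    have hΩ := hx.1
    by_cases h : ∀ a, c₁ ≤ S.yy F a x
    · exact Or.inl ⟨hx, (hRmem x).2 ⟨hΩ, h, hTsum x hx⟩⟩
    · push Not at h
      obtain ⟨a, ha⟩ := h
      refine Or.inr ⟨a, ?_⟩
      by_cases h2 : |K.N (F.e (β a)) x| ≤ τ
      · left; rw [hP]; exact ⟨hx, h2⟩
      · right
        push Not at h2
        have hlow : -η ≤ S.yy F a x := F.low _ (S.X_mem hΩ) ((hTsum x hx).trans hΛ) a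
        have habs : |S.yy F a x| ≤ c₁ := abs_le.2 ⟨by linarith, ha.le⟩
        rw [hP', hP₀]
        refine ⟨⟨hx, ?_⟩, ?_⟩
        · change |f a x - (-1)| ≤ c₁
          rw [hfy]; simpa using habs
        · change τ / 2 ≤ 1 + K.N (F.e a) x * f a x
          have h3 : |K.N (F.e a) x * S.yy F a x| ≤ τ / 2 := by
            rw [abs_mul]
            refine (mul_le_mul (hN a x hΩ) habs (abs_nonneg _) (inv_nonneg.2 hc.le)).trans ?_
            rw [inv_mul_le_iff₀ hc]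
            linarith
          have h4 := hNN a x hΩ
          rw [hfy]
          linarith [(abs_le.1 h3).1]
  have hc0 := cl_integral_cover hT.measurableSet (hT.measurableSet.inter hRc.measurableSet)
    (fun a => (hPc a).measurableSet) (fun a => (hP'c a).measurableSet) inter_subset_left hPT
    (fun a => (hP'₀ a).trans (hP₀T a)) iμ (fun x hx => hμ0 x hx.1) hcov
  have hsum : ∑ a, ((∫ x in P a, S.mu K.z x) + ∫ x in P' a, S.mu K.z x) ≤ a₀ / 2 := by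
    refine (Finset.sum_le_sum (g := fun _ => 4 * (δ * A)) fun a _ => ?_).trans ?_
    · linarith [bP a, bP' a]
    · simp only [Finset.sum_const, Finset.card_univ, Fintype.card_fin, nsmul_eq_mul]
      exact hδA.le
  have hm := hmass S K
  have hTR : ∫ x in K.sec (5 / 8) ∩ R, S.mu K.z x ≤ ∫ x in R, S.mu K.z x :=
    cl_integral_mono_sub hRc.measurableSet inter_subset_right iμR fun x hx => hμ0 x (hRΩ hx)
  calc (c⁻¹) ^ (-(n : ℝ) / 2) * (a₀ / 2) ≤ (c⁻¹) ^ (-(n : ℝ) / 2) * ∫ x in R, S.mu K.z x :=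
        mul_le_mul_of_nonneg_left (by linarith) (by positivity)
    _ = ∫ x in R, (c⁻¹) ^ (-(n : ℝ) / 2) * S.mu K.z x := (integral_const_mul _ _).symm
    _ ≤ ∫ x in R, S.mp F x :=
        setIntegral_mono_on (iμR.const_mul _) hRi hRc.measurableSet hRpt

end Crest.Agent.R236
end
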