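import Crest.Agent.R236.Transform

/-!
# Two-sided determinant bounds in normalised sections (Trudinger-Wang maximum principle arguments)

`NormB`: `tp 0 w = w.2`, `u ≥ 0`, `sec 0 h = lev h` is compact.
`tp_le`: apply `SC` with base `x`, `W₀ = w`, `W' = X x + (tp x w) • up`, `x' = 0`.
`t_lower`: apply `SC` with base `0`, `W₀ = X x`, `W' = (u x) • up`, `x' = x` (`tp x W' = tp x 0 + u x`).
`abs_du_le`: `tp x (eᵢ,1) - tp x (0,1) = -∂ᵢu`, both in `[0, 2/η]`.
`small_cube`: `segment_lev`; on `lev 1`, convexity gives `u x ≤ Du(x) x ≤ Σ|xᵢ| 2/η`.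
`det_upper`: maximise `(1-u) rho⁻¹ exp(A|Du|²/2)` over `lev 1` (`A = η²/(8n)`); at the (interior) maximum
`Ψ = -lr + log(1-u) + (A/2) Σ (∂ₖu)²` has `dΨ = 0`, `L0 Ψ ≤ 0`.  With `c = d log(1-u)`, `g = d(|Du|²/2)`,
`d lr = c + A g`, `B c g = -|Du|²/(1-u)`, `B g g = H(Du,Du) ≤ |Du|² tr H`, `L0(|Du|²/2) = tr H - (n+2) B g d lr`,
`L0 log(1-u) = -n/(1-u) - B c c`, `L0 lr = -(n+1) B dlr dlr`; adding `(n+2) B (d lr) dΨ = 0`:
`0 ≥ n B c c + n A B c g - A² B g g + A tr H - n/(1-u)`, so `(1-u) tr H ≤ C`, `(1-u)ⁿ det H ≤ C`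
(`det_le_trace_pow`), `((1-u)/rho)^{n+2} = (1-u)^{n+2} det H ≤ C`.
`det_lower`: `t = tp · 0` (`G0_tp`, `L0_tp`: `G0 t f = df(x)`, `L0 t = n - (n+2) G0 t lr`); maximise
`rho (η/2 - t) exp(A‖x‖²/2)` (`A = 1/(2n(n+1))`) over `lev (3/4)` : the maximum is positive (value at `0`), there
`t < η/2`, so `u < 1/2` (`t_lower`), interior.  `d lr = -c - A g`, `c = d log(η/2 - t)`, `g = d‖x‖²/2`,
`B c g = -‖x‖²/(η/2-t) ≤ 0`, `B g g ≤ ‖x‖² tr Hi`, `L0 ‖x‖²/2 = tr Hi`:
`0 ≥ -nA B c g - (n+1)A² B g g + A tr Hi - n/(η/2-t)`; so `(η/2-t) tr Hi ≤ C`, `rho (η/2 - t) ≤ C`.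
On `lev (η²/8)`, `t ≤ η/4` by `tp_le`.
`det_global`: for `x ∈ Ω` use `exists_normB` at `0` with `h ≥ 8 u x/η²`, and `tr_det` at the preimage of
`x` and at `0`: `det H x / det H 0 ∈ [λ/Λ, Λ/λ]`; also `det H 0 ∈ [λ, Λ]`.
-/

set_option autoImplicit false
open scoped ContDiff Topology
open Crest.GeometryTopology.CoordMetric Crest.GeometryTopology.AffineMaximal
open MeasureTheory Set

noncomputable section
namespace Crest.Agent.R236

variable {n : ℕ}

lemma db_two_le : (2 : WithTop ℕ∞) ≤ ∞ := WithTop.coe_le_coe.2 le_top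

lemma db_apply_eq_sum (β : E n →L[ℝ] ℝ) (y : E n) : β y = ∑ i, y i * β (ee i) := by
  have hy : y = ∑ i, y i • ee i := by
    ext k; simp [Pi.single_apply]
  conv_lhs => rw [hy]
  simp

lemma db_max {Ω K : Set (E n)} (hΩ : IsOpen Ω) (hK : IsCompact K) (hKΩ : K ⊆ Ω) {a F : E n → ℝ}
    (ha : ContinuousOn a Ω) (hF : ContinuousOn F Ω) {x₀ : E n} (hx₀ : x₀ ∈ K) (h0 : 0 < a x₀)
    (hint : ∀ y ∈ K, 0 < a y → K ∈ 𝓝 y) :
    ∃ y ∈ K, 0 < a y ∧ IsLocalMax (fun z => Real.log (a z) + F z) y ∧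
      ∀ x ∈ K, a x * Real.exp (F x) ≤ a y * Real.exp (F y) := by
  obtain ⟨y, hy, hmax⟩ := hK.exists_isMaxOn ⟨x₀, hx₀⟩ ((ha.mul hF.rexp).mono hKΩ)
  have hay : 0 < a y := by
    have h1 : a x₀ * Real.exp (F x₀) ≤ a y * Real.exp (F y) := hmax hx₀
    exact (mul_pos_iff_of_pos_right (Real.exp_pos (F y))).1
      ((mul_pos h0 (Real.exp_pos _)).trans_le h1)
  refine ⟨y, hy, hay, ?_, fun x hx => hmax hx⟩
  have h1 : ∀ᶠ z in 𝓝 y, 0 < a z :=
    (ha.continuousAt (hΩ.mem_nhds (hKΩ hy))).eventually (lt_mem_nhds hay)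
  filter_upwards [h1, hint y hy hay] with z hz hzK
  have h2 : a z * Real.exp (F z) ≤ a y * Real.exp (F y) := hmax hzK
  have h3 := Real.log_le_log (mul_pos hz (Real.exp_pos _)) h2
  rwa [Real.log_mul hz.ne' (Real.exp_pos _).ne', Real.log_mul hay.ne' (Real.exp_pos _).ne',
    Real.log_exp, Real.log_exp] at h3

namespace Sol
variable (S : Sol n)

lemma db_at {f : E n → ℝ} (hf : ContDiffOn ℝ ∞ f S.Ω) {x : E n} (hx : x ∈ S.Ω) :
    ContDiffAt ℝ 2 f x :=
  (hf.contDiffAt (S.isOpen.mem_nhds hx)).of_le db_two_le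

lemma db_L0_const_sub {f : E n → ℝ} {x : E n} (hf : ContDiffAt ℝ 2 f x) (c : ℝ) :
    S.L0 (fun y => c - f y) x = -S.L0 f x := by
  rw [S.L0_sub contDiffAt_const hf, S.L0_const, zero_sub]

lemma db_tp (x : E n) (w : V n) : S.tp x w = w.2 - S.u x - fderiv ℝ S.u x (w.1 - x) := rfl

lemma db_lev_nhds {r : ℝ} {y : E n} (hy : y ∈ S.Ω) (hu : S.u y < r) : S.lev r ∈ 𝓝 y := by
  filter_upwards [(S.u_at hy).continuousAt.eventually (gt_mem_nhds hu), S.isOpen.mem_nhds hy]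
    with z hz1 hz
  exact ⟨hz, hz1.le⟩

lemma db_exp_lr {x : E n} (hx : x ∈ S.Ω) : Real.exp (S.lr x) = S.rho x :=
  Real.exp_log (S.rho_pos hx)

/-- the maximum point computation for the upper bound -/
lemma db_upper_pt {A K : ℝ} (hA : 0 < A) (hAK : 2 * A * K = 1) {y : E n} (hy : y ∈ S.Ω)
    (hu : S.u y < 1) (hK : ∑ k, fderiv ℝ S.u y (ee k) ^ 2 ≤ K)
    (hm : IsLocalMax (fun z => Real.log (1 - S.u z) +
      (A / 2 * ∑ k, fderiv ℝ S.u z (ee k) * fderiv ℝ S.u z (ee k) - S.lr z)) y) :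
    (1 - S.u y) * (S.H y).trace ≤ 6 * n * K := by
  have hw : 0 < 1 - S.u y := sub_pos.2 hu
  have cu := S.db_at S.smooth hy
  have cw : ContDiffAt ℝ 2 (fun z => 1 - S.u z) y := contDiffAt_const.sub cu
  have cl := S.db_at S.contDiffOn_lr hy
  have cp := fun k => S.db_at (contDiffOn_fderiv_apply S.isOpen S.smooth (ee k)) hy
  have c1 : ContDiffAt ℝ 2 (fun z => Real.log (1 - S.u z)) y := cw.log hw.ne'
  have c2 : ∀ k, ContDiffAt ℝ 2 (fun z => fderiv ℝ S.u z (ee k) * fderiv ℝ S.u z (ee k)) y :=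
    fun k => (cp k).mul (cp k)
  have c3 : ContDiffAt ℝ 2 (fun z => ∑ k, fderiv ℝ S.u z (ee k) * fderiv ℝ S.u z (ee k)) y :=
    ContDiffAt.sum fun k _ => c2 k
  have c4 : ContDiffAt ℝ 2
      (fun z => A / 2 * ∑ k, fderiv ℝ S.u z (ee k) * fderiv ℝ S.u z (ee k)) y :=
    contDiffAt_const.mul c3
  have du := (cu.differentiableAt (by norm_num)).hasFDerivAt
  have dl := (cl.differentiableAt (by norm_num)).hasFDerivAt
  have dp := fun k => ((cp k).differentiableAt (by norm_num)).hasFDerivAt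
  have dw : HasFDerivAt (fun z => 1 - S.u z) (-fderiv ℝ S.u y) y := du.const_sub 1
  have hL := S.L0_nonpos_of_isLocalMax hy (c1.add (c4.sub cl)) hm
  have hD := hm.hasFDerivAt_eq_zero ((dw.log hw.ne').fun_add
    (((HasFDerivAt.fun_sum (u := Finset.univ) fun k _ =>
      (dp k).fun_mul (dp k)).const_mul (A / 2)).fun_sub dl))
  rw [S.L0_add c1 (c4.sub cl), S.L0_sub c4 cl, S.L0_const_mul _ c3, S.L0_sum _ fun k _ => c2 k,
    S.L0_log cw hw, S.db_L0_const_sub cu, S.L0_u hy, S.L0_lr hy] at hL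
  simp only [S.L0_mul hy (cp _) (cp _), S.L0_du hy, Sol.G0, dw.fderiv, S.B_du _ hy] at hL
  have gv : ∀ k j, fderiv ℝ (fun z => fderiv ℝ S.u z (ee k)) y (ee j) = S.H y j k := fun k j => rfl
  have hBg := fun k β => S.B_du β hy (ee k)
  simp only [gv] at hL
  generalize hgdef : (fun k => fderiv ℝ (fun z => fderiv ℝ S.u z (ee k)) y) = gk at *
  have hgk : ∀ k, fderiv ℝ (fun z => fderiv ℝ S.u z (ee k)) y = gk k := fun k => congrFun hgdef k
  simp only [hgk] at hD gv hBg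
  generalize fderiv ℝ S.lr y = l at *
  generalize 1 - S.u y = w at *
  generalize fderiv ℝ S.u y = d at *
  set g : E n →L[ℝ] ℝ := ∑ k, d (ee k) • gk k with hg
  have hBg' : ∀ β, S.B y g β = ∑ k, d (ee k) * β (ee k) := fun β => by
    simp only [hg, S.B_sum_left, S.B_smul_left, hBg]
  have hl : l = A • g - w⁻¹ • d := by
    ext v
    have := DFunLike.congr_fun hD v
    simp only [add_apply, sub_apply, smul_apply, neg_apply, smul_eq_mul, zero_apply, hg,
      sum_apply, ← two_mul, ← Finset.mul_sum] at this ⊢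
    linarith
  have e1 : ∑ k, (d (ee k) * (-((n : ℝ) + 2) * l (ee k)) + d (ee k) * (-((n : ℝ) + 2) * l (ee k))
      + 2 * S.H y k k) = -2 * ((n : ℝ) + 2) * S.B y g l + 2 * (S.H y).trace := by
    rw [hBg', Matrix.trace, Finset.mul_sum, Finset.mul_sum, ← Finset.sum_add_distrib]
    exact Finset.sum_congr rfl fun k _ => by simp only [Matrix.diag]; ring
  have e2 : S.B y g d = ∑ k, d (ee k) ^ 2 := by simp only [hBg', sq]
  have e3 : S.B y g g ≤ (S.H y).trace * K := by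
    refine le_trans ?_ ((quad_le_trace (S.H_posDef hy).posSemidef fun k => d (ee k)).trans
      (mul_le_mul_of_nonneg_left hK (S.H_posDef hy).posSemidef.trace_nonneg))
    rw [hBg']
    refine le_of_eq (Finset.sum_congr rfl fun k _ => ?_)
    simp only [hg, sum_apply, smul_apply, smul_eq_mul, gv, Finset.mul_sum]
    exact Finset.sum_congr rfl fun j _ => by ring
  have e4 := S.B_nonneg d hy
  rw [e1, hl] at hL
  simp only [S.B_sub_left, S.B_sub_right, S.B_smul_left, S.B_smul_right, S.B_neg_left,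
    S.B_neg_right, neg_neg, S.B_comm d g hy, e2] at hL
  have htr := (S.H_posDef hy).posSemidef.trace_nonneg
  generalize (S.H y).trace = τ at *
  generalize ∑ k, d (ee k) ^ 2 = P at *
  generalize S.B y g g = G at *
  generalize S.B y d d = D at *
  have hn : (0 : ℝ) ≤ n := Nat.cast_nonneg n
  have e5 : n * (D / w ^ 2) - n * A * (P / w) - A ^ 2 * G + A * τ - n / w ≤ 0 := by
    refine le_of_eq_of_le ?_ hL
    field_simp
    ring
  have e6 : 0 ≤ n * (D / w ^ 2) := by positivity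
  have e7 : A ^ 2 * G ≤ A * τ / 2 := by
    calc A ^ 2 * G ≤ A ^ 2 * (τ * K) := mul_le_mul_of_nonneg_left e3 (sq_nonneg A)
      _ = A * τ / 2 * (2 * A * K) := by ring
      _ = A * τ / 2 := by rw [hAK, mul_one]
  have e8 : n * A * (P / w) ≤ n / 2 / w := by
    calc n * A * (P / w) ≤ n * A * (K / w) := by gcongr
      _ = n / 2 / w * (2 * A * K) := by ring
      _ = n / 2 / w := by rw [hAK, mul_one]
  have e9 : A * τ / 2 ≤ 3 / 2 * n / w := by
    have : 3 / 2 * (n : ℝ) / w = n / 2 / w + n / w := by ring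
    linarith
  rw [le_div_iff₀ hw] at e9
  have hK0 : 0 < K := by
    by_contra hcon
    push Not at hcon
    nlinarith
  calc w * τ = (A * τ / 2 * w) * (4 * K) := by linear_combination (-(w * τ)) * hAK
    _ ≤ (3 / 2 * n) * (4 * K) := mul_le_mul_of_nonneg_right e9 (by positivity)
    _ = 6 * n * K := by ring

/-- the maximum point computation for the lower bound -/
lemma db_lower_pt {A b : ℝ} (hA : 0 < A) (hAn : 2 * A * (n * (n + 1)) = 1) {y : E n}
    (hy : y ∈ S.Ω) (ha : 0 < b - S.tp y 0) (hK : ∑ k, y k ^ 2 ≤ n)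
    (hm : IsLocalMax (fun z => Real.log (b - S.tp z 0) +
      (A / 2 * ∑ k, z k * z k + S.lr z)) y) :
    (b - S.tp y 0) * (S.Hi y).trace ≤ 4 * n * (n * (n + 1)) := by
  have ct := S.db_at (S.contDiffOn_tp 0) hy
  have cw : ContDiffAt ℝ 2 (fun z => b - S.tp z 0) y := contDiffAt_const.sub ct
  have cl := S.db_at S.contDiffOn_lr hy
  have dp : ∀ k, HasFDerivAt (fun z : E n => z k) (EuclideanSpace.proj k : E n →L[ℝ] ℝ) y :=
    fun k => (EuclideanSpace.proj k : E n →L[ℝ] ℝ).hasFDerivAt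
  have cp : ∀ k, ContDiffAt ℝ 2 (fun z : E n => z k) y :=
    fun k => (EuclideanSpace.proj k : E n →L[ℝ] ℝ).contDiff.contDiffAt
  have lp : ∀ k, S.L0 (fun z : E n => z k) y = 0 :=
    fun k => S.L0_clm (EuclideanSpace.proj k : E n →L[ℝ] ℝ)
  have c1 : ContDiffAt ℝ 2 (fun z => Real.log (b - S.tp z 0)) y := cw.log ha.ne'
  have c2 : ∀ k, ContDiffAt ℝ 2 (fun z : E n => z k * z k) y := fun k => (cp k).mul (cp k)
  have c3 : ContDiffAt ℝ 2 (fun z : E n => ∑ k, z k * z k) y := ContDiffAt.sum fun k _ => c2 k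
  have c4 : ContDiffAt ℝ 2 (fun z : E n => A / 2 * ∑ k, z k * z k) y := contDiffAt_const.mul c3
  have dt := (ct.differentiableAt (by norm_num)).hasFDerivAt
  have dl := (cl.differentiableAt (by norm_num)).hasFDerivAt
  have dw : HasFDerivAt (fun z => b - S.tp z 0) (-fderiv ℝ (fun z => S.tp z 0) y) y :=
    dt.const_sub b
  have hL := S.L0_nonpos_of_isLocalMax hy (c1.add (c4.add cl)) hm
  have hD := hm.hasFDerivAt_eq_zero ((dw.log ha.ne').fun_add
    (((HasFDerivAt.fun_sum (u := Finset.univ) fun k _ =>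
      (dp k).fun_mul (dp k)).const_mul (A / 2)).fun_add dl))
  rw [S.L0_add c1 (c4.add cl), S.L0_add c4 cl, S.L0_const_mul _ c3, S.L0_sum _ fun k _ => c2 k,
    S.L0_log cw ha, S.db_L0_const_sub ct, S.L0_tp hy, S.L0_lr hy] at hL
  have dp' : ∀ k, fderiv ℝ (fun z : E n => z k) y = EuclideanSpace.proj k := fun k => (dp k).fderiv
  simp only [S.L0_mul hy (cp _) (cp _), lp, Sol.G0, dw.fderiv, dp'] at hL
  have hBt : ∀ β : E n →L[ℝ] ℝ, S.B y (fderiv ℝ (fun z => S.tp z 0) y) β = β y := fun β => by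
    have := S.G0_tp hy 0 β
    simpa only [Sol.G0, β.fderiv, Prod.fst_zero, sub_zero] using this
  have hkk : ∀ k, S.B y (EuclideanSpace.proj k) (EuclideanSpace.proj k) = S.Hi y k k := fun k => by
    simp [Sol.B]
  simp only [hkk, Prod.fst_zero, sub_zero, mul_zero, zero_add, ← Finset.mul_sum, ← hBt] at hL
  generalize fderiv ℝ S.lr y = l at *
  generalize fderiv ℝ (fun z => S.tp z 0) y = d at *
  generalize b - S.tp y 0 = w at *
  set g : E n →L[ℝ] ℝ := ∑ k, y k • EuclideanSpace.proj k with hg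
  have hl : l = w⁻¹ • d - A • g := by
    ext v
    have := DFunLike.congr_fun hD v
    simp only [add_apply, sub_apply, smul_apply, neg_apply, smul_eq_mul, zero_apply, hg,
      sum_apply, ← two_mul, ← Finset.mul_sum] at this ⊢
    linarith
  have hge : ∀ k, g (ee k) = y k := fun k => by simp [hg]
  have e2 : 0 ≤ S.B y d g := by
    rw [hBt, db_apply_eq_sum]
    exact Finset.sum_nonneg fun k _ => by rw [hge]; exact mul_self_nonneg _
  have e3 : S.B y g g ≤ (S.Hi y).trace * n := by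
    refine le_trans (le_of_eq ?_) ((quad_le_trace (S.Hi_posDef hy).posSemidef y).trans
      (mul_le_mul_of_nonneg_left hK (S.Hi_posDef hy).posSemidef.trace_nonneg))
    simp only [Sol.B, hge]
  have e4 : ∑ k, S.Hi y k k = (S.Hi y).trace := rfl
  rw [e4, hl] at hL
  simp only [S.B_sub_left, S.B_sub_right, S.B_smul_left, S.B_smul_right, S.B_neg_left,
    S.B_neg_right, neg_neg, S.B_comm g d hy] at hL
  have htr := (S.Hi_posDef hy).posSemidef.trace_nonneg
  generalize (S.Hi y).trace = τ at *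
  generalize S.B y d g = P at *
  generalize S.B y g g = G at *
  generalize S.B y d d = D at *
  have hn : (0 : ℝ) ≤ n := Nat.cast_nonneg n
  have e5 : n * A * (P / w) - (n + 1) * A ^ 2 * G + A * τ - n / w ≤ 0 := by
    refine le_of_eq_of_le ?_ hL
    field_simp
    ring
  have e6 : 0 ≤ n * A * (P / w) := by positivity
  have e7 : (n + 1) * A ^ 2 * G ≤ A * τ / 2 := by
    calc (n + 1) * A ^ 2 * G ≤ (n + 1) * A ^ 2 * (τ * n) :=
          mul_le_mul_of_nonneg_left e3 (by positivity)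
      _ = A * τ / 2 * (2 * A * (n * (n + 1))) := by ring
      _ = A * τ / 2 := by rw [hAn, mul_one]
  have e9 : A * τ / 2 ≤ n / w := by linarith
  rw [le_div_iff₀ ha] at e9
  calc w * τ = (A * τ / 2 * w) * (4 * (n * (n + 1))) := by linear_combination (-(w * τ)) * hAn
    _ ≤ n * (4 * (n * (n + 1))) := mul_le_mul_of_nonneg_right e9 (by positivity)
    _ = 4 * n * (n * (n + 1)) := by ring

end Sol

namespace Sol.NormB
variable {S : Sol n} {η : ℝ} (h : S.NormB η)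
include h
theorem tp_zero (w : V n) : S.tp 0 w = w.2 := by
  rw [S.db_tp, h.u_zero, h.du_zero]
  simp
theorem u_nonneg {x : E n} (hx : x ∈ S.Ω) : 0 ≤ S.u x := by
  have := S.tp_nonneg h.zero_mem (S.X_mem hx)
  rwa [h.tp_zero] at this
theorem lev_eq_sec (r : ℝ) : S.lev r = S.sec 0 r := by
  ext x
  simp only [Sol.lev, Sol.sec, h.tp_zero]
  rfl
theorem isCompact_lev (r : ℝ) : IsCompact (S.lev r) := by
  rw [h.lev_eq_sec]
  exact S.isCompact_sec h.zero_mem r
lemma db_X_zero : S.X 0 = 0 := by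
  rw [Sol.X, h.u_zero]
  rfl
lemma db_zero_mem_C : (0 : V n) ∈ S.C := h.db_X_zero ▸ S.X_mem h.zero_mem
theorem tp_le (hη : 0 < η) {x : E n} (hx : x ∈ S.Ω) {s : ℝ} (hs : S.u x ≤ s) {w : V n} (hw : w ∈ S.C)
    (hws : w.2 ≤ s) : S.tp x w ≤ 2 * s / η := by
  have hu := h.u_nonneg hx
  rcases le_or_gt (S.tp x w) 0 with h0 | h0
  · exact h0.trans (div_nonneg (by linarith) hη.le)
  · have := h.sc x hx 0 h.zero_mem w hw _ (S.add_up_mem (S.X_mem hx) h0.le) h0
      (by rw [S.tp_add_up, S.tp_X, zero_add])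
    rw [S.tp_add_up, h.tp_zero, h.tp_zero] at this
    rw [le_div_iff₀ hη]
    have e : (S.X x).2 = S.u x := rfl
    rw [e] at this
    nlinarith
theorem t_lower {x : E n} (hx : x ∈ S.Ω) (hη : 0 < η) : η * S.u x ≤ S.tp x 0 := by
  have h0 := S.tp_nonneg hx h.db_zero_mem_C
  rcases (h.u_nonneg hx).eq_or_lt with hu | hu
  · rw [← hu, mul_zero]; exact h0
  · have := h.sc 0 h.zero_mem x hx _ (S.X_mem hx) _ (S.add_up_mem h.db_zero_mem_C hu.le)
      (by rw [h.tp_zero]; exact hu) (by rw [S.tp_add_up, h.tp_zero, h.tp_zero]; simp [Sol.X])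
    rw [S.tp_add_up, S.tp_X, h.db_X_zero] at this
    nlinarith
theorem abs_du_le (hη : 0 < η) {x : E n} (hx : x ∈ S.lev 1) (i : Fin n) :
    |fderiv ℝ S.u x (ee i)| ≤ 2 / η := by
  have m1 : ((ee i, 1) : V n) ∈ S.C := h.aue.ee_mem i
  have m2 : ((0, 1) : V n) ∈ S.C := ⟨h.zero_mem, by rw [h.u_zero]; exact zero_le_one⟩
  have a1 := S.tp_nonneg hx.1 m1
  have a2 := S.tp_nonneg hx.1 m2
  have a3 := h.tp_le hη hx.1 hx.2 m1 le_rfl
  have a4 := h.tp_le hη hx.1 hx.2 m2 le_rfl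
  simp only [S.db_tp, map_sub, map_zero, mul_one] at a1 a2 a3 a4
  rw [abs_le]
  constructor <;> linarith
theorem small_cube (hη : 0 < η) {r : ℝ} (hr : 0 < r) (hr1 : r ≤ 1) {x : E n}
    (hx : ∑ i, |x i| < η * r / 2) : x ∈ S.lev r := by
  refine S.segment_lev ⟨h.zero_mem, by rw [h.u_zero]; exact hr.le⟩ x fun t ht hΩ => Or.inl ?_
  intro hu
  have h1 := S.tp_nonneg hΩ h.db_zero_mem_C
  have h2 : fderiv ℝ S.u (t • x) (t • x) ≤ (∑ i, |x i|) * (2 / η) := by
    rw [db_apply_eq_sum, Finset.sum_mul]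
    refine Finset.sum_le_sum fun i _ => (le_abs_self _).trans ?_
    rw [abs_mul]
    refine mul_le_mul ?_ (h.abs_du_le hη ⟨hΩ, hu.le.trans hr1⟩ i) (abs_nonneg _) (abs_nonneg _)
    rw [PiLp.smul_apply, smul_eq_mul, abs_mul, abs_of_nonneg ht.1]
    exact mul_le_of_le_one_left (abs_nonneg _) ht.2
  have h3 : (∑ i, |x i|) * (2 / η) < η * r / 2 * (2 / η) :=
    mul_lt_mul_of_pos_right hx (by positivity)
  have h4 : η * r / 2 * (2 / η) = r := by field_simp
  simp only [S.db_tp, Prod.fst_zero, Prod.snd_zero, zero_sub, map_neg, hu] at h1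
  linarith
end Sol.NormB

theorem det_upper (n : ℕ) (hn : 1 ≤ n) {η : ℝ} (hη : 0 < η) :
    ∃ Λ > (0 : ℝ), ∀ S : Sol n, S.NormB η → ∀ x ∈ S.lev (1 / 2), (S.H x).det ≤ Λ := by
  have hn0 : (0 : ℝ) < n := by exact_mod_cast hn
  set K : ℝ := n * (2 / η) ^ 2 with hK
  have hK0 : 0 < K := by positivity
  set A : ℝ := 1 / (2 * K) with hA
  have hA0 : 0 < A := by positivity
  have hAK : 2 * A * K = 1 := by rw [hA]; field_simp
  refine ⟨(6 * K) ^ n * (2 * Real.exp (A / 2 * K)) ^ (n + 2), by positivity,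
    fun S hN x hx => ?_⟩
  have cp := fun k => (contDiffOn_fderiv_apply S.isOpen S.smooth (ee k)).continuousOn
  have hx1 : x ∈ S.lev 1 := ⟨hx.1, hx.2.trans (by norm_num)⟩
  obtain ⟨y, hy, hay, hloc, hmax⟩ := db_max S.isOpen (hN.isCompact_lev 1) (fun z hz => hz.1)
    (a := fun z => 1 - S.u z)
    (F := fun z => A / 2 * ∑ k, fderiv ℝ S.u z (ee k) * fderiv ℝ S.u z (ee k) - S.lr z)
    (continuousOn_const.sub S.smooth.continuousOn)
    ((continuousOn_const.mul (continuousOn_finsetSum _ fun k _ => (cp k).mul (cp k))).sub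
      S.contDiffOn_lr.continuousOn) hx1 (by linarith [hx.2])
    (fun y hy hay => S.db_lev_nhds hy.1 (sub_pos.1 hay))
  have hP : ∑ k, fderiv ℝ S.u y (ee k) ^ 2 ≤ K := by
    calc ∑ k, fderiv ℝ S.u y (ee k) ^ 2 ≤ ∑ _k : Fin n, (2 / η) ^ 2 :=
          Finset.sum_le_sum fun k _ =>
            sq_le_sq' (abs_le.1 (hN.abs_du_le hη hy k)).1 (abs_le.1 (hN.abs_du_le hη hy k)).2
      _ = K := by simp [hK]
  have h1 := S.db_upper_pt hA0 hAK hy.1 (sub_pos.1 hay) hP hloc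
  have hw1 : 1 - S.u y ≤ 1 := by linarith [hN.u_nonneg hy.1]
  have htr := (S.H_posDef hy.1).posSemidef.trace_nonneg
  have h2 : ((1 - S.u y) * (S.rho y)⁻¹) ^ (n + 2) ≤ (6 * K) ^ n := by
    rw [mul_pow, inv_pow, ← S.det_eq_rho hy.1]
    calc (1 - S.u y) ^ (n + 2) * (S.H y).det
        ≤ (1 - S.u y) ^ n * ((S.H y).trace / n) ^ n :=
          mul_le_mul (pow_le_pow_of_le_one hay.le hw1 (by omega))
            (det_le_trace_pow (S.H_posDef hy.1).posSemidef) (S.det_pos hy.1).le (by positivity)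
      _ = ((1 - S.u y) * (S.H y).trace / n) ^ n := by rw [← mul_pow, mul_div_assoc]
      _ ≤ (6 * K) ^ n := by
          refine pow_le_pow_left₀ (by positivity) ?_ n
          rw [div_le_iff₀ hn0]
          linarith
  have h3 := hmax x hx1
  simp only [Real.exp_sub, S.db_exp_lr hx.1, S.db_exp_lr hy.1] at h3
  have hρx := S.rho_pos hx.1
  have hρy := S.rho_pos hy.1
  have h4 : (S.rho x)⁻¹ ≤ (1 - S.u y) * (S.rho y)⁻¹ * (2 * Real.exp (A / 2 * K)) := by
    have a1 : 1 / 2 * (1 / S.rho x) ≤ (1 - S.u x) *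
        (Real.exp (A / 2 * ∑ k, fderiv ℝ S.u x (ee k) * fderiv ℝ S.u x (ee k)) / S.rho x) := by
      refine mul_le_mul (by linarith [hx.2]) (div_le_div_of_nonneg_right (Real.one_le_exp ?_)
        hρx.le) (by positivity) (by linarith [hx.2])
      exact mul_nonneg (by positivity) (Finset.sum_nonneg fun k _ => mul_self_nonneg _)
    have a2 : (1 - S.u y) *
        (Real.exp (A / 2 * ∑ k, fderiv ℝ S.u y (ee k) * fderiv ℝ S.u y (ee k)) / S.rho y) ≤
        (1 - S.u y) * (Real.exp (A / 2 * K) / S.rho y) := by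
      simp only [← sq]
      gcongr
    have a3 := a1.trans (h3.trans a2)
    calc (S.rho x)⁻¹ = 2 * (1 / 2 * (1 / S.rho x)) := by ring
      _ ≤ 2 * ((1 - S.u y) * (Real.exp (A / 2 * K) / S.rho y)) := by linarith
      _ = _ := by ring
  rw [S.det_eq_rho hx.1, ← inv_pow]
  refine (pow_le_pow_left₀ (by positivity) h4 _).trans ?_
  rw [mul_pow]
  exact mul_le_mul_of_nonneg_right h2 (by positivity)

theorem det_lower (n : ℕ) (hn : 1 ≤ n) {η : ℝ} (hη : 0 < η) (hη1 : η ≤ 1) :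
    ∃ lam > (0 : ℝ), ∀ S : Sol n, S.NormB η → ∀ x ∈ S.lev (η ^ 2 / 8), lam ≤ (S.H x).det := by
  have hn0 : (0 : ℝ) < n := by exact_mod_cast hn
  set A : ℝ := 1 / (2 * (n * (n + 1))) with hA
  have hA0 : 0 < A := by positivity
  have hAn : 2 * A * (n * (n + 1)) = 1 := by rw [hA]; field_simp
  refine ⟨((4 * (n * (n + 1))) ^ n * (4 / η * Real.exp (A / 2 * n)) ^ (n + 2))⁻¹, by positivity,
    fun S hN x hx => ?_⟩
  have cp : ∀ k, ContinuousOn (fun z : E n => z k) S.Ω :=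
    fun k => (EuclideanSpace.proj k : E n →L[ℝ] ℝ).continuous.continuousOn
  have hη2 : η ^ 2 ≤ 1 := pow_le_one₀ hη.le hη1
  have hx1 : x ∈ S.lev (3 / 4) := ⟨hx.1, hx.2.trans (by linarith)⟩
  have htx : S.tp x 0 ≤ η / 4 := by
    refine (hN.tp_le hη hx.1 hx.2 hN.db_zero_mem_C (by simp; positivity)).trans (le_of_eq ?_)
    field_simp
    ring
  obtain ⟨y, hy, hay, hloc, hmax⟩ := db_max S.isOpen (hN.isCompact_lev (3 / 4))
    (fun z hz => hz.1) (a := fun z => η / 2 - S.tp z 0)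
    (F := fun z => A / 2 * ∑ k, z k * z k + S.lr z)
    (continuousOn_const.sub (S.contDiffOn_tp 0).continuousOn)
    ((continuousOn_const.mul (continuousOn_finsetSum _ fun k _ => (cp k).mul (cp k))).add
      S.contDiffOn_lr.continuousOn) hx1 (by linarith)
    (fun y hy hay => S.db_lev_nhds hy.1 (by
      have := hN.t_lower hy.1 hη
      by_contra hcon
      push Not at hcon
      nlinarith))
  have hP : ∑ k, y k ^ 2 ≤ n := by
    have hy1 : y ∈ S.lev 1 := ⟨hy.1, hy.2.trans (by norm_num)⟩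
    calc ∑ k, y k ^ 2 ≤ ∑ _k : Fin n, (1 : ℝ) :=
          Finset.sum_le_sum fun k _ => (sq_le_one_iff_abs_le_one _).2 (hN.aue.cube y hy1 k)
      _ = n := by simp
  have h1 := S.db_lower_pt hA0 hAn hy.1 hay hP hloc
  have hw1 : η / 2 - S.tp y 0 ≤ 1 := by linarith [S.tp_nonneg hy.1 hN.db_zero_mem_C]
  have htr := (S.Hi_posDef hy.1).posSemidef.trace_nonneg
  have hdet : S.rho y ^ (n + 2) = (S.Hi y).det := by
    rw [Sol.Hi, Matrix.det_nonsing_inv, Ring.inverse_eq_inv', S.det_eq_rho hy.1, inv_inv]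
  have hρx := S.rho_pos hx.1
  have hρy := S.rho_pos hy.1
  have h2 : ((η / 2 - S.tp y 0) * S.rho y) ^ (n + 2) ≤ (4 * (n * (n + 1))) ^ n := by
    rw [mul_pow]
    calc (η / 2 - S.tp y 0) ^ (n + 2) * S.rho y ^ (n + 2)
        ≤ (η / 2 - S.tp y 0) ^ n * ((S.Hi y).trace / n) ^ n :=
          mul_le_mul (pow_le_pow_of_le_one hay.le hw1 (by omega))
            (hdet ▸ det_le_trace_pow (S.Hi_posDef hy.1).posSemidef) (by positivity) (by positivity)
      _ = ((η / 2 - S.tp y 0) * (S.Hi y).trace / n) ^ n := by rw [← mul_pow, mul_div_assoc]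
      _ ≤ (4 * (n * (n + 1))) ^ n := by
          refine pow_le_pow_left₀ (by positivity) ?_ n
          rw [div_le_iff₀ hn0]
          linarith
  have h3 := hmax x hx1
  simp only [Real.exp_add, S.db_exp_lr hx.1, S.db_exp_lr hy.1] at h3
  have h4 : S.rho x ≤ (η / 2 - S.tp y 0) * S.rho y * (4 / η * Real.exp (A / 2 * n)) := by
    have a1 : η / 4 * (1 * S.rho x) ≤ (η / 2 - S.tp x 0) *
        (Real.exp (A / 2 * ∑ k, x k * x k) * S.rho x) := by
      refine mul_le_mul (by linarith) (mul_le_mul_of_nonneg_right (Real.one_le_exp ?_)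
        hρx.le) (by positivity) (by linarith)
      exact mul_nonneg (by positivity) (Finset.sum_nonneg fun k _ => mul_self_nonneg _)
    have a2 : (η / 2 - S.tp y 0) * (Real.exp (A / 2 * ∑ k, y k * y k) * S.rho y) ≤
        (η / 2 - S.tp y 0) * (Real.exp (A / 2 * n) * S.rho y) := by
      simp only [← sq]
      gcongr
    have a3 := a1.trans (h3.trans a2)
    calc S.rho x = 4 / η * (η / 4 * (1 * S.rho x)) := by field_simp
      _ ≤ 4 / η * ((η / 2 - S.tp y 0) * (Real.exp (A / 2 * n) * S.rho y)) := by gcongr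
      _ = _ := by ring
  rw [S.det_eq_rho hx.1]
  refine inv_anti₀ (by positivity) ((pow_le_pow_left₀ hρx.le h4 _).trans ?_)
  rw [mul_pow]
  exact mul_le_mul_of_nonneg_right h2 (by positivity)

theorem det_global (n : ℕ) (hn : 1 ≤ n) {η : ℝ} (hη : 0 < η) (hη1 : η ≤ 1) :
    ∃ lam > (0 : ℝ), ∃ Λ > (0 : ℝ), ∀ S : Sol n, S.NormB η →
      ∀ x ∈ S.Ω, lam ≤ (S.H x).det ∧ (S.H x).det ≤ Λ := by
  obtain ⟨Λ, hΛ, hU⟩ := det_upper n hn hη
  obtain ⟨lam, hlam, hL⟩ := det_lower n hn hη hη1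
  have hη2 : η ^ 2 ≤ 1 := pow_le_one₀ hη.le hη1
  have both : ∀ S : Sol n, S.NormB η → ∀ x ∈ S.lev (η ^ 2 / 8),
      lam ≤ (S.H x).det ∧ (S.H x).det ≤ Λ :=
    fun S hN x hx => ⟨hL S hN x hx, hU S hN x ⟨hx.1, hx.2.trans (by linarith)⟩⟩
  have hz : ∀ S : Sol n, S.NormB η → (0 : E n) ∈ S.lev (η ^ 2 / 8) :=
    fun S hN => ⟨hN.zero_mem, by rw [hN.u_zero]; positivity⟩
  refine ⟨lam * lam / Λ, by positivity, Λ * Λ / lam, by positivity, fun S hN x hx => ?_⟩
  have hu := hN.u_nonneg hx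
  have hh : 0 < 8 * S.u x / η ^ 2 + 1 := by positivity
  obtain ⟨T, β, γ, hN', hlev⟩ := S.exists_normB hN.sc hN.zero_mem hh
  have e1 : aff T 0 (T.symm x) = x := by simp [aff]
  have e2 : aff T 0 0 = 0 := by simp [aff]
  have hx' : T.symm x ∈ (S.tr T 0 (inv_pos.mpr hh) β γ).lev (η ^ 2 / 8) := by
    rw [hlev, mem_preimage, e1, ← hN.lev_eq_sec]
    refine ⟨hx, ?_⟩
    have : η ^ 2 / 8 * (8 * S.u x / η ^ 2 + 1) = S.u x + η ^ 2 / 8 := by field_simp
    rw [this]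
    exact le_add_of_nonneg_right (by positivity)
  have h1 := both _ hN' _ hx'
  have h2 := both _ hN' _ (hz _ hN')
  have h3 := both _ hN _ (hz _ hN)
  rw [S.tr_det T 0 _ β γ hx'.1, e1] at h1
  rw [S.tr_det T 0 _ β γ (hz _ hN').1, e2] at h2
  generalize (8 * S.u x / η ^ 2 + 1)⁻¹ ^ n * (T : E n →L[ℝ] E n).det ^ 2 = c at h1 h2
  have d0 := S.det_pos hN.zero_mem
  have dx := S.det_pos hx
  have hc : 0 < c := (mul_pos_iff_of_pos_right dx).1 (hlam.trans_le h1.1)
  generalize (S.H x).det = a at *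
  generalize (S.H 0).det = b at *
  constructor
  · rw [div_le_iff₀ hΛ]
    calc lam * lam ≤ (c * a) * b := mul_le_mul h1.1 h3.1 hlam.le (by positivity)
      _ = a * (c * b) := by ring
      _ ≤ a * Λ := mul_le_mul_of_nonneg_left h2.2 dx.le
  · rw [le_div_iff₀ hlam]
    calc a * lam ≤ a * (c * b) := mul_le_mul_of_nonneg_left h2.1 dx.le
      _ = (c * a) * b := by ring
      _ ≤ Λ * Λ := mul_le_mul h1.2 h3.2 d0.le hΛ.le

end Crest.Agent.R236
end
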