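import Crest.Agent.R236.Basic

/-!
# Rank-two Hessian algebra and a small calculus for functions of `(|x'|², x₉)` on `ℝ¹⁰`
-/

set_option autoImplicit false
set_option linter.unusedSectionVars false
set_option linter.unusedSimpArgs false
open scoped ContDiff Topology
open Crest.GeometryTopology.CoordMetric Crest.GeometryTopology.AffineMaximal
open Set Matrix

noncomputable section
namespace Crest.Agent.R236.Ex

section alg
variable {ι : Type} [Fintype ι] [DecidableEq ι]

/-- `a P + b s sᵀ + c s eᵀ + c' e sᵀ + d e eᵀ` with `P = 1 - e eᵀ` -/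
def rk (s e : ι → ℝ) (a b c c' d : ℝ) : Matrix ι ι ℝ :=
  a • (1 : Matrix ι ι ℝ) + b • vecMulVec s s + c • vecMulVec s e + c' • vecMulVec e s
    + (d - a) • vecMulVec e e

variable {s e : ι → ℝ} {r : ℝ}

theorem vv (u v w x : ι → ℝ) : vecMulVec u v * vecMulVec w x = (v ⬝ᵥ w) • vecMulVec u x := by
  rw [vecMulVec_mul_vecMulVec]
  ext i j
  simp [vecMulVec]
  ring

theorem rk_mul (hs : s ⬝ᵥ s = r) (hse : s ⬝ᵥ e = 0) (he : e ⬝ᵥ e = 1) (a b c c' d A B C C' D : ℝ) :
    rk s e a b c c' d * rk s e A B C C' D = rk s e (a * A) (a * B + b * A + r * b * B + c * C')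
      (a * C + r * b * C + c * D) (c' * A + r * c' * B + d * C') (r * c' * C + d * D) := by
  have hes : e ⬝ᵥ s = 0 := by rw [dotProduct_comm, hse]
  simp only [rk, add_mul, mul_add, smul_mul_assoc, mul_smul_comm, vv, hs, hse, hes, he, one_mul,
    mul_one]
  module

theorem rk_one : rk s e 1 0 0 0 1 = 1 := by simp [rk]

theorem rk_trace (hs : s ⬝ᵥ s = r) (hse : s ⬝ᵥ e = 0) (he : e ⬝ᵥ e = 1) (a b c c' d : ℝ) :
    (rk s e a b c c' d).trace = (Fintype.card ι - 1) * a + b * r + d := by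
  have hes : e ⬝ᵥ s = 0 := by rw [dotProduct_comm, hse]
  simp only [rk, trace_add, trace_smul, trace_vecMulVec, hs, hse, hes, he, trace_one, smul_eq_mul]
  ring

theorem rk_transpose (a b c c' d : ℝ) : (rk s e a b c c' d)ᵀ = rk s e a b c' c d := by
  simp only [rk, transpose_add, transpose_smul, transpose_vecMulVec, transpose_one]
  module

theorem rk_inv (hs : s ⬝ᵥ s = r) (hse : s ⬝ᵥ e = 0) (he : e ⬝ᵥ e = 1) {a b c d D : ℝ} (ha : a ≠ 0)
    (hD : D ≠ 0) (hDe : D = (a + b * r) * d - c ^ 2 * r) :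
    (rk s e a b c c d)⁻¹ =
      rk s e a⁻¹ ((c ^ 2 - b * d) / (a * D)) (-c / D) (-c / D) ((a + b * r) / D) := by
  refine inv_eq_right_inv ?_
  rw [rk_mul hs hse he, ← rk_one (s := s) (e := e)]
  congr 1
  · field_simp
  · field_simp
    rw [hDe]; ring
  · field_simp
    ring
  · field_simp
    rw [hDe]; ring
  · field_simp
    rw [hDe]; ring

theorem rk_det (hs : s ⬝ᵥ s = r) (hse : s ⬝ᵥ e = 0) (he : e ⬝ᵥ e = 1) {a b c d : ℝ} (ha : a ≠ 0) :
    (rk s e a b c c d).det * a ^ 2 = a ^ Fintype.card ι * ((a + b * r) * d - c ^ 2 * r) := by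
  have hes : e ⬝ᵥ s = 0 := by rw [dotProduct_comm, hse]
  let U : Matrix ι (Fin 2) ℝ := fun i k => ![s i, e i] k
  let W : Matrix (Fin 2) ι ℝ := fun k j =>
    ![(b * s j + c * e j) / a, (c * s j + (d - a) * e j) / a] k
  have h1 : rk s e a b c c d = a • (1 + U * W) := by
    ext i j
    simp only [rk, U, W, Matrix.add_apply, Matrix.smul_apply, vecMulVec_apply, Matrix.mul_apply,
      Fin.sum_univ_two, smul_eq_mul, Matrix.cons_val_zero, Matrix.cons_val_one]
    field_simp
    ring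
  have k : ∀ (p q : ℝ) (v : ι → ℝ), ∑ j, (p * s j + q * e j) / a * v j =
      (p * (s ⬝ᵥ v) + q * (e ⬝ᵥ v)) / a := by
    intro p q v
    simp only [dotProduct, Finset.mul_sum, ← Finset.sum_add_distrib, Finset.sum_div]
    refine Finset.sum_congr rfl fun j _ => ?_
    ring
  rw [h1, det_smul, det_one_add_mul_comm, det_fin_two]
  simp only [U, W, Matrix.add_apply, Matrix.mul_apply, Matrix.cons_val_zero, Matrix.cons_val_one,
    k, hs, hse, hes, he, one_apply_eq, one_apply_ne (show (0 : Fin 2) ≠ 1 by decide),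
    one_apply_ne (show (1 : Fin 2) ≠ 0 by decide)]
  field_simp
  ring

theorem rk_sum (hs : s ⬝ᵥ s = r) (hse : s ⬝ᵥ e = 0) (he : e ⬝ᵥ e = 1) {a b c d D : ℝ} (ha : a ≠ 0)
    (hD : D ≠ 0) (hDe : D = (a + b * r) * d - c ^ 2 * r) (A B C C' F : ℝ) :
    ∑ i, ∑ j, (rk s e a b c c d)⁻¹ i j * rk s e A B C C' F i j =
      (Fintype.card ι - 2) * A / a
        + ((A + B * r) * d - c * (C + C') * r + (a + b * r) * F) / D := by
  have h1 : ∀ M N : Matrix ι ι ℝ, ∑ i, ∑ j, M i j * N i j = (M * Nᵀ).trace := by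
    intro M N
    simp [trace, Matrix.mul_apply]
  rw [h1, rk_inv hs hse he ha hD hDe, rk_transpose, rk_mul hs hse he, rk_trace hs hse he]
  field_simp
  rw [hDe]
  ring

theorem rk_posDef (hs : s ⬝ᵥ s = r) (hse : s ⬝ᵥ e = 0) (he : e ⬝ᵥ e = 1) {a b c d : ℝ} (ha : 0 < a)
    (hp : 0 < a + b * r) (hD : 0 < (a + b * r) * d - c ^ 2 * r) : (rk s e a b c c d).PosDef := by
  have hes : e ⬝ᵥ s = 0 := by rw [dotProduct_comm, hse]
  have hr : 0 ≤ r := hs ▸ Finset.sum_nonneg fun i _ => mul_self_nonneg _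
  have hd : 0 < d := by
    by_contra hd
    push Not at hd
    nlinarith [mul_nonneg (sq_nonneg c) hr]
  refine .of_dotProduct_mulVec_pos ?_ fun v hv => ?_
  · rw [IsHermitian, conjTranspose_eq_transpose_of_trivial, rk_transpose]
  · set σ := s ⬝ᵥ v with hσ
    set τ := e ⬝ᵥ v with hτ
    set w : ι → ℝ := v - τ • e with hw
    have hσ' : v ⬝ᵥ s = σ := dotProduct_comm _ _
    have hτ' : v ⬝ᵥ e = τ := dotProduct_comm _ _
    have hn : w ⬝ᵥ w = v ⬝ᵥ v - τ ^ 2 := by
      simp only [hw, sub_dotProduct, dotProduct_sub, smul_dotProduct, dotProduct_smul, he, hτ',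
        ← hτ, smul_eq_mul]
      ring
    have hsw : s ⬝ᵥ w = σ := by
      simp only [hw, dotProduct_sub, dotProduct_smul, hse, smul_zero, sub_zero, hσ]
    have hcs : σ ^ 2 ≤ r * (w ⬝ᵥ w) := by
      rw [← hsw, ← hs]
      simpa only [dotProduct, sq] using Finset.sum_mul_sq_le_sq_mul_sq Finset.univ s w
    have hw0 : 0 ≤ w ⬝ᵥ w := Finset.sum_nonneg fun i _ => mul_self_nonneg _
    have hQ : star v ⬝ᵥ (rk s e a b c c d *ᵥ v) =
        a * (w ⬝ᵥ w) + b * σ ^ 2 + 2 * c * σ * τ + d * τ ^ 2 := by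
      simp only [rk, add_mulVec, smul_mulVec, one_mulVec, vecMulVec_mulVec, star_trivial,
        dotProduct_add, dotProduct_smul, hσ', hτ', ← hσ, ← hτ, hn, smul_eq_mul,
        MulOpposite.smul_eq_mul_unop, MulOpposite.unop_op]
      ring
    rw [hQ]
    refine (mul_pos_iff_of_pos_left hd).1 ?_
    have e1 : d * (a * (w ⬝ᵥ w) + b * σ ^ 2 + 2 * c * σ * τ + d * τ ^ 2) =
        (d * τ + c * σ) ^ 2 + (d * a * (w ⬝ᵥ w) + (b * d - c ^ 2) * σ ^ 2) := by ring
    rw [e1]
    rcases hw0.eq_or_lt with h0 | h0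
    · have hσ0 : σ = 0 := by
        rw [← h0, mul_zero] at hcs
        exact pow_eq_zero_iff (two_ne_zero) |>.1 (le_antisymm hcs (sq_nonneg _))
      have hτ0 : τ ≠ 0 := by
        intro h
        rw [← h0, h] at hn
        exact hv (dotProduct_self_eq_zero.1 (by linarith))
      rw [← h0, hσ0]
      simp only [mul_zero, add_zero, ne_eq, OfNat.ofNat_ne_zero, not_false_eq_true, zero_pow]
      positivity
    · refine add_pos_of_nonneg_of_pos (sq_nonneg _) ?_
      rcases le_total 0 (b * d - c ^ 2) with h | h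
      · positivity
      · have := mul_le_mul_of_nonpos_left hcs h
        nlinarith [mul_pos hD h0]

end alg

/-! ### functions of `rr` and the last coordinate -/

/-- last index -/
abbrev L : Fin 10 := Fin.last 9
def xp (x : E 10) : Fin 10 → ℝ := fun i => if i = L then 0 else x i
def el : Fin 10 → ℝ := fun i => if i = L then 1 else 0
def rr (x : E 10) : ℝ := xp x ⬝ᵥ xp x
def dt : E 10 →L[ℝ] ℝ := EuclideanSpace.proj L
def dx (i : Fin 10) : E 10 →L[ℝ] ℝ := if i = L then 0 else EuclideanSpace.proj i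
def dr (x : E 10) : E 10 →L[ℝ] ℝ := ∑ i, (2 * xp x i) • dx i

theorem xp_el (x : E 10) : xp x ⬝ᵥ el = 0 := by
  refine Finset.sum_eq_zero fun i _ => ?_
  by_cases h : i = L <;> simp [xp, el, h]

theorem el_el : el ⬝ᵥ el = 1 := by
  simp [dotProduct, el]

theorem rr_nonneg (x : E 10) : 0 ≤ rr x := by
  unfold rr dotProduct
  exact Finset.sum_nonneg fun _ _ => mul_self_nonneg _

theorem dx_apply (i : Fin 10) (x : E 10) : dx i x = xp x i := by
  by_cases h : i = L <;> simp [dx, xp, h]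

theorem dx_ee (i j : Fin 10) : dx j (ee i) = (1 : Matrix _ _ ℝ) i j - el i * el j := by
  rw [dx_apply]
  by_cases h : j = L <;> by_cases h' : i = L <;>
    simp [xp, el, h, h', one_apply, Pi.single_apply, eq_comm]

theorem dt_ee (i : Fin 10) : dt (ee i) = el i := by
  simp [dt, el, Pi.single_apply, eq_comm]

theorem dr_ee (x : E 10) (i : Fin 10) : dr x (ee i) = 2 * xp x i := by
  simp only [dr, ContinuousLinearMap.coe_sum', Finset.sum_apply, ContinuousLinearMap.coe_smul',
    Pi.smul_apply, dx_ee, smul_eq_mul, mul_sub, Finset.sum_sub_distrib]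
  have h1 : ∑ j, 2 * xp x j * (el i * el j) = 0 := by
    have := xp_el x
    simp only [dotProduct] at this
    calc _ = 2 * el i * ∑ j, xp x j * el j := by
          rw [Finset.mul_sum]; exact Finset.sum_congr rfl fun j _ => by ring
      _ = 0 := by rw [this, mul_zero]
  rw [h1]
  simp [one_apply]

theorem hasFDerivAt_xp (i : Fin 10) (x : E 10) : HasFDerivAt (fun y => xp y i) (dx i) x := by
  simpa only [← dx_apply] using (dx i).hasFDerivAt

theorem contDiff_rr : ContDiff ℝ ∞ rr := by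
  unfold rr dotProduct
  refine ContDiff.sum fun i _ => ?_
  have : ContDiff ℝ ∞ fun y : E 10 => xp y i := by
    simpa only [← dx_apply] using (dx i).contDiff
  exact this.mul this

/-- `df = A dr + B dt` everywhere -/
def D1 (f A B : E 10 → ℝ) : Prop := ∀ x, HasFDerivAt f (A x • dr x + B x • dt) x

namespace D1
variable {f A B g A' B' : E 10 → ℝ}

theorem congr (h : D1 f A B) (hA : ∀ x, A x = A' x) (hB : ∀ x, B x = B' x) : D1 f A' B' := by
  intro x
  rw [← hA, ← hB]
  exact h x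

theorem rr : D1 rr (fun _ => 1) (fun _ => 0) := by
  intro x
  have := HasFDerivAt.fun_sum (u := Finset.univ)
    fun i _ => (hasFDerivAt_xp i x).fun_mul (hasFDerivAt_xp i x)
  refine HasFDerivAt.congr_fderiv this ?_
  simp only [one_smul, zero_smul, add_zero, dr]
  exact Finset.sum_congr rfl fun i _ => by module

theorem t : D1 (fun x => x L) (fun _ => 0) (fun _ => 1) := by
  intro x
  exact (dt.hasFDerivAt (x := x)).congr_fderiv (by module)

theorem add (h : D1 f A B) (h' : D1 g A' B') :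
    D1 (fun x => f x + g x) (fun x => A x + A' x) (fun x => B x + B' x) :=
  fun x => ((h x).fun_add (h' x)).congr_fderiv (by module)

theorem mul (h : D1 f A B) (h' : D1 g A' B') :
    D1 (fun x => f x * g x) (fun x => A x * g x + f x * A' x) (fun x => B x * g x + f x * B' x) :=
  fun x => ((h x).fun_mul (h' x)).congr_fderiv (by module)

theorem comp {φ : ℝ → ℝ} {φ' : E 10 → ℝ} (h : D1 f A B) (hφ : ∀ x, HasDerivAt φ (φ' x) (f x)) :
    D1 (fun x => φ (f x)) (fun x => φ' x * A x) (fun x => φ' x * B x) :=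
  fun x => ((hφ x).comp_hasFDerivAt x (h x)).congr_fderiv (by module)

theorem const_mul (c : ℝ) (h : D1 f A B) :
    D1 (fun x => c * f x) (fun x => c * A x) (fun x => c * B x) :=
  fun x => ((h x).const_mul c).congr_fderiv (by module)

theorem pow (n : ℕ) (h : D1 f A B) :
    D1 (fun x => f x ^ (n + 1)) (fun x => (n + 1) * f x ^ n * A x)
      (fun x => (n + 1) * f x ^ n * B x) :=
  h.comp (φ := fun t => t ^ (n + 1)) fun x => by simpa using hasDerivAt_pow (n + 1) (f x)

theorem inv (h : D1 f A B) (h0 : ∀ x, f x ≠ 0) :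
    D1 (fun x => (f x)⁻¹) (fun x => -(f x ^ 2)⁻¹ * A x) (fun x => -(f x ^ 2)⁻¹ * B x) :=
  h.comp (φ := fun t => t⁻¹) fun x => hasDerivAt_inv (h0 x)

theorem rad {φ φ' : ℝ → ℝ} (hφ : ∀ r, 0 ≤ r → HasDerivAt φ (φ' r) r) :
    D1 (fun x => φ (Ex.rr x)) (fun x => φ' (Ex.rr x)) (fun _ => 0) :=
  (rr.comp fun x => hφ _ (rr_nonneg x)).congr (fun _ => mul_one _) (fun _ => mul_zero _)

theorem hess {Ar At Br Bt : E 10 → ℝ} (h : D1 f A B) (hA : D1 A Ar At) (hB : D1 B Br Bt)
    (x : E 10) : hessianMat f x =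
      rk (xp x) el (2 * A x) (4 * Ar x) (2 * Br x) (2 * At x) (Bt x) := by
  ext i j
  have e : (fun y => pderiv j f y) = fun y => A y * (2 * xp y j) + B y * el j := by
    funext y
    show fderiv ℝ f y (ee j) = _
    rw [(h y).fderiv]
    simp [dr_ee, dt_ee]
  show fderiv ℝ (fun y => pderiv j f y) x (ee i) = _
  rw [e, (((hA x).fun_mul ((hasFDerivAt_xp j x).const_mul 2)).fun_add
    ((hB x).mul_const (el j))).fderiv]
  simp only [rk, ContinuousLinearMap.add_apply, ContinuousLinearMap.smul_apply, dr_ee, dt_ee, dx_ee,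
    smul_eq_mul, Matrix.add_apply, Matrix.smul_apply, vecMulVec_apply]
  ring

end D1

end Crest.Agent.R236.Ex
end
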