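import Mathlib

/-!
# The singular profile ODE near `r = 0`

We solve the Briot–Bouquet system by the (analytic) implicit function theorem in the Banach algebra
`A = C([0,1], ℝ)`: the unknown is `u(τ) = (α, θ, w)(rτ)` with `θ = β - (7/33)α`, `w = 1/(9+2rα)`, and the
equation has the form `u = u₀ + r • N(r,u)` with `N` polynomial in `(r,u)` and two bounded integral operators.
-/

set_option autoImplicit false
open scoped ContDiff Topology unitInterval
open MeasureTheory Set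

noncomputable section
namespace Crest.Agent.R236.ODEL

/-- abstract fixed point lemma with analytic dependence on the parameter -/
theorem exists_fix {X : Type*} [NormedAddCommGroup X] [NormedSpace ℝ X] [CompleteSpace X]
    (N : ℝ × X → X) (u₀ : X) (hN : ContDiff ℝ ω N) {η : ℝ} (hη : 0 < η) :
    ∃ δ > (0 : ℝ), ∃ ε > (0 : ℝ), ε ≤ η ∧ ∃ U : ℝ → X, ContDiffOn ℝ ω U (Ioo (-δ) δ) ∧
      (∀ r ∈ Ioo (-δ) δ, U r = u₀ + r • N (r, U r) ∧ ‖U r - u₀‖ < ε) ∧
      ∀ r ∈ Ioo (-δ) δ, ∀ v, ‖v - u₀‖ < ε → v = u₀ + r • N (r, v) → U r = v := by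
  set f : ℝ × X → X := fun p => p.2 - p.1 • N p with hf
  have hfc : ContDiff ℝ ω f := contDiff_snd.sub (contDiff_fst.smul hN)
  have cdf : ContDiffAt ℝ ω f (0, u₀) := hfc.contDiffAt
  have hf0 : f (0, u₀) = u₀ := by simp [hf]
  have pn : (ω : WithTop ℕ∞) ≠ 0 := by simp
  have hder : fderiv ℝ f (0, u₀) ∘L .inr ℝ ℝ X = ContinuousLinearMap.id ℝ X := by
    have h1 : HasFDerivAt f (fderiv ℝ f (0, u₀)) (0, u₀) :=
      (cdf.differentiableAt pn).hasFDerivAt
    have h2 : HasFDerivAt (fun v : X => ((0 : ℝ), v)) (.inr ℝ ℝ X) u₀ := hasFDerivAt_prodMk_right _ _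
    have h3 := h1.comp u₀ h2
    have h4 : (f ∘ fun v : X => ((0 : ℝ), v)) = id := by
      funext v; simp [hf]
    rw [h4] at h3
    exact h3.unique (hasFDerivAt_id u₀)
  have if₂ : (fderiv ℝ f (0, u₀) ∘L .inr ℝ ℝ X).IsInvertible := by
    rw [hder]; exact ⟨ContinuousLinearEquiv.refl ℝ X, rfl⟩
  set U := cdf.implicitFunction pn if₂ with hU
  have hU0 : U 0 = u₀ := cdf.implicitFunction_apply_self pn if₂
  have hUc : ContDiffAt ℝ ω U 0 := cdf.contDiffAt_implicitFunction pn if₂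
  have huniq := cdf.eventually_apply_eq_iff_implicitFunction pn if₂
  have hsol := cdf.eventually_apply_implicitFunction pn if₂
  rw [Metric.eventually_nhds_iff] at huniq
  obtain ⟨ε₀, hε₀, huniq⟩ := huniq
  set ε := min ε₀ η with hε
  have hεpos : 0 < ε := lt_min hε₀ hη
  have hnear : ∀ᶠ r in 𝓝 (0 : ℝ), ‖U r - u₀‖ < ε := by
    have := hUc.continuousAt.tendsto
    rw [hU0] at this
    have h2 := this.eventually (Metric.ball_mem_nhds u₀ hεpos)
    filter_upwards [h2] with r hr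
    simpa [dist_eq_norm] using hr
  have hsm := hUc.eventually (by simp)
  have hsmall : ∀ᶠ r in 𝓝 (0 : ℝ), |r| < ε := by
    have := Metric.ball_mem_nhds (0 : ℝ) hεpos
    filter_upwards [this] with r hr
    simpa using hr
  have hall := (hnear.and hsm).and (hsmall.and hsol)
  rw [Metric.eventually_nhds_iff] at hall
  obtain ⟨δ, hδ, hall⟩ := hall
  have hmem : ∀ r ∈ Ioo (-δ) δ, dist r 0 < δ := by
    intro r hr
    rw [Real.dist_eq, sub_zero, abs_lt]; exact hr
  refine ⟨δ, hδ, ε, hεpos, min_le_right _ _, U, ?_, ?_, ?_⟩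
  · intro r hr
    exact ((hall (hmem r hr)).1.2).contDiffWithinAt
  · intro r hr
    refine ⟨?_, (hall (hmem r hr)).1.1⟩
    have := (hall (hmem r hr)).2.2
    rw [hf0] at this
    simp only [hf] at this
    exact sub_eq_iff_eq_add.mp this
  · intro r hr v hv hfix
    have h1 : dist (r, v) ((0 : ℝ), u₀) < ε₀ := by
      rw [Prod.dist_eq, max_lt_iff]
      refine ⟨?_, ?_⟩
      · have := (hall (hmem r hr)).2.1
        rw [Real.dist_eq, sub_zero]
        exact this.trans_le (min_le_left _ _)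
      · rw [dist_eq_norm]; exact hv.trans_le (min_le_left _ _)
    have h2 := (huniq h1).mp (by
      rw [hf0]; simp only [hf]; exact sub_eq_iff_eq_add.mpr hfix)
    exact h2

abbrev A : Type := C(I, ℝ)

/-- extension of `f : A` to the real line -/
def ex (f : A) (x : ℝ) : ℝ := f (projIcc 0 1 zero_le_one x)

theorem continuous_ex (f : A) : Continuous (ex f) :=
  f.continuous.comp continuous_projIcc

theorem ex_of_mem (f : A) {x : ℝ} (hx : x ∈ Icc (0 : ℝ) 1) : ex f x = f ⟨x, hx⟩ := by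
  simp [ex, projIcc_of_mem _ hx]

theorem abs_ex_le (f : A) (x : ℝ) : |ex f x| ≤ ‖f‖ := f.norm_coe_le_norm _

theorem cont_integrand (m k : ℕ) (f : A) (t : ℝ) :
    Continuous fun s : ℝ => s ^ m * ex f (s ^ k * t) := by
  have := continuous_ex f
  fun_prop

/-- the integral operator `f ↦ (t ↦ ∫₀¹ s^m f(s^k t) ds)` -/
def Kf (m k : ℕ) (f : A) : A :=
  ⟨fun t => ∫ s in (0 : ℝ)..1, s ^ m * ex f (s ^ k * t), by
    apply intervalIntegral.continuous_parametric_intervalIntegral_of_continuous'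
    have := continuous_ex f
    unfold Function.uncurry
    fun_prop⟩

theorem Kf_apply (m k : ℕ) (f : A) (t : I) :
    Kf m k f t = ∫ s in (0 : ℝ)..1, s ^ m * ex f (s ^ k * t) := rfl

def Kl (m k : ℕ) : A →ₗ[ℝ] A where
  toFun := Kf m k
  map_add' f g := by
    ext t
    simp only [Kf_apply, ContinuousMap.add_apply]
    rw [← intervalIntegral.integral_add ((cont_integrand m k f t).intervalIntegrable _ _)
      ((cont_integrand m k g t).intervalIntegrable _ _)]
    congr 1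
    funext s
    simp [ex, mul_add]
  map_smul' c f := by
    ext t
    simp only [Kf_apply, ContinuousMap.smul_apply, smul_eq_mul, RingHom.id_apply]
    rw [← intervalIntegral.integral_const_mul]
    congr 1
    funext s
    simp only [ex, ContinuousMap.smul_apply, smul_eq_mul]
    ring

def K (m k : ℕ) : A →L[ℝ] A :=
  (Kl m k).mkContinuous 1 (by
    intro f
    rw [one_mul, ContinuousMap.norm_le _ (norm_nonneg f)]
    intro t
    show ‖Kf m k f t‖ ≤ _
    rw [Kf_apply]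
    have := intervalIntegral.norm_integral_le_of_norm_le_const (a := 0) (b := 1) (C := ‖f‖)
      (f := fun s : ℝ => s ^ m * ex f (s ^ k * t)) (by
        intro s hs
        rw [uIoc_of_le zero_le_one] at hs
        rw [Real.norm_eq_abs, abs_mul, abs_pow, abs_of_pos hs.1]
        calc s ^ m * |ex f (s ^ k * t)| ≤ 1 * ‖f‖ :=
              mul_le_mul (pow_le_one₀ hs.1.le hs.2) (abs_ex_le _ _) (abs_nonneg _) zero_le_one
          _ = ‖f‖ := one_mul _)
    simpa using this)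

theorem K_apply (m k : ℕ) (f : A) (t : I) :
    K m k f t = ∫ s in (0 : ℝ)..1, s ^ m * ex f (s ^ k * t) := rfl

/-- the coordinate function -/
def e : A := ⟨fun t => (t : ℝ), continuous_subtype_val⟩

@[simp] theorem e_apply (t : I) : e t = t := rfl

/-- rescaling `f ↦ f(c ·)` -/
def S (c : I) (f : A) : A := f.comp ⟨fun t => c * t, by fun_prop⟩

theorem S_apply (c : I) (f : A) (t : I) : S c f t = f (c * t) := rfl

theorem ex_S (c : I) (f : A) {x : ℝ} (hx : x ∈ Icc (0 : ℝ) 1) : ex (S c f) x = ex f (x * c) := by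
  have h2 : x * c ∈ Icc (0 : ℝ) 1 := ⟨mul_nonneg hx.1 c.2.1, mul_le_one₀ hx.2 c.2.1 c.2.2⟩
  rw [ex_of_mem _ hx, ex_of_mem _ h2, S_apply]
  congr 1
  ext
  simp [mul_comm]

theorem K_S (m k : ℕ) (c : I) (f : A) (t : I) : K m k (S c f) t = K m k f (c * t) := by
  rw [K_apply, K_apply]
  apply intervalIntegral.integral_congr
  intro s hs
  rw [uIcc_of_le zero_le_one] at hs
  have h1 : s ^ k * (t : ℝ) ∈ Icc (0 : ℝ) 1 :=
    ⟨mul_nonneg (pow_nonneg hs.1 _) t.2.1, mul_le_one₀ (pow_le_one₀ hs.1 hs.2) t.2.1 t.2.2⟩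
  simp only
  rw [ex_S _ _ h1]
  congr 2
  simp only [Set.Icc.coe_mul]
  ring

section poly
variable {R : Type*} [CommRing R] [Algebra ℝ R]

/-- `α' = G` -/
def G (a θ : R) : R := (1 / 2 : ℝ) • (a * (θ + (7 / 33 : ℝ) • a - a))

/-- `2rθ' + 11θ = r F` -/
def F (ρ a θ w : R) : R :=
  w * ((θ + (7 / 33 : ℝ) • a) * ((21 : ℝ) • a - (81 : ℝ) • (θ + (7 / 33 : ℝ) • a))
      + (1 + ρ * (θ + (7 / 33 : ℝ) • a)) * ((2 : ℝ) • (a * a) + (6 : ℝ) • (a * (θ + (7 / 33 : ℝ) • a)))
      - (2 / 9 : ℝ) • (a * ((21 : ℝ) • a - (81 : ℝ) • (θ + (7 / 33 : ℝ) • a))))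
    - (7 / 33 : ℝ) • (a * (θ + (7 / 33 : ℝ) • a - a))

end poly

theorem G_apply (a θ : A) (t : I) : G a θ t = G (a t) (θ t) := by
  simp [G]

theorem F_apply (ρ a θ w : A) (t : I) : F ρ a θ w t = F (ρ t) (a t) (θ t) (w t) := by
  simp only [F, ContinuousMap.add_apply, ContinuousMap.sub_apply, ContinuousMap.mul_apply,
    ContinuousMap.smul_apply, ContinuousMap.one_apply]

abbrev X : Type := A × A × A

def N (p : ℝ × X) : X :=
  (e * K 0 1 (G p.2.1 p.2.2.1), e * K 12 2 (F (p.1 • e) p.2.1 p.2.2.1 p.2.2.2),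
    (-2 / 9 : ℝ) • (e * p.2.1 * p.2.2.2))

def u₀ : X := (1, 0, (1 / 9 : ℝ) • 1)

theorem contDiff_N : ContDiff ℝ ω N := by
  unfold N
  refine ContDiff.prodMk ?_ (ContDiff.prodMk ?_ ?_)
  · refine contDiff_const.mul ((K 0 1).contDiff.comp ?_)
    unfold G
    fun_prop
  · refine contDiff_const.mul ((K 12 2).contDiff.comp ?_)
    unfold F
    fun_prop
  · fun_prop

def SX (c : I) (u : X) : X := (S c u.1, S c u.2.1, S c u.2.2)

theorem norm_S_sub (c : I) (f g : A) (hg : S c g = g) : ‖S c f - g‖ ≤ ‖f - g‖ := by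
  rw [ContinuousMap.norm_le _ (norm_nonneg _)]
  intro t
  have : (S c f - g) t = (f - g) (c * t) := by
    conv_lhs => rw [← hg]
    simp [S_apply]
  rw [this]
  exact (f - g).norm_coe_le_norm _

theorem norm_SX_sub (c : I) (u : X) : ‖SX c u - u₀‖ ≤ ‖u - u₀‖ := by
  simp only [Prod.norm_def, SX, u₀, Prod.fst_sub, Prod.snd_sub]
  refine max_le_max (norm_S_sub c _ _ ?_) (max_le_max (norm_S_sub c _ _ ?_) (norm_S_sub c _ _ ?_))
  all_goals ext t; simp [S_apply]

theorem fix_SX (c : I) (r : ℝ) (u : X) (h : u = u₀ + r • N (r, u)) :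
    SX c u = u₀ + (r * c) • N (r * c, SX c u) := by
  obtain ⟨a, θ, w⟩ := u
  simp only [u₀, N, Prod.smul_mk, Prod.mk_add_mk, Prod.mk.injEq, SX] at h ⊢
  obtain ⟨h1, h2, h3⟩ := h
  refine ⟨?_, ?_, ?_⟩
  · have hG : G (S c a) (S c θ) = S c (G a θ) := by
      ext t; simp [G_apply, S_apply]
    ext t
    rw [S_apply, hG]
    conv_lhs => rw [h1]
    simp only [ContinuousMap.add_apply, ContinuousMap.one_apply, ContinuousMap.smul_apply,
      ContinuousMap.mul_apply, e_apply, K_S, smul_eq_mul, Set.Icc.coe_mul]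
    ring
  · have hF : F ((r * c) • e) (S c a) (S c θ) (S c w) = S c (F (r • e) a θ w) := by
      ext t; simp [F_apply, S_apply, mul_assoc]
    ext t
    rw [S_apply, hF]
    conv_lhs => rw [h2]
    simp only [ContinuousMap.add_apply, ContinuousMap.zero_apply, ContinuousMap.smul_apply,
      ContinuousMap.mul_apply, e_apply, K_S, smul_eq_mul, Set.Icc.coe_mul]
    ring
  · ext t
    rw [S_apply]
    conv_lhs => rw [h3]
    simp only [ContinuousMap.add_apply, ContinuousMap.one_apply, ContinuousMap.smul_apply,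
      ContinuousMap.mul_apply, e_apply, S_apply, smul_eq_mul, Set.Icc.coe_mul]
    ring

/-- the integral form of the system, with smooth solutions -/
theorem exists_integral_sol : ∃ δ > (0 : ℝ), ∃ α θ w : ℝ → ℝ, ContDiffOn ℝ ω α (Ioo (-δ) δ) ∧
    ContDiffOn ℝ ω θ (Ioo (-δ) δ) ∧ ContDiffOn ℝ ω w (Ioo (-δ) δ) ∧ ∀ r ∈ Ioo (-δ) δ,
      |α r - 1| < 1 / 10 ∧ |θ r| < 1 / 10 ∧ w r * (9 + 2 * r * α r) = 1 ∧
      α r = 1 + r * ∫ s in (0 : ℝ)..1, G (α (r * s)) (θ (r * s)) ∧
      θ r = r * ∫ s in (0 : ℝ)..1, s ^ 12 *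
        F (r * s ^ 2) (α (r * s ^ 2)) (θ (r * s ^ 2)) (w (r * s ^ 2)) := by
  obtain ⟨δ, hδ, ε, hε, hεη, U, hUc, hU, huniq⟩ :=
    exists_fix N u₀ contDiff_N (η := 1 / 10) (by norm_num)
  have hscale : ∀ r ∈ Ioo (-δ) δ, ∀ c : I, U (r * c) = SX c (U r) := by
    intro r hr c
    have hrc : r * c ∈ Ioo (-δ) δ := by
      have h0 := c.2.1
      have h1 := c.2.2
      have h2 := hr.1
      have h3 := hr.2
      constructor <;> nlinarith
    exact huniq _ hrc _ ((norm_SX_sub c _).trans_lt (hU r hr).2) (fix_SX c r _ (hU r hr).1)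
  have hev : ContDiff ℝ ω (fun f : A => f 1) :=
    (ContinuousMap.evalCLM ℝ (1 : I) : A →L[ℝ] ℝ).contDiff
  refine ⟨δ, hδ, fun r => (U r).1 1, fun r => (U r).2.1 1, fun r => (U r).2.2 1,
    hev.comp_contDiffOn hUc.fst, hev.comp_contDiffOn hUc.snd.fst,
    hev.comp_contDiffOn hUc.snd.snd, ?_⟩
  intro r hr
  obtain ⟨hfix, hnorm⟩ := hU r hr
  have hn := hnorm.trans_le hεη
  simp only [Prod.norm_def, max_lt_iff, u₀, Prod.fst_sub, Prod.snd_sub] at hn
  have ha : ∀ c : I, (U (r * c)).1 1 = (U r).1 c := by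
    intro c; rw [hscale r hr c]; simp [SX, S_apply]
  have hθ : ∀ c : I, (U (r * c)).2.1 1 = (U r).2.1 c := by
    intro c; rw [hscale r hr c]; simp [SX, S_apply]
  have hw : ∀ c : I, (U (r * c)).2.2 1 = (U r).2.2 c := by
    intro c; rw [hscale r hr c]; simp [SX, S_apply]
  have h1 := congrArg (fun u : X => u.1 1) hfix
  have h2 := congrArg (fun u : X => u.2.1 1) hfix
  have h3 := congrArg (fun u : X => u.2.2 1) hfix
  simp only [u₀, N, Prod.smul_mk, Prod.mk_add_mk, ContinuousMap.add_apply, ContinuousMap.one_apply,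
    ContinuousMap.zero_apply, ContinuousMap.smul_apply, ContinuousMap.mul_apply, e_apply, K_apply,
    smul_eq_mul, Set.Icc.coe_one, one_mul, mul_one, zero_add, pow_zero, pow_one] at h1 h2 h3
  refine ⟨?_, ?_, ?_, ?_, ?_⟩
  · have := ((U r).1 - 1).norm_coe_le_norm 1
    simp only [ContinuousMap.sub_apply, ContinuousMap.one_apply, Real.norm_eq_abs] at this
    exact this.trans_lt hn.1
  · have := ((U r).2.1 - 0).norm_coe_le_norm 1
    simp only [ContinuousMap.sub_apply, ContinuousMap.zero_apply, Real.norm_eq_abs] at this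
    rw [sub_zero] at this
    exact this.trans_lt hn.2.1
  · show (U r).2.2 1 * (9 + 2 * r * (U r).1 1) = 1
    linear_combination 9 * h3
  · show (U r).1 1 = _
    rw [h1]
    congr 2
    apply intervalIntegral.integral_congr
    intro s hs
    rw [uIcc_of_le zero_le_one] at hs
    simp only
    rw [ex_of_mem _ hs, G_apply, ← ha, ← hθ]
  · show (U r).2.1 1 = _
    rw [h2]
    congr 1
    apply intervalIntegral.integral_congr
    intro s hs
    rw [uIcc_of_le zero_le_one] at hs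
    have hs2 : s ^ 2 ∈ Icc (0 : ℝ) 1 := ⟨pow_nonneg hs.1 _, pow_le_one₀ hs.1 hs.2⟩
    simp only
    rw [ex_of_mem _ hs2, F_apply, ← ha, ← hθ, ← hw]
    simp

theorem hasDerivAt_of_int1 {δ : ℝ} {α g : ℝ → ℝ} (hg : ContinuousOn g (Ioo (-δ) δ))
    (h : ∀ r ∈ Ioo (-δ) δ, α r = 1 + r * ∫ s in (0 : ℝ)..1, g (r * s)) {r : ℝ}
    (hr : r ∈ Ioo (-δ) δ) : HasDerivAt α (g r) r := by
  have h0 : (0 : ℝ) ∈ Ioo (-δ) δ := ⟨by linarith [hr.1, hr.2], by linarith [hr.1, hr.2]⟩
  have hint : IntervalIntegrable g volume 0 r :=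
    (hg.mono ((ordConnected_Ioo).uIcc_subset h0 hr)).intervalIntegrable
  have h1 := (intervalIntegral.integral_hasDerivAt_right hint
    (hg.stronglyMeasurableAtFilter isOpen_Ioo r hr)
    (hg.continuousAt (isOpen_Ioo.mem_nhds hr))).const_add 1
  refine h1.congr_of_eventuallyEq ?_
  filter_upwards [isOpen_Ioo.mem_nhds hr] with x hx
  rw [h x hx, intervalIntegral.mul_integral_comp_mul_left]
  simp

theorem ode_of_int12 {δ : ℝ} {θ g : ℝ → ℝ} (hg : ContinuousOn g (Ioo (-δ) δ))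
    (h : ∀ r ∈ Ioo (-δ) δ, θ r = r * ∫ s in (0 : ℝ)..1, s ^ 12 * g (r * s ^ 2)) {r θ' : ℝ}
    (hr : r ∈ Ioo (-δ) δ) (hθ : HasDerivAt θ θ' r) : 2 * r * θ' + 11 * θ r = r * g r := by
  set J : Set ℝ := (fun t : ℝ => r * t ^ 2) ⁻¹' Ioo (-δ) δ with hJ
  have hJo : IsOpen J := isOpen_Ioo.preimage (by fun_prop)
  have h01 : uIcc (0 : ℝ) 1 ⊆ J := by
    intro t ht
    rw [uIcc_of_le zero_le_one] at ht
    have h2 : 0 ≤ t ^ 2 := pow_nonneg ht.1 _
    have h3 : t ^ 2 ≤ 1 := pow_le_one₀ ht.1 ht.2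
    have h4 := hr.1
    have h5 := hr.2
    constructor <;> nlinarith
  have h1J : (1 : ℝ) ∈ J := h01 right_mem_uIcc
  set φ : ℝ → ℝ := fun s => s ^ 12 * g (r * s ^ 2) with hφ
  have hφc : ContinuousOn φ J :=
    (continuousOn_pow 12).mul (hg.comp (by fun_prop) (fun t ht => ht))
  have hd1 := (intervalIntegral.integral_hasDerivAt_right (hφc.mono h01).intervalIntegrable
    (hφc.stronglyMeasurableAtFilter hJo 1 h1J)
    (hφc.continuousAt (hJo.mem_nhds h1J))).const_mul r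
  have hθ' : HasDerivAt θ θ' (r * 1 ^ 2) := by simpa using hθ
  have hd2 := (hasDerivAt_pow 11 (1 : ℝ)).mul
    (hθ'.comp (1 : ℝ) ((hasDerivAt_pow 2 (1 : ℝ)).const_mul r))
  have heq : (fun t : ℝ => t ^ 11 * θ (r * t ^ 2)) =ᶠ[𝓝 1] fun t => r * ∫ x in (0 : ℝ)..t, φ x := by
    filter_upwards [hJo.mem_nhds h1J] with t ht
    rw [h _ ht]
    have e1 := intervalIntegral.mul_integral_comp_mul_left (a := 0) (b := 1) (c := t) (f := φ)
    rw [mul_zero, mul_one] at e1
    rw [← e1]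
    have e2 : ∫ x in (0 : ℝ)..1, φ (t * x) =
        t ^ 12 * ∫ s in (0 : ℝ)..1, s ^ 12 * g (r * t ^ 2 * s ^ 2) := by
      rw [← intervalIntegral.integral_const_mul]
      congr 1
      funext s
      simp only [hφ, mul_pow, mul_assoc]
    rw [e2]
    ring
  have := (hd1.congr_of_eventuallyEq heq).unique hd2
  simp only [hφ, Function.comp, one_pow, mul_one] at this
  norm_num at this
  linarith

theorem local_sol' : ∃ δ > (0 : ℝ), ∃ α β : ℝ → ℝ, ContDiffOn ℝ ∞ α (Ioo (-δ) δ) ∧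
    ContDiffOn ℝ ∞ β (Ioo (-δ) δ) ∧ ∀ r ∈ Ioo (-δ) δ, 1 / 2 < α r ∧ α r < 2 ∧ |β r| < 1 ∧
      HasDerivAt α (α r * (β r - α r) / 2) r ∧
      HasDerivAt (fun s => 1 + s * β s) ((1 + r * β r) * (21 * α r - 81 * β r +
        r * (2 * α r ^ 2 + 6 * α r * β r)) / (2 * (9 + 2 * r * α r))) r := by
  obtain ⟨δ, hδ, α, θ, w, hα, hθ, hw, h⟩ := exists_integral_sol
  have hαc := hα.continuousOn
  have hθc := hθ.continuousOn
  have hwc := hw.continuousOn
  refine ⟨δ, hδ, α, fun r => θ r + 7 / 33 * α r, hα.of_le le_top,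
    (hθ.add (contDiffOn_const.mul hα)).of_le le_top, ?_⟩
  intro r hr
  obtain ⟨b1, b2, hw1, -, -⟩ := h r hr
  rw [abs_lt] at b1 b2
  have dα : HasDerivAt α (G (α r) (θ r)) r :=
    hasDerivAt_of_int1 (g := fun s => G (α s) (θ s)) (by unfold G; fun_prop)
      (fun s hs => (h s hs).2.2.2.1) hr
  have dθ : HasDerivAt θ (deriv θ r) r :=
    ((hθ.contDiffAt (isOpen_Ioo.mem_nhds hr)).differentiableAt (by simp)).hasDerivAt
  have hode := ode_of_int12 (g := fun s => F s (α s) (θ s) (w s)) (by unfold F; fun_prop)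
    (fun s hs => (h s hs).2.2.2.2) hr dθ
  refine ⟨by linarith, by linarith, ?_, ?_, ?_⟩
  · rw [abs_lt]; constructor <;> linarith
  · convert dα using 1
    simp only [G, smul_eq_mul]
    ring
  · have := ((hasDerivAt_id r).mul (dθ.add (dα.const_mul (7 / 33)))).const_add 1
    refine HasDerivAt.congr_deriv this ?_
    have hne : 9 + 2 * r * α r ≠ 0 := by
      intro h0; rw [h0] at hw1; simp at hw1
    rw [eq_div_iff (mul_ne_zero two_ne_zero hne)]
    simp only [F, G, smul_eq_mul] at hode ⊢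
    simp only [id, Pi.add_apply]
    linear_combination (9 + 2 * r * α r) * hode + r *
      ((θ r + 7 / 33 * α r) * (21 * α r - 81 * (θ r + 7 / 33 * α r)) +
        (1 + r * (θ r + 7 / 33 * α r)) * (2 * (α r * α r) + 6 * (α r * (θ r + 7 / 33 * α r))) -
          2 / 9 * (α r * (21 * α r - 81 * (θ r + 7 / 33 * α r)))) * hw1

end Crest.Agent.R236.ODEL
end
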