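import Mathlib

/-!
# R236: global solution of the profile ODE and gluing with the local solution
-/

set_option autoImplicit false
open scoped ContDiff Topology NNReal
open MeasureTheory Set

noncomputable section
namespace Crest.Agent.R236

/-- a bounded Lipschitz field has forward solutions for all time -/
theorem ode_exists_global {E : Type*} [NormedAddCommGroup E] [NormedSpace ℝ E] [CompleteSpace E]
    {v : E → E} {K L : ℝ≥0} (hK : LipschitzWith K v) (hL : ∀ y, ‖v y‖ ≤ L) (x₀ : E) :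
    ∃ x : ℝ → E, x 0 = x₀ ∧ ∀ t ≥ 0, HasDerivWithinAt x (v (x t)) (Ici 0) t := by
  have hloc : ∀ n : ℕ, ∃ α : ℝ → E, α 0 = x₀ ∧
      ∀ t ∈ Icc (0 : ℝ) n, HasDerivWithinAt α (v (α t)) (Icc (0 : ℝ) n) t := by
    intro n
    have hpl : IsPicardLindelof (fun _ : ℝ => v) (tmin := 0) (tmax := n)
        ⟨0, le_rfl, Nat.cast_nonneg n⟩ x₀ (L * n) 0 L K :=
      IsPicardLindelof.of_time_independent (fun y _ => hL y) hK.lipschitzOnWith (by simp)
    exact hpl.exists_eq_forall_mem_Icc_hasDerivWithinAt₀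
  choose α hα0 hα using hloc
  have huniq : ∀ n m : ℕ, n ≤ m → EqOn (α n) (α m) (Icc (0 : ℝ) n) := by
    intro n m hnm
    have hnm' : (n : ℝ) ≤ m := by exact_mod_cast hnm
    refine ODE_solution_unique (v := fun _ => v) (fun _ => hK)
      (fun t ht => (hα n t ht).continuousWithinAt) (fun t ht => ?_)
      (fun t ht => ((hα m t ⟨ht.1, ht.2.trans hnm'⟩).continuousWithinAt).mono
        (Icc_subset_Icc_right hnm')) (fun t ht => ?_) (by rw [hα0, hα0])
    · exact (hα n t ⟨ht.1, ht.2.le⟩).mono_of_mem_nhdsWithin (Icc_mem_nhdsGE_of_mem ht)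
    · exact (hα m t ⟨ht.1, ht.2.le.trans hnm'⟩).mono_of_mem_nhdsWithin
        (Icc_mem_nhdsGE_of_mem ⟨ht.1, ht.2.trans_le hnm'⟩)
  have hagree : ∀ N : ℕ, ∀ s ∈ Icc (0 : ℝ) N, α ⌈s⌉₊ s = α N s := by
    intro N s hs
    exact huniq _ _ (Nat.ceil_le.2 hs.2) ⟨hs.1, Nat.le_ceil s⟩
  refine ⟨fun s => α ⌈s⌉₊ s, by simp [hα0], fun t ht => ?_⟩
  obtain ⟨N, hN⟩ := exists_nat_gt t
  have h1 := (hα N t ⟨ht, hN.le⟩).congr_of_mem (f₁ := fun s => α ⌈s⌉₊ s)
    (fun s hs => hagree N s hs) ⟨ht, hN.le⟩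
  have h2 : Icc (0 : ℝ) N ∈ 𝓝[Ici 0] t := by
    rw [← Ici_inter_Iic]
    exact inter_mem_nhdsWithin _ (Iic_mem_nhds hN)
  show HasDerivWithinAt _ (v (α ⌈t⌉₊ t)) _ _
  rw [hagree N t ⟨ht, hN.le⟩]
  exact h1.mono_of_mem_nhdsWithin h2

/-- upper barrier -/
theorem ode_upper {f f' : ℝ → ℝ} {c : ℝ} (hf : ∀ t ≥ 0, HasDerivWithinAt f (f' t) (Ici 0) t)
    (h0 : f 0 ≤ c) (h : ∀ t ≥ 0, c < f t → f' t ≤ 0) : ∀ t ≥ 0, f t ≤ c := by
  intro t ht
  have key : ∀ ε > (0 : ℝ), f t ≤ c + ε * (1 + t) := by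
    intro ε hε
    refine image_le_of_deriv_right_lt_deriv_boundary (a := 0) (b := t) (f := f) (f' := f')
      (B := fun s => c + ε * (1 + s)) (B' := fun _ => ε)
      (fun s hs => (hf s hs.1).continuousWithinAt.mono Icc_subset_Ici_self)
      (fun s hs => (hf s hs.1).mono (Ici_subset_Ici.2 hs.1)) (by linarith)
      (fun s => ?_) (fun s hs he => ?_) ⟨ht, le_rfl⟩
    · simpa using (((hasDerivAt_id s).const_add 1).const_mul ε).const_add c
    · have : 0 < ε * (1 + s) := mul_pos hε (by linarith [hs.1])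
      exact (h s hs.1 (by linarith)).trans_lt hε
  refine le_of_forall_pos_le_add fun ε hε => ?_
  have h1 : (0 : ℝ) < 1 + t := by linarith
  have := key (ε / (1 + t)) (div_pos hε h1)
  rwa [div_mul_cancel₀ _ h1.ne'] at this

/-- lower barrier -/
theorem ode_lower {f f' : ℝ → ℝ} {C : ℝ} (hf : ∀ t ≥ 0, HasDerivWithinAt f (f' t) (Ici 0) t)
    (h0 : 0 < f 0) (h : ∀ t ≥ 0, 0 < f t → -C * f t < f' t) : ∀ t ≥ 0, 0 < f t := by
  intro t ht
  have key : -f t ≤ -(f 0 * Real.exp (-C * t)) := by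
    refine image_le_of_deriv_right_lt_deriv_boundary (a := 0) (b := t) (f := fun s => -f s)
      (f' := fun s => -f' s) (B := fun s => -(f 0 * Real.exp (-C * s)))
      (B' := fun s => C * (f 0 * Real.exp (-C * s)))
      (fun s hs => ((hf s hs.1).continuousWithinAt.mono Icc_subset_Ici_self).neg)
      (fun s hs => ((hf s hs.1).mono (Ici_subset_Ici.2 hs.1)).neg) (by simp)
      (fun s => ?_) (fun s hs he => ?_) ⟨ht, le_rfl⟩
    · have := ((((hasDerivAt_id s).const_mul (-C)).exp).const_mul (f 0)).neg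
      refine this.congr_deriv ?_
      simp only [id]
      ring
    · have h1 : f s = f 0 * Real.exp (-C * s) := neg_injective he
      have h2 : 0 < f s := by rw [h1]; positivity
      have := h s hs.1 h2
      rw [← h1]
      linarith
  have : 0 < f 0 * Real.exp (-C * t) := by positivity
  linarith

/-- the autonomous field -/
def odeF (p : ℝ × ℝ) : ℝ × ℝ :=
  (p.1 * (1 + p.2 - p.1),
    p.2 * (2 * p.1 ^ 2 + 15 * p.1 + 81 - p.2 * (81 - 6 * p.1)) / (2 * p.1 + 9))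

/-- clamping to the box -/
def odeClip (p : ℝ × ℝ) : ℝ × ℝ := (max 0 (min p.1 (9 / 2)), max 0 (min p.2 (7 / 2)))

theorem odeClip_mem (p : ℝ × ℝ) : odeClip p ∈ Icc (0 : ℝ) (9 / 2) ×ˢ Icc (0 : ℝ) (7 / 2) :=
  ⟨⟨le_max_left _ _, max_le (by norm_num) (min_le_right _ _)⟩,
    ⟨le_max_left _ _, max_le (by norm_num) (min_le_right _ _)⟩⟩

theorem odeClip_lipschitz : LipschitzWith 1 odeClip := by
  have h1 : LipschitzWith 1 fun p : ℝ × ℝ => max 0 (min p.1 (9 / 2)) :=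
    (LipschitzWith.prod_fst.min_const _).const_max 0
  have h2 : LipschitzWith 1 fun p : ℝ × ℝ => max 0 (min p.2 (7 / 2)) :=
    (LipschitzWith.prod_snd.min_const _).const_max 0
  have := h1.prodMk h2
  rw [max_self] at this
  exact this

theorem ode_autonomous {a₀ g₀ : ℝ} (ha₀ : 0 < a₀) (ha₀' : a₀ < 9 / 2) (hg₀ : 0 < g₀)
    (hg₀' : g₀ < 7 / 2) : ∃ x : ℝ → ℝ × ℝ, x 0 = (a₀, g₀) ∧ ∀ t ≥ 0, 0 < (x t).1 ∧ 0 < (x t).2 ∧
      HasDerivWithinAt x (odeF (x t)) (Ici 0) t := by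
  have hc : IsCompact (Icc (0 : ℝ) (9 / 2) ×ˢ Icc (0 : ℝ) (7 / 2)) :=
    isCompact_Icc.prod isCompact_Icc
  have hs : ContDiffOn ℝ 1 odeF (Icc (0 : ℝ) (9 / 2) ×ˢ Icc (0 : ℝ) (7 / 2)) := by
    unfold odeF
    refine ContDiffOn.prodMk (by fun_prop) (ContDiffOn.div (by fun_prop) (by fun_prop) ?_)
    intro p hp
    have := hp.1.1
    positivity
  obtain ⟨K, hK⟩ := LocallyLipschitzOn.exists_lipschitzOnWith_of_compact hc
    (hs.locallyLipschitzOn ((convex_Icc _ _).prod (convex_Icc _ _)))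
  obtain ⟨L, hL⟩ := hc.exists_bound_of_continuousOn hs.continuousOn
  obtain ⟨x, hx0, hx⟩ := ode_exists_global (v := fun p => odeF (odeClip p)) (K := K * 1)
    (L := ⟨max L 0, le_max_right _ _⟩)
    (by
      rw [← lipschitzOnWith_univ]
      exact hK.comp odeClip_lipschitz.lipschitzOnWith fun y _ => odeClip_mem y)
    (fun y => (hL _ (odeClip_mem y)).trans (le_max_left _ _)) (a₀, g₀)
  have h1 : ∀ t ≥ 0, HasDerivWithinAt (fun s => (x s).1) (odeF (odeClip (x t))).1 (Ici 0) t :=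
    fun t ht => (ContinuousLinearMap.fst ℝ ℝ ℝ).hasFDerivAt.comp_hasDerivWithinAt t (hx t ht)
  have h2 : ∀ t ≥ 0, HasDerivWithinAt (fun s => (x s).2) (odeF (odeClip (x t))).2 (Ici 0) t :=
    fun t ht => (ContinuousLinearMap.snd ℝ ℝ ℝ).hasFDerivAt.comp_hasDerivWithinAt t (hx t ht)
  have u1 : ∀ t ≥ 0, (x t).1 ≤ 9 / 2 := by
    refine ode_upper h1 (by rw [hx0]; exact ha₀'.le) fun t _ hlt => ?_
    have e : (odeClip (x t)).1 = 9 / 2 := by
      simp only [odeClip]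
      rw [min_eq_right hlt.le, max_eq_right (by norm_num)]
    have := (odeClip_mem (x t)).2.2
    simp only [odeF, e]
    linarith
  have u2 : ∀ t ≥ 0, (x t).2 ≤ 7 / 2 := by
    refine ode_upper h2 (by rw [hx0]; exact hg₀'.le) fun t _ hlt => ?_
    have e : (odeClip (x t)).2 = 7 / 2 := by
      simp only [odeClip]
      rw [min_eq_right hlt.le, max_eq_right (by norm_num)]
    obtain ⟨h3, h4⟩ := (odeClip_mem (x t)).1
    simp only [odeF, e]
    refine div_nonpos_of_nonpos_of_nonneg ?_ (by linarith)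
    nlinarith
  have l1 : ∀ t ≥ 0, 0 < (x t).1 := by
    refine ode_lower (C := 4) h1 (by rw [hx0]; exact ha₀) fun t ht hlt => ?_
    have e : (odeClip (x t)).1 = (x t).1 := by
      simp only [odeClip]
      rw [min_eq_left (u1 t ht), max_eq_right hlt.le]
    have h3 := (odeClip_mem (x t)).2.1
    have h4 := u1 t ht
    simp only [odeF, e]
    nlinarith
  have l2 : ∀ t ≥ 0, 0 < (x t).2 := by
    refine ode_lower (C := 40) h2 (by rw [hx0]; exact hg₀) fun t ht hlt => ?_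
    have e : (odeClip (x t)).2 = (x t).2 := by
      simp only [odeClip]
      rw [min_eq_left (u2 t ht), max_eq_right hlt.le]
    obtain ⟨h3, h4⟩ := (odeClip_mem (x t)).1
    have h5 := u2 t ht
    simp only [odeF, e]
    set A := (odeClip (x t)).1
    set G := (x t).2
    rw [lt_div_iff₀ (by linarith)]
    have h6 : 0 < 40 * (2 * A + 9) + (2 * A ^ 2 + 15 * A + 81 - G * (81 - 6 * A)) := by
      nlinarith [mul_nonneg h3 hlt.le]
    nlinarith [mul_pos hlt h6]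
  refine ⟨x, hx0, fun t ht => ⟨l1 t ht, l2 t ht, ?_⟩⟩
  have e : odeClip (x t) = x t := by
    simp only [odeClip]
    rw [min_eq_left (u1 t ht), max_eq_right (l1 t ht).le, min_eq_left (u2 t ht),
      max_eq_right (l2 t ht).le]
  have := hx t ht
  simp only [e] at this
  exact this

theorem global_sol' {r₀ a₀ g₀ : ℝ} (hr₀ : 0 < r₀) (ha₀ : 0 < a₀) (ha₀' : a₀ < 9 / 2)
    (hg₀ : 0 < g₀) (hg₀' : g₀ < 7 / 2) :
    ∃ a g : ℝ → ℝ, a r₀ = a₀ ∧ g r₀ = g₀ ∧ ∀ r ≥ r₀, 0 < a r ∧ 0 < g r ∧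
      HasDerivWithinAt a (a r * (1 + g r - a r) / (2 * r)) (Ici r₀) r ∧
      HasDerivWithinAt g (g r * (2 * a r ^ 2 + 15 * a r + 81 - g r * (81 - 6 * a r))
        / ((2 * a r + 9) * (2 * r))) (Ici r₀) r := by
  obtain ⟨x, hx0, hx⟩ := ode_autonomous ha₀ ha₀' hg₀ hg₀'
  set s : ℝ → ℝ := fun r => (Real.log r - Real.log r₀) / 2 with hs
  have s0 : s r₀ = 0 := by simp [hs]
  have sm : MapsTo s (Ici r₀) (Ici 0) := fun r hr =>
    div_nonneg (sub_nonneg.2 (Real.log_le_log hr₀ hr)) (by norm_num)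
  refine ⟨fun r => (x (s r)).1, fun r => (x (s r)).2, by simp only [s0, hx0],
    by simp only [s0, hx0], fun r hr => ?_⟩
  have hr' : 0 < r := hr₀.trans_le hr
  obtain ⟨p1, p2, hd⟩ := hx (s r) (sm hr)
  have sd : HasDerivWithinAt s (r⁻¹ / 2) (Ici r₀) r :=
    (((Real.hasDerivAt_log hr'.ne').sub_const _).div_const 2).hasDerivWithinAt
  have h := hd.scomp r sd sm
  refine ⟨p1, p2, ?_, ?_⟩
  · have h1 := (ContinuousLinearMap.fst ℝ ℝ ℝ).hasFDerivAt.comp_hasDerivWithinAt r h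
    refine h1.congr_deriv ?_
    simp only [odeF, ContinuousLinearMap.coe_fst', Prod.smul_mk, smul_eq_mul]
    field_simp
  · have h1 := (ContinuousLinearMap.snd ℝ ℝ ℝ).hasFDerivAt.comp_hasDerivWithinAt r h
    refine h1.congr_deriv ?_
    simp only [odeF, ContinuousLinearMap.coe_snd', Prod.smul_mk, smul_eq_mul]
    field_simp

/-- solutions of smooth equations are smooth -/
theorem ode_smooth {E : Type*} [NormedAddCommGroup E] [NormedSpace ℝ E] {U : Set ℝ}
    (hU : IsOpen U) {W : Set (ℝ × E)} {f : ℝ × E → E} (hf : ContDiffOn ℝ ∞ f W) {y : ℝ → E}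
    (hW : ∀ t ∈ U, (t, y t) ∈ W) (hy : ∀ t ∈ U, HasDerivAt y (f (t, y t)) t) :
    ContDiffOn ℝ ∞ y U := by
  have hd : DifferentiableOn ℝ y U := fun t ht => (hy t ht).differentiableAt.differentiableWithinAt
  rw [contDiffOn_infty]
  intro n
  induction n with
  | zero => exact contDiffOn_zero.2 hd.continuousOn
  | succ n ih =>
    rw [Nat.cast_succ, contDiffOn_succ_iff_deriv_of_isOpen hU]
    refine ⟨hd, fun h => absurd h (by simp), ?_⟩
    refine ContDiffOn.congr (f := fun t => f (t, y t)) ?_ fun t ht => (hy t ht).deriv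
    exact ((contDiffOn_infty.1 hf) n).comp (contDiffOn_id.prodMk ih) hW

theorem ode_glue {f f' : ℝ → ℝ} {c r : ℝ} (h1 : r ≤ c → HasDerivWithinAt f (f' r) (Iic c) r)
    (h2 : c ≤ r → HasDerivWithinAt f (f' r) (Ici c) r) : HasDerivAt f (f' r) r := by
  rcases lt_trichotomy r c with h | h | h
  · exact (h1 h.le).hasDerivAt (Iic_mem_nhds h)
  · have := (h1 h.le).union (h2 h.ge)
    rwa [Iic_union_Ici, hasDerivWithinAt_univ] at this
  · exact (h2 h.le).hasDerivAt (Ici_mem_nhds h)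

theorem profile_of_local (R : ℝ → ℝ → ℝ → ℝ) (hR : ∀ r α β, R r α β =
      (1 + r * β) * (21 * α - 81 * β + r * (2 * α ^ 2 + 6 * α * β)) / (2 * (9 + 2 * r * α)))
    (hloc : ∃ δ > (0 : ℝ), ∃ α β : ℝ → ℝ, ContDiffOn ℝ ∞ α (Ioo (-δ) δ) ∧
      ContDiffOn ℝ ∞ β (Ioo (-δ) δ) ∧ ∀ r ∈ Ioo (-δ) δ, 1 / 2 < α r ∧ α r < 2 ∧ |β r| < 1 ∧
        HasDerivAt α (α r * (β r - α r) / 2) r ∧
        HasDerivAt (fun s => 1 + s * β s) (R r (α r) (β r)) r) :
    ∃ δ > (0 : ℝ), ∃ Φ α β : ℝ → ℝ, ContDiffOn ℝ ∞ Φ (Ioi (-δ)) ∧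
      ContDiffOn ℝ ∞ α (Ioi (-δ)) ∧ ContDiffOn ℝ ∞ β (Ioi (-δ)) ∧ ∀ r > -δ,
        0 < Φ r ∧ 0 < α r ∧ 0 < 1 + r * β r ∧ 0 < 9 + 2 * r * α r ∧
        HasDerivAt Φ (α r * Φ r) r ∧ HasDerivAt α (α r * (β r - α r) / 2) r ∧
        HasDerivAt (fun s => 1 + s * β s) (R r (α r) (β r)) r := by
  obtain ⟨δ₀, hδ₀, α₀, β₀, sα, sβ, h₀⟩ := hloc
  obtain ⟨c, hc, hc1, hcδ⟩ : ∃ c : ℝ, 0 < c ∧ c < 1 ∧ c < δ₀ :=
    ⟨min δ₀ 1 / 2, by positivity, by linarith [min_le_right δ₀ 1],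
      by linarith [min_le_left δ₀ 1, lt_min hδ₀ one_pos]⟩
  have hmem : ∀ r, -c < r → r ≤ c → r ∈ Ioo (-δ₀) δ₀ := fun r h1 h2 => ⟨by linarith, by linarith⟩
  have hbd : ∀ r, -c < r → r ≤ c → |r * β₀ r| < 1 ∧ |r * α₀ r| < 2 := fun r h1 h2 => by
    obtain ⟨p1, p2, p3, -⟩ := h₀ r (hmem r h1 h2)
    have hr : |r| ≤ 1 := abs_le.2 ⟨by linarith, by linarith⟩
    rw [abs_mul, abs_mul, abs_of_pos (by linarith : 0 < α₀ r)]
    have := abs_nonneg (β₀ r)
    have := abs_nonneg r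
    constructor <;> nlinarith
  have hcc : -c < c := by linarith
  obtain ⟨a, g, ac, gc, hag⟩ := global_sol' (a₀ := c * α₀ c) (g₀ := 1 + c * β₀ c) hc
    (mul_pos hc (by linarith [(h₀ c (hmem c hcc le_rfl)).1]))
    (by linarith [(abs_lt.1 (hbd c hcc le_rfl).2).2])
    (by linarith [(abs_lt.1 (hbd c hcc le_rfl).1).1])
    (by linarith [(abs_lt.1 (hbd c hcc le_rfl).1).2])
  set α : ℝ → ℝ := fun r => if r ≤ c then α₀ r else a r / r with hα
  set β : ℝ → ℝ := fun r => if r ≤ c then β₀ r else (g r - 1) / r with hβ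
  have αl : ∀ r ∈ Iic c, α r = α₀ r := fun r hr => if_pos hr
  have βl : ∀ r ∈ Iic c, β r = β₀ r := fun r hr => if_pos hr
  have αr : ∀ r ∈ Ici c, α r = a r / r := fun r hr => by
    rcases eq_or_lt_of_le (mem_Ici.1 hr) with h | h
    · rw [← h, αl c self_mem_Iic, ac]
      field_simp
    · exact if_neg (not_le.2 h)
  have βr : ∀ r ∈ Ici c, β r = (g r - 1) / r := fun r hr => by
    rcases eq_or_lt_of_le (mem_Ici.1 hr) with h | h
    · rw [← h, βl c self_mem_Iic, gc]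
      field_simp
      ring
    · exact if_neg (not_le.2 h)
  have ar : ∀ r ∈ Ici c, r * α r = a r := fun r hr => by
    have : r ≠ 0 := (hc.trans_le hr).ne'
    rw [αr r hr]
    field_simp
  have gr : ∀ r ∈ Ici c, 1 + r * β r = g r := fun r hr => by
    have : r ≠ 0 := (hc.trans_le hr).ne'
    rw [βr r hr]
    field_simp
    ring
  have hpos : ∀ r > -c, 0 < α r ∧ 0 < 1 + r * β r ∧ 0 < 9 + 2 * r * α r := fun r hr => by
    rcases le_total r c with h | h
    · rw [αl r h, βl r h]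
      refine ⟨by linarith [(h₀ r (hmem r hr h)).1], by linarith [(abs_lt.1 (hbd r hr h).1).1], ?_⟩
      have := (abs_lt.1 (hbd r hr h).2).1
      linarith
    · obtain ⟨p1, p2, -⟩ := hag r h
      refine ⟨?_, by rwa [gr r h], ?_⟩
      · rw [αr r h]
        exact div_pos p1 (hc.trans_le h)
      · have := ar r h
        linarith
  have dα : ∀ r > -c, HasDerivAt α (α r * (β r - α r) / 2) r := fun r hr => by
    refine ode_glue (f' := fun r => α r * (β r - α r) / 2) (c := c) (fun h => ?_) fun h => ?_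
    · simp only [αl r h, βl r h]
      exact (h₀ r (hmem r hr h)).2.2.2.1.hasDerivWithinAt.congr αl (αl r h)
    · have hr0 : r ≠ 0 := (hc.trans_le h).ne'
      have h1 := ((hag r h).2.2.1.div (hasDerivWithinAt_id r _) hr0).congr αr (αr r h)
      refine h1.congr_deriv ?_
      simp only [αr r h, βr r h, id]
      field_simp
      ring
  have dβ : ∀ r > -c, HasDerivAt (fun s => 1 + s * β s) (R r (α r) (β r)) r := fun r hr => by
    refine ode_glue (f' := fun r => R r (α r) (β r)) (c := c) (fun h => ?_) fun h => ?_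
    · simp only [αl r h, βl r h]
      exact (h₀ r (hmem r hr h)).2.2.2.2.hasDerivWithinAt.congr
        (fun s hs => by rw [βl s hs]) (by rw [βl r h])
    · have hr0 : r ≠ 0 := (hc.trans_le h).ne'
      have h1 := (hag r h).2.2.2.congr gr (gr r h)
      have h2 : 2 * a r + 9 ≠ 0 := by linarith [(hag r h).1]
      have h3 : 9 + 2 * a r ≠ 0 := by linarith [(hag r h).1]
      refine h1.congr_deriv ?_
      simp only [hR]
      rw [gr r h, mul_assoc 2 r, ar r h, αr r h, βr r h]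
      field_simp
      ring
  -- smoothness for `r > 0`
  have hsm : ContDiffOn ℝ ∞ (fun r => (α r, 1 + r * β r)) (Ioi 0) := by
    refine ode_smooth isOpen_Ioi
      (W := {p : ℝ × (ℝ × ℝ) | p.1 ≠ 0 ∧ 2 * (9 + 2 * p.1 * p.2.1) ≠ 0})
      (f := fun p => (p.2.1 * ((p.2.2 - 1) / p.1 - p.2.1) / 2,
        R p.1 p.2.1 ((p.2.2 - 1) / p.1))) ?_ (fun t ht => ⟨ht.ne', ?_⟩) fun t ht => ?_
    · have hq : ContDiffOn ℝ ∞ (fun p : ℝ × (ℝ × ℝ) => (p.2.2 - 1) / p.1)
          {p : ℝ × (ℝ × ℝ) | p.1 ≠ 0 ∧ 2 * (9 + 2 * p.1 * p.2.1) ≠ 0} :=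
        ContDiffOn.div (by fun_prop) (by fun_prop) fun p hp => hp.1
      simp only [hR]
      refine ContDiffOn.prodMk (by fun_prop) (ContDiffOn.div (by fun_prop) (by fun_prop) ?_)
      exact fun p hp => hp.2
    · have := (hpos t (by linarith [mem_Ioi.1 ht])).2.2
      simp only
      positivity
    · have ht0 : t ≠ 0 := ht.ne'
      have e : (1 + t * β t - 1) / t = β t := by field_simp; ring
      have ht' : t > -c := by linarith [mem_Ioi.1 ht]
      simp only [e]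
      exact (dα t ht').prodMk (dβ t ht')
  have hcases : ∀ {f f₀ : ℝ → ℝ}, ContDiffOn ℝ ∞ f₀ (Ioo (-δ₀) δ₀) → (∀ r ∈ Iic c, f r = f₀ r) →
      ContDiffOn ℝ ∞ f (Ioi 0) → ContDiffOn ℝ ∞ f (Ioi (-c)) := by
    intro f f₀ h1 h2 h3 r hr
    refine ContDiffAt.contDiffWithinAt ?_
    rcases lt_or_ge r c with h | h
    · refine (h1.contDiffAt (isOpen_Ioo.mem_nhds (hmem r hr h.le))).congr_of_eventuallyEq ?_
      filter_upwards [Iic_mem_nhds h] with s hs using h2 s hs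
    · exact h3.contDiffAt (Ioi_mem_nhds (hc.trans_le h))
  have Sα : ContDiffOn ℝ ∞ α (Ioi (-c)) := hcases sα αl hsm.fst
  have Sβ : ContDiffOn ℝ ∞ β (Ioi (-c)) := by
    refine hcases sβ βl ?_
    refine ((hsm.snd.sub contDiffOn_const (g := fun _ => (1 : ℝ))).div contDiffOn_id
      fun r hr => (mem_Ioi.1 hr).ne').congr fun r hr => ?_
    have : r ≠ 0 := (mem_Ioi.1 hr).ne'
    simp only [Pi.div_apply, id]
    field_simp
    ring
  have dΦ : ∀ r > -c, HasDerivAt (fun r => Real.exp (∫ t in (0 : ℝ)..r, α t))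
      (α r * Real.exp (∫ t in (0 : ℝ)..r, α t)) r := fun r hr => by
    have hcont := Sα.continuousOn
    have hsub : uIcc 0 r ⊆ Ioi (-c) := fun t ht => by
      rcases mem_uIcc.1 ht with h | h
      · exact mem_Ioi.2 (by linarith [h.1])
      · exact mem_Ioi.2 (by linarith [h.1])
    have h1 := intervalIntegral.integral_hasDerivAt_right
      (hcont.mono hsub).intervalIntegrable
      (hcont.stronglyMeasurableAtFilter isOpen_Ioi r hr) (hcont.continuousAt (Ioi_mem_nhds hr))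
    rw [mul_comm]
    exact h1.exp
  refine ⟨c, hc, fun r => Real.exp (∫ t in (0 : ℝ)..r, α t), α, β, ?_, Sα, Sβ, fun r hr =>
    ⟨Real.exp_pos _, (hpos r hr).1, (hpos r hr).2.1, (hpos r hr).2.2, dΦ r hr, dα r hr, dβ r hr⟩⟩
  refine ode_smooth isOpen_Ioi (W := Ioi (-c) ×ˢ univ) (f := fun p : ℝ × ℝ => α p.1 * p.2) ?_
    (fun t ht => ⟨ht, trivial⟩) dΦ
  exact (Sα.comp contDiffOn_fst fun p hp => hp.1).mul contDiffOn_snd

end Crest.Agent.R236
end
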