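import Mathlib
import Crest.Agent.R236.ODEglobalAux
import Crest.Agent.R236.ODELocal

/-!
# The profile ODE for the example in dimension 10

With `a = rα`, `g = 1 + rβ` the system is `2r a' = a(1+g-a)`, `2r g' = g(2a²+15a+81 - g(81-6a))/(2a+9)`;
the box `0 < a ≤ 9/2`, `0 < g ≤ 7/2` is invariant for `r > 0`.

`local_sol`: put `θ = β - (7/33)α`; then `2rθ' + 11θ = r F(r,α,θ)` with `F` smooth near `(0,1,0)`:
`(1+rβ)(21α - 81β + r(2α²+6αβ))/(9+2rα) = (7/3)α - 9β + r F₁`, `F = F₁ - (7/33)α(β-α)`.  Solve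
`α r = 1 + r∫₀¹ (α(β-α)/2)(r s) ds`, `θ r = r ∫₀¹ τ¹² F(τ² r, α(τ² r), θ(τ² r)) dτ` by the contraction principle in
a closed ball of `C(Icc (-δ) δ, ℝ × ℝ)` (both right sides carry a factor `r`, so Lipschitz constant `O(δ)`).
Regularity: `I_m[G](r) = ∫₀¹ τ^m G(τ² r) dτ` is `C^k` if `G` is (`I_m[G]' = I_{m+2}[G']`, induction on `k`,
`intervalIntegral.hasDerivAt_integral_of_dominated_loc_of_deriv_le`), and
`(r I₁₂[G])' = G/2 - (11/2) I₁₂[G]` for merely continuous `G` (for `r > 0`, `r I₁₂[G] = r^{-11/2}∫₀^{√r} s¹² G(s²) ds`;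
similarly `r<0`; at `r = 0` directly); bootstrap with `contDiffOn_succ_iff_deriv_of_isOpen`.
`global_sol`: from `r₀ > 0`, `(a₀, g₀)` in the open box; in `σ = log r` solve the clamped autonomous system
(replace `a, g` inside the factors by `max 0 (min a 9/2)`, `max 0 (min g 7/2)`: globally Lipschitz after also
clamping the prefactors, so a solution exists on all of `ℝ`/`[σ₀,∞)`), show `a ≤ 9/2`, `g ≤ 7/2`
(derivative `≤ 0` above the level: at `g = 7/2` the numerator is `2(a - 9/2)(a + 45/2)`), positivity by Gronwall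
(`a' ≥ -Ca`), then `C^∞` by bootstrap.  `profile`: glue at `r₀` small (uniqueness `ODE_solution_unique_of_mem_Icc`
or just glue: both pieces solve the same smooth first order system near `r₀`, so the glued function is
differentiable at `r₀` and `C^∞` by bootstrap); `Φ = exp ∫₀ʳ α`.
-/

set_option autoImplicit false
open scoped ContDiff Topology
open MeasureTheory Set

noncomputable section
namespace Crest.Agent.R236

/-- right side of the equation for `g = 1 + rβ`: `g' = rhs` -/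
def rhsG (r α β : ℝ) : ℝ :=
  (1 + r * β) * (21 * α - 81 * β + r * (2 * α ^ 2 + 6 * α * β)) / (2 * (9 + 2 * r * α))

theorem local_sol : ∃ δ > (0 : ℝ), ∃ α β : ℝ → ℝ, ContDiffOn ℝ ∞ α (Ioo (-δ) δ) ∧
    ContDiffOn ℝ ∞ β (Ioo (-δ) δ) ∧ ∀ r ∈ Ioo (-δ) δ, 1 / 2 < α r ∧ α r < 2 ∧ |β r| < 1 ∧
      HasDerivAt α (α r * (β r - α r) / 2) r ∧
      HasDerivAt (fun s => 1 + s * β s) (rhsG r (α r) (β r)) r := ODEL.local_sol'

theorem global_sol {r₀ a₀ g₀ : ℝ} (hr₀ : 0 < r₀) (ha₀ : 0 < a₀) (ha₀' : a₀ < 9 / 2) (hg₀ : 0 < g₀)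
    (hg₀' : g₀ < 7 / 2) :
    ∃ a g : ℝ → ℝ, a r₀ = a₀ ∧ g r₀ = g₀ ∧ ∀ r ≥ r₀, 0 < a r ∧ 0 < g r ∧
      HasDerivWithinAt a (a r * (1 + g r - a r) / (2 * r)) (Ici r₀) r ∧
      HasDerivWithinAt g (g r * (2 * a r ^ 2 + 15 * a r + 81 - g r * (81 - 6 * a r))
        / ((2 * a r + 9) * (2 * r))) (Ici r₀) r :=
  global_sol' hr₀ ha₀ ha₀' hg₀ hg₀'

theorem profile : ∃ δ > (0 : ℝ), ∃ Φ α β : ℝ → ℝ, ContDiffOn ℝ ∞ Φ (Ioi (-δ)) ∧
    ContDiffOn ℝ ∞ α (Ioi (-δ)) ∧ ContDiffOn ℝ ∞ β (Ioi (-δ)) ∧ ∀ r > -δ,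
      0 < Φ r ∧ 0 < α r ∧ 0 < 1 + r * β r ∧ 0 < 9 + 2 * r * α r ∧
      HasDerivAt Φ (α r * Φ r) r ∧ HasDerivAt α (α r * (β r - α r) / 2) r ∧
      HasDerivAt (fun s => 1 + s * β s) (rhsG r (α r) (β r)) r :=
  profile_of_local rhsG (fun _ _ _ => rfl) local_sol

end Crest.Agent.R236
end
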