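import Crest.Agent.R236.Calc
import Crest.Agent.R236.ODE
import Crest.Agent.R236.Ex10Aux

/-!
# The entire non-quadratic affine maximal graph on `ℝ¹⁰`

`rr x = Σ_{i<9} xᵢ²`, `t = x 9` (`Fin.last 9`), `u = √(Φ(rr) + t²)`.  For `f = Ψ(rr x, x 9)` the Hessian is
`rk x a b c d := a • P + b • x' x'ᵀ + c • (x' eᵀ + e x'ᵀ) + d • e eᵀ` with `a = 2Ψ_r, b = 4Ψ_rr, c = 2Ψ_rt, d = Ψ_tt`
(`P` = projection killing the last coordinate, `x' = P x`, `e = e₉`); get it from `hess_comp`, `hess_add`,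
`hess_mul` of `Calc` (`hess rr = 2P`, `d rr = 2x'`).  Algebra of `rk` (`r = rr x`, `p = a + b r`, `D = p d - c² r`):
`det = a⁸ D` (write `rk = a • (1 + U C Uᵀ)`, `U = [x', e]`, `Matrix.det_one_add_mul_comm`), PosDef if `a, p, D > 0`
(complete squares; Cauchy-Schwarz `(x'·v)² ≤ r |v'|²`), inverse `= rk x a⁻¹ ((c² - b d)/(a D)) (-c/D) (p/D)`,
and `Σ (rk a b c d)⁻¹ i j · (rk a' b' c' d') i j = 8 a'/a + ((a'+b' r) d - 2 c c' r + p d')/D`.
For `u`: `det H = Φ¹⁰ α⁹ g / u¹²`, so `detPower = u¹¹ κ(rr)`, `κ = (Φ¹⁰ α⁹ g)^{-11/12}`, `κ' = m κ` with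
`m = -11 α (g + a + 4)/(2a + 9)` (`a = rα`, `g = 1 + rβ`), `m'` from the ODE; the final identity is
`field_simp; ring` after substituting `Φ = u² - t²` (checked in exact arithmetic).
Not quadratic: along `x = t e₉`, `u² = Φ 0 + t²`; a quadratic polynomial `P(t)` with `P² = Φ 0 + t²`, `Φ 0 > 0` is
impossible (compare `t = 0, ±1, ±2`, or growth: `P(t) + P(-t) - 2P(0) = A t²`).
-/

set_option autoImplicit false
open scoped ContDiff Topology
open Crest.GeometryTopology.CoordMetric Crest.GeometryTopology.AffineMaximal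
open MeasureTheory Set

noncomputable section
namespace Crest.Agent.R236

open Ex in
theorem exists_example :
    ∃ u : EuclideanSpace ℝ (Fin 10) → ℝ, ContDiff ℝ ∞ u ∧ (∀ x, (hessianMat u x).PosDef) ∧
      (∀ x, affineMaximalOp 10 u x = 0) ∧
      ¬ ∃ (A : Matrix (Fin 10) (Fin 10) ℝ) (b : EuclideanSpace ℝ (Fin 10)) (c : ℝ),
        ∀ x, u x = (1 / 2) * (∑ i, ∑ j, A i j * x i * x j) + (∑ i, b i * x i) + c := by
  obtain ⟨δ, hδ, Φ, α, β, hΦs, -, -, hP⟩ := profile
  have hP' := fun r (hr : 0 ≤ r) => hP r (by linarith)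
  have hx := fun x : E 10 => hP' _ (rr_nonneg x)
  set U : E 10 → ℝ := fun x => √(Φ (rr x) + x L * x L) with hUdef
  have hpos : ∀ x : E 10, 0 < Φ (rr x) + x L * x L := fun x =>
    add_pos_of_pos_of_nonneg (hx x).1 (mul_self_nonneg _)
  have hU0 : ∀ x, 0 < U x := fun x => Real.sqrt_pos.2 (hpos x)
  have hU2 : ∀ x, Φ (rr x) = U x ^ 2 - x L ^ 2 := fun x => by
    rw [hUdef, Real.sq_sqrt (hpos x).le]; ring
  have hPh : D1 (fun x => Φ (rr x)) (fun x => α (rr x) * Φ (rr x)) (fun _ => 0) :=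
    D1.rad (φ' := fun r => α r * Φ r) fun r hr => (hP' r hr).2.2.2.2.1
  have hAl : D1 (fun x => α (rr x)) (fun x => α (rr x) * (β (rr x) - α (rr x)) / 2) (fun _ => 0) :=
    D1.rad (φ' := fun r => α r * (β r - α r) / 2) fun r hr => (hP' r hr).2.2.2.2.2.1
  have hU : D1 U (fun x => 1 / 2 * (α (rr x) * Φ (rr x) * (U x)⁻¹)) (fun x => x L * (U x)⁻¹) := by
    refine ((hPh.add (D1.t.mul D1.t)).comp (φ := Real.sqrt) (φ' := fun x => 1 / (2 * U x))
      fun x => Real.hasDerivAt_sqrt (hpos x).ne').congr (fun x => ?_) (fun x => ?_)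
    · ring
    · ring
  have hUi := hU.inv fun x => (hU0 x).ne'
  have hH : ∀ x, hessianMat U x = rk (xp x) el (α (rr x) * Φ (rr x) / U x)
      (α (rr x) * Φ (rr x) * (α (rr x) + β (rr x)) / U x - (α (rr x) * Φ (rr x)) ^ 2 / U x ^ 3)
      (-(α (rr x) * Φ (rr x) * x L) / U x ^ 3) (-(α (rr x) * Φ (rr x) * x L) / U x ^ 3)
      (Φ (rr x) / U x ^ 3) := by
    intro x
    have := (hU0 x).ne'
    rw [hU.hess (((hAl.mul hPh).mul hUi).const_mul _) (D1.t.mul hUi)]
    congr 1
    · ring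
    · field_simp; ring
    · field_simp; ring
    · field_simp; ring
    · rw [hU2 x]; field_simp; ring
  have hDe : ∀ x, α (rr x) * Φ (rr x) ^ 2 * (1 + rr x * β (rr x)) / U x ^ 4 =
      (α (rr x) * Φ (rr x) / U x + (α (rr x) * Φ (rr x) * (α (rr x) + β (rr x)) / U x
        - (α (rr x) * Φ (rr x)) ^ 2 / U x ^ 3) * rr x) * (Φ (rr x) / U x ^ 3)
        - (-(α (rr x) * Φ (rr x) * x L) / U x ^ 3) ^ 2 * rr x := by
    intro x
    have := (hU0 x).ne'
    rw [hU2 x]; field_simp; ring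
  have hdet : ∀ x, (hessianMat U x).det =
      Φ (rr x) ^ 10 * α (rr x) ^ 9 * (1 + rr x * β (rr x)) / U x ^ 12 := by
    intro x
    obtain ⟨h1, h2, -⟩ := hx x
    have h3 := hU0 x
    have ha : α (rr x) * Φ (rr x) / U x ≠ 0 := by positivity
    refine mul_right_cancel₀ (pow_ne_zero 2 ha) ?_
    rw [hH, rk_det (r := rr x) rfl (xp_el x) el_el ha, ← hDe, Fintype.card_fin]
    field_simp
  set κ : ℝ → ℝ := fun r => (Φ r ^ 10 * α r ^ 9 * (1 + r * β r)) ^ (-11 / 12 : ℝ) with hκ
  set m : ℝ → ℝ := fun r => -11 * (α r * (1 + r * β r + r * α r + 4) / (9 + 2 * r * α r)) with hm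
  have hW : detPower 10 U = fun x => κ (rr x) * U x ^ (10 + 1) := by
    funext x
    obtain ⟨h1, h2, h4, -⟩ := hx x
    have h3 := hU0 x
    have e : -(((10 : ℕ) : ℝ) + 1) / (((10 : ℕ) : ℝ) + 2) = -11 / 12 := by norm_num
    rw [detPower, hdet, e, Real.div_rpow (by positivity) (by positivity), ← Real.rpow_natCast (U x) 12,
      ← Real.rpow_mul h3.le, div_eq_mul_inv, ← Real.rpow_neg h3.le, ← Real.rpow_natCast (U x)]
    norm_num [hκ]
  have hK : D1 (fun x => κ (rr x)) (fun x => m (rr x) * κ (rr x)) (fun _ => 0) := by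
    refine D1.rad (φ' := fun r => m r * κ r) fun r hr => ?_
    obtain ⟨h1, h2, h3, h4, d1, d2, d3⟩ := hP' r hr
    have hne : Φ r ^ 10 * α r ^ 9 * (1 + r * β r) ≠ 0 := by positivity
    refine ((((d1.fun_pow 10).fun_mul (d2.fun_pow 9)).fun_mul d3).rpow_const
      (p := -11 / 12) (Or.inl hne)).congr_deriv ?_
    rw [Real.rpow_sub_one hne]
    simp only [hm, hκ, rhsG]
    generalize (Φ r ^ 10 * α r ^ 9 * (1 + r * β r)) ^ (-11 / 12 : ℝ) = k
    generalize hQ : 9 + 2 * r * α r = Q at *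
    generalize hg : 1 + r * β r = g at *
    norm_num
    field_simp
    rw [← hQ, ← hg]
    ring
  set m' : ℝ → ℝ := fun r => -11 * (((α r * (β r - α r) / 2)
      * (1 + r * β r + r * α r + 4) + α r * (rhsG r (α r) (β r)
        + (α r + r * (α r * (β r - α r) / 2)))) * (9 + 2 * r * α r)
      - α r * (1 + r * β r + r * α r + 4) * (2 * (α r + r * (α r * (β r - α r) / 2))))
        / (9 + 2 * r * α r) ^ 2 with hm'
  have hM : D1 (fun x => m (rr x)) (fun x => m' (rr x)) (fun _ => 0) := by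
    refine D1.rad fun r hr => ?_
    obtain ⟨h1, h2, h3, h4, d1, d2, d3⟩ := hP' r hr
    have d4 := (hasDerivAt_id' r).fun_mul d2
    have d5 := ((hasDerivAt_id' r).const_mul 2).fun_mul d2
    refine (((d2.fun_mul ((d3.fun_add d4).add_const 4)).fun_div
      (d5.const_add 9) h4.ne').const_mul (-11)).congr_deriv ?_
    simp only [hm']
    ring
  have hW1 : D1 (fun x => κ (rr x) * U x ^ (10 + 1))
      (fun x => κ (rr x) * (11 / 2 * (U x ^ (8 + 1) * (α (rr x) * Φ (rr x)))
        + U x ^ (10 + 1) * m (rr x)))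
      (fun x => κ (rr x) * (11 * (U x ^ (8 + 1) * x L))) := by
    refine (hK.mul (hU.pow 10)).congr (fun x => ?_) (fun x => ?_)
    · have := (hU0 x).ne'
      push_cast; field_simp; ring
    · have := (hU0 x).ne'
      push_cast; field_simp; ring
  refine ⟨U, ?_, fun x => ?_, fun x => ?_, ?_⟩
  · refine ContDiff.sqrt (ContDiff.add ?_ (dt.contDiff.mul dt.contDiff)) fun x => (hpos x).ne'
    exact hΦs.comp_contDiff contDiff_rr fun x => lt_of_lt_of_le (by linarith) (rr_nonneg x)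
  · obtain ⟨h1, h2, h4, -⟩ := hx x
    have h3 := hU0 x
    have h5 := rr_nonneg x
    rw [hH]
    refine rk_posDef (r := rr x) rfl (xp_el x) el_el (by positivity) ?_ ?_
    · have e : α (rr x) * Φ (rr x) / U x + (α (rr x) * Φ (rr x) * (α (rr x) + β (rr x)) / U x
          - (α (rr x) * Φ (rr x)) ^ 2 / U x ^ 3) * rr x = α (rr x) * Φ (rr x) / U x ^ 3 *
            (U x ^ 2 * (1 + rr x * β (rr x)) + rr x * α (rr x) * x L ^ 2) := by
        rw [hU2 x]; field_simp; ring
      rw [e]; positivity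
    · rw [← hDe]; positivity
  · obtain ⟨h1, h2, h4, h6, -⟩ := hx x
    have h3 := hU0 x
    simp only [affineMaximalOp, mul_assoc, ← Finset.mul_sum]
    refine mul_eq_zero_of_right _ ?_
    rw [hW, hW1.hess (hK.mul ((((hU.pow 8).mul (hAl.mul hPh)).const_mul _).add ((hU.pow 10).mul hM)))
      (hK.mul (((hU.pow 8).mul D1.t).const_mul _)), hH,
      rk_sum (r := rr x) rfl (xp_el x) el_el (by positivity) (by positivity) (hDe x),
      Fintype.card_fin]
    simp only [hm, hm', rhsG]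
    have h7 := hU2 x
    generalize α (rr x) = a at *
    generalize β (rr x) = b at *
    generalize κ (rr x) = k at *
    generalize Φ (rr x) = φ at *
    generalize U x = u at *
    generalize rr x = r at *
    generalize x L = t at *
    generalize hQ : 9 + 2 * r * a = Q at *
    generalize hg : 1 + r * b = g at *
    push_cast
    field_simp
    rw [h7, ← hQ, ← hg]
    ring
  · rintro ⟨A, b, c, h⟩
    have key : ∀ t : ℝ, √(Φ 0 + t * t) = 1 / 2 * A L L * t ^ 2 + b L * t + c := by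
      intro t
      have h1 := h (EuclideanSpace.single L t)
      have h2 : rr (EuclideanSpace.single L t) = 0 := by
        unfold rr dotProduct
        refine Finset.sum_eq_zero fun i _ => ?_
        by_cases hi : i = L <;> simp [xp, hi]
      simp only [hUdef, h2] at h1
      simp only [PiLp.single_apply, mul_ite, mul_zero, ite_mul, zero_mul, Finset.sum_ite_eq',
        Finset.mem_univ, if_true] at h1
      rw [h1]; ring
    have h0 := (hP' 0 le_rfl).1
    have sq : ∀ t : ℝ, (1 / 2 * A L L * t ^ 2 + b L * t + c) ^ 2 = Φ 0 + t * t := fun t => by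
      rw [← key, Real.sq_sqrt (add_nonneg h0.le (mul_self_nonneg _))]
    have hb : b L = 0 := by
      have h1 := key 1
      have h2 := key (-1)
      rw [neg_mul_neg, h1] at h2
      linarith
    have s0 := sq 0
    have s1 := sq 1
    have s2 := sq 2
    rw [hb] at s0 s1 s2
    have hA : A L L ^ 2 = 0 := by nlinarith
    have hA0 : A L L = 0 := pow_eq_zero_iff two_ne_zero |>.1 hA
    rw [hA0] at s0 s1
    nlinarith

end Crest.Agent.R236
end
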