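import Crest.Agent.R236.Harnack

/-!
# Constant determinant, Pogorelov's estimate, and rigidity

`det_const`: `w = detPower` is bounded (`det_global` via `exists_normB`, `tr_det`), `L0 w = 0`; apply
`common_point` to `w - inf w` and `sup w - w` (`ι = Bool`): `sup - inf < 2τ` for all `τ`.
`pogorelov`: `d lr = 0` on `Ω` (constant determinant).  Maximise `(1-u) u_{vv} exp(A (∂_v u)²/2)` over `lev 1`,
`v = ee i`, `A = η²/4`.  At the interior maximum, `s = u_{vv} = H(v,v)`, `a = d log s`, `c = d log(1-u)`,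
`g = d(∂_v u)` (`B g β = β v`, `B g g = s`, `L0 ∂_v u = 0`): `a + c + A u_v g = 0` and
`0 ≥ L0 log s - n/(1-u) - B c c + A s`; `pogorelov_alg` + `L0_uvv` + `fderiv_uvv` give
`L0 log s ≥ B a a - (a v)²/s`; since `c = -a - A u_v g`, `B c c - (c v)²/s = B a a - (a v)²/s`;
`c v = -u_v/(1-u)`.  So `X = (1-u)s` has `A X² ≤ n X + u_v²`, `u_v² ≤ 4/η²`.
`uvv_bdd`: in the normalisation at `x₀` of height `h ≥ 2 tp x₀ (X x)`: `H'(x̂) ≤ nM`, and
`H'(0) ≥ λ/(nM)^{n-1}` (`quad_le_trace`, `quad_ge_of_trace_det`), so `u_{vv}(x) ≤ C u_{vv}(x₀)` (`tr_uvv`).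
`hess_const`: `M v = sup u_{vv}`; `M v - u_{vv} ≥ 0` is a supersolution (`L0_uvv`, `trace_inv_sq_nonneg`) with
infimum `0`.  Define `P i j = (M(eᵢ+eⱼ) - M eᵢ - M eⱼ)/2`.  For any `v, τ`, `common_point` for the family
`eᵢ, eᵢ+eⱼ, v` gives `x` with `|H x i j - P i j| ≤ τ`, `M v - τ < u_{vv}(x)`; hence `M v = Σ P i j vᵢ vⱼ` and
`det P = d` (continuity of `det`), `P` PosDef (`≥ H x₁`); conclude with `eq_of_le_of_det_eq`.
-/

set_option autoImplicit false
open scoped ContDiff Topology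
open Crest.GeometryTopology.CoordMetric Crest.GeometryTopology.AffineMaximal
open MeasureTheory Set

noncomputable section
namespace Crest.Agent.R236

variable {n : ℕ}

lemma pog_two_le : (2 : WithTop ℕ∞) ≤ ∞ := WithTop.coe_le_coe.2 le_top

lemma pog_exists_sup {α : Type*} {Ω : Set α} (hne : Ω.Nonempty) {f : α → ℝ}
    (hb : ∃ M, ∀ x ∈ Ω, f x ≤ M) :
    ∃ M, (∀ x ∈ Ω, f x ≤ M) ∧ ∀ ε > (0 : ℝ), ∃ x ∈ Ω, M - f x < ε := by
  obtain ⟨M, hM⟩ := hb
  have hbdd : BddAbove (f '' Ω) := ⟨M, by rintro _ ⟨x, hx, rfl⟩; exact hM x hx⟩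
  refine ⟨sSup (f '' Ω), fun x hx => le_csSup hbdd (mem_image_of_mem f hx), fun ε hε => ?_⟩
  obtain ⟨_, ⟨x, hx, rfl⟩, h⟩ := exists_lt_of_lt_csSup (hne.image f)
    (show sSup (f '' Ω) - ε < sSup (f '' Ω) by linarith)
  exact ⟨x, hx, by linarith⟩

lemma pog_aff_symm (T : E n ≃L[ℝ] E n) (x₀ x : E n) : aff T x₀ (T.symm (x - x₀)) = x := by
  simp [aff]

lemma pog_aff_zero (T : E n ≃L[ℝ] E n) (x₀ : E n) : aff T x₀ 0 = x₀ := by
  simp [aff]

namespace Sol
variable (S : Sol n)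

lemma pog_at {f : E n → ℝ} (hf : ContDiffOn ℝ ∞ f S.Ω) {x : E n} (hx : x ∈ S.Ω) :
    ContDiffAt ℝ 2 f x :=
  (hf.contDiffAt (S.isOpen.mem_nhds hx)).of_le pog_two_le

lemma pog_L0_const_sub {f : E n → ℝ} {x : E n} (hf : ContDiffAt ℝ 2 f x) (c : ℝ) :
    S.L0 (fun y => c - f y) x = -S.L0 f x := by
  rw [S.L0_sub contDiffAt_const hf, S.L0_const, zero_sub]

lemma pog_uvv_ee (i : Fin n) (x : E n) : S.uvv (ee i) x = S.H x i i := by
  simp [uvv]

lemma pog_uvv_add (i j : Fin n) (x : E n) :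
    S.uvv (ee i + ee j) x = S.H x i i + S.H x i j + S.H x j i + S.H x j j := by
  simp [uvv, mul_add, Finset.sum_add_distrib]
  ring

lemma pog_H_symm {x : E n} (hx : x ∈ S.Ω) (i j : Fin n) : S.H x i j = S.H x j i :=
  hess_symm (S.pog_at S.smooth hx) i j

lemma pog_dlr (hd : ∃ d, ∀ x ∈ S.Ω, (S.H x).det = d) {x : E n} (hx : x ∈ S.Ω) :
    fderiv ℝ S.lr x = 0 := by
  obtain ⟨d, hd⟩ := hd
  have : S.lr =ᶠ[𝓝 x] fun _ => Real.log (d ^ (-(1 : ℝ) / ((n : ℝ) + 2))) := by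
    filter_upwards [S.isOpen.mem_nhds hx] with y hy
    rw [lr, rho, hd y hy]
  rw [this.fderiv_eq]
  exact fderiv_const_apply _

end Sol

theorem Sol.det_const (S : Sol n) (hn : 1 ≤ n) {η : ℝ} (hη : 0 < η) (hη1 : η ≤ 1) (hsc : S.SC η)
    (hne : S.Ω.Nonempty) : ∃ d, ∀ x ∈ S.Ω, (S.H x).det = d := by
  obtain ⟨x₀, hx₀⟩ := hne
  obtain ⟨T, β, γ, hN, -⟩ := S.exists_normB hsc hx₀ one_pos
  obtain ⟨lam, hlam, Λ, -, hg⟩ := det_global n hn hη hη1
  set c : ℝ := (1 : ℝ)⁻¹ ^ n * (T : E n →L[ℝ] E n).det ^ 2 with hc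
  have hlow : ∀ x ∈ S.Ω, lam ≤ c * (S.H x).det := by
    intro x hx
    have hx' : aff T x₀ (T.symm (x - x₀)) ∈ S.Ω := by rwa [pog_aff_symm]
    have := (hg _ hN _ hx').1
    rwa [S.tr_det T x₀ _ β γ hx', pog_aff_symm] at this
  have hc0 : 0 < c :=
    (mul_pos_iff_of_pos_right (S.det_pos hx₀)).1 (hlam.trans_le (hlow x₀ hx₀))
  have hq : -((n : ℝ) + 1) / ((n : ℝ) + 2) < 0 :=
    div_neg_of_neg_of_pos (by have : (0 : ℝ) ≤ n := Nat.cast_nonneg n; linarith) (by positivity)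
  set w := detPower n S.u with hw
  have hwe : ∀ x, w x = (S.H x).det ^ (-((n : ℝ) + 1) / ((n : ℝ) + 2)) := fun x => rfl
  obtain ⟨M, hM, hM'⟩ := pog_exists_sup ⟨x₀, hx₀⟩ (f := w)
    ⟨(lam / c) ^ (-((n : ℝ) + 1) / ((n : ℝ) + 2)), fun x hx => by
      rw [hwe]
      refine Real.rpow_le_rpow_of_nonpos (div_pos hlam hc0) ?_ hq.le
      rw [div_le_iff₀' hc0]
      exact hlow x hx⟩
  obtain ⟨m, hm, hm'⟩ := pog_exists_sup ⟨x₀, hx₀⟩ (f := fun x => -w x)
    ⟨0, fun x hx => by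
      rw [hwe]
      exact neg_nonpos.2 (Real.rpow_nonneg (S.det_pos hx).le _)⟩
  have hwc : ContDiffOn ℝ 2 w S.Ω := S.contDiffOn_detPower.of_le pog_two_le
  have key : M + m ≤ 0 := by
    refine le_of_forall_pos_le_add fun τ hτ => ?_
    obtain ⟨x, hx, h⟩ := S.common_point hn hη hη1 hsc ⟨x₀, hx₀⟩ (ι := Bool)
      (fun b y => cond b (M - w y) (m - -w y))
      (by rintro (_ | _)
          · exact contDiffOn_const.sub hwc.neg
          · exact contDiffOn_const.sub hwc)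
      (by rintro (_ | _) x hx
          · exact sub_nonneg.2 (hm x hx)
          · exact sub_nonneg.2 (hM x hx))
      (by rintro (_ | _) x hx
          · have h1 := S.pog_at S.contDiffOn_detPower hx
            show S.L0 (fun y => m - -w y) x ≤ 0
            simp only [sub_neg_eq_add]
            rw [S.L0_add contDiffAt_const h1, S.L0_const, S.L0_detPower hx, add_zero]
          · show S.L0 (fun y => M - w y) x ≤ 0
            rw [S.pog_L0_const_sub (S.pog_at S.contDiffOn_detPower hx), S.L0_detPower hx,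
              neg_zero])
      (by rintro (_ | _)
          · exact hm'
          · exact hM')
      (half_pos hτ)
    have h1 : M - w x < τ / 2 := h true
    have h2 : m - -w x < τ / 2 := h false
    linarith
  refine ⟨(S.H x₀).det, fun x hx => ?_⟩
  have : w x = w x₀ := by
    have a1 := hM x hx
    have a2 := hM x₀ hx₀
    have a3 := hm x hx
    have a4 := hm x₀ hx₀
    linarith
  rwa [hwe, hwe, Real.rpow_left_inj (S.det_pos hx).le (S.det_pos hx₀).le hq.ne] at this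

/-- the algebra at the maximum point -/
lemma pog_final {n w s p a b L : ℝ} (hw : 0 < w) (hs : 0 < s)
    (h1 : 2 * s * b - a ^ 2 ≤ L * s ^ 2) (h2 : -p / w + a / s + p * s = 0)
    (h3 : -n / w - (b / s ^ 2 + 2 * p * (a / s) + p ^ 2 * s) + (L / s - b / s ^ 2) + s ≤ 0) :
    (w * s) ^ 2 ≤ n * (w * s) + p ^ 2 := by
  have e1 : a / s = p / w - p * s := by
    have : -p / w = -(p / w) := neg_div w p
    linarith
  have e2 : 2 * (b / s ^ 2) - (a / s) ^ 2 / s ≤ L / s := by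
    rw [le_div_iff₀ hs, ← mul_le_mul_iff_left₀ (pow_pos hs 2)]
    refine le_of_eq_of_le ?_ h1
    field_simp
  rw [e1] at e2 h3
  have e3 : (p / w - p * s) ^ 2 / s = (p / w) ^ 2 / s - 2 * p * (p / w) + p ^ 2 * s := by
    field_simp
    ring
  have e4 : s ≤ n / w + (p / w) ^ 2 / s := by
    have : -n / w = -(n / w) := neg_div w n
    nlinarith
  have e5 : (n / w + (p / w) ^ 2 / s) * (w ^ 2 * s) = n * (w * s) + p ^ 2 := by
    field_simp
  rw [← e5]
  calc (w * s) ^ 2 = s * (w ^ 2 * s) := by ring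
    _ ≤ _ := mul_le_mul_of_nonneg_right e4 (by positivity)

lemma Sol.pog_max (S : Sol n) (hd : ∃ d, ∀ x ∈ S.Ω, (S.H x).det = d) (i : Fin n) {y : E n}
    (hy : y ∈ S.Ω) (hu : S.u y < 1)
    (hm : IsLocalMax (fun z => Real.log (1 - S.u z) + Real.log (S.uvv (ee i) z) +
      1 / 2 * (fderiv ℝ S.u z (ee i) * fderiv ℝ S.u z (ee i))) y) :
    ((1 - S.u y) * S.uvv (ee i) y) ^ 2 ≤
      n * ((1 - S.u y) * S.uvv (ee i) y) + fderiv ℝ S.u y (ee i) ^ 2 := by
  have hw : 0 < 1 - S.u y := sub_pos.2 hu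
  have hs : 0 < S.uvv (ee i) y := by rw [S.pog_uvv_ee]; exact (S.H_posDef hy).diag_pos
  have cu := S.pog_at S.smooth hy
  have cw : ContDiffAt ℝ 2 (fun z => 1 - S.u z) y := contDiffAt_const.sub cu
  have cs := S.pog_at (S.contDiffOn_uvv (ee i)) hy
  have cp := S.pog_at (contDiffOn_fderiv_apply S.isOpen S.smooth (ee i)) hy
  have c1 : ContDiffAt ℝ 2 (fun z => Real.log (1 - S.u z)) y := cw.log hw.ne'
  have c2 : ContDiffAt ℝ 2 (fun z => Real.log (S.uvv (ee i) z)) y := cs.log hs.ne'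
  have c3 : ContDiffAt ℝ 2 (fun z => fderiv ℝ S.u z (ee i) * fderiv ℝ S.u z (ee i)) y := cp.mul cp
  have c4 : ContDiffAt ℝ 2
      (fun z => 1 / 2 * (fderiv ℝ S.u z (ee i) * fderiv ℝ S.u z (ee i))) y :=
    contDiffAt_const.mul c3
  have du := (cu.differentiableAt (by norm_num)).hasFDerivAt
  have ds := (cs.differentiableAt (by norm_num)).hasFDerivAt
  have dp := (cp.differentiableAt (by norm_num)).hasFDerivAt
  have dw : HasFDerivAt (fun z => 1 - S.u z) (-fderiv ℝ S.u y) y := du.const_sub 1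
  have hL := S.L0_nonpos_of_isLocalMax hy ((c1.add c2).add c4) hm
  have hD := hm.hasFDerivAt_eq_zero
    (((dw.log hw.ne').fun_add (ds.log hs.ne')).fun_add ((dp.fun_mul dp).const_mul (1 / 2)))
  rw [S.L0_add (c1.add c2) c4, S.L0_add c1 c2, S.L0_const_mul _ c3, S.L0_mul hy cp cp,
    S.L0_log cw hw, S.L0_log cs hs, S.pog_L0_const_sub cu, S.L0_u hy, S.L0_du hy,
    S.pog_dlr hd hy] at hL
  simp only [Sol.G0, dw.fderiv] at hL
  have gv : fderiv ℝ (fun z => fderiv ℝ S.u z (ee i)) y (ee i) = S.uvv (ee i) y :=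
    fderiv_fderiv_eq cu _ _
  have hBg := fun β => S.B_du β hy (ee i)
  have halg := pogorelov_alg (S.H_posDef hy) (S.dH_isSymm hy (ee i)) (ee i : E n)
  have hL0 := S.L0_uvv hd hy (ee i)
  simp only [← S.fderiv_uvv hy (ee i)] at halg
  have e1 : ∑ k, (ee i : E n) k * fderiv ℝ (S.uvv (ee i)) y (ee k) =
      fderiv ℝ (S.uvv (ee i)) y (ee i) := by simp
  rw [e1] at halg
  replace halg : 2 * S.uvv (ee i) y * S.B y (fderiv ℝ (S.uvv (ee i)) y) (fderiv ℝ (S.uvv (ee i)) y)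
      - fderiv ℝ (S.uvv (ee i)) y (ee i) ^ 2 ≤ S.L0 (S.uvv (ee i)) y * S.uvv (ee i) y ^ 2 := by
    rw [hL0]
    exact halg
  generalize fderiv ℝ (fun z => fderiv ℝ S.u z (ee i)) y = g at *
  generalize fderiv ℝ (S.uvv (ee i)) y = a at *
  generalize S.uvv (ee i) y = s at *
  generalize 1 - S.u y = w at *
  generalize fderiv ℝ S.u y = c at *
  have hc : c = w • (s⁻¹ • a + c (ee i) • g) := by
    ext v
    have := DFunLike.congr_fun hD v
    simp only [add_apply, smul_apply, neg_apply, smul_eq_mul, zero_apply] at this ⊢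
    field_simp at this ⊢
    linarith
  have hcc : S.B y c c = w ^ 2 * (S.B y a a / s ^ 2 + 2 * c (ee i) * (a (ee i) / s)
      + c (ee i) ^ 2 * s) := by
    generalize c (ee i) = p at hc
    rw [hc]
    simp only [S.B_smul_left, S.B_smul_right, S.B_add_left, S.B_add_right, S.B_comm a g hy, hBg,
      gv]
    field_simp
    ring
  refine pog_final hw hs halg ?_ ?_
  · have := DFunLike.congr_fun hD (ee i)
    simp only [add_apply, smul_apply, neg_apply, smul_eq_mul, zero_apply, gv] at this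
    rw [← this]
    field_simp
    ring
  · simp only [S.B_neg_left, S.B_neg_right, neg_neg, hcc, hBg, gv, zero_apply, mul_zero,
      mul_div_cancel_left₀ _ (pow_pos hw 2).ne'] at hL
    linarith

theorem pogorelov (n : ℕ) (hn : 1 ≤ n) {η : ℝ} (hη : 0 < η) :
    ∃ M > (0 : ℝ), ∀ S : Sol n, S.NormB η → (∃ d, ∀ x ∈ S.Ω, (S.H x).det = d) →
      ∀ x ∈ S.lev (1 / 2), ∀ i, S.H x i i ≤ M := by
  refine ⟨2 * ((1 + n + (2 / η) ^ 2) * Real.exp (1 / 2 * (2 / η) ^ 2)), by positivity,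
    fun S hN hd x hx i => ?_⟩
  set Φ : E n → ℝ := fun z => (1 - S.u z) * S.uvv (ee i) z *
    Real.exp (1 / 2 * (fderiv ℝ S.u z (ee i) * fderiv ℝ S.u z (ee i))) with hΦ
  have hspos : ∀ z ∈ S.Ω, 0 < S.uvv (ee i) z := fun z hz => by
    rw [S.pog_uvv_ee]; exact (S.H_posDef hz).diag_pos
  have cp := (contDiffOn_fderiv_apply S.isOpen S.smooth (ee i)).continuousOn
  have hΦc : ContinuousOn Φ S.Ω :=
    ((continuousOn_const.sub S.smooth.continuousOn).mul
      (S.contDiffOn_uvv (ee i)).continuousOn).mul (continuousOn_const.mul (cp.mul cp)).rexp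
  have hx1 : x ∈ S.lev 1 := ⟨hx.1, hx.2.trans (by norm_num)⟩
  obtain ⟨y, hy, hmax⟩ := (hN.isCompact_lev 1).exists_isMaxOn ⟨x, hx1⟩
    (hΦc.mono fun z hz => hz.1)
  have hxΦ : 1 / 2 * S.uvv (ee i) x ≤ Φ x := by
    have h1 : 1 / 2 * S.uvv (ee i) x ≤ (1 - S.u x) * S.uvv (ee i) x :=
      mul_le_mul_of_nonneg_right (by linarith [hx.2]) (hspos x hx.1).le
    refine h1.trans (le_mul_of_one_le_right ((half_pos (hspos x hx.1)).le.trans
      (by linarith)) (Real.one_le_exp ?_))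
    exact mul_nonneg (by norm_num) (mul_self_nonneg _)
  have hxy : Φ x ≤ Φ y := hmax hx1
  have hyΦ : 0 < Φ y := by linarith [hspos x hx.1]
  have hu : S.u y < 1 := by
    refine lt_of_le_of_ne hy.2 fun h => ?_
    simp [hΦ, h] at hyΦ
  have hlog : ∀ z ∈ S.Ω, S.u z < 1 → Real.log (1 - S.u z) + Real.log (S.uvv (ee i) z) +
      1 / 2 * (fderiv ℝ S.u z (ee i) * fderiv ℝ S.u z (ee i)) = Real.log (Φ z) ∧ 0 < Φ z := by
    intro z hz hz1
    have h1 := sub_pos.2 hz1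
    have h2 := hspos z hz
    refine ⟨?_, by positivity⟩
    rw [hΦ]
    simp only
    rw [Real.log_mul (mul_pos h1 h2).ne' (Real.exp_pos _).ne', Real.log_mul h1.ne' h2.ne',
      Real.log_exp]
  have hloc : IsLocalMax (fun z => Real.log (1 - S.u z) + Real.log (S.uvv (ee i) z) +
      1 / 2 * (fderiv ℝ S.u z (ee i) * fderiv ℝ S.u z (ee i))) y := by
    have h1 : ∀ᶠ z in 𝓝 y, S.u z < 1 :=
      (S.u_at hy.1).continuousAt.eventually (gt_mem_nhds hu)
    filter_upwards [h1, S.isOpen.mem_nhds hy.1] with z hz1 hz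
    rw [(hlog z hz hz1).1, (hlog y hy.1 hu).1]
    exact Real.log_le_log (hlog z hz hz1).2 (hmax (show z ∈ S.lev 1 from ⟨hz, hz1.le⟩))
  have key := S.pog_max hd i hy.1 hu hloc
  have hp : fderiv ℝ S.u y (ee i) ^ 2 ≤ (2 / η) ^ 2 :=
    sq_le_sq' (abs_le.1 (hN.abs_du_le hη hy i)).1 (abs_le.1 (hN.abs_du_le hη hy i)).2
  have hX : (1 - S.u y) * S.uvv (ee i) y ≤ 1 + n + (2 / η) ^ 2 := by
    by_contra hcon
    push Not at hcon
    have h0 : (0 : ℝ) ≤ n := Nat.cast_nonneg n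
    nlinarith [sq_nonneg (2 / η)]
  have hΦy : Φ y ≤ (1 + n + (2 / η) ^ 2) * Real.exp (1 / 2 * (2 / η) ^ 2) := by
    refine mul_le_mul hX (Real.exp_le_exp.2 ?_) (Real.exp_pos _).le (by positivity)
    rw [← sq]
    linarith
  rw [← S.pog_uvv_ee]
  linarith

theorem Sol.uvv_bdd (S : Sol n) (hn : 1 ≤ n) {η : ℝ} (hη : 0 < η) (hη1 : η ≤ 1) (hsc : S.SC η)
    (hd : ∃ d, ∀ x ∈ S.Ω, (S.H x).det = d) (v : E n) : ∃ M, ∀ x ∈ S.Ω, S.uvv v x ≤ M := by
  rcases S.Ω.eq_empty_or_nonempty with he | ⟨x₀, hx₀⟩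
  · exact ⟨0, fun x hx => by rw [he] at hx; exact hx.elim⟩
  obtain ⟨lam, hlam, Λ, -, hg⟩ := det_global n hn hη hη1
  obtain ⟨M, hM, hP⟩ := pogorelov n hn hη
  obtain ⟨d, hd⟩ := hd
  have hn0 : (0 : ℝ) < n := by exact_mod_cast hn
  have hK : 0 < lam / (n * M) ^ (n - 1) := by positivity
  refine ⟨n * M / (lam / (n * M) ^ (n - 1)) * S.uvv v x₀, fun x hx => ?_⟩
  have htp := S.tp_nonneg hx₀ (S.X_mem hx)
  have hh : 0 < 2 * S.tp x₀ (S.X x) + 1 := by positivity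
  obtain ⟨T, β, γ, hN, hlev⟩ := S.exists_normB hsc hx₀ hh
  set S' := S.tr T x₀ (inv_pos.mpr hh) β γ with hS'
  have hd' : ∃ d, ∀ x ∈ S'.Ω, (S'.H x).det = d :=
    ⟨_, fun z hz => by rw [hS', S.tr_det T x₀ _ β γ hz, hd _ hz]⟩
  have htr : ∀ z ∈ S'.lev (1 / 2), (S'.H z).trace ≤ n * M := by
    intro z hz
    calc (S'.H z).trace = ∑ i, S'.H z i i := rfl
      _ ≤ ∑ _i : Fin n, M := Finset.sum_le_sum fun i _ => hP S' hN hd' z hz i
      _ = n * M := by simp
  have hx' : T.symm (x - x₀) ∈ S'.lev (1 / 2) := by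
    rw [hlev, mem_preimage, pog_aff_symm]
    exact ⟨hx, by linarith⟩
  have h0 : (0 : E n) ∈ S'.lev (1 / 2) := ⟨hN.zero_mem, by rw [hN.u_zero]; norm_num⟩
  have h1 : S'.uvv (T.symm v) (T.symm (x - x₀)) ≤ n * M * ∑ i, (T.symm v) i ^ 2 :=
    (quad_le_trace (S'.H_posDef hx'.1).posSemidef _).trans
      (mul_le_mul_of_nonneg_right (htr _ hx') (by positivity))
  have h2 : lam / (n * M) ^ (n - 1) * ∑ i, (T.symm v) i ^ 2 ≤ S'.uvv (T.symm v) 0 :=
    quad_ge_of_trace_det (S'.H_posDef h0.1) (by positivity) hlam (htr _ h0) (hg S' hN 0 h0.1).1 _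
  rw [hS', S.tr_uvv T x₀ _ β γ hx'.1, pog_aff_symm, T.apply_symm_apply] at h1
  rw [hS', S.tr_uvv T x₀ _ β γ h0.1, pog_aff_zero, T.apply_symm_apply, ← le_div_iff₀' hK] at h2
  have h3 := h1.trans (mul_le_mul_of_nonneg_left h2 (by positivity))
  refine le_of_mul_le_mul_left (h3.trans (le_of_eq ?_)) (inv_pos.mpr hh)
  ring

theorem Sol.hess_const (S : Sol n) (hn : 1 ≤ n) {η : ℝ} (hη : 0 < η) (hη1 : η ≤ 1) (hsc : S.SC η)
    (hne : S.Ω.Nonempty) : ∃ A : Matrix (Fin n) (Fin n) ℝ, A.PosDef ∧ ∀ x ∈ S.Ω, S.H x = A := by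
  have hd := S.det_const hn hη hη1 hsc hne
  choose M hM hM' using fun v => pog_exists_sup hne (S.uvv_bdd hn hη hη1 hsc hd v)
  set P : Matrix (Fin n) (Fin n) ℝ :=
    fun i j => (M (ee i + ee j) - M (ee i) - M (ee j)) / 2 with hP
  have key : ∀ v : E n, ∃ x : ℕ → E n, (∀ k, x k ∈ S.Ω) ∧
      Filter.Tendsto (fun k => S.H (x k)) Filter.atTop (𝓝 P) ∧
      Filter.Tendsto (fun k => S.uvv v (x k)) Filter.atTop (𝓝 (M v)) := by
    intro v
    let w : Option (Fin n ⊕ Fin n × Fin n) → E n := fun o =>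
      o.elim v (Sum.elim ee fun p => ee p.1 + ee p.2)
    choose x hx hx' using fun k : ℕ => S.common_point hn hη hη1 hsc hne
      (fun o y => M (w o) - S.uvv (w o) y)
      (fun o => contDiffOn_const.sub ((S.contDiffOn_uvv _).of_le pog_two_le))
      (fun o y hy => sub_nonneg.2 (hM _ y hy))
      (fun o y hy => by
        rw [S.pog_L0_const_sub (S.pog_at (S.contDiffOn_uvv _) hy), S.L0_uvv hd hy, neg_nonpos]
        exact trace_inv_sq_nonneg (S.H_posDef hy) (S.dH_isSymm hy _))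
      (fun o => hM' _) (Nat.one_div_pos_of_nat (n := k))
    have ht : ∀ o, Filter.Tendsto (fun k => S.uvv (w o) (x k)) Filter.atTop (𝓝 (M (w o))) := by
      intro o
      have h1 : Filter.Tendsto (fun k => M (w o) - S.uvv (w o) (x k)) Filter.atTop (𝓝 0) :=
        squeeze_zero (fun k => sub_nonneg.2 (hM _ _ (hx k))) (fun k => (hx' k o).le)
          tendsto_one_div_add_atTop_nhds_zero_nat
      simpa using h1.const_sub (M (w o))
    refine ⟨x, hx, ?_, ht none⟩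
    refine tendsto_pi_nhds.2 fun i => tendsto_pi_nhds.2 fun j => ?_
    have h1 := (((ht (some (.inr (i, j)))).sub (ht (some (.inl i)))).sub
      (ht (some (.inl j)))).div_const 2
    refine h1.congr fun k => ?_
    show (S.uvv (ee i + ee j) (x k) - S.uvv (ee i) (x k) - S.uvv (ee j) (x k)) / 2 = S.H (x k) i j
    rw [S.pog_uvv_add, S.pog_uvv_ee, S.pog_uvv_ee, S.pog_H_symm (hx k) j i]
    ring
  have hMP : ∀ v : E n, M v = ∑ i, ∑ j, P i j * v i * v j := by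
    intro v
    obtain ⟨x, -, h1, h2⟩ := key v
    refine tendsto_nhds_unique h2 ?_
    exact tendsto_finsetSum _ fun i _ => tendsto_finsetSum _ fun j _ =>
      ((tendsto_pi_nhds.1 (tendsto_pi_nhds.1 h1 i) j).mul_const _).mul_const _
  have hle : ∀ x ∈ S.Ω, ∀ v : Fin n → ℝ,
      ∑ i, ∑ j, S.H x i j * v i * v j ≤ ∑ i, ∑ j, P i j * v i * v j := by
    intro x hx v
    have := hM (WithLp.toLp 2 v) x hx
    rwa [hMP] at this
  obtain ⟨d, hd⟩ := hd
  have hdet : P.det = d := by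
    obtain ⟨x, hx, h1, -⟩ := key 0
    have h2 : Filter.Tendsto (fun k => (S.H (x k)).det) Filter.atTop (𝓝 P.det) :=
      (continuous_id.matrix_det.tendsto P).comp h1
    simp only [hd _ (hx _)] at h2
    exact (tendsto_nhds_unique tendsto_const_nhds h2).symm
  obtain ⟨x₀, hx₀⟩ := hne
  have hpos : P.PosDef := by
    have h1 : (P - S.H x₀).PosSemidef := by
      refine posSemidef_of_quad (fun i j => ?_) fun v => ?_
      · simp only [Matrix.sub_apply, hP, S.pog_H_symm hx₀ i j, add_comm (ee i)]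
        ring
      · simp only [Matrix.sub_apply, sub_mul, Finset.sum_sub_distrib]
        exact sub_nonneg.2 (hle x₀ hx₀ v)
    simpa using (S.H_posDef hx₀).add_posSemidef h1
  exact ⟨P, hpos, fun x hx =>
    eq_of_le_of_det_eq (S.H_posDef hx) hpos (hle x hx) ((hd x hx).trans hdet.symm)⟩

end Crest.Agent.R236
end
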