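import Crest.Agent.R236.NoWedge
import Crest.Agent.R236.Pogorelov

set_option autoImplicit false
open scoped ContDiff Topology
open Crest.GeometryTopology.CoordMetric Crest.GeometryTopology.AffineMaximal
open MeasureTheory Set

noncomputable section
namespace Crest.Agent.R236

theorem bernstein
    (n : ℕ) (hn : 3 ≤ n) (hn' : n ≤ 9)
    (Ω : Set (EuclideanSpace ℝ (Fin n))) (hΩ : IsOpen Ω) (hΩc : Convex ℝ Ω) (hΩn : Ω.Nonempty)
    (u : EuclideanSpace ℝ (Fin n) → ℝ) (hu : ContDiffOn ℝ ∞ u Ω)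
    (hconv : ∀ x ∈ Ω, (hessianMat u x).PosDef)
    (hmax : ∀ x ∈ Ω, affineMaximalOp n u x = 0)
    (hcomp : IsCompleteOn (graphMetric u) Ω) :
    Ω = Set.univ ∧
      ∃ (A : Matrix (Fin n) (Fin n) ℝ) (b : EuclideanSpace ℝ (Fin n)) (c : ℝ), A.PosDef ∧
        ∀ x, u x = (1 / 2) * (∑ i, ∑ j, A i j * x i * x j) + (∑ i, b i * x i) + c := by
  let S : Sol n := ⟨Ω, u, hΩ, hΩc, hu, hconv, hmax, closed_of_complete hΩ hΩc hu hconv hcomp⟩
  obtain ⟨η, hη, hη1, hsc⟩ := S.exists_SC hn hn'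
  obtain ⟨A, hA, hH⟩ := S.hess_const (by omega) hη hη1 hsc hΩn
  obtain ⟨b, c, hq⟩ := S.quadratic_of_hess_const A hH hΩn
  have huniv : S.Ω = univ := S.eq_univ_of_continuous hΩn (by fun_prop) hq
  refine ⟨huniv, A, b, c, hA, fun x => hq x ?_⟩
  rw [huniv]; trivial

end Crest.Agent.R236
end
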