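import Crest.Agent.R236.IBP

/-!
# Convex geometry of the graph

* `convexOn_of_hess`, `tangent_le`: restrict to segments (`fderiv_fderiv_eq`, second derivative `> 0`;
  `convexOn_of_deriv2_nonneg` / `strictConvexOn_of_deriv2_pos` on `[0,1]`).
* `closed_of_complete`: let `(x_k, s_k) → (x*, s*)` with `u x_k ≤ s_k`.  If `x* ∈ Ω` use continuity.
  Otherwise fix `x₀ ∈ Ω`; `x_t = x₀ + t (x* - x₀) ∈ Ω` for `t ∈ [0,1)`
  (`Convex.openSegment_interior_closure_subset_interior`), `g t = u x_t` is convex on `[0,1)`, bounded above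
  (limit of `u((1-t)x₀ + t x_k) ≤ (1-t) u x₀ + t s_k`) and below (tangent plane at `x₀`); `g'` is monotone,
  so it has a sign near `1`, `g` is eventually monotone and Cauchy; the segment from `x_s` to `x_t` has
  graph length `≤ |t-s|·‖x*-x₀‖ + |g t - g s|` (`√(a²+b²) ≤ |a|+|b|`, FTC).  So `x_{1-1/(k+2)}` is
  `riemDist`-Cauchy; it converges to `p ∈ Ω` for `riemDist ≥ ‖·‖` (length `≥ ∫‖γ'‖ ≥ ‖γ 1 - γ 0‖`,
  the family of admissible paths is nonempty: segments), hence `p = x*`, contradiction.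
* `isCompact_of_bdd`: the set is the projection of the compact `{w ∈ C | l(w - z) ≤ r}` intersected
  with the graph; directly: it is bounded, and closed because a limit point `x*` of `x_k` has
  `(x*, lim u x_k) ∈ C` along a subsequence, so `x* ∈ Ω` and continuity applies.
* `bdd_tp`: `tp x₀ ≥ m > 0` on `C ∩ sphere (X x₀) 1` (compact; `tp x₀ w = 0`, `w ∈ C` forces `w = X x₀`),
  then `tp x₀ w ≥ m ‖w - X x₀‖` outside the unit ball by convexity of `C`.
* `segment_lev`: the set of `t ∈ [0,1]` with `t•x ∈ lev h` is closed (closedness of `C`), contains `0`; at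
  its supremum `t₀ < 1` one has `u (t₀ x) = h` by continuity, contradiction with `hno`.
-/

set_option autoImplicit false
open scoped ContDiff Topology
open Crest.GeometryTopology.CoordMetric Crest.GeometryTopology.AffineMaximal
open MeasureTheory Set

noncomputable section
namespace Crest.Agent.R236

variable {n : ℕ}

namespace Geom

theorem clm_eq_sum (φ : E n →L[ℝ] ℝ) (v : E n) : φ v = ∑ i, v i * φ (ee i) := by
  conv_lhs => rw [← (EuclideanSpace.basisFun (Fin n) ℝ).sum_repr v]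
  simp [map_sum]

theorem hasDerivAt_line (x v : E n) (t : ℝ) : HasDerivAt (fun s : ℝ => x + s • v) v t := by
  simpa using ((hasDerivAt_id t).smul_const v).const_add x

theorem line_d1 {Ω : Set (E n)} (hΩ : IsOpen Ω) {u : E n → ℝ} (hu : ContDiffOn ℝ ∞ u Ω)
    (x v : E n) {t : ℝ} (ht : x + t • v ∈ Ω) :
    HasDerivAt (fun s : ℝ => u (x + s • v)) (fderiv ℝ u (x + t • v) v) t :=
  ((hu.contDiffAt (hΩ.mem_nhds ht)).differentiableAt (by simp)).hasFDerivAt.comp_hasDerivAt t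
    (hasDerivAt_line x v t)

theorem line_d2 {Ω : Set (E n)} (hΩ : IsOpen Ω) {u : E n → ℝ} (hu : ContDiffOn ℝ ∞ u Ω)
    (x v : E n) {t : ℝ} (ht : x + t • v ∈ Ω) :
    HasDerivAt (fun s : ℝ => fderiv ℝ u (x + s • v) v)
      (∑ i, ∑ j, hessianMat u (x + t • v) i j * v i * v j) t := by
  rw [← fderiv_fderiv_eq ((hu.contDiffAt (hΩ.mem_nhds ht)).of_le (by norm_cast))]
  exact line_d1 hΩ (contDiffOn_fderiv_apply hΩ hu v) x v ht

theorem seg_mem {Ω : Set (E n)} (hΩc : Convex ℝ Ω) {x y : E n} (hx : x ∈ Ω) (hy : y ∈ Ω) {t : ℝ}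
    (ht : t ∈ Icc (0 : ℝ) 1) : x + t • (y - x) ∈ Ω := hΩc.add_smul_sub_mem hx hy ht

theorem quad_pos {A : Matrix (Fin n) (Fin n) ℝ} (hA : A.PosDef) {v : E n} (hv : v ≠ 0) :
    0 < ∑ i, ∑ j, A i j * v i * v j := by
  have h := hA.dotProduct_mulVec_pos (x := v.ofLp) (fun h => hv (by ext i; exact congrFun h i))
  refine h.trans_le (le_of_eq ?_)
  simp only [dotProduct, Matrix.mulVec, star_trivial, Finset.mul_sum]
  exact Finset.sum_congr rfl fun i _ => Finset.sum_congr rfl fun j _ => by ring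

theorem line_strictMono {Ω : Set (E n)} (hΩ : IsOpen Ω) {u : E n → ℝ} (hu : ContDiffOn ℝ ∞ u Ω)
    (hconv : ∀ x ∈ Ω, (hessianMat u x).PosDef) (x : E n) {v : E n} (hv : v ≠ 0) {D : Set ℝ}
    (hD : Convex ℝ D) (hmem : ∀ t ∈ D, x + t • v ∈ Ω) :
    StrictMonoOn (fun s : ℝ => fderiv ℝ u (x + s • v) v) D :=
  strictMonoOn_of_deriv_pos hD
    (fun t ht => (line_d2 hΩ hu x v (hmem t ht)).continuousAt.continuousWithinAt) fun t ht => by
      have h := hmem t (interior_subset ht)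
      rw [(line_d2 hΩ hu x v h).deriv]
      exact quad_pos (hconv _ h) hv

theorem tangent_lt {Ω : Set (E n)} (hΩ : IsOpen Ω) (hΩc : Convex ℝ Ω) {u : E n → ℝ}
    (hu : ContDiffOn ℝ ∞ u Ω) (hconv : ∀ x ∈ Ω, (hessianMat u x).PosDef) {x y : E n}
    (hx : x ∈ Ω) (hy : y ∈ Ω) (hne : y ≠ x) : u x + fderiv ℝ u x (y - x) < u y := by
  obtain ⟨c, hc, e⟩ := exists_hasDerivAt_eq_slope (fun s : ℝ => u (x + s • (y - x)))
    (fun s => fderiv ℝ u (x + s • (y - x)) (y - x)) zero_lt_one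
    (fun t ht => (line_d1 hΩ hu x _ (seg_mem hΩc hx hy ht)).continuousAt.continuousWithinAt)
    fun t ht => line_d1 hΩ hu x _ (seg_mem hΩc hx hy (Ioo_subset_Icc_self ht))
  have h := line_strictMono hΩ hu hconv x (sub_ne_zero.2 hne) (convex_Icc (0 : ℝ) 1)
    (fun t ht => seg_mem hΩc hx hy ht) (left_mem_Icc.2 zero_le_one) (Ioo_subset_Icc_self hc) hc.1
  simp only [e] at h
  simp only [zero_smul, add_zero, one_smul, add_sub_cancel, sub_zero, div_one] at h
  linarith

theorem tangent_le {Ω : Set (E n)} (hΩ : IsOpen Ω) (hΩc : Convex ℝ Ω) {u : E n → ℝ}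
    (hu : ContDiffOn ℝ ∞ u Ω) (hconv : ∀ x ∈ Ω, (hessianMat u x).PosDef) {x y : E n}
    (hx : x ∈ Ω) (hy : y ∈ Ω) : u x + fderiv ℝ u x (y - x) ≤ u y := by
  by_cases h : y = x
  · simp [h]
  · exact (tangent_lt hΩ hΩc hu hconv hx hy h).le

theorem quadForm_graph (u : E n → ℝ) (x v : E n) :
    quadForm (graphMetric u) x v = ‖v‖ ^ 2 + (fderiv ℝ u x v) ^ 2 := by
  rw [EuclideanSpace.real_norm_sq_eq, clm_eq_sum (fderiv ℝ u x) v, sq (∑ i, _),
    Finset.sum_mul_sum, ← Finset.sum_add_distrib]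
  refine Finset.sum_congr rfl fun i _ => ?_
  simp only [graphMetric, add_mul, Finset.sum_add_distrib, ite_mul, one_mul, zero_mul,
    Finset.sum_ite_eq, Finset.mem_univ, if_true, pderiv_eq]
  rw [sq]
  congr 1
  exact Finset.sum_congr rfl fun j _ => by ring

theorem curveLength_nonneg (g : MetricField n) (γ : ℝ → E n) : 0 ≤ curveLength g γ :=
  intervalIntegral.integral_nonneg zero_le_one fun _ _ => Real.sqrt_nonneg _

theorem riemDist_le (g : MetricField n) {U : Set (E n)} {x y : E n} (γ : AdmissiblePath U x y) :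
    riemDist g U x y ≤ curveLength g γ.1 :=
  ciInf_le ⟨0, by rintro _ ⟨γ, rfl⟩; exact curveLength_nonneg g _⟩ γ

theorem integrable_speed {Ω : Set (E n)} (hΩ : IsOpen Ω) {u : E n → ℝ} (hu : ContDiffOn ℝ ∞ u Ω)
    {γ : ℝ → E n} (hγ : ContDiff ℝ 1 γ) (hmem : ∀ t ∈ Icc (0 : ℝ) 1, γ t ∈ Ω) :
    IntervalIntegrable (fun t => Real.sqrt (quadForm (graphMetric u) (γ t) (deriv γ t)))
      volume 0 1 := by
  refine ContinuousOn.intervalIntegrable ?_
  rw [uIcc_of_le zero_le_one]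
  simp only [quadForm_graph]
  have h1 : Continuous (deriv γ) := hγ.continuous_deriv le_rfl
  have h2 : ContinuousOn (fun t => fderiv ℝ u (γ t)) (Icc (0 : ℝ) 1) :=
    (hu.continuousOn_fderiv_of_isOpen hΩ (by simp)).comp hγ.continuous.continuousOn hmem
  exact ((h1.norm.pow 2).continuousOn.add ((h2.clm_apply h1.continuousOn).pow 2)).sqrt

theorem norm_le_riemDist {Ω : Set (E n)} (hΩ : IsOpen Ω) (hΩc : Convex ℝ Ω) {u : E n → ℝ}
    (hu : ContDiffOn ℝ ∞ u Ω) {x y : E n} (hx : x ∈ Ω) (hy : y ∈ Ω) :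
    ‖y - x‖ ≤ riemDist (graphMetric u) Ω x y := by
  have : Nonempty (AdmissiblePath Ω x y) :=
    ⟨⟨fun t => x + t • (y - x), by fun_prop, by simp, by simp, fun t ht => seg_mem hΩc hx hy ht⟩⟩
  refine le_ciInf ?_
  rintro ⟨γ, h1, h2, h3, h4⟩
  have hc : Continuous (deriv γ) := h1.continuous_deriv le_rfl
  have e : ∫ t in (0 : ℝ)..1, deriv γ t = y - x := by
    rw [intervalIntegral.integral_deriv_eq_sub (fun t _ => h1.differentiable (by simp) t)
      (hc.intervalIntegrable _ _), h2, h3]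
  rw [← e]
  refine (intervalIntegral.norm_integral_le_integral_norm zero_le_one).trans ?_
  refine intervalIntegral.integral_mono_on zero_le_one (hc.norm.intervalIntegrable _ _)
    (integrable_speed hΩ hu h1 h4) fun t _ => ?_
  rw [quadForm_graph]
  exact Real.le_sqrt_of_sq_le (le_add_of_nonneg_right (sq_nonneg _))

end Geom

open Geom

theorem convexOn_of_hess {Ω : Set (E n)} (hΩ : IsOpen Ω) (hΩc : Convex ℝ Ω) {u : E n → ℝ}
    (hu : ContDiffOn ℝ ∞ u Ω) (hconv : ∀ x ∈ Ω, (hessianMat u x).PosDef) : ConvexOn ℝ Ω u := by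
  refine ⟨hΩc, fun x hx y hy a b ha hb hab => ?_⟩
  have hz := hΩc hx hy ha hb hab
  have h1 := mul_le_mul_of_nonneg_left (tangent_le hΩ hΩc hu hconv hz hx) ha
  have h2 := mul_le_mul_of_nonneg_left (tangent_le hΩ hΩc hu hconv hz hy) hb
  have h3 : a * fderiv ℝ u (a • x + b • y) (x - (a • x + b • y)) +
      b * fderiv ℝ u (a • x + b • y) (y - (a • x + b • y)) = 0 := by
    rw [← smul_eq_mul, ← smul_eq_mul, ← map_smul, ← map_smul, ← map_add]
    have : a • (x - (a • x + b • y)) + b • (y - (a • x + b • y)) = 0 := by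
      obtain rfl : a = 1 - b := by linarith
      module
    rw [this, map_zero]
  have h4 : u (a • x + b • y) = a * u (a • x + b • y) + b * u (a • x + b • y) := by
    rw [← add_mul, hab, one_mul]
  simp only [smul_eq_mul]
  linarith

theorem closed_of_complete {Ω : Set (E n)} (hΩ : IsOpen Ω) (hΩc : Convex ℝ Ω) {u : E n → ℝ}
    (hu : ContDiffOn ℝ ∞ u Ω) (hconv : ∀ x ∈ Ω, (hessianMat u x).PosDef)
    (hcomp : IsCompleteOn (graphMetric u) Ω) :
    IsClosed {p : V n | p.1 ∈ Ω ∧ u p.1 ≤ p.2} := by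
  refine IsSeqClosed.isClosed fun P p hP hlim => ?_
  have hl1 : Filter.Tendsto (fun k => (P k).1) Filter.atTop (𝓝 p.1) :=
    (continuous_fst.tendsto p).comp hlim
  have hl2 : Filter.Tendsto (fun k => (P k).2) Filter.atTop (𝓝 p.2) :=
    (continuous_snd.tendsto p).comp hlim
  have hcu : ∀ x ∈ Ω, ContinuousAt u x := fun x hx =>
    (hu.contDiffAt (hΩ.mem_nhds hx)).continuousAt
  suffices hp : p.1 ∈ Ω from
    ⟨hp, le_of_tendsto_of_tendsto' ((hcu _ hp).tendsto.comp hl1) hl2 fun k => (hP k).2⟩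
  by_contra hp
  obtain ⟨x₀, hx₀⟩ : ∃ x₀, x₀ ∈ Ω := ⟨_, (hP 0).1⟩
  set v := p.1 - x₀ with hv
  have hv0 : v ≠ 0 := fun h => hp (by rwa [sub_eq_zero.1 h])
  have hcl : p.1 ∈ closure Ω := mem_closure_of_tendsto hl1 (.of_forall fun k => (hP k).1)
  have hmem : ∀ t ∈ Ico (0 : ℝ) 1, x₀ + t • v ∈ Ω := by
    intro t ht
    have := hΩc.combo_interior_closure_mem_interior (x := x₀) (y := p.1) (a := 1 - t) (b := t)
      (by rwa [hΩ.interior_eq]) hcl (by linarith [ht.2]) ht.1 (by ring)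
    rw [hΩ.interior_eq] at this
    convert this using 1
    rw [hv]; module
  have hup : ∀ t ∈ Ico (0 : ℝ) 1, u (x₀ + t • v) ≤ |u x₀| + |p.2| := by
    intro t ht
    have h1 : Filter.Tendsto (fun k => (1 - t) • x₀ + t • (P k).1) Filter.atTop
        (𝓝 (x₀ + t • v)) := by
      have : x₀ + t • v = (1 - t) • x₀ + t • p.1 := by rw [hv]; module
      rw [this]
      exact tendsto_const_nhds.add (hl1.const_smul t)
    have h2 : u (x₀ + t • v) ≤ (1 - t) * u x₀ + t * p.2 :=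
      le_of_tendsto_of_tendsto' ((hcu _ (hmem t ht)).tendsto.comp h1)
        (tendsto_const_nhds.add (hl2.const_mul t)) fun k =>
        ((convexOn_of_hess hΩ hΩc hu hconv).2 hx₀ (hP k).1 (by linarith [ht.2]) ht.1
          (by ring)).trans (add_le_add le_rfl (mul_le_mul_of_nonneg_left (hP k).2 ht.1))
    have h3 := mul_le_mul_of_nonneg_left (le_abs_self (u x₀)) (by linarith [ht.2] : 0 ≤ 1 - t)
    have h4 := mul_le_mul_of_nonneg_left (le_abs_self p.2) ht.1
    nlinarith [abs_nonneg (u x₀), abs_nonneg p.2, ht.1, ht.2]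
  set g1 : ℝ → ℝ := fun s => fderiv ℝ u (x₀ + s • v) v with hg1
  have hmono : MonotoneOn g1 (Ico 0 1) :=
    (line_strictMono hΩ hu hconv x₀ hv0 (convex_Ico 0 1) hmem).monotoneOn
  set a : ℝ := ‖v‖ + |g1 0| - g1 0 with ha
  set φ : ℝ → ℝ := fun s => a * s + u (x₀ + s • v) with hφ
  have hφd : ∀ t ∈ Ico (0 : ℝ) 1, HasDerivAt φ (a + g1 t) t := fun t ht => by
    simpa using ((hasDerivAt_id t).const_mul a).fun_add (line_d1 hΩ hu x₀ v (hmem t ht))
  have hb : ∀ t ∈ Ico (0 : ℝ) 1, ‖v‖ + |g1 t| ≤ a + g1 t := fun t ht => by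
    have h1 := hmono (left_mem_Ico.2 zero_lt_one) ht ht.1
    have h2 : |g1 t| ≤ |g1 0| + (g1 t - g1 0) := by
      rw [abs_le]; constructor <;> linarith [le_abs_self (g1 0), neg_abs_le (g1 0)]
    linarith
  have hφm : MonotoneOn φ (Ico 0 1) :=
    monotoneOn_of_deriv_nonneg (convex_Ico 0 1)
      (fun t ht => (hφd t ht).continuousAt.continuousWithinAt)
      (fun t ht => (hφd t (interior_subset ht)).differentiableAt.differentiableWithinAt)
      fun t ht => by
        rw [(hφd t (interior_subset ht)).deriv]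
        exact le_trans (by positivity) (hb t (interior_subset ht))
  have hdist : ∀ s ∈ Ico (0 : ℝ) 1, ∀ t ∈ Ico (0 : ℝ) 1,
      riemDist (graphMetric u) Ω (x₀ + s • v) (x₀ + t • v) ≤ |φ t - φ s| := by
    intro s hs t ht
    have hτ : ∀ τ ∈ Icc (0 : ℝ) 1, s + τ * (t - s) ∈ Ico (0 : ℝ) 1 := fun τ hτ =>
      (convex_Ico (0 : ℝ) 1).add_smul_sub_mem hs ht hτ
    have hγ : ContDiff ℝ 1 fun τ : ℝ => x₀ + (s + τ * (t - s)) • v := by fun_prop
    have hγd : ∀ τ : ℝ, deriv (fun τ : ℝ => x₀ + (s + τ * (t - s)) • v) τ = (t - s) • v := by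
      intro τ
      have := ((((hasDerivAt_id τ).mul_const (t - s)).const_add s).smul_const v).const_add x₀
      simpa using this.deriv
    refine (riemDist_le _ ⟨fun τ => x₀ + (s + τ * (t - s)) • v, hγ, by simp, by simp,
      fun τ h => hmem _ (hτ τ h)⟩).trans ?_
    have hψ : ∀ τ ∈ uIcc (0 : ℝ) 1, HasDerivAt (fun τ => φ (s + τ * (t - s)))
        ((a + g1 (s + τ * (t - s))) * (t - s)) τ := fun τ h => by
      rw [uIcc_of_le zero_le_one] at h
      have h0 : HasDerivAt (fun τ : ℝ => s + τ * (t - s)) (t - s) τ := by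
        simpa using ((hasDerivAt_id τ).mul_const (t - s)).const_add s
      exact (hφd _ (hτ τ h)).comp τ h0
    have hci : IntervalIntegrable (fun τ => a + g1 (s + τ * (t - s))) volume 0 1 := by
      refine ContinuousOn.intervalIntegrable ?_
      rw [uIcc_of_le zero_le_one]
      refine continuousOn_const.add fun τ h => ContinuousAt.continuousWithinAt ?_
      exact ContinuousAt.comp (f := fun τ => s + τ * (t - s))
        (line_d2 hΩ hu x₀ v (hmem _ (hτ τ h))).continuousAt (by fun_prop)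
    have e := intervalIntegral.integral_eq_sub_of_hasDerivAt hψ (hci.mul_const _)
    simp only [one_mul, add_sub_cancel, zero_mul, add_zero] at e
    rw [← e, intervalIntegral.integral_mul_const, abs_mul]
    refine le_trans ?_ (mul_le_mul_of_nonneg_right (le_abs_self _) (abs_nonneg _))
    rw [← intervalIntegral.integral_mul_const]
    refine intervalIntegral.integral_mono_on zero_le_one
      (integrable_speed hΩ hu hγ fun τ h => hmem _ (hτ τ h)) (hci.mul_const _) fun τ h => ?_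
    rw [quadForm_graph, hγd, norm_smul, map_smul, smul_eq_mul, Real.norm_eq_abs]
    refine le_trans ?_ (mul_le_mul_of_nonneg_right (hb _ (hτ τ h)) (abs_nonneg _))
    refine Real.sqrt_le_iff.2 ⟨by positivity, ?_⟩
    rw [mul_pow (t - s), ← sq_abs (t - s), ← sq_abs (fderiv ℝ u _ v)]
    have : 0 ≤ |t - s| ^ 2 * (‖v‖ * |g1 (s + τ * (t - s))|) := by positivity
    simp only [hg1] at this ⊢
    nlinarith
  set tt : ℕ → ℝ := fun k => 1 - 1 / ((k : ℝ) + 1) with htt
  have htm : ∀ k, tt k ∈ Ico (0 : ℝ) 1 := fun k => by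
    have h1 : (0 : ℝ) < 1 / ((k : ℝ) + 1) := by positivity
    have h2 : 1 / ((k : ℝ) + 1) ≤ 1 := by
      rw [div_le_one (by positivity)]; linarith [Nat.cast_nonneg (α := ℝ) k]
    exact ⟨by simp only [htt]; linarith, by simp only [htt]; linarith⟩
  have htmono : Monotone tt := fun k l h => by
    simp only [htt]
    have : (k : ℝ) ≤ l := by exact_mod_cast h
    gcongr
  have htl : Filter.Tendsto tt Filter.atTop (𝓝 1) := by
    have := (tendsto_one_div_add_atTop_nhds_zero_nat (𝕜 := ℝ)).const_sub (1 : ℝ)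
    rwa [sub_zero] at this
  have hcau : CauchySeq fun k => φ (tt k) := by
    refine (tendsto_atTop_ciSup (fun k l h => hφm (htm k) (htm l) (htmono h))
      ⟨|a| + (|u x₀| + |p.2|), ?_⟩).cauchySeq
    rintro _ ⟨k, rfl⟩
    refine add_le_add ?_ (hup _ (htm k))
    have := htm k
    nlinarith [le_abs_self a, abs_nonneg a, this.1, this.2]
  obtain ⟨q, hq, hql⟩ := hcomp (fun k => x₀ + tt k • v) (fun k => hmem _ (htm k)) fun ε hε => by
    obtain ⟨N, hN⟩ := Metric.cauchySeq_iff.1 hcau ε hε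
    exact ⟨N, fun k hk l hl => (hdist _ (htm k) _ (htm l)).trans_lt (hN l hl k hk)⟩
  have h1 : Filter.Tendsto (fun k => x₀ + tt k • v) Filter.atTop (𝓝 q) := by
    rw [tendsto_iff_norm_sub_tendsto_zero]
    refine squeeze_zero (fun _ => norm_nonneg _) (fun k => ?_) hql
    rw [norm_sub_rev]
    exact norm_le_riemDist hΩ hΩc hu (hmem _ (htm k)) hq
  have h2 : Filter.Tendsto (fun k => x₀ + tt k • v) Filter.atTop (𝓝 p.1) := by
    have := (htl.smul_const v).const_add x₀
    simpa [hv] using this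
  exact hp (tendsto_nhds_unique h1 h2 ▸ hq)

namespace Sol
variable (S : Sol n) {x : E n}

theorem convexOn : ConvexOn ℝ S.Ω S.u := convexOn_of_hess S.isOpen S.convex S.smooth S.pos
theorem convex_C : Convex ℝ S.C := S.convexOn.convex_epigraph
theorem X_mem (hx : x ∈ S.Ω) : S.X x ∈ S.C := ⟨hx, le_rfl⟩
theorem add_up_mem {w : V n} (hw : w ∈ S.C) {t : ℝ} (ht : 0 ≤ t) : w + t • up n ∈ S.C := by
  obtain ⟨h1, h2⟩ := hw
  refine ⟨by simpa using h1, ?_⟩
  simp only [Prod.fst_add, Prod.smul_fst, smul_zero, add_zero, Prod.snd_add, Prod.smul_snd,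
    smul_eq_mul, mul_one]
  linarith
theorem tp_X : S.tp x (S.X x) = 0 := by simp [tp, nb]
theorem tp_add_up (w : V n) (t : ℝ) : S.tp x (w + t • up n) = S.tp x w + t := by
  simp only [tp, nb, Prod.fst_add, Prod.smul_fst, smul_zero, add_zero, Prod.snd_add, Prod.smul_snd,
    smul_eq_mul, mul_one, Prod.snd_sub, Prod.fst_sub]
  ring
theorem tp_nonneg (hx : x ∈ S.Ω) {w : V n} (hw : w ∈ S.C) : 0 ≤ S.tp x w := by
  have := tangent_le S.isOpen S.convex S.smooth S.pos hx hw.1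
  have h2 := hw.2
  simp only [tp, nb, X, Prod.snd_sub, Prod.fst_sub]
  linarith
theorem tp_pos (hx : x ∈ S.Ω) {w : V n} (hw : w ∈ S.C) (hne : w ≠ S.X x) : 0 < S.tp x w := by
  have h2 := hw.2
  simp only [tp, nb, X, Prod.snd_sub, Prod.fst_sub]
  by_cases h : w.1 = x
  · have h3 : S.u x ≠ w.2 := fun e => hne (Prod.ext h e.symm)
    rw [h] at h2 ⊢
    simpa using lt_of_le_of_ne h2 h3
  · have := tangent_lt S.isOpen S.convex S.smooth S.pos hx hw.1 h
    linarith
/-- the gradient map is injective -/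
theorem injOn_fderiv : InjOn (fderiv ℝ S.u) S.Ω := by
  intro x hx y hy e
  by_contra h
  have h1 := tangent_lt S.isOpen S.convex S.smooth S.pos hx hy (Ne.symm h)
  have h2 := tangent_lt S.isOpen S.convex S.smooth S.pos hy hx h
  rw [← e] at h2
  rw [map_sub] at h1 h2
  linarith
theorem isCompact_of_bdd (l : V n →L[ℝ] ℝ) (z : V n) (r : ℝ)
    (hb : Bornology.IsBounded {w | w ∈ S.C ∧ l (w - z) ≤ r}) :
    IsCompact {x | x ∈ S.Ω ∧ S.af l z x ≤ r} := by
  have hcl : IsClosed {w | w ∈ S.C ∧ l (w - z) ≤ r} :=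
    S.closed.inter (isClosed_le (f := fun w => l (w - z)) (by fun_prop) continuous_const)
  have hK : IsCompact {w | w ∈ S.C ∧ l (w - z) ≤ r} := Metric.isCompact_of_isClosed_isBounded hcl hb
  have hc : ContinuousOn (fun w : V n => w.2 - S.u w.1) {w | w ∈ S.C ∧ l (w - z) ≤ r} :=
    continuous_snd.continuousOn.sub
      (S.smooth.continuousOn.comp continuous_fst.continuousOn fun w hw => hw.1.1)
  have hG := hK.of_isClosed_subset (hc.preimage_isClosed_of_isClosed hcl (isClosed_singleton (x := 0)))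
    inter_subset_left
  convert hG.image continuous_fst using 1
  ext x
  constructor
  · rintro ⟨h1, h2⟩
    exact ⟨S.X x, ⟨⟨S.X_mem h1, h2⟩, by simp [X]⟩, rfl⟩
  · rintro ⟨w, ⟨⟨h1, h2⟩, h3⟩, rfl⟩
    have h4 : S.X w.1 = w := Prod.ext rfl (by
      have : w.2 - S.u w.1 = 0 := h3
      simp only [X]; linarith)
    exact ⟨h1.1, by rwa [af, h4]⟩
theorem bdd_tp (hx : x ∈ S.Ω) (h : ℝ) : Bornology.IsBounded {w | w ∈ S.C ∧ S.tp x w ≤ h} := by
  have hK : IsCompact (Metric.sphere (S.X x) 1 ∩ S.C) := (isCompact_sphere _ _).inter_right S.closed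
  have hc : Continuous (S.tp x) := by unfold tp nb; fun_prop
  obtain ⟨m, hm, hm'⟩ := hK.exists_forall_le' hc.continuousOn (a := 0) fun w hw =>
    S.tp_pos hx hw.2 fun e => by simpa [e] using hw.1
  refine (Metric.isBounded_closedBall (x := S.X x) (r := max 1 (h / m))).subset fun w hw => ?_
  rw [Metric.mem_closedBall, dist_eq_norm]
  rcases le_total ‖w - S.X x‖ 1 with h1 | h1
  · exact h1.trans (le_max_left _ _)
  · refine le_trans ?_ (le_max_right _ _)
    have hρ : 0 < ‖w - S.X x‖ := by linarith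
    have h2 := hm' (S.X x + ‖w - S.X x‖⁻¹ • (w - S.X x)) ⟨by
      simp [norm_smul, hρ.ne'],
      S.convex_C.add_smul_sub_mem (S.X_mem hx) hw.1 ⟨by positivity, inv_le_one_of_one_le₀ h1⟩⟩
    have h3 : S.tp x (S.X x + ‖w - S.X x‖⁻¹ • (w - S.X x)) = ‖w - S.X x‖⁻¹ * S.tp x w := by
      simp only [tp, nb, add_sub_cancel_left, Prod.smul_snd, Prod.smul_fst, map_smul, smul_eq_mul]
      ring
    rw [h3, inv_mul_eq_div, le_div_iff₀ hρ] at h2
    rw [le_div_iff₀ hm]
    linarith [hw.2]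
theorem isCompact_sec (hx : x ∈ S.Ω) (h : ℝ) : IsCompact (S.sec x h) :=
  S.isCompact_of_bdd (ContinuousLinearMap.snd ℝ (E n) ℝ -
    (fderiv ℝ S.u x).comp (ContinuousLinearMap.fst ℝ (E n) ℝ)) (S.X x) h (S.bdd_tp hx h)
theorem convex_sec (x₀ : E n) (h : ℝ) : Convex ℝ (S.sec x₀ h) := by
  have h1 : ConvexOn ℝ S.Ω fun x => S.u x + (-fderiv ℝ S.u x₀) x :=
    S.convexOn.add ((-fderiv ℝ S.u x₀).toLinearMap.convexOn S.convex)
  convert h1.convex_le (h + S.u x₀ - fderiv ℝ S.u x₀ x₀) using 1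
  ext x
  simp only [sec, tp, nb, X, Prod.snd_sub, Prod.fst_sub, map_sub, mem_ofPred_eq,
    neg_apply]
  constructor <;> rintro ⟨h1, h2⟩ <;> exact ⟨h1, by linarith⟩
theorem convex_lev (h : ℝ) : Convex ℝ (S.lev h) := S.convexOn.convex_le h
theorem segment_lev {h : ℝ} (h0 : (0 : E n) ∈ S.lev h) (x : E n)
    (hno : ∀ t ∈ Icc (0 : ℝ) 1, t • x ∈ S.Ω → S.u (t • x) ≠ h ∨ t = 1) : x ∈ S.lev h := by
  have hcl : IsClosed {t : ℝ | ((t • x, h) : V n) ∈ S.C} := S.closed.preimage (by fun_prop)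
  have := IsClosed.mem_of_ge_of_forall_exists_gt (s := {t : ℝ | ((t • x, h) : V n) ∈ S.C})
    (a := 0) (b := 1) (hcl.inter isClosed_Icc) (by rw [mem_ofPred_eq, zero_smul]; exact h0) zero_le_one fun t ht => by
      obtain ⟨⟨h1, h2⟩, h3⟩ := ht
      have h4 : S.u (t • x) < h :=
        lt_of_le_of_ne h2 ((hno t (Ico_subset_Icc_self h3) h1).resolve_right h3.2.ne)
      have hc : ContinuousAt (fun s : ℝ => s • x) t := by fun_prop
      have e1 : ∀ᶠ s in 𝓝 t, s • x ∈ S.Ω := hc.eventually (S.isOpen.mem_nhds h1)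
      have e2 : ∀ᶠ s in 𝓝 t, S.u (s • x) < h :=
        (ContinuousAt.comp (f := fun s : ℝ => s • x)
          (S.smooth.contDiffAt (S.isOpen.mem_nhds h1)).continuousAt hc).eventually (gt_mem_nhds h4)
      have e3 : ∀ᶠ s in 𝓝[>] t, s ∈ Ioc t 1 := Ioc_mem_nhdsGT h3.2
      obtain ⟨s, ⟨a1, a2⟩, a3⟩ := (((e1.and e2).filter_mono nhdsWithin_le_nhds).and e3).exists
      exact ⟨s, ⟨a1, a2.le⟩, a3⟩
  rw [mem_ofPred_eq, one_smul] at this
  exact this
/-- if `u` is a polynomial on `Ω` (continuous extension) then `Ω` is everything -/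
theorem eq_univ_of_continuous (hne : S.Ω.Nonempty) {P : E n → ℝ} (hP : Continuous P)
    (h : ∀ x ∈ S.Ω, S.u x = P x) : S.Ω = univ := by
  refine IsClopen.eq_univ ⟨?_, S.isOpen⟩ hne
  have : S.Ω = (fun x => ((x, P x) : V n)) ⁻¹' S.C := by
    ext x
    exact ⟨fun hx => ⟨hx, (h x hx).le⟩, fun hx => hx.1⟩
  rw [this]
  exact S.closed.preimage (by fun_prop)
/-- constant Hessian gives a quadratic polynomial -/
theorem quadratic_of_hess_const (A : Matrix (Fin n) (Fin n) ℝ) (hA : ∀ x ∈ S.Ω, S.H x = A)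
    (hne : S.Ω.Nonempty) :
    ∃ (b : E n) (c : ℝ), ∀ x ∈ S.Ω,
      S.u x = (1 / 2) * (∑ i, ∑ j, A i j * x i * x j) + (∑ i, b i * x i) + c := by
  obtain ⟨x₀, hx₀⟩ := hne
  have hsym : ∀ i j, A i j = A j i := fun i j => by
    have := (S.pos x₀ hx₀).isHermitian.apply j i
    rw [show hessianMat S.u x₀ = A from hA x₀ hx₀] at this
    simpa using this
  have key : ∀ x ∈ S.Ω, S.u x = S.u x₀ + fderiv ℝ S.u x₀ (x - x₀) +
      (1 / 2) * ∑ i, ∑ j, A i j * (x - x₀) i * (x - x₀) j := by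
    intro x hx
    set v := x - x₀ with hv
    set a := ∑ i, ∑ j, A i j * v i * v j with ha
    have hm : ∀ t ∈ Icc (0 : ℝ) 1, x₀ + t • v ∈ S.Ω := fun t ht => seg_mem S.convex hx₀ hx ht
    have d2 : ∀ t ∈ Icc (0 : ℝ) 1,
        HasDerivAt (fun s : ℝ => fderiv ℝ S.u (x₀ + s • v) v - a * s) 0 t := fun t ht => by
      have h1 := line_d2 S.isOpen S.smooth x₀ v (hm t ht)
      rw [show hessianMat S.u (x₀ + t • v) = A from hA _ (hm t ht)] at h1
      exact (h1.fun_sub ((hasDerivAt_id t).const_mul a)).congr_deriv (by rw [mul_one, sub_self])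
    have c2 := constant_of_has_deriv_right_zero
      (fun t ht => (d2 t ht).continuousAt.continuousWithinAt)
      fun t ht => (d2 t (Ico_subset_Icc_self ht)).hasDerivWithinAt
    have d1 : ∀ t ∈ Icc (0 : ℝ) 1, HasDerivAt
        (fun s : ℝ => S.u (x₀ + s • v) - fderiv ℝ S.u x₀ v * s - a / 2 * s ^ 2) 0 t := fun t ht => by
      have h1 := ((line_d1 S.isOpen S.smooth x₀ v (hm t ht)).fun_sub
        ((hasDerivAt_id t).const_mul (fderiv ℝ S.u x₀ v))).fun_sub
        ((hasDerivAt_pow 2 t).const_mul (a / 2))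
      refine h1.congr_deriv ?_
      have h2 := c2 t ht
      simp only [zero_smul, add_zero, mul_zero, sub_zero] at h2
      simp only [mul_one, Nat.cast_ofNat, Nat.add_one_sub_one, pow_one]
      linarith
    have c1 := constant_of_has_deriv_right_zero
      (fun t ht => (d1 t ht).continuousAt.continuousWithinAt)
      (fun t ht => (d1 t (Ico_subset_Icc_self ht)).hasDerivWithinAt) 1
      (right_mem_Icc.2 zero_le_one)
    simp only [one_smul, hv, add_sub_cancel, mul_one, one_pow, zero_smul, add_zero, mul_zero,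
      sub_zero, ne_eq, OfNat.ofNat_ne_zero, not_false_eq_true, zero_pow] at c1
    linarith
  refine ⟨WithLp.toLp 2 fun i => fderiv ℝ S.u x₀ (ee i) - ∑ j, A i j * x₀ j,
    S.u x₀ - fderiv ℝ S.u x₀ x₀ + (1 / 2) * ∑ i, ∑ j, A i j * x₀ i * x₀ j, fun x hx => ?_⟩
  rw [key x hx, map_sub, clm_eq_sum (fderiv ℝ S.u x₀) x]
  have e1 : ∑ i, ∑ j, A i j * x₀ i * x j = ∑ i, ∑ j, A i j * x i * x₀ j := by
    rw [Finset.sum_comm]
    exact Finset.sum_congr rfl fun i _ => Finset.sum_congr rfl fun j _ => by rw [hsym j i]; ring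
  have e2 : ∑ i, ∑ j, A i j * (x - x₀) i * (x - x₀) j = ∑ i, ∑ j, A i j * x i * x j -
      ∑ i, ∑ j, A i j * x₀ i * x j - ∑ i, ∑ j, A i j * x i * x₀ j +
      ∑ i, ∑ j, A i j * x₀ i * x₀ j := by
    simp only [← Finset.sum_sub_distrib, ← Finset.sum_add_distrib, PiLp.sub_apply]
    exact Finset.sum_congr rfl fun i _ => Finset.sum_congr rfl fun j _ => by ring
  have e3 : ∑ i, (fderiv ℝ S.u x₀ (ee i) - ∑ j, A i j * x₀ j) * x i =
      ∑ i, x i * fderiv ℝ S.u x₀ (ee i) - ∑ i, ∑ j, A i j * x i * x₀ j := by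
    rw [← Finset.sum_sub_distrib]
    refine Finset.sum_congr rfl fun i _ => ?_
    rw [sub_mul, Finset.sum_mul, mul_comm]
    congr 1
    exact Finset.sum_congr rfl fun j _ => by ring
  rw [e2, e1, e3]
  ring
end Sol

namespace Cap
variable {S : Sol n} {c : ℝ} (K : Cap S c)
theorem l_up_pos : 0 < K.l (up n) := by
  by_contra h
  push Not at h
  obtain ⟨R, hR⟩ := K.bdd.subset_closedBall K.z
  have h1 := hR (show K.z + (|R| + 1) • up n ∈ {w | w ∈ S.C ∧ K.l (w - K.z) ≤ 1} from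
    ⟨S.add_up_mem K.z_mem (by positivity), by
      rw [add_sub_cancel_left, map_smul, smul_eq_mul]
      nlinarith [abs_nonneg R]⟩)
  rw [Metric.mem_closedBall, dist_eq_norm, add_sub_cancel_left, norm_smul] at h1
  have h2 : ‖up n‖ = 1 := by simp [Prod.norm_def]
  rw [h2, mul_one, Real.norm_of_nonneg (by positivity)] at h1
  linarith [le_abs_self R]
theorem isCompact_sec {r : ℝ} (hr : r ≤ 1) : IsCompact (K.sec r) :=
  S.isCompact_of_bdd K.l K.z r (K.bdd.subset fun _ hw => ⟨hw.1, hw.2.trans hr⟩)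
/-- use `w = z + (l up)⁻¹ • up` in `cen` -/
theorem tp_z_pos (hc : 0 < c) {x : E n} (hx : x ∈ S.Ω) : 0 < S.tp x K.z := by
  have h0 := K.l_up_pos
  have h1 := K.cen x hx (K.z + (K.l (up n))⁻¹ • up n) (S.add_up_mem K.z_mem (by positivity)) (by
    rw [add_sub_cancel_left, map_smul, smul_eq_mul, inv_mul_cancel₀ h0.ne'])
  rw [S.tp_add_up] at h1
  have h2 := S.tp_nonneg hx K.z_mem
  exact lt_of_lt_of_le (by positivity) h1
theorem q_pos (hc : 0 < c) {x : E n} (hx : x ∈ S.Ω) : 0 < S.q K.z x :=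
  mul_pos (S.rho_pos hx) (K.tp_z_pos hc hx)
/-- differences of points of the cap have bounded conormal components -/
theorem abs_nb_le (hc : 0 < c) {x : E n} (hx : x ∈ S.Ω) {w w' : V n} (hw : w ∈ S.C)
    (hw1 : K.l (w - K.z) ≤ 1) (hw' : w' ∈ S.C) (hw1' : K.l (w' - K.z) ≤ 1) :
    c * |S.nb x (w - w')| ≤ S.tp x K.z := by
  have e : S.nb x (w - w') = S.tp x w - S.tp x w' := by
    simp only [Sol.tp, Sol.nb, Prod.snd_sub, Prod.fst_sub, map_sub]; ring
  have h1 := K.cen x hx w hw hw1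
  have h2 := K.cen x hx w' hw' hw1'
  have h3 := mul_nonneg hc.le (S.tp_nonneg hx hw)
  have h4 := mul_nonneg hc.le (S.tp_nonneg hx hw')
  rw [e]
  rcases abs_cases (S.tp x w - S.tp x w') with h | h <;> rw [h.1] <;> linarith
end Cap

end Crest.Agent.R236
end
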