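import Crest.Agent.R236.MassAux

/-!
# Upper and lower bounds for the mass of `mu` in a centred cap

All proofs: reduce to a normal cap (`Cap.exists_normal`), where `K.sec r = S.lev r`, `u ≥ -2` on `lev 1`,
`D x := tp x 0 = -u x + Du(x) x > 0`, `|∂ᵢu| ≤ D/c` (`abs_nb_le` with `(eᵢ,1), (0,1)`), `1 ≤ D/c`
(`(0,1), 0`), `lev 1 ⊆ [-1,1]ⁿ` has volume `≤ 2ⁿ`.

`V1`: with `g = pc 2 (1 - u)`, `∫ ∂ᵢ(xᵢ g) = 0` (`integral_div_eq_zero`, `U = Ω`, `K = lev 1`) gives
`2∫ pc 1 (1-u) · Du(x)x = n ∫ g ≤ 9 n 2ⁿ`; on `lev r`, `1 - u ≥ 1 - r`; `D ≥ 0`, `-u ≤ 2`.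
`V2`: `D ≥ c(1 + ‖∇u‖)/(n+1)`; change of variables `p = ∇u(x)` (injective: `injOn_fderiv`; derivative has
determinant `det H`), `lintegral_image_eq_lintegral_abs_det_fderiv_mul`, `integrable_one_add_norm`.
`mass_upper`: `D^{-n/2} √det ≤ (D + D^{-(n+1)} det)/2`.
`area_lower`: `{Σ|xᵢ| < c} ⊆ lev 0` (`segment_lev`: at `X = (x,0)`, `D = -Σ xᵢ nb(eᵢ,0) ≤ Σ|xᵢ| D/c < D`).
`φ = 1/2 + ‖x‖²/(8n) - u`, `U = {u < 1}`, `K = lev (5/8)`, `w = detPower` (`w det = rho⁻¹`, `L0 w = 0`).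
`ibp0` with `(g, f) = (3 w pc 2 φ, φ)` and with `(g, f) = (pc 3 φ, w)` gives
`∫ pc 2 φ · rho⁻¹ L0 φ = -2 ∫ w pc 1 φ G0 φ φ det ≤ 0`, where
`L0 φ = tr(Hi)/(4n) - n ≥ rho^{(n+2)/n}/4 - n` (`det_le_trace_pow` for `Hi`).  With `ρ₀ = (4n)^{n/(n+2)}`
(or any cruder constant, e.g. split at `rho ≤ R := 8n`): `1 ≤ max((rho/ρ₀)^{2/n}, ρ₀/rho)`, so
`∫ pc 2 φ ≤ 2ρ₀ ∫ pc 2 φ rho⁻¹`; `φ ≥ 1/2` on the small cross-polytope (contains a ball), `φ ≤ 3`.
`mass_lower`: with `Q = rho D`, pointwise `rho⁻¹ ≤ ε D + ε^{-n/2} mu` (cases `εQ ≥ 1` or not), and `V1`.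
-/

set_option autoImplicit false
open scoped ContDiff Topology
open Crest.GeometryTopology.CoordMetric Crest.GeometryTopology.AffineMaximal
open MeasureTheory Set

noncomputable section
namespace Crest.Agent.R236

variable {n : ℕ}

open Mass

theorem volume_cube (n : ℕ) (r : ℝ) (hr : 0 ≤ r) :
    volume {x : E n | ∀ i, |x i| ≤ r} = ENNReal.ofReal ((2 * r) ^ n) := vol_cube n r hr

theorem V1 (n : ℕ) {c r : ℝ} (hc : 0 < c) (hr : r < 1) :
    ∃ A, ∀ (S : Sol n) (K : Cap S c), K.Normal → ∫ x in S.lev r, S.tp x 0 ≤ A := by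
  refine ⟨(6 + 9 * n / 2) * 2 ^ n / (1 - r), fun S K h => ?_⟩
  have hK1 := compact_lev h le_rfl
  have hKr := compact_lev h hr.le
  have cu : ContinuousOn S.u (S.lev 1) := S.smooth.continuousOn.mono (lev_sub S 1)
  have cD : ContinuousOn (fun x => S.tp x 0) (S.lev 1) := (cont_D S).mono (lev_sub S 1)
  have i1 : IntegrableOn (fun x => (1 - S.u x) * S.tp x 0) (S.lev 1) :=
    ContinuousOn.integrableOn_compact hK1 (by fun_prop)
  have i2 : IntegrableOn (fun x => (1 - r) * S.tp x 0) (S.lev r) :=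
    ContinuousOn.integrableOn_compact hKr
      (continuousOn_const.mul (cD.mono (lev_mono S hr.le)))
  rw [le_div_iff₀ (by linarith), mul_comm, ← integral_const_mul]
  refine le_trans ?_ (V1_core h)
  refine (setIntegral_mono_on i2 (i1.mono_set (lev_mono S hr.le)) hKr.measurableSet
    fun x hx => ?_).trans (setIntegral_mono_set i1 ?_ (lev_mono S hr.le).eventuallyLE)
  · exact mul_le_mul_of_nonneg_right (by linarith [hx.2]) (D_pos hc h hx.1).le
  · exact ae_restrict_of_forall_mem hK1.measurableSet fun x hx =>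
      mul_nonneg (by linarith [hx.2]) (D_pos hc h hx.1).le

theorem Mass.cont_V2 {c : ℝ} (hc : 0 < c) {S : Sol n} {K : Cap S c} (h : K.Normal) :
    ContinuousOn (fun x => (S.tp x 0 ^ (n + 1))⁻¹ * (S.H x).det) S.Ω :=
  (((cont_D S).pow _).inv₀ fun _ hx => (pow_pos (D_pos hc h hx) _).ne').mul
    S.contDiffOn_det.continuousOn

theorem V2 (n : ℕ) {c : ℝ} (hc : 0 < c) :
    ∃ A, ∀ (S : Sol n) (K : Cap S c), K.Normal →
      ∫ x in S.lev 1, (S.tp x 0 ^ (n + 1))⁻¹ * (S.H x).det ≤ A := by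
  have hg : Integrable (fun y : E n => (1 + ‖y‖) ^ (-((n : ℝ) + 1))) :=
    integrable_one_add_norm (by simp)
  refine ⟨((n + 1) / c) ^ (n + 1) * ∫ y : E n, (1 + ‖y‖) ^ (-((n : ℝ) + 1)), fun S K h => ?_⟩
  have hK := compact_lev h le_rfl
  have hcv := integral_image_eq_integral_abs_det_fderiv_smul volume hK.measurableSet
    (f := grad S) (f' := fderiv ℝ (grad S))
    (fun x hx => (grad_diff S hx.1).hasFDerivAt.hasFDerivWithinAt)
    ((grad_inj S).mono (lev_sub S 1)) (fun y : E n => (1 + ‖y‖) ^ (-((n : ℝ) + 1)))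
  have e1 : ∀ x ∈ S.lev 1, |(fderiv ℝ (grad S) x).det| • (1 + ‖grad S x‖) ^ (-((n : ℝ) + 1)) =
      ((1 + ‖grad S x‖) ^ (n + 1))⁻¹ * (S.H x).det := fun x hx => by
    rw [det_grad S hx.1, abs_of_pos (S.det_pos hx.1), smul_eq_mul, mul_comm,
      Real.rpow_neg (by positivity), ← Nat.cast_add_one, Real.rpow_natCast]
  rw [setIntegral_congr_fun hK.measurableSet e1] at hcv
  have cg : ContinuousOn (grad S) (S.lev 1) := fun x hx =>
    (grad_diff S hx.1).continuousAt.continuousWithinAt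
  have i1 : IntegrableOn (fun x => ((n + 1) / c) ^ (n + 1) *
      (((1 + ‖grad S x‖) ^ (n + 1))⁻¹ * (S.H x).det)) (S.lev 1) :=
    ContinuousOn.integrableOn_compact hK (continuousOn_const.mul
      ((((continuousOn_const.add cg.norm).pow _).inv₀ fun x _ =>
        (show (0 : ℝ) < (1 + ‖grad S x‖) ^ (n + 1) by positivity).ne').mul
        (S.contDiffOn_det.continuousOn.mono (lev_sub S 1))))
  refine (setIntegral_mono_on (ContinuousOn.integrableOn_compact hK
    ((Mass.cont_V2 hc h).mono (lev_sub S 1))) i1 hK.measurableSet fun x hx => ?_).trans ?_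
  · rw [← mul_assoc]
    refine mul_le_mul_of_nonneg_right ?_ (S.det_pos hx.1).le
    have hD := D_pos hc h hx.1
    rw [← div_eq_mul_inv, inv_eq_one_div, div_le_div_iff₀ (by positivity) (by positivity), one_mul,
      ← mul_pow]
    exact pow_le_pow_left₀ (by positivity) (one_add_grad_le hc h hx.1) _
  · rw [integral_const_mul, ← hcv]
    refine mul_le_mul_of_nonneg_left ?_ (by positivity)
    exact setIntegral_le_integral hg (Filter.Eventually.of_forall fun y => by positivity)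

namespace Mass

/-- the small cube lies below level `0` -/
theorem small_cube (hn : 1 ≤ n) {c : ℝ} (hc : 0 < c) {S : Sol n} {K : Cap S c} (h : K.Normal)
    {x : E n} (hx : ∀ i, |x i| ≤ c / (2 * n)) : x ∈ S.lev 0 := by
  have hn' : (0 : ℝ) < n := by exact_mod_cast hn
  refine S.segment_lev (zero_mem_lev h) x fun t ht hy => Or.inl fun h0 => ?_
  have hD := D_pos hc h hy
  have h1 : c * S.tp (t • x) 0 ≤ ∑ _i : Fin n, c / (2 * n) * S.tp (t • x) 0 := by
    conv_lhs => rw [tp_zero, h0, neg_zero, zero_add, clm_eq_sum, Finset.mul_sum]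
    refine Finset.sum_le_sum fun i _ => ?_
    have h2 : |(t • x) i| ≤ c / (2 * n) := by
      rw [PiLp.smul_apply, smul_eq_mul, abs_mul, abs_of_nonneg ht.1]
      exact (mul_le_of_le_one_left (abs_nonneg _) ht.2).trans (hx i)
    calc c * ((t • x) i * fderiv ℝ S.u (t • x) (ee i))
        ≤ c * (|(t • x) i| * |fderiv ℝ S.u (t • x) (ee i)|) := by
          rw [← abs_mul]; exact mul_le_mul_of_nonneg_left (le_abs_self _) hc.le
      _ = |(t • x) i| * (c * |fderiv ℝ S.u (t • x) (ee i)|) := by ring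
      _ ≤ c / (2 * n) * S.tp (t • x) 0 :=
          mul_le_mul h2 (du_le hc h hy i) (by positivity) (by positivity)
  rw [Finset.sum_const, Finset.card_univ, Fintype.card_fin, nsmul_eq_mul] at h1
  have h3 : (n : ℝ) * (c / (2 * n) * S.tp (t • x) 0) = c / 2 * S.tp (t • x) 0 := by
    field_simp
  rw [h3] at h1
  nlinarith

/-- squared norm -/
def sq (x : E n) : ℝ := ∑ i, x i * x i

theorem contDiff_coord (i : Fin n) : ContDiff ℝ ∞ fun x : E n => x i :=
  (EuclideanSpace.proj (𝕜 := ℝ) i).contDiff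

theorem contDiff_sq : ContDiff ℝ ∞ (sq : E n → ℝ) :=
  ContDiff.sum fun i _ => (contDiff_coord i).mul (contDiff_coord i)

theorem L0_sq (S : Sol n) {x : E n} (hx : x ∈ S.Ω) : S.L0 sq x = 2 * (S.Hi x).trace := by
  have h2 : ∀ i, ContDiffAt ℝ 2 (fun x : E n => x i) x := fun i =>
    ((contDiff_coord i).of_le (by norm_cast)).contDiffAt
  have h1 := S.L0_sum (x := x) Finset.univ (F := fun i (y : E n) => y i * y i)
    fun i _ => (h2 i).mul (h2 i)
  have h3 : ∀ i, S.L0 (fun y : E n => y i * y i) x = 2 * S.Hi x i i := fun i => by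
    have h4 : S.L0 (fun y : E n => y i) x = 0 := S.L0_clm (EuclideanSpace.proj (𝕜 := ℝ) i)
    have h5 : fderiv ℝ (fun y : E n => y i) x = EuclideanSpace.proj (𝕜 := ℝ) i :=
      (EuclideanSpace.proj (𝕜 := ℝ) i).fderiv
    rw [S.L0_mul hx (h2 i) (h2 i), h4, Sol.G0, h5]
    simp [Sol.B]
  simp only [h3] at h1
  rw [Matrix.trace, Finset.mul_sum]
  exact h1

/-- the test function -/
def ph (S : Sol n) (x : E n) : ℝ := 1 / 2 + 1 / (8 * n) * sq x - S.u x

theorem contDiffOn_ph (S : Sol n) : ContDiffOn ℝ ∞ (ph S) S.Ω :=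
  (contDiff_const.add (contDiff_const.mul contDiff_sq)).contDiffOn.sub S.smooth

theorem L0_ph (S : Sol n) {x : E n} (hx : x ∈ S.Ω) :
    S.L0 (ph S) x = 1 / (8 * n) * (2 * (S.Hi x).trace) - n := by
  have h1 : ContDiffAt ℝ 2 (sq : E n → ℝ) x :=
    (contDiff_sq.of_le (by norm_cast)).contDiffAt
  have h2 : ContDiffAt ℝ 2 S.u x := (S.u_at hx).of_le (by norm_cast)
  have h3 : ContDiffAt ℝ 2 (fun y : E n => 1 / (8 * n) * sq y) x := contDiffAt_const.mul h1
  have h4 := S.L0_sub (x := x) (f := fun y : E n => 1 / 2 + 1 / (8 * n) * sq y) (g := S.u)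
    (contDiffAt_const.add h3) h2
  rw [S.L0_add contDiffAt_const h3, S.L0_const, S.L0_const_mul _ h1, L0_sq S hx, S.L0_u hx,
    zero_add] at h4
  exact h4

theorem rho_le (hn : 1 ≤ n) (S : Sol n) {x : E n} (hx : x ∈ S.Ω) :
    S.rho x ≤ (1 + 4 * n) + 4 * S.L0 (ph S) x := by
  have hn' : (0 : ℝ) < n := by exact_mod_cast hn
  have h1 := det_le_trace_pow (S.Hi_posDef hx).posSemidef
  have h2 : (S.Hi x).det = S.rho x ^ (n + 2) := by
    rw [Sol.Hi, Matrix.det_nonsing_inv, Ring.inverse_eq_inv', S.det_eq_rho hx, inv_inv]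
  have h3 : 0 ≤ (S.Hi x).trace / n := div_nonneg (S.Hi_posDef hx).posSemidef.trace_nonneg hn'.le
  have h4 : 4 * S.L0 (ph S) x = (S.Hi x).trace / n - 4 * n := by
    rw [L0_ph S hx]; field_simp; ring
  rw [h4]
  by_cases h5 : S.rho x ≤ 1
  · linarith
  · have h6 : S.rho x ^ n ≤ ((S.Hi x).trace / n) ^ n :=
      (pow_le_pow_right₀ (le_of_not_ge h5) (by omega)).trans (h2 ▸ h1)
    have := le_of_pow_le_pow_left₀ (by omega) h3 h6
    linarith

theorem ph_le {c : ℝ} {S : Sol n} {K : Cap S c} (h : K.Normal) {x : E n} (hx : x ∈ S.lev 1) :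
    ph S x ≤ 5 / 8 - S.u x := by
  have h1 : sq x ≤ n := by
    refine (Finset.sum_le_sum (g := fun _ => (1 : ℝ)) fun i _ => ?_).trans (by simp)
    rw [← abs_mul_abs_self]
    exact mul_le_one₀ (h.aue.cube x hx i) (abs_nonneg _) (h.aue.cube x hx i)
  have h2 : 1 / (8 * n) * sq x ≤ 1 / 8 := by
    rcases Nat.eq_zero_or_pos n with h0 | h0
    · subst h0; simp
    · have hn' : (0 : ℝ) < n := by exact_mod_cast h0
      calc 1 / (8 * n) * sq x ≤ 1 / (8 * n) * n := mul_le_mul_of_nonneg_left h1 (by positivity)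
        _ = 1 / 8 := by field_simp
  unfold ph
  linarith

/-- the subsolution inequality -/
theorem integral_L0_ph_nonpos {c : ℝ} {S : Sol n} {K : Cap S c} (h : K.Normal) :
    ∫ x in S.lev (5 / 8), pc 2 (ph S x) * ((S.rho x)⁻¹ * S.L0 (ph S) x) ≤ 0 := by
  have hK := compact_lev h (show (5 / 8 : ℝ) ≤ 1 by norm_num)
  set U : Set (E n) := S.Ω ∩ S.u ⁻¹' Iio 1 with hU
  have hUo : IsOpen U := S.smooth.continuousOn.isOpen_inter_preimage S.isOpen isOpen_Iio
  have hUΩ : U ⊆ S.Ω := inter_subset_left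
  have hKU : S.lev (5 / 8) ⊆ U := fun x hx =>
    ⟨hx.1, show S.u x < 1 from hx.2.trans_lt (by norm_num)⟩
  have hneg : ∀ x ∈ U, x ∉ S.lev (5 / 8) → ph S x ≤ 0 := fun x hx hx' => by
    have h1 := ph_le h (x := x) ⟨hx.1, le_of_lt hx.2⟩
    have h2 : 5 / 8 < S.u x := by
      by_contra h2
      exact hx' ⟨hx.1, not_lt.1 h2⟩
    linarith
  have p2 : ContDiffOn ℝ 2 (ph S) U :=
    ((contDiffOn_ph S).of_le (by norm_cast)).mono hUΩ
  have p1 : ContDiffOn ℝ 1 (ph S) U := p2.of_le (by norm_num)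
  have w2 : ContDiffOn ℝ 2 (detPower n S.u) U :=
    (S.contDiffOn_detPower.of_le (by norm_cast)).mono hUΩ
  have w1 : ContDiffOn ℝ 1 (detPower n S.u) U := w2.of_le (by norm_num)
  have c2 : ContDiffOn ℝ 1 (fun x => pc 2 (ph S x)) U := (contDiff_one_pc 0).comp_contDiffOn p1
  have c3 : ContDiffOn ℝ 1 (fun x => pc 3 (ph S x)) U := (contDiff_one_pc 1).comp_contDiffOn p1
  have I1 := S.ibp0 hUo hUΩ hK hKU p2 (w1.mul c2)
    (fun x hx hx' => by simp [pc_of_nonpos two_ne_zero (hneg x hx hx')])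
  have I2 := S.ibp0 hUo hUΩ hK hKU w2 c3
    (fun x hx hx' => pc_of_nonpos three_ne_zero (hneg x hx hx'))
  have cdet : ContinuousOn (fun x => (S.H x).det) U := S.contDiffOn_det.continuousOn.mono hUΩ
  have i1 : IntegrableOn (fun x => (detPower n S.u x * pc 2 (ph S x) * S.L0 (ph S) x +
      S.G0 (fun x => detPower n S.u x * pc 2 (ph S x)) (ph S) x) * (S.H x).det) (S.lev (5 / 8)) :=
    ContinuousOn.integrableOn_compact hK (((((w1.mul c2).continuousOn.mul
      (S.continuousOn_L0 hUo hUΩ p2)).add (S.continuousOn_G0 hUo hUΩ (w1.mul c2) p1)).mul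
        cdet).mono hKU)
  have i2 : IntegrableOn (fun x => (1 / 3 : ℝ) * ((pc 3 (ph S x) * S.L0 (detPower n S.u) x +
      S.G0 (fun x => pc 3 (ph S x)) (detPower n S.u) x) * (S.H x).det)) (S.lev (5 / 8)) :=
    ContinuousOn.integrableOn_compact hK ((continuousOn_const.mul (((c3.continuousOn.mul
      (S.continuousOn_L0 hUo hUΩ w2)).add (S.continuousOn_G0 hUo hUΩ c3 w1)).mul
        cdet)).mono hKU)
  have i0 : IntegrableOn (fun x => pc 2 (ph S x) * ((S.rho x)⁻¹ * S.L0 (ph S) x))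
      (S.lev (5 / 8)) :=
    ContinuousOn.integrableOn_compact hK ((c2.continuousOn.mul
      (((S.contDiffOn_rho.continuousOn.mono hUΩ).inv₀ fun x hx => (S.rho_pos hx.1).ne').mul
        (S.continuousOn_L0 hUo hUΩ p2))).mono hKU)
  have e := integral_sub i1 i2
  rw [integral_const_mul, I2, mul_zero, sub_zero] at e
  have I1' : ∫ x in S.lev (5 / 8), (detPower n S.u x * pc 2 (ph S x) * S.L0 (ph S) x +
      S.G0 (fun x => detPower n S.u x * pc 2 (ph S x)) (ph S) x) * (S.H x).det = 0 := I1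
  rw [I1'] at e
  rw [← e]
  refine setIntegral_mono_on i0 (i1.sub i2) hK.measurableSet fun x hx => ?_
  have hxU := hUo.mem_nhds (hKU hx)
  have dp := ((p1.contDiffAt hxU).differentiableAt one_ne_zero).hasFDerivAt
  have dw := ((w1.contDiffAt hxU).differentiableAt one_ne_zero).hasFDerivAt
  have f2 : fderiv ℝ (fun x => detPower n S.u x * pc 2 (ph S x)) x = _ :=
    (dw.mul (hasFDerivAt_pc 0 dp)).fderiv
  have f3 : fderiv ℝ (fun x => pc 3 (ph S x)) x = _ := (hasFDerivAt_pc 1 dp).fderiv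
  have hw : (S.rho x)⁻¹ = detPower n S.u x * (S.H x).det := by
    have := (S.rho_pos hx.1).ne'
    rw [S.detPower_eq hx.1, S.det_eq_rho hx.1]
    field_simp
    ring
  have hpos : 0 ≤ detPower n S.u x * pc 1 (ph S x) *
      S.B x (fderiv ℝ (ph S) x) (fderiv ℝ (ph S) x) * (S.H x).det := by
    have h1 : 0 ≤ detPower n S.u x := by
      rw [S.detPower_eq hx.1]; exact (pow_pos (S.rho_pos hx.1) _).le
    exact mul_nonneg (mul_nonneg (mul_nonneg h1 (pc_nonneg _ _)) (S.B_nonneg _ hx.1))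
      (S.det_pos hx.1).le
  simp only [Sol.G0, f2, f3, S.L0_detPower hx.1, Sol.B_add_left, Sol.B_smul_left, hw,
    S.B_comm (fderiv ℝ (detPower n S.u) x) _ hx.1]
  push_cast
  nlinarith [hpos]

end Mass

theorem area_lower (n : ℕ) (hn : 1 ≤ n) {c : ℝ} (hc : 0 < c) :
    ∃ a > (0 : ℝ), ∀ (S : Sol n) (K : Cap S c), K.Normal →
      a ≤ ∫ x in S.lev (5 / 8), (S.rho x)⁻¹ := by
  have hn' : (0 : ℝ) < n := by exact_mod_cast hn
  refine ⟨1 / 4 * (2 * (c / (2 * n))) ^ n / ((1 + 4 * n) * 9), by positivity, fun S K h => ?_⟩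
  have hK := compact_lev h (show (5 / 8 : ℝ) ≤ 1 by norm_num)
  have hs := lev_sub S (5 / 8)
  have p2 : ContDiffOn ℝ 2 (ph S) S.Ω := (contDiffOn_ph S).of_le (by norm_cast)
  have c2 : ContinuousOn (fun x => pc 2 (ph S x)) (S.lev (5 / 8)) :=
    (continuous_pc 2).comp_continuousOn (p2.continuousOn.mono hs)
  have cr : ContinuousOn (fun x => (S.rho x)⁻¹) (S.lev (5 / 8)) :=
    (S.contDiffOn_rho.continuousOn.mono hs).inv₀ fun x hx => (S.rho_pos hx.1).ne'
  have cL : ContinuousOn (S.L0 (ph S)) (S.lev (5 / 8)) :=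
    (S.continuousOn_L0 S.isOpen subset_rfl p2).mono hs
  have i2 : IntegrableOn (fun x => pc 2 (ph S x)) (S.lev (5 / 8)) := c2.integrableOn_compact hK
  have i3 : IntegrableOn (fun x => (1 + 4 * n) * 9 * (S.rho x)⁻¹) (S.lev (5 / 8)) :=
    (continuousOn_const.mul cr).integrableOn_compact hK
  have i4 : IntegrableOn (fun x => 4 * (pc 2 (ph S x) * ((S.rho x)⁻¹ * S.L0 (ph S) x)))
      (S.lev (5 / 8)) :=
    (continuousOn_const.mul (c2.mul (cr.mul cL))).integrableOn_compact hK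
  -- upper bound
  have h1 : ∫ x in S.lev (5 / 8), pc 2 (ph S x) ≤
      (1 + 4 * n) * 9 * ∫ x in S.lev (5 / 8), (S.rho x)⁻¹ := by
    refine (setIntegral_mono_on i2 (i3.add i4) hK.measurableSet fun x hx => ?_).trans ?_
    · have hρ := S.rho_pos hx.1
      have e1 := rho_le hn S hx.1
      have hx1 : x ∈ S.lev 1 := lev_mono S (by norm_num) hx
      have e2 := ph_le h hx1
      have e3 := u_ge h hx1
      have e4 : pc 2 (ph S x) ≤ 9 := by
        unfold pc
        have : max (ph S x) 0 ≤ 3 := max_le (by linarith) (by norm_num)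
        nlinarith [le_max_right (ph S x) 0]
      have e5 := pc_nonneg 2 (ph S x)
      have e6 : 1 ≤ (S.rho x)⁻¹ * ((1 + 4 * n) + 4 * S.L0 (ph S) x) := by
        rw [le_inv_mul_iff₀ hρ, mul_one]; exact e1
      have e7 : pc 2 (ph S x) * ((1 + 4 * n) * (S.rho x)⁻¹) ≤ 9 * ((1 + 4 * n) * (S.rho x)⁻¹) :=
        mul_le_mul_of_nonneg_right e4 (by positivity)
      have e8 := mul_le_mul_of_nonneg_left e6 e5
      simp only [Pi.add_apply]
      nlinarith
    · simp only [Pi.add_apply]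
      rw [integral_add i3 i4, integral_const_mul, integral_const_mul]
      linarith [integral_L0_ph_nonpos h]
  -- lower bound
  have hQ : {x : E n | ∀ i, |x i| ≤ c / (2 * n)} ⊆ S.lev (5 / 8) := fun x hx =>
    lev_mono S (by norm_num) (small_cube hn hc h hx)
  have hQm : MeasurableSet {x : E n | ∀ i, |x i| ≤ c / (2 * n)} := by
    rw [ofPred_forall]
    exact MeasurableSet.iInter fun i =>
      (isClosed_le (contDiff_coord i).continuous.abs continuous_const).measurableSet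
  have hv := vol_cube n (c / (2 * n)) (by positivity)
  have h2 : 1 / 4 * (2 * (c / (2 * n))) ^ n ≤ ∫ x in S.lev (5 / 8), pc 2 (ph S x) := by
    refine le_trans ?_ (setIntegral_mono_set i2
      (Filter.Eventually.of_forall fun x => pc_nonneg _ _) hQ.eventuallyLE)
    refine le_trans (le_of_eq ?_) (setIntegral_mono_on (f := fun _ => (1 / 4 : ℝ))
      (integrableOn_const (by rw [hv]; exact ENNReal.ofReal_ne_top)) (i2.mono_set hQ) hQm
      fun x hx => ?_)
    · rw [setIntegral_const, Measure.real, hv, ENNReal.toReal_ofReal (by positivity), smul_eq_mul,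
        mul_comm]
    · have e1 := (small_cube hn hc h hx).2
      have e2 : 0 ≤ 1 / (8 * n) * sq x :=
        mul_nonneg (by positivity) (Finset.sum_nonneg fun i _ => mul_self_nonneg _)
      have e3 : 1 / 2 ≤ ph S x := by unfold ph; linarith
      rw [pc_of_nonneg _ (by linarith)]
      nlinarith
  rw [div_le_iff₀ (by positivity), mul_comm (∫ x in S.lev (5 / 8), (S.rho x)⁻¹)]
  exact h2.trans h1

theorem continuousOn_mu {S : Sol n} {c : ℝ} (hc : 0 < c) (K : Cap S c) :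
    ContinuousOn (S.mu K.z) S.Ω :=
  ((S.contDiffOn_q K.z).continuousOn.rpow_const fun _ hx => Or.inl (K.q_pos hc hx).ne').mul
    (S.contDiffOn_rho.continuousOn.inv₀ fun _ hx => (S.rho_pos hx).ne')

theorem mu_pos {S : Sol n} {c : ℝ} (hc : 0 < c) (K : Cap S c) {x : E n} (hx : x ∈ S.Ω) :
    0 < S.mu K.z x :=
  mul_pos (Real.rpow_pos_of_pos (K.q_pos hc hx) _) (inv_pos.2 (S.rho_pos hx))

theorem mass_upper (n : ℕ) {c r : ℝ} (hc : 0 < c) (hr : r < 1) :
    ∃ A, ∀ (S : Sol n) (K : Cap S c), ∫ x in K.sec r, S.mu K.z x ≤ A := by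
  obtain ⟨A₁, h₁⟩ := V1 n hc hr
  obtain ⟨A₂, h₂⟩ := V2 n hc
  refine ⟨A₁ + A₂, fun S₀ K₀ => ?_⟩
  obtain ⟨S, K, h, e⟩ := K₀.exists_normal hc
  rw [e r hr.le, sec_eq h]
  have hK1 := compact_lev h le_rfl
  have hKr := compact_lev h hr.le
  have i1 : IntegrableOn (fun x => S.tp x 0) (S.lev r) :=
    ((cont_D S).mono (lev_sub S r)).integrableOn_compact hKr
  have i2 : IntegrableOn (fun x => (S.tp x 0 ^ (n + 1))⁻¹ * (S.H x).det) (S.lev 1) :=
    ((Mass.cont_V2 hc h).mono (lev_sub S 1)).integrableOn_compact hK1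
  have i3 := i2.mono_set (lev_mono S hr.le)
  refine (setIntegral_mono_on (((continuousOn_mu hc K).mono (lev_sub S r)).integrableOn_compact hKr)
    (i1.add i3) hKr.measurableSet fun x hx => ?_).trans ?_
  · have hD := D_pos hc h hx.1
    have hd := S.det_pos hx.1
    have hm := mu_pos hc K hx.1
    have e1 : S.mu K.z x ^ 2 = S.tp x 0 * ((S.tp x 0 ^ (n + 1))⁻¹ * (S.H x).det) := by
      rw [h.z_eq, S.mu_eq hx.1 hD, mul_pow, Real.sq_sqrt hd.le, ← Real.rpow_natCast,
        ← Real.rpow_mul hD.le]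
      have : -(n : ℝ) / 2 * ((2 : ℕ) : ℝ) = -(n : ℝ) := by push_cast; ring
      rw [this, Real.rpow_neg hD.le, Real.rpow_natCast]
      field_simp
      ring
    have e2 : 0 < (S.tp x 0 ^ (n + 1))⁻¹ * (S.H x).det := by positivity
    simp only [Pi.add_apply]
    refine le_of_pow_le_pow_left₀ two_ne_zero (by positivity) ?_
    rw [e1]
    nlinarith [mul_pos hD e2]
  · simp only [Pi.add_apply]
    rw [integral_add i1 i3]
    refine add_le_add (h₁ S K h) (le_trans ?_ (h₂ S K h))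
    refine setIntegral_mono_set i2 (ae_restrict_of_forall_mem hK1.measurableSet fun x hx => ?_)
      (lev_mono S hr.le).eventuallyLE
    have hD := D_pos hc h hx.1
    have hd := S.det_pos hx.1
    positivity

theorem mass_lower (n : ℕ) (hn : 1 ≤ n) {c : ℝ} (hc : 0 < c) :
    ∃ a > (0 : ℝ), ∀ (S : Sol n) (K : Cap S c), a ≤ ∫ x in K.sec (5 / 8), S.mu K.z x := by
  obtain ⟨A, h₁⟩ := V1 n hc (show (5 / 8 : ℝ) < 1 by norm_num)
  obtain ⟨a, ha, h₂⟩ := area_lower n hn hc
  set ε : ℝ := a / (2 * (|A| + 1)) with hε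
  have hε0 : 0 < ε := by positivity
  have hM : 0 < ε ^ (-(n : ℝ) / 2) := Real.rpow_pos_of_pos hε0 _
  refine ⟨a / 2 / ε ^ (-(n : ℝ) / 2), by positivity, fun S₀ K₀ => ?_⟩
  obtain ⟨S, K, h, e⟩ := K₀.exists_normal hc
  rw [e _ (by norm_num), sec_eq h]
  have hK := compact_lev h (show (5 / 8 : ℝ) ≤ 1 by norm_num)
  have hs := lev_sub S (5 / 8)
  have i1 : IntegrableOn (fun x => ε * S.tp x 0) (S.lev (5 / 8)) :=
    (continuousOn_const.mul ((cont_D S).mono hs)).integrableOn_compact hK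
  have i2 : IntegrableOn (fun x => ε ^ (-(n : ℝ) / 2) * S.mu K.z x) (S.lev (5 / 8)) :=
    (continuousOn_const.mul ((continuousOn_mu hc K).mono hs)).integrableOn_compact hK
  have i3 : IntegrableOn (fun x => (S.rho x)⁻¹) (S.lev (5 / 8)) :=
    ((S.contDiffOn_rho.continuousOn.mono hs).inv₀
      fun x hx => (S.rho_pos hx.1).ne').integrableOn_compact hK
  have h3 := setIntegral_mono_on i3 (i1.add i2) hK.measurableSet fun x hx => by
    have hD := D_pos hc h hx.1
    have hρ := S.rho_pos hx.1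
    have hm := mu_pos hc K hx.1
    have hq := K.q_pos hc hx.1
    simp only [Pi.add_apply]
    by_cases hQ : ε * S.q K.z x ≤ 1
    · have e1 : 1 ≤ (ε * S.q K.z x) ^ (-(n : ℝ) / 2) :=
        Real.one_le_rpow_of_pos_of_le_one_of_nonpos (by positivity) hQ
          (div_nonpos_of_nonpos_of_nonneg (by simp) (by norm_num))
      rw [Real.mul_rpow hε0.le hq.le] at e1
      have e2 : (S.rho x)⁻¹ ≤ ε ^ (-(n : ℝ) / 2) * S.mu K.z x := by
        rw [Sol.mu, ← mul_assoc]
        exact le_mul_of_one_le_left (by positivity) e1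
      have : 0 < ε * S.tp x 0 := by positivity
      linarith
    · have e2 : (S.rho x)⁻¹ ≤ ε * S.tp x 0 := by
        rw [inv_le_iff_one_le_mul₀ hρ]
        rw [Sol.q, h.z_eq] at hQ
        nlinarith
      have : 0 < ε ^ (-(n : ℝ) / 2) * S.mu K.z x := by positivity
      linarith
  simp only [Pi.add_apply] at h3
  rw [integral_add i1 i2, integral_const_mul, integral_const_mul] at h3
  have h4 : ε * ∫ x in S.lev (5 / 8), S.tp x 0 ≤ a / 2 := by
    refine (mul_le_mul_of_nonneg_left ((h₁ S K h).trans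
      (show A ≤ |A| + 1 by linarith [le_abs_self A])) hε0.le).trans (le_of_eq ?_)
    rw [hε]
    field_simp
  rw [div_le_iff₀ hM]
  linarith [h₂ S K h]

end Crest.Agent.R236
end
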