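import Crest.Agent.R236.Basic

/-!
# An `L¹` Poincaré inequality on convex sets (measure form)

Recipe: for `x ∈ A₁`, `y ∈ A₀`, FTC along the segment gives `m ≤ g x - g y ≤ 2 ∫₀¹ N((1-t)x + t y) dt` with
`N = Σᵢ |∂ᵢ g|` (as `|xᵢ - yᵢ| ≤ 2`).  Work with `lintegral`s of `ENNReal.ofReal (indicator K N)`;
Tonelli over `(x,y,t) ∈ K × K × [0,1]`; for `t ≤ 1/2` substitute in `x` (`x ↦ (1-t)x + ty`, Jacobian
`(1-t)ⁿ ≥ 2⁻ⁿ`; `lintegral_add_right_eq_self`, `Measure.lintegral_comp_smul`/`addHaar_smul`), for `t ≥ 1/2` in `y`.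
-/

set_option autoImplicit false
open scoped ContDiff Topology
open Crest.GeometryTopology.CoordMetric Crest.GeometryTopology.AffineMaximal
open MeasureTheory Set

noncomputable section
namespace Crest.Agent.R236

variable {n : ℕ}

theorem poincare_apply_le (L : E n →L[ℝ] ℝ) (v : E n) (hv : ∀ i, |v i| ≤ 2) :
    |L v| ≤ 2 * ∑ i, |L (ee i)| := by
  have h : v = ∑ i, v i • ee i := by
    ext j
    simp [ee, Pi.single_apply]
  conv_lhs => rw [h]
  rw [map_sum, Finset.mul_sum]
  refine (Finset.abs_sum_le_sum_abs _ _).trans (Finset.sum_le_sum fun i _ => ?_)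
  rw [map_smul, smul_eq_mul, abs_mul]
  exact mul_le_mul_of_nonneg_right (hv i) (abs_nonneg _)

theorem poincare_contN {U : Set (E n)} (hU : IsOpen U) {g : E n → ℝ} (hg : ContDiffOn ℝ 1 g U) :
    ContinuousOn (fun x => ∑ i, |fderiv ℝ g x (ee i)|) U :=
  continuousOn_finsetSum _ fun _ _ =>
    ((hg.continuousOn_fderiv_of_isOpen hU le_rfl).clm_apply continuousOn_const).abs

/-- fundamental theorem of calculus along a segment -/
theorem poincare_seg {U K : Set (E n)} (hU : IsOpen U) (hKc : Convex ℝ K) (hKU : K ⊆ U)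
    (hcube : ∀ x ∈ K, ∀ i, |x i| ≤ 1) {g : E n → ℝ} (hg : ContDiffOn ℝ 1 g U)
    {x y : E n} (hx : x ∈ K) (hy : y ∈ K) :
    ENNReal.ofReal (g x - g y) ≤ 2 * ∫⁻ t in Ioc (0 : ℝ) 1,
      K.indicator (fun z => ENNReal.ofReal (∑ i, |fderiv ℝ g z (ee i)|)) ((1 - t) • x + t • y) := by
  set p : ℝ → E n := fun t => (1 - t) • x + t • y with hp
  have hpK : ∀ t ∈ Icc (0 : ℝ) 1, p t ∈ K := fun t ht =>
    hKc hx hy (by linarith [ht.2]) ht.1 (by ring)
  have hpc : Continuous p := by fun_prop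
  have hpd : ∀ t, HasDerivAt p (y - x) t := fun t => by
    have h1 : HasDerivAt (fun t : ℝ => (1 - t) • x) ((-1 : ℝ) • x) t :=
      ((hasDerivAt_id t).const_sub 1).smul_const x
    have h2 : HasDerivAt (fun t : ℝ => t • y) ((1 : ℝ) • y) t := (hasDerivAt_id t).smul_const y
    have h3 : (-1 : ℝ) • x + (1 : ℝ) • y = y - x := by
      rw [neg_smul, one_smul, one_smul]; abel
    exact h3 ▸ h1.add h2
  have hd : ∀ t ∈ uIcc (0 : ℝ) 1, HasDerivAt (fun t => g (p t)) (fderiv ℝ g (p t) (y - x)) t := by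
    intro t ht
    rw [uIcc_of_le zero_le_one] at ht
    have h1 : DifferentiableAt ℝ g (p t) :=
      (hg.differentiableOn one_ne_zero).differentiableAt (hU.mem_nhds (hKU (hpK t ht)))
    exact h1.hasFDerivAt.comp_hasDerivAt t (hpd t)
  have hmaps : MapsTo p (Icc (0 : ℝ) 1) U := fun t ht => hKU (hpK t ht)
  have hc1 : ContinuousOn (fun t => fderiv ℝ g (p t) (y - x)) (Icc (0 : ℝ) 1) :=
    ((hg.continuousOn_fderiv_of_isOpen hU le_rfl).comp hpc.continuousOn hmaps).clm_apply
      continuousOn_const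
  have hc2 : ContinuousOn (fun t => ∑ i, |fderiv ℝ g (p t) (ee i)|) (Icc (0 : ℝ) 1) :=
    (poincare_contN hU hg).comp hpc.continuousOn hmaps
  have hi1 := hc1.intervalIntegrable_of_Icc (μ := volume) zero_le_one
  have hi2 := hc2.intervalIntegrable_of_Icc (μ := volume) zero_le_one
  have hftc := intervalIntegral.integral_eq_sub_of_hasDerivAt hd hi1
  have hp0 : p 0 = x := by simp [hp]
  have hp1 : p 1 = y := by simp [hp]
  rw [hp0, hp1] at hftc
  have hle : g x - g y ≤ 2 * ∫ t in (0 : ℝ)..1, ∑ i, |fderiv ℝ g (p t) (ee i)| := by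
    rw [← neg_sub, ← hftc, ← intervalIntegral.integral_neg, ← intervalIntegral.integral_const_mul]
    refine intervalIntegral.integral_mono_on zero_le_one hi1.neg (hi2.const_mul 2) fun t _ => ?_
    refine (neg_le_abs _).trans (poincare_apply_le _ _ fun i => ?_)
    have h1 := abs_le.1 (hcube x hx i)
    have h2 := abs_le.1 (hcube y hy i)
    rw [PiLp.sub_apply, abs_le]
    constructor <;> linarith [h1.1, h1.2, h2.1, h2.2]
  refine (ENNReal.ofReal_le_ofReal hle).trans (le_of_eq ?_)
  rw [ENNReal.ofReal_mul zero_le_two, ENNReal.ofReal_ofNat,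
    intervalIntegral.integral_of_le zero_le_one,
    ofReal_integral_eq_lintegral_ofReal hi2.1
      (Filter.Eventually.of_forall fun t => Finset.sum_nonneg fun i _ => abs_nonneg _)]
  congr 1
  refine setLIntegral_congr_fun measurableSet_Ioc fun t ht => ?_
  exact (indicator_of_mem (hpK t (Ioc_subset_Icc_self ht))
    (fun z => ENNReal.ofReal (∑ i, |fderiv ℝ g z (ee i)|))).symm

/-- change of variables in a homothety of ratio at least `1/2` -/
theorem poincare_scale {f : E n → ENNReal} (hf : Measurable f) (a : E n) {t : ℝ} (ht : 1 / 2 ≤ t) :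
    ∫⁻ y, f (a + t • y) ≤ 2 ^ n * ∫⁻ y, f y := by
  have ht0 : 0 < t := by linarith
  have h1 : ∫⁻ y, f (a + t • y) = ∫⁻ y, f (a + y) ∂(Measure.map (fun y : E n => t • y) volume) :=
    (lintegral_map (f := fun y => f (a + y)) (by fun_prop) (by fun_prop)).symm
  rw [h1, Measure.map_addHaar_smul volume ht0.ne', lintegral_smul_measure,
    lintegral_add_left_eq_self, smul_eq_mul, finrank_euclideanSpace_fin]
  refine mul_le_mul_left ?_ _
  rw [← ENNReal.ofReal_ofNat, ← ENNReal.ofReal_pow zero_le_two]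
  refine ENNReal.ofReal_le_ofReal ?_
  rw [abs_of_pos (by positivity), ← inv_pow]
  refine pow_le_pow_left₀ (by positivity) ?_ n
  rw [inv_le_comm₀ ht0 two_pos]
  linarith

theorem poincare_slice {f : E n → ENNReal} (hf : Measurable f) (K : Set (E n)) (t : ℝ) :
    ∫⁻ p : E n × E n, f ((1 - t) • p.1 + t • p.2) ∂((volume.restrict K).prod (volume.restrict K))
      ≤ 2 ^ n * (∫⁻ y, f y) * volume K := by
  have hm : Measurable fun p : E n × E n => f ((1 - t) • p.1 + t • p.2) := by fun_prop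
  rcases le_total (1 / 2) t with ht | ht
  · rw [lintegral_prod _ hm.aemeasurable, ← setLIntegral_const]
    exact lintegral_mono fun x =>
      (setLIntegral_le_lintegral _ _).trans (poincare_scale hf ((1 - t) • x) ht)
  · rw [lintegral_prod_symm _ hm.aemeasurable, ← setLIntegral_const]
    refine lintegral_mono fun y => (setLIntegral_le_lintegral _ _).trans ?_
    simp only [add_comm ((1 - t) • _)]
    exact poincare_scale hf (t • y) (by linarith)

theorem poincare {U K : Set (E n)} (hU : IsOpen U) (hK : IsCompact K) (hKc : Convex ℝ K) (hKU : K ⊆ U)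
    (hcube : ∀ x ∈ K, ∀ i, |x i| ≤ 1) {g : E n → ℝ} (hg : ContDiffOn ℝ 1 g U)
    {A₀ A₁ : Set (E n)} (hA₀ : MeasurableSet A₀) (hA₁ : MeasurableSet A₁) (h₀ : A₀ ⊆ K) (h₁ : A₁ ⊆ K)
    {m : ℝ} (hm : 0 ≤ m) (hgap : ∀ x ∈ A₁, ∀ y ∈ A₀, m ≤ g x - g y) :
    m * volume.real A₀ * volume.real A₁
      ≤ 2 ^ (n + 1) * volume.real K * ∫ x in K, ∑ i, |fderiv ℝ g x (ee i)| := by
  have hKm := hK.measurableSet
  set f : E n → ENNReal :=
    K.indicator (fun z => ENNReal.ofReal (∑ i, |fderiv ℝ g z (ee i)|)) with hf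
  have hfm : Measurable f := by
    refine Measurable.indicator (ENNReal.measurable_ofReal.comp ?_) hKm
    exact Finset.measurable_sum _ fun i _ => (measurable_fderiv_apply_const ℝ g (ee i)).abs
  have hint : IntegrableOn (fun x => ∑ i, |fderiv ℝ g x (ee i)|) K :=
    ((poincare_contN hU hg).mono hKU).integrableOn_compact hK
  have hI0 : 0 ≤ ∫ x in K, ∑ i, |fderiv ℝ g x (ee i)| :=
    integral_nonneg fun x => Finset.sum_nonneg fun i _ => abs_nonneg _
  have hI : ∫⁻ y, f y = ENNReal.ofReal (∫ x in K, ∑ i, |fderiv ℝ g x (ee i)|) := by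
    rw [hf, lintegral_indicator hKm, ofReal_integral_eq_lintegral_ofReal hint
      (Filter.Eventually.of_forall fun t => Finset.sum_nonneg fun i _ => abs_nonneg _)]
  set ν : Measure (E n) := volume.restrict K with hν
  have hF : Measurable fun q : (E n × E n) × ℝ => f ((1 - q.2) • q.1.1 + q.2 • q.1.2) := by
    fun_prop
  have key : ENNReal.ofReal m * (volume A₁ * volume A₀) ≤ 2 * (2 ^ n * (∫⁻ y, f y) * volume K) := by
    calc ENNReal.ofReal m * (volume A₁ * volume A₀)
        = ∫⁻ p, (A₁ ×ˢ A₀).indicator (fun _ => ENNReal.ofReal m) p ∂(ν.prod ν) := by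
          rw [lintegral_indicator (hA₁.prod hA₀), setLIntegral_const, Measure.prod_prod, hν,
            Measure.restrict_apply hA₁, Measure.restrict_apply hA₀, inter_eq_left.2 h₁,
            inter_eq_left.2 h₀]
      _ ≤ ∫⁻ p : E n × E n, 2 * ∫⁻ t in Ioc (0 : ℝ) 1, f ((1 - t) • p.1 + t • p.2)
            ∂volume ∂(ν.prod ν) := by
          refine lintegral_mono fun p => ?_
          by_cases hp : p ∈ A₁ ×ˢ A₀
          · rw [indicator_of_mem hp]
            exact (ENNReal.ofReal_le_ofReal (hgap _ hp.1 _ hp.2)).trans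
              (poincare_seg hU hKc hKU hcube hg (h₁ hp.1) (h₀ hp.2))
          · rw [indicator_of_notMem hp]
            exact zero_le
      _ = 2 * ∫⁻ t in Ioc (0 : ℝ) 1, ∫⁻ p : E n × E n, f ((1 - t) • p.1 + t • p.2)
            ∂(ν.prod ν) := by
          rw [lintegral_const_mul' _ _ (by norm_num),
            lintegral_lintegral_swap (f := fun (p : E n × E n) (t : ℝ) =>
              f ((1 - t) • p.1 + t • p.2)) hF.aemeasurable]
      _ ≤ 2 * ∫⁻ _ in Ioc (0 : ℝ) 1, 2 ^ n * (∫⁻ y, f y) * volume K :=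
          mul_le_mul_right (lintegral_mono fun t => poincare_slice hfm K t) _
      _ = _ := by simp
  have hfin : volume K ≠ ⊤ := hK.measure_lt_top.ne
  rw [hI] at key
  have := ENNReal.toReal_mono (by finiteness) key
  simp only [ENNReal.toReal_mul, ENNReal.toReal_ofReal hm, ENNReal.toReal_ofReal hI0,
    ENNReal.toReal_pow, ENNReal.toReal_ofNat] at this
  simp only [Measure.real]
  rw [pow_succ]
  linarith

end Crest.Agent.R236
end
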