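import Crest.Agent.R236.DetBounds
import Crest.Agent.R236.Poincare
import Crest.Agent.R236.Mass

/-!
# Weak Harnack inequality for supersolutions of `L0` and a Liouville theorem in density

`log_estimate`: `g = log v`, `L0 g ≤ -G0 g g` (`L0_log`); `χ = pc 2 (1 - u)`; `ibp0` with `(χ², g)`:
`∫ χ² G0 g g det ≤ 4 ∫ G0 χ χ det`; `G0 χ χ = 4 pc 1 (1-u)² G0 u u`; `ibp0` with `(pc 3 (1-u), u)` gives
`3∫ pc 2 (1-u) G0 u u det = n ∫ pc 3 (1-u) det ≤ n Λ 2ⁿ`.  `|∂ᵢ g| ≤ (G0 g g · Hᵢᵢ)^{1/2} ≤ (G0 g g det + Hᵢᵢ/λ)/2`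
(`apply_sq_le`); `∫ χ Hᵢᵢ = 2∫ pc 1 (1-u) (∂ᵢu)² ≤ C` (`integral_fderiv_eq_zero` for `χ ∂ᵢu`, `abs_du_le`).
`abp`: `ψ = v + 16 u`; for a slope `p` with `|pᵢ| ≤ 1/(2n)`, `ψ - ⟪p,·⟫` attains its minimum over `lev (1/2)` at a
point `y` with `u y < 1/2` (value at `x₁` is `≤ 5 + 1/2`, on `u = 1/2` it is `≥ 8 - 1/2`), so `∇ψ y = p`,
`D²ψ y ≥ 0`, `v y ≤ 6`, `det D²ψ ≤ Λ 16ⁿ` (`det_le_rel`, `L0 ψ ≤ 16 n`).  Apply
`addHaar_image_le_lintegral_abs_det_fderiv` to `gradient ψ` on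
`Γ = {y ∈ lev (1/2) | u y < 1/2, v y ≤ 6, |det D²ψ| ≤ Λ 16ⁿ}`; `volume_cube`.
`weak_harnack`: if `v x₁ < κ`, apply `abp` to `(v+κ)/(2κ)`: `vol{v ≤ 12κ} ≥ μ₁`; `poincare` for `log(v+κ)`
between `{v ≥ 1}` and `{v ≤ 12κ}` with `m = log(1/(13κ))`; `vol(lev 1/2) ∈ [c, 2ⁿ]` (`small_cube`).
`common_point`: normalise at a point `x₀` with height `h` so large that each `vᵢ` takes a value `< κ τ` in
`sec x₀ (h/4)`; `det_global` holds for the normalised solution; with `μ₀ = 1/(2|ι|+2)` each bad set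
`{vᵢ ≥ τ}` has measure `< μ₀ vol(lev 1/2)`, so they do not cover `lev (1/2)` (`tr_L0`).
-/

set_option autoImplicit false
open scoped ContDiff Topology
open Crest.GeometryTopology.CoordMetric Crest.GeometryTopology.AffineMaximal
open MeasureTheory Set

noncomputable section
namespace Crest.Agent.R236

variable {n : ℕ}

/-! ### auxiliary lemmas -/

lemma harn_lev_subset (S : Sol n) (r : ℝ) : S.lev r ⊆ S.Ω := fun _ hx => hx.1

lemma harn_lev_mono (S : Sol n) {r s : ℝ} (h : r ≤ s) : S.lev r ⊆ S.lev s :=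
  fun _ hx => ⟨hx.1, hx.2.trans h⟩

lemma harn_u_two (S : Sol n) : ContDiffOn ℝ 2 S.u S.Ω := contDiffOn_infty.1 S.smooth 2

lemma harn_pc_smooth (S : Sol n) (m : ℕ) :
    ContDiffOn ℝ 1 (fun y => pc (m + 2) (1 - S.u y)) S.Ω :=
  (contDiff_one_pc m).comp_contDiffOn (contDiffOn_const.sub (S.smooth.of_le (by simp)))

lemma harn_pc_zero (S : Sol n) (m : ℕ) :
    ∀ x ∈ S.Ω, x ∉ S.lev 1 → pc (m + 2) (1 - S.u x) = 0 := fun x hx hn =>
  pc_of_nonpos (by omega) (by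
    have : ¬ S.u x ≤ 1 := fun h => hn ⟨hx, h⟩
    linarith [not_le.1 this])

lemma harn_pc_deriv (S : Sol n) (m : ℕ) {x : E n} (hx : x ∈ S.lev 1) :
    HasFDerivAt (fun y => pc (m + 2) (1 - S.u y))
      ((((m : ℝ) + 2) * (1 - S.u x) ^ (m + 1)) • -fderiv ℝ S.u x) x := by
  have hu : HasFDerivAt S.u (fderiv ℝ S.u x) x :=
    ((S.u_at hx.1).differentiableAt (by simp)).hasFDerivAt
  have h := (hasDerivAt_pc m (1 - S.u x)).comp_hasFDerivAt x (hu.const_sub 1)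
  rw [pc_of_nonneg _ (sub_nonneg.2 hx.2)] at h
  exact h

lemma harn_vol_le {S : Sol n} {η : ℝ} (h : S.NormB η) : volume.real (S.lev 1) ≤ 2 ^ n := by
  have h1 : volume (S.lev 1) ≤ ENNReal.ofReal ((2 * 1) ^ n) := by
    rw [← volume_cube n 1 zero_le_one]
    exact measure_mono fun x hx => h.aue.cube x hx
  have h2 := ENNReal.toReal_mono ENNReal.ofReal_ne_top h1
  rwa [ENNReal.toReal_ofReal (by positivity), mul_one] at h2

lemma harn_quad_ee (A : Matrix (Fin n) (Fin n) ℝ) (k : Fin n) :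
    ∑ i, ∑ j, A i j * (ee k : E n) i * (ee k : E n) j = A k k := by
  simp [ee]

lemma harn_num1 {w L a b c d N Λ : ℝ} (hw0 : 0 ≤ w) (hw1 : w ≤ 1) (hd : 0 ≤ d) (hdΛ : d ≤ Λ)
    (hN : 0 ≤ N) (hL : L ≤ -a) (hq : 0 ≤ w ^ 2 * (w ^ 2 * a + 4 * w * b) + 4 * w * (w ^ 2 * b + 4 * w * c)) :
    w ^ 4 * a * d ≤ -2 * ((w ^ 4 * L + 4 * w ^ 3 * -b) * d)
      - 16 / 3 * ((w ^ 3 * N + 3 * w ^ 2 * -c) * d) + 16 / 3 * (N * Λ) := by
  have h1 := mul_nonneg hq hd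
  have h2 : 0 ≤ w ^ 4 * (-a - L) * d := mul_nonneg (mul_nonneg (by positivity) (by linarith)) hd
  have h3 : w ^ 3 * d ≤ Λ := (mul_le_of_le_one_left hd (pow_le_one₀ hw0 hw1)).trans hdΛ
  have h4 := mul_le_mul_of_nonneg_left h3 hN
  linarith

lemma harn_num2 {w t a d H lam : ℝ} (hw : 1 / 2 ≤ w) (ha : 0 ≤ a) (hH : 0 ≤ H) (hlam : 0 < lam)
    (hd : lam ≤ d) (ht : t ^ 2 ≤ a * H) : |t| ≤ 8 * (w ^ 4 * a * d) + 2 / lam * (w ^ 2 * H) := by
  have hd0 : 0 ≤ d := hlam.le.trans hd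
  have h1 : a * H ≤ (a * d) * (H / lam) := by
    rw [show a * d * (H / lam) = a * H * (d / lam) by ring]
    exact le_mul_of_one_le_right (mul_nonneg ha hH) ((one_le_div hlam).2 hd)
  have h2 : |t| ≤ (a * d + H / lam) / 2 := by
    refine abs_le_of_sq_le_sq' ?_ (by positivity) |> abs_le.2
    nlinarith [sq_nonneg (a * d - H / lam)]
  have h3 : (1 / 2 : ℝ) ^ 4 ≤ w ^ 4 := pow_le_pow_left₀ (by norm_num) hw 4
  have h4 : (1 / 2 : ℝ) ^ 2 ≤ w ^ 2 := pow_le_pow_left₀ (by norm_num) hw 2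
  have h5 := mul_le_mul_of_nonneg_right h3 (mul_nonneg ha hd0)
  have h6 := mul_le_mul_of_nonneg_right h4 (div_nonneg hH hlam.le)
  have e : 2 / lam * (w ^ 2 * H) = 2 * (w ^ 2 * (H / lam)) := by ring
  rw [e]
  linarith

theorem log_estimate (n : ℕ) (hn : 1 ≤ n) {η lam Λ : ℝ} (hη : 0 < η) (hlam : 0 < lam) :
    ∃ A, ∀ S : Sol n, S.NormB η → (∀ x ∈ S.Ω, lam ≤ (S.H x).det ∧ (S.H x).det ≤ Λ) →
      ∀ v : E n → ℝ, ContDiffOn ℝ 2 v S.Ω → (∀ x ∈ S.Ω, 0 < v x) → (∀ x ∈ S.Ω, S.L0 v x ≤ 0) →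
      ∫ x in S.lev (1 / 2), ∑ i, |fderiv ℝ (fun y => Real.log (v y)) x (ee i)| ≤ A := by
  obtain ⟨C, hC⟩ : ∃ C : ℝ, C = 8 * n * (16 / 3 * (n * Λ)) + 2 / lam * (n * (2 * (2 / η) ^ 2)) :=
    ⟨_, rfl⟩
  refine ⟨2 ^ n * |C|, fun S hS hdet v hv hv0 hL => ?_⟩
  obtain ⟨f, hf⟩ : ∃ f : E n → ℝ, f = fun y => Real.log (v y) := ⟨_, rfl⟩
  rw [← hf]
  have hK := hS.isCompact_lev 1
  have hKΩ := harn_lev_subset S 1
  have hfs : ContDiffOn ℝ 2 f S.Ω := hf ▸ hv.log fun x hx => (hv0 x hx).ne'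
  have hus : ContDiffOn ℝ 2 S.u S.Ω := harn_u_two S
  have hF : ∀ i, ContDiffOn ℝ 1
      (fun y => pc (0 + 2) (1 - S.u y) * fderiv ℝ S.u y (ee i)) S.Ω := fun i =>
    (harn_pc_smooth S 0).mul ((contDiffOn_fderiv_apply S.isOpen S.smooth _).of_le (by simp))
  have i1 := S.ibp0 S.isOpen subset_rfl hK hKΩ hfs (harn_pc_smooth S 2) (harn_pc_zero S 2)
  have i2 := S.ibp0 S.isOpen subset_rfl hK hKΩ hus (harn_pc_smooth S 1) (harn_pc_zero S 1)
  have i3 := fun i => integral_fderiv_eq_zero S.isOpen hK hKΩ (hF i)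
    (fun x hx hn => by rw [harn_pc_zero S 0 x hx hn, zero_mul]) (ee i)
  have cI : ∀ (m : ℕ) (g : E n → ℝ), ContDiffOn ℝ 2 g S.Ω → IntegrableOn (fun x =>
      (pc (m + 2) (1 - S.u x) * S.L0 g x + S.G0 (fun y => pc (m + 2) (1 - S.u y)) g x) *
        (S.H x).det) (S.lev 1) := fun m g hg =>
    (((((harn_pc_smooth S m).continuousOn.mul (S.continuousOn_L0 S.isOpen subset_rfl hg)).add
      (S.continuousOn_G0 S.isOpen subset_rfl (harn_pc_smooth S m) (hg.of_le (by norm_num)))).mul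
      S.contDiffOn_det.continuousOn).mono hKΩ).integrableOn_compact hK
  have cJ : ∀ i, IntegrableOn (fun x => fderiv ℝ
      (fun y => pc (0 + 2) (1 - S.u y) * fderiv ℝ S.u y (ee i)) x (ee i)) (S.lev 1) := fun i =>
    ((((hF i).continuousOn_fderiv_of_isOpen S.isOpen le_rfl).clm_apply
      continuousOn_const).mono hKΩ).integrableOn_compact hK
  obtain ⟨I1, hI1⟩ : ∃ I1 : E n → ℝ, I1 = fun x => (pc (2 + 2) (1 - S.u x) * S.L0 f x +
    S.G0 (fun y => pc (2 + 2) (1 - S.u y)) f x) * (S.H x).det := ⟨_, rfl⟩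
  obtain ⟨I2, hI2⟩ : ∃ I2 : E n → ℝ, I2 = fun x => (pc (1 + 2) (1 - S.u x) * S.L0 S.u x +
    S.G0 (fun y => pc (1 + 2) (1 - S.u y)) S.u x) * (S.H x).det := ⟨_, rfl⟩
  obtain ⟨I3, hI3⟩ : ∃ I3 : Fin n → E n → ℝ, I3 = fun i x => fderiv ℝ
    (fun y => pc (0 + 2) (1 - S.u y) * fderiv ℝ S.u y (ee i)) x (ee i) := ⟨_, rfl⟩
  have c1 : IntegrableOn I1 (S.lev 1) := hI1 ▸ cI 2 f hfs
  have c2 : IntegrableOn I2 (S.lev 1) := hI2 ▸ cI 1 S.u hus
  have c3 : ∀ i, IntegrableOn (I3 i) (S.lev 1) := fun i => hI3 ▸ cJ i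
  have j1 : ∫ x in S.lev 1, I1 x = 0 := hI1 ▸ i1
  have j2 : ∫ x in S.lev 1, I2 x = 0 := hI2 ▸ i2
  have j3 : ∀ i, ∫ x in S.lev 1, I3 i x = 0 := fun i => hI3 ▸ i3 i
  have c4 : IntegrableOn (fun x => ∑ i, I3 i x) (S.lev 1) :=
    integrable_finsetSum _ fun i _ => c3 i
  have c5 : IntegrableOn (fun _ : E n => C) (S.lev 1) := integrableOn_const hK.measure_lt_top.ne
  have c6 : IntegrableOn (fun x => -(16 * n) * I1 x + -(128 / 3 * n) * I2 x) (S.lev 1) :=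
    (c1.const_mul _).add (c2.const_mul _)
  have c7 : IntegrableOn (fun x => -(16 * n) * I1 x + -(128 / 3 * n) * I2 x +
      2 / lam * ∑ i, I3 i x) (S.lev 1) := c6.add (c4.const_mul _)
  have c8 : IntegrableOn (fun x => -(16 * n) * I1 x + -(128 / 3 * n) * I2 x +
      2 / lam * ∑ i, I3 i x + C) (S.lev 1) := c7.add c5
  have hint : ∫ x in S.lev 1, (-(16 * n) * I1 x + -(128 / 3 * n) * I2 x +
      2 / lam * ∑ i, I3 i x + C) = volume.real (S.lev 1) * C := by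
    rw [integral_add c7 c5, integral_add c6 (c4.const_mul _),
      integral_add (c1.const_mul _) (c2.const_mul _), integral_const_mul, integral_const_mul,
      integral_const_mul, integral_finsetSum _ fun i _ => c3 i, j1, j2]
    simp [j3]
  have hpt : ∀ x ∈ S.lev 1, ∑ i, (8 * ((1 - S.u x) ^ 4 * S.G0 f f x * (S.H x).det) +
      2 / lam * ((1 - S.u x) ^ 2 * S.H x i i)) ≤
      -(16 * n) * I1 x + -(128 / 3 * n) * I2 x + 2 / lam * ∑ i, I3 i x + C := by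
    intro x hx
    have hw0 : 0 ≤ 1 - S.u x := sub_nonneg.2 hx.2
    have hw1 : 1 - S.u x ≤ 1 := by linarith [hS.u_nonneg hx.1]
    have hva : ContDiffAt ℝ 2 v x := hv.contDiffAt (S.isOpen.mem_nhds hx.1)
    have hLf : S.L0 f x ≤ -S.G0 f f x := by
      have h1 : fderiv ℝ f x = (v x)⁻¹ • fderiv ℝ v x := by
        rw [hf]
        exact ((hva.differentiableAt (by norm_num)).hasFDerivAt.log (hv0 x hx.1).ne').fderiv
      have h2 : S.G0 f f x = S.G0 v v x / v x ^ 2 := by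
        simp only [Sol.G0, h1, Sol.B_smul_left, Sol.B_smul_right]
        ring
      have h3 := div_nonpos_of_nonpos_of_nonneg (hL x hx.1) (hv0 x hx.1).le
      rw [h2, hf, S.L0_log hva (hv0 x hx.1)]
      linarith
    have e1 : I1 x = ((1 - S.u x) ^ 4 * S.L0 f x + 4 * (1 - S.u x) ^ 3 * -S.G0 S.u f x) *
        (S.H x).det := by
      simp only [hI1, Sol.G0, (harn_pc_deriv S 2 hx).fderiv, Sol.B_smul_left, Sol.B_neg_left,
        pc_of_nonneg _ hw0]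
      norm_num
    have e2 : I2 x = ((1 - S.u x) ^ 3 * n + 3 * (1 - S.u x) ^ 2 * -S.G0 S.u S.u x) *
        (S.H x).det := by
      simp only [hI2, Sol.G0, (harn_pc_deriv S 1 hx).fderiv, Sol.B_smul_left, Sol.B_neg_left,
        pc_of_nonneg _ hw0, S.L0_u hx.1]
      norm_num
    have e3 : ∀ i, (1 - S.u x) ^ 2 * S.H x i i ≤ I3 i x + 2 * (2 / η) ^ 2 := fun i => by
      have h1 : DifferentiableAt ℝ (fun y => fderiv ℝ S.u y (ee i)) x :=
        ((contDiffOn_fderiv_apply S.isOpen S.smooth _).contDiffAt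
          (S.isOpen.mem_nhds hx.1)).differentiableAt (by simp)
      have h2 := ((harn_pc_deriv S 0 hx).mul h1.hasFDerivAt).fderiv
      have h3 : I3 i x = (1 - S.u x) ^ 2 * S.H x i i -
          2 * ((1 - S.u x) * fderiv ℝ S.u x (ee i) ^ 2) := by
        have h4 : S.H x i i = fderiv ℝ (fun y => fderiv ℝ S.u y (ee i)) x (ee i) := rfl
        rw [hI3, h4]
        refine (congrArg (fun L : E n →L[ℝ] ℝ => L (ee i)) h2).trans ?_
        simp only [add_apply, smul_apply, neg_apply, smul_eq_mul, pc_of_nonneg _ hw0]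
        push_cast
        ring
      have h5 : fderiv ℝ S.u x (ee i) ^ 2 ≤ (2 / η) ^ 2 :=
        sq_le_sq' (abs_le.1 (hS.abs_du_le hη hx i)).1 (abs_le.1 (hS.abs_du_le hη hx i)).2
      have h6 := (mul_le_of_le_one_left (sq_nonneg _) hw1).trans h5
      linarith
    have hq := S.B_nonneg ((1 - S.u x) ^ 2 • fderiv ℝ f x + (4 * (1 - S.u x)) • fderiv ℝ S.u x) hx.1
    simp only [Sol.B_add_left, Sol.B_add_right, Sol.B_smul_left, Sol.B_smul_right] at hq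
    rw [S.B_comm (fderiv ℝ f x) (fderiv ℝ S.u x) hx.1] at hq
    have h7 := harn_num1 (a := S.G0 f f x) (b := S.G0 S.u f x) (c := S.G0 S.u S.u x) hw0 hw1
      (S.det_pos hx.1).le (hdet x hx.1).2 (Nat.cast_nonneg n) hLf (by
        simp only [Sol.G0]
        linarith)
    rw [← e1, ← e2] at h7
    have h8 := mul_le_mul_of_nonneg_left h7 (show (0 : ℝ) ≤ 8 * n by positivity)
    have h9 := Finset.sum_le_sum fun i (_ : i ∈ Finset.univ) => e3 i
    rw [Finset.sum_add_distrib, Finset.sum_const, Finset.card_univ, Fintype.card_fin,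
      nsmul_eq_mul] at h9
    have h10 := mul_le_mul_of_nonneg_left h9 (show (0 : ℝ) ≤ 2 / lam by positivity)
    rw [Finset.sum_add_distrib, Finset.sum_const, Finset.card_univ, Fintype.card_fin,
      nsmul_eq_mul, ← Finset.mul_sum, hC]
    linarith
  have hG : ∀ x ∈ S.Ω, 0 ≤ S.G0 f f x := fun x hx => S.B_nonneg _ hx
  have hH : ∀ x ∈ S.Ω, ∀ i, 0 ≤ S.H x i i := fun x hx i => (S.H_posDef hx).posSemidef.diag_nonneg
  have hsub := harn_lev_mono S (show (1 / 2 : ℝ) ≤ 1 by norm_num)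
  calc _ ≤ ∫ x in S.lev (1 / 2), (-(16 * n) * I1 x + -(128 / 3 * n) * I2 x +
        2 / lam * ∑ i, I3 i x + C) := by
        refine integral_mono_of_nonneg (Filter.Eventually.of_forall fun x =>
          Finset.sum_nonneg fun i _ => abs_nonneg _) (c8.mono_set hsub) ?_
        refine (ae_restrict_iff' (hS.isCompact_lev _).measurableSet).2
          (Filter.Eventually.of_forall fun x hx => le_trans ?_ (hpt x (hsub hx)))
        refine Finset.sum_le_sum fun i _ => harn_num2 (by linarith [hx.2]) (hG x hx.1)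
          (hH x hx.1 i) hlam (hdet x hx.1).1 ?_
        have := S.apply_sq_le (fderiv ℝ f x) hx.1 (ee i)
        rwa [harn_quad_ee] at this
    _ ≤ ∫ x in S.lev 1, (-(16 * n) * I1 x + -(128 / 3 * n) * I2 x +
        2 / lam * ∑ i, I3 i x + C) := by
        refine setIntegral_mono_set c8 ?_ hsub.eventuallyLE
        refine (ae_restrict_iff' hK.measurableSet).2
          (Filter.Eventually.of_forall fun x hx => le_trans ?_ (hpt x hx))
        refine Finset.sum_nonneg fun i _ => ?_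
        have := hG x hx.1
        have := hH x hx.1 i
        have := (S.det_pos hx.1).le
        positivity
    _ ≤ _ := by
        rw [hint]
        exact (mul_le_mul_of_nonneg_left (le_abs_self C) measureReal_nonneg).trans
          (mul_le_mul_of_nonneg_right (harn_vol_le hS) (abs_nonneg _))

/-- the gradient map -/
def harnGrad (f : E n → ℝ) (y : E n) : E n := WithLp.toLp 2 fun i => fderiv ℝ f y (ee i)

lemma harn_grad_diff {f : E n → ℝ} {y : E n} (hf : ContDiffAt ℝ 2 f y) :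
    DifferentiableAt ℝ (harnGrad f) y ∧ (fderiv ℝ (harnGrad f) y).det = (hessianMat f y).det := by
  have h1 : ∀ i, DifferentiableAt ℝ (fun z => fderiv ℝ f z (ee i)) y := fun i =>
    ((hf.fderiv_right (m := 1) (by norm_num)).differentiableAt (by norm_num)).clm_apply
      (differentiableAt_const _)
  have h2 : DifferentiableAt ℝ (harnGrad f) y := differentiableAt_euclidean.2 h1
  refine ⟨h2, ?_⟩
  rw [← det_mat, ← Matrix.det_transpose]
  congr 1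
  ext i j
  have h3 := ((EuclideanSpace.proj j : E n →L[ℝ] ℝ).hasFDerivAt.comp y h2.hasFDerivAt).fderiv
  exact (congrArg (fun L : E n →L[ℝ] ℝ => L (ee i)) h3).symm

lemma harn_isClosed {S : Sol n} {η : ℝ} (hS : S.NormB η) (r : ℝ) {g : E n → ℝ}
    (hg : ContinuousOn g S.Ω) {t : Set ℝ} (ht : IsClosed t) : IsClosed (S.lev r ∩ g ⁻¹' t) :=
  (hg.mono (harn_lev_subset S r)).preimage_isClosed_of_isClosed (hS.isCompact_lev r).isClosed ht

lemma harn_touch (hn : 1 ≤ n) {η Λ : ℝ} {S : Sol n} (hS : S.NormB η)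
    (hdet : ∀ x ∈ S.Ω, (S.H x).det ≤ Λ) {v : E n → ℝ} (hv : ContDiffOn ℝ 2 v S.Ω)
    (hv0 : ∀ x ∈ S.Ω, 0 ≤ v x) (hL : ∀ x ∈ S.Ω, S.L0 v x ≤ 0) {x₁ : E n} (hx₁ : x₁ ∈ S.lev (1 / 4))
    (hvx : v x₁ ≤ 1) {p : E n} (hp : ∀ i, |p i| ≤ 1 / (2 * n)) :
    ∃ y ∈ S.lev (1 / 2), v y ≤ 6 ∧ |(hessianMat (fun z => v z + 16 * S.u z) y).det| ≤ Λ * 16 ^ n ∧
      harnGrad (fun z => v z + 16 * S.u z) y = p := by
  have hn' : (0 : ℝ) < n := by exact_mod_cast hn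
  obtain ⟨ℓ, hℓ⟩ : ∃ ℓ : E n →L[ℝ] ℝ, ℓ = innerSL ℝ p := ⟨_, rfl⟩
  have hℓe : ∀ i, ℓ (ee i) = p i := fun i => by simp [hℓ, ee, EuclideanSpace.inner_single_right]
  have hℓb : ∀ x ∈ S.lev 1, |ℓ x| ≤ 1 / 2 := fun x hx => by
    have h1 : ℓ x = ∑ i, x i * p i := by simp [hℓ, PiLp.inner_apply]
    rw [h1]
    refine (Finset.abs_sum_le_sum_abs _ _).trans ((Finset.sum_le_sum (g := fun _ => 1 / (2 * (n : ℝ)))
      fun i _ => ?_).trans (le_of_eq ?_))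
    · rw [abs_mul]
      exact (mul_le_of_le_one_left (abs_nonneg _) (hS.aue.cube x hx i)).trans (hp i)
    · rw [Finset.sum_const, Finset.card_univ, Fintype.card_fin, nsmul_eq_mul]
      field_simp
  have hus : ContDiffOn ℝ 2 S.u S.Ω := harn_u_two S
  have hψ : ContDiffOn ℝ 2 (fun z => v z + 16 * S.u z) S.Ω := hv.add (contDiffOn_const.mul hus)
  have hφ : ContDiffOn ℝ 2 (fun z => -1 * (v z + 16 * S.u z) + ℓ z) S.Ω :=
    (contDiffOn_const.mul hψ).add ℓ.contDiff.contDiffOn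
  have h14 := harn_lev_mono S (show (1 / 4 : ℝ) ≤ 1 / 2 by norm_num) hx₁
  have hsub := harn_lev_mono S (show (1 / 2 : ℝ) ≤ 1 by norm_num)
  obtain ⟨y, hy, hmax⟩ := (hS.isCompact_lev (1 / 2)).exists_isMaxOn ⟨x₁, h14⟩
    (hφ.continuousOn.mono (harn_lev_subset S _))
  have h1 : -1 * (v x₁ + 16 * S.u x₁) + ℓ x₁ ≤ -1 * (v y + 16 * S.u y) + ℓ y := hmax h14
  have h2 := abs_le.1 (hℓb x₁ (hsub h14))
  have h3 := abs_le.1 (hℓb y (hsub hy))
  have h4 := hS.u_nonneg hy.1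
  have h5 := hv0 y hy.1
  have h6 := hx₁.2
  have hΩ := S.isOpen.mem_nhds hy.1
  have hnh : S.lev (1 / 2) ∈ 𝓝 y := by
    have h7 : ∀ᶠ z in 𝓝 y, S.u z < 1 / 2 :=
      (S.u_at hy.1).continuousAt.eventually (gt_mem_nhds (by linarith))
    filter_upwards [hΩ, h7] with z hz1 hz2 using ⟨hz1, hz2.le⟩
  have hloc := hmax.isLocalMax hnh
  have hψy := hψ.contDiffAt hΩ
  have hφy := hφ.contDiffAt hΩ
  have hhess : hessianMat (fun z => -1 * (v z + 16 * S.u z) + ℓ z) y =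
      -hessianMat (fun z => v z + 16 * S.u z) y := by
    rw [hess_add (contDiffAt_const.mul hψy) ℓ.contDiff.contDiffAt, hess_const_mul _ hψy, hess_clm]
    simp
  have hpsd : (hessianMat (fun z => v z + 16 * S.u z) y).PosSemidef :=
    posSemidef_of_quad (hess_symm hψy) fun w => by
      have h7 := hess_nonpos_of_isLocalMax hφy hloc (WithLp.toLp 2 w)
      rw [hhess] at h7
      simp only [Matrix.neg_apply, neg_mul, Finset.sum_neg_distrib] at h7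
      linarith
  have hL0 : 0 ≤ S.L0 (fun z => v z + 16 * S.u z) y := by
    have h7 := S.L0_nonpos_of_isLocalMax hy.1 hφy hloc
    simp only [Sol.L0, hhess, Matrix.neg_apply, mul_neg, Finset.sum_neg_distrib] at h7 ⊢
    linarith
  have hL1 : S.L0 (fun z => v z + 16 * S.u z) y ≤ 16 * n := by
    rw [S.L0_add (hv.contDiffAt hΩ) (contDiffAt_const.mul (hus.contDiffAt hΩ)),
      S.L0_const_mul _ (hus.contDiffAt hΩ), S.L0_u hy.1]
    linarith [hL y hy.1]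
  refine ⟨y, hy, by linarith, ?_, ?_⟩
  · rw [abs_of_nonneg hpsd.det_nonneg]
    refine (det_le_rel (S.H_posDef hy.1) hpsd).trans (mul_le_mul (hdet y hy.1) ?_
      (pow_nonneg (div_nonneg hL0 hn'.le) _) ((S.det_pos hy.1).le.trans (hdet y hy.1)))
    exact pow_le_pow_left₀ (div_nonneg hL0 hn'.le) ((div_le_iff₀ hn').2 hL1) n
  · have h7 := hloc.hasFDerivAt_eq_zero
      (((hψy.differentiableAt (by norm_num)).hasFDerivAt.const_mul (-1)).add ℓ.hasFDerivAt)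
    ext i
    have h8 := congrArg (fun L : E n →L[ℝ] ℝ => L (ee i)) h7
    simp only [add_apply, smul_apply, smul_eq_mul, zero_apply, hℓe] at h8
    change fderiv ℝ (fun z => v z + 16 * S.u z) y (ee i) = p i
    linarith

theorem abp (n : ℕ) (hn : 1 ≤ n) {η Λ : ℝ} (hΛ : 0 < Λ) :
    ∃ μ₁ > (0 : ℝ), ∀ S : Sol n, S.NormB η → (∀ x ∈ S.Ω, (S.H x).det ≤ Λ) →
      ∀ v : E n → ℝ, ContDiffOn ℝ 2 v S.Ω → (∀ x ∈ S.Ω, 0 ≤ v x) → (∀ x ∈ S.Ω, S.L0 v x ≤ 0) →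
      (∃ x₁ ∈ S.lev (1 / 4), v x₁ ≤ 1) →
      μ₁ ≤ volume.real {x | x ∈ S.lev (1 / 2) ∧ v x ≤ 6} := by
  have hn' : (0 : ℝ) < n := by exact_mod_cast hn
  refine ⟨(2 * (1 / (2 * n))) ^ n / (Λ * 16 ^ n), by positivity,
    fun S hS hdet v hv hv0 hL ⟨x₁, hx₁, hvx⟩ => ?_⟩
  have hψ : ContDiffOn ℝ 2 (fun z => v z + 16 * S.u z) S.Ω :=
    hv.add (contDiffOn_const.mul (harn_u_two S))
  have hcd : ContinuousOn (fun y => |(hessianMat (fun z => v z + 16 * S.u z) y).det|) S.Ω := by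
    refine ContinuousOn.abs ?_
    refine (continuous_id.matrix_det).comp_continuousOn (f := hessianMat _) ?_
    exact continuousOn_pi.2 fun i => continuousOn_pi.2 fun j => continuousOn_hess S.isOpen hψ i j
  obtain ⟨Γ, hΓ⟩ : ∃ Γ : Set (E n), Γ = (S.lev (1 / 2) ∩ v ⁻¹' Iic 6) ∩ (S.lev (1 / 2) ∩
    (fun y => |(hessianMat (fun z => v z + 16 * S.u z) y).det|) ⁻¹' Iic (Λ * 16 ^ n)) := ⟨_, rfl⟩
  have hΓm : MeasurableSet Γ := hΓ ▸ ((harn_isClosed hS _ hv.continuousOn isClosed_Iic).inter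
    (harn_isClosed hS _ hcd isClosed_Iic)).measurableSet
  have hΓ' : ∀ y ∈ Γ, y ∈ S.lev (1 / 2) ∧ v y ≤ 6 ∧
      |(hessianMat (fun z => v z + 16 * S.u z) y).det| ≤ Λ * 16 ^ n := fun y hy => by
    rw [hΓ] at hy
    exact ⟨hy.1.1, hy.1.2, hy.2.2⟩
  have hd := fun y (hy : y ∈ Γ) =>
    harn_grad_diff (hψ.contDiffAt (S.isOpen.mem_nhds (hΓ' y hy).1.1))
  have h1 := addHaar_image_le_lintegral_abs_det_fderiv volume hΓm
    fun y hy => (hd y hy).1.hasFDerivAt.hasFDerivWithinAt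
  have h2 : ∫⁻ y in Γ, ENNReal.ofReal |(fderiv ℝ (harnGrad fun z => v z + 16 * S.u z) y).det| ≤
      ENNReal.ofReal (Λ * 16 ^ n) * volume {x | x ∈ S.lev (1 / 2) ∧ v x ≤ 6} := by
    refine (setLIntegral_mono' (g := fun _ => ENNReal.ofReal (Λ * 16 ^ n)) hΓm fun y hy => ?_).trans ?_
    · rw [(hd y hy).2]
      exact ENNReal.ofReal_le_ofReal (hΓ' y hy).2.2
    · rw [setLIntegral_const]
      gcongr
      exact fun y hy => ⟨(hΓ' y hy).1, (hΓ' y hy).2.1⟩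
  have h3 : volume {p : E n | ∀ i, |p i| ≤ 1 / (2 * n)} ≤
      volume ((harnGrad fun z => v z + 16 * S.u z) '' Γ) := by
    refine measure_mono fun p hp => ?_
    obtain ⟨y, a1, a2, a3, a4⟩ := harn_touch hn hS hdet hv hv0 hL hx₁ hvx hp
    exact ⟨y, hΓ ▸ ⟨⟨a1, a2⟩, a1, a3⟩, a4⟩
  rw [volume_cube n _ (by positivity)] at h3
  have hfin : volume {x | x ∈ S.lev (1 / 2) ∧ v x ≤ 6} ≠ ⊤ :=
    ((measure_mono fun x hx => hx.1).trans_lt (hS.isCompact_lev (1 / 2)).measure_lt_top).ne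
  have h4 := ENNReal.toReal_mono (ENNReal.mul_ne_top ENNReal.ofReal_ne_top hfin)
    (h3.trans (h1.trans h2))
  rw [ENNReal.toReal_ofReal (by positivity), ENNReal.toReal_mul,
    ENNReal.toReal_ofReal (by positivity)] at h4
  rw [div_le_iff₀' (by positivity)]
  exact h4

theorem weak_harnack (n : ℕ) (hn : 1 ≤ n) {η lam Λ μ₀ : ℝ} (hη : 0 < η) (hlam : 0 < lam)
    (hΛ : 0 < Λ) (hμ₀ : 0 < μ₀) :
    ∃ κ > (0 : ℝ), ∀ S : Sol n, S.NormB η → (∀ x ∈ S.Ω, lam ≤ (S.H x).det ∧ (S.H x).det ≤ Λ) →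
      ∀ v : E n → ℝ, ContDiffOn ℝ 2 v S.Ω → (∀ x ∈ S.Ω, 0 ≤ v x) → (∀ x ∈ S.Ω, S.L0 v x ≤ 0) →
      μ₀ * volume.real (S.lev (1 / 2)) ≤ volume.real {x | x ∈ S.lev (1 / 2) ∧ 1 ≤ v x} →
      ∀ x ∈ S.lev (1 / 4), κ ≤ v x := by
  obtain ⟨A, hA⟩ := log_estimate n hn (Λ := Λ) hη hlam
  obtain ⟨μ₁, hμ₁, habp⟩ := abp n hn (η := η) hΛ
  obtain ⟨m, hm⟩ : ∃ m : ℝ, m = 2 ^ (n + 1) * |A| / (μ₁ * μ₀) + 1 := ⟨_, rfl⟩
  have hm0 : 0 ≤ m := by rw [hm]; positivity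
  obtain ⟨κ, hκ⟩ : ∃ κ : ℝ, κ = Real.exp (-m) / 7 := ⟨_, rfl⟩
  have hκ0 : 0 < κ := by rw [hκ]; positivity
  refine ⟨κ, hκ0, fun S hS hdet v hv hv0 hL hmass x₁ hx₁ => ?_⟩
  by_contra hlt
  rw [not_le] at hlt
  have h1 := habp S hS (fun x hx => (hdet x hx).2) (fun x => κ⁻¹ * v x) (contDiffOn_const.mul hv)
    (fun x hx => mul_nonneg (inv_pos.2 hκ0).le (hv0 x hx))
    (fun x hx => by
      rw [S.L0_const_mul _ (hv.contDiffAt (S.isOpen.mem_nhds hx))]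
      exact mul_nonpos_of_nonneg_of_nonpos (inv_pos.2 hκ0).le (hL x hx))
    ⟨x₁, hx₁, by rw [inv_mul_le_iff₀ hκ0, mul_one]; exact hlt.le⟩
  have hw : ContDiffOn ℝ 2 (fun x => v x + κ) S.Ω := hv.add contDiffOn_const
  have hw0 : ∀ x ∈ S.Ω, 0 < v x + κ := fun x hx => by linarith [hv0 x hx]
  have h2 := hA S hS hdet (fun x => v x + κ) hw hw0 fun x hx => by
    rw [S.L0_add (hv.contDiffAt (S.isOpen.mem_nhds hx)) contDiffAt_const, S.L0_const, add_zero]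
    exact hL x hx
  have hsub := harn_lev_mono S (show (1 / 2 : ℝ) ≤ 1 by norm_num)
  have h3 := poincare S.isOpen (hS.isCompact_lev (1 / 2)) (S.convex_lev _) (harn_lev_subset S _)
    (fun x hx => hS.aue.cube x (hsub hx)) (g := fun x => Real.log (v x + κ))
    ((hw.log fun x hx => (hw0 x hx).ne').of_le (by norm_num))
    (A₀ := {x | x ∈ S.lev (1 / 2) ∧ κ⁻¹ * v x ≤ 6}) (A₁ := {x | x ∈ S.lev (1 / 2) ∧ 1 ≤ v x})
    (harn_isClosed hS _ (continuousOn_const.mul hv.continuousOn) isClosed_Iic).measurableSet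
    (harn_isClosed hS _ hv.continuousOn isClosed_Ici).measurableSet
    (fun x hx => hx.1) (fun x hx => hx.1) hm0 (fun x hx y hy => by
      have a1 : 0 ≤ Real.log (v x + κ) := Real.log_nonneg (by linarith [hx.2])
      have a2 : v y ≤ κ * 6 := (inv_mul_le_iff₀ hκ0).1 hy.2
      have a3 : Real.log (v y + κ) ≤ -m := by
        rw [Real.log_le_iff_le_exp (hw0 y hy.1.1)]
        linarith
      linarith)
  have hV : μ₁ ≤ volume.real (S.lev (1 / 2)) := h1.trans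
    (measureReal_mono (fun x hx => hx.1) (hS.isCompact_lev (1 / 2)).measure_lt_top.ne)
  have hV0 := hμ₁.trans_le hV
  have h4 : m * μ₁ * (μ₀ * volume.real (S.lev (1 / 2))) ≤
      2 ^ (n + 1) * volume.real (S.lev (1 / 2)) * |A| :=
    (mul_le_mul (mul_le_mul_of_nonneg_left h1 hm0) hmass (by positivity)
      (mul_nonneg hm0 measureReal_nonneg)).trans
      (h3.trans (mul_le_mul_of_nonneg_left (h2.trans (le_abs_self A)) (by positivity)))
  have h5 : m * (μ₁ * μ₀) ≤ 2 ^ (n + 1) * |A| :=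
    le_of_mul_le_mul_right (by linarith) hV0
  rw [← le_div_iff₀ (by positivity)] at h5
  linarith

theorem Sol.common_point (S : Sol n) (hn : 1 ≤ n) {η : ℝ} (hη : 0 < η) (hη1 : η ≤ 1) (hsc : S.SC η)
    (hne : S.Ω.Nonempty) {ι : Type*} [Fintype ι] (v : ι → E n → ℝ)
    (hv : ∀ i, ContDiffOn ℝ 2 (v i) S.Ω) (h0 : ∀ i, ∀ x ∈ S.Ω, 0 ≤ v i x)
    (hL : ∀ i, ∀ x ∈ S.Ω, S.L0 (v i) x ≤ 0) (hinf : ∀ i, ∀ ε > (0 : ℝ), ∃ x ∈ S.Ω, v i x < ε)
    {τ : ℝ} (hτ : 0 < τ) : ∃ x ∈ S.Ω, ∀ i, v i x < τ := by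
  obtain ⟨x₀, hx₀⟩ := hne
  rcases isEmpty_or_nonempty ι with hι | hι
  · exact ⟨x₀, hx₀, fun i => hι.elim i⟩
  have hc : (0 : ℝ) < Fintype.card ι := by exact_mod_cast Fintype.card_pos
  obtain ⟨lam, hlam, Λ, hΛ, hdet⟩ := det_global n hn hη hη1
  obtain ⟨κ, hκ, hW⟩ := weak_harnack n hn hη hlam hΛ (inv_pos.2 hc)
  choose z hz hvz using fun i => hinf i (τ * κ) (mul_pos hτ hκ)
  have ht : ∀ i, 0 ≤ S.tp x₀ (S.X (z i)) := fun i => S.tp_nonneg hx₀ (S.X_mem (hz i))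
  have hs : 0 ≤ ∑ i, S.tp x₀ (S.X (z i)) := Finset.sum_nonneg fun i _ => ht i
  have hh : 0 < 4 * ∑ i, S.tp x₀ (S.X (z i)) + 1 := by linarith
  obtain ⟨T, β, γ, hN, hlev⟩ := S.exists_normB hsc hx₀ hh
  obtain ⟨S', hS'⟩ : ∃ S', S' = S.tr T x₀ (inv_pos.mpr hh) β γ := ⟨_, rfl⟩
  have hΩ : ∀ x, x ∈ S'.Ω ↔ aff T x₀ x ∈ S.Ω := fun x => by rw [hS']; rfl
  have haff : ContDiff ℝ 2 (aff T x₀) := contDiff_const.add T.contDiff
  have hL' : ∀ i, ∀ x ∈ S'.Ω, S'.L0 (fun y => v i (aff T x₀ y)) x ≤ 0 := fun i x hx => by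
    have hx' := (hΩ x).1 hx
    rw [hS', S.tr_L0 T x₀ _ β γ hx' ((hv i).contDiffAt (S.isOpen.mem_nhds hx')), inv_inv]
    exact mul_nonpos_of_nonneg_of_nonpos hh.le (hL i _ hx')
  rw [← hS'] at hN hlev
  have hv' : ∀ i, ContDiffOn ℝ 2 (fun y => v i (aff T x₀ y)) S'.Ω := fun i =>
    (hv i).comp haff.contDiffOn fun x hx => (hΩ x).1 hx
  have hbad : ∀ i, volume.real {x | x ∈ S'.lev (1 / 2) ∧ 1 ≤ τ⁻¹ * v i (aff T x₀ x)} <
      (Fintype.card ι : ℝ)⁻¹ * volume.real (S'.lev (1 / 2)) := fun i => by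
    by_contra hge
    have e : aff T x₀ (T.symm (z i - x₀)) = z i := by simp [aff]
    have h1 := hW S' hN (hdet S' hN) (fun x => τ⁻¹ * v i (aff T x₀ x))
      (contDiffOn_const.mul (hv' i))
      (fun x hx => mul_nonneg (inv_pos.2 hτ).le (h0 i _ ((hΩ x).1 hx)))
      (fun x hx => by
        rw [S'.L0_const_mul _ ((hv' i).contDiffAt (S'.isOpen.mem_nhds hx))]
        exact mul_nonpos_of_nonneg_of_nonpos (inv_pos.2 hτ).le (hL' i x hx))
      (not_lt.1 hge) (T.symm (z i - x₀)) (by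
        rw [hlev, mem_preimage, e]
        refine ⟨hz i, ?_⟩
        have := Finset.single_le_sum (fun j _ => ht j) (Finset.mem_univ i)
        linarith)
    rw [e, le_inv_mul_iff₀ hτ] at h1
    exact absurd (hvz i) (not_lt.2 h1)
  by_contra hno
  have hcov : S'.lev (1 / 2) =
      ⋃ i, {x | x ∈ S'.lev (1 / 2) ∧ 1 ≤ τ⁻¹ * v i (aff T x₀ x)} := by
    refine Subset.antisymm (fun x hx => ?_) (iUnion_subset fun i x hx => hx.1)
    by_contra hx'
    refine hno ⟨aff T x₀ x, (hΩ x).1 hx.1, fun i => ?_⟩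
    by_contra hi
    refine hx' (mem_iUnion.2 ⟨i, hx, ?_⟩)
    rw [le_inv_mul_iff₀ hτ, mul_one]
    exact not_lt.1 hi
  have h1 := measureReal_iUnion_fintype_le (μ := volume)
    (fun i => {x | x ∈ S'.lev (1 / 2) ∧ 1 ≤ τ⁻¹ * v i (aff T x₀ x)})
  rw [← hcov] at h1
  have h2 := Finset.sum_lt_sum_of_nonempty Finset.univ_nonempty fun i (_ : i ∈ Finset.univ) => hbad i
  rw [Finset.sum_const, Finset.card_univ, nsmul_eq_mul, ← mul_assoc, mul_inv_cancel₀ hc.ne',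
    one_mul] at h2
  exact absurd h1 (not_le.2 h2)

end Crest.Agent.R236
end
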