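import Crest.Agent.R236.Jacobi

/-!
# Integration by parts, and the identities of the Blaschke structure

`integral_div_eq_zero`: extend `W i` by zero (`Set.indicator K`): it is `C¹` on the whole space
(near points of `U` it equals `W i`, near points of `Kᶜ` it is `0`), has compact support, so
`integral_mul_fderiv_eq_neg_fderiv_mul_of_integrable` (with the constant `1` replaced by a bump, or
`integral_bilinear_hasLineDerivAt_right_eq_neg_left_of_integrable`) gives `∫ ∂ᵢ = 0`; its derivative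
vanishes off `K`.  `ibp0`: `W i = g · Σⱼ det H · Hi i j · ∂ⱼ f` and `div_cof`.  `ibp`: apply `ibp0` to
`g · rho^n` and use `det H = rho^{-(n+2)}`, `G0 (rho^n) f = n rho^n G0 lr f`.
Blaschke identities: `nb y v = v.2 - ∂_{v.1}u`, use `B_du`, `L0_du`, `L0_lr`, `rho = exp lr`.
`d(tp · z) = -H(z.1 - x, ·)`, `tp y z = z.2 - u y - Du(y)(z.1 - y)`.
-/

set_option autoImplicit false
open scoped ContDiff Topology
open Crest.GeometryTopology.CoordMetric Crest.GeometryTopology.AffineMaximal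
open MeasureTheory Set

noncomputable section
namespace Crest.Agent.R236

variable {n : ℕ}

/-- a single directional derivative -/
theorem integral_fderiv_eq_zero {U K : Set (E n)} (hU : IsOpen U) (hK : IsCompact K) (hKU : K ⊆ U)
    {f : E n → ℝ} (hf : ContDiffOn ℝ 1 f U) (h0 : ∀ x ∈ U, x ∉ K → f x = 0) (v : E n) :
    ∫ x in K, fderiv ℝ f x v = 0 := by
  have hFU : ∀ x ∈ U, K.indicator f =ᶠ[𝓝 x] f := fun x hx => by
    filter_upwards [hU.mem_nhds hx] with y hy
    by_cases h : y ∈ K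
    · simp [h]
    · simp [h, h0 y hy h]
  have hFK : ∀ x ∉ K, K.indicator f =ᶠ[𝓝 x] fun _ => 0 := fun x hx => by
    filter_upwards [hK.isClosed.isOpen_compl.mem_nhds hx] with y hy
    exact indicator_of_notMem hy _
  have hC : ContDiff ℝ 1 (K.indicator f) := contDiff_iff_contDiffAt.2 fun x => by
    by_cases h : x ∈ K
    · exact (hf.contDiffAt (hU.mem_nhds (hKU h))).congr_of_eventuallyEq (hFU x (hKU h))
    · exact contDiffAt_const.congr_of_eventuallyEq (hFK x h)
  have hs : HasCompactSupport (K.indicator f) :=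
    HasCompactSupport.intro hK fun x hx => indicator_of_notMem hx _
  have h1 := integral_mul_fderiv_eq_neg_fderiv_mul_of_integrable (μ := volume)
    (f := fun _ => (1 : ℝ)) (g := K.indicator f) (v := v) (by simp)
    (by simpa using ((hC.continuous_fderiv one_ne_zero).clm_apply
      continuous_const).integrable_of_hasCompactSupport (hs.fderiv_apply ℝ v))
    (by simpa using hC.continuous.integrable_of_hasCompactSupport hs)
    (fun _ _ => differentiableAt_const _) (fun x _ => hC.differentiable one_ne_zero x)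
  simp only [one_mul, fderiv_fun_const, Pi.zero_apply, zero_apply, zero_mul, integral_zero,
    neg_zero] at h1
  rw [← h1, ← setIntegral_eq_integral_of_forall_compl_eq_zero (s := K)
    (f := fun x => fderiv ℝ (K.indicator f) x v) (fun x hx => by simp [(hFK x hx).fderiv_eq])]
  exact setIntegral_congr_fun hK.measurableSet fun x hx => by
    simp only [(hFU x (hKU hx)).fderiv_eq]

theorem integral_div_eq_zero {U K : Set (E n)} (hU : IsOpen U) (hK : IsCompact K) (hKU : K ⊆ U)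
    (W : Fin n → E n → ℝ) (hW : ∀ i, ContDiffOn ℝ 1 (W i) U)
    (h0 : ∀ i, ∀ x ∈ U, x ∉ K → W i x = 0) :
    ∫ x in K, ∑ i, fderiv ℝ (W i) x (ee i) = 0 := by
  rw [integral_finsetSum]
  · exact Finset.sum_eq_zero fun i _ => integral_fderiv_eq_zero hU hK hKU (hW i) (h0 i) _
  · exact fun i _ => ((((hW i).continuousOn_fderiv_of_isOpen hU le_rfl).clm_apply
      continuousOn_const).mono hKU).integrableOn_compact hK

theorem fderiv_radial {f : E n → ℝ} {x : E n} (hf : ContDiffAt ℝ 2 f x) (c : E n) :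
    fderiv ℝ (fun y => fderiv ℝ f y (y - c)) x
      = fderiv ℝ f x + fderiv ℝ (fun y => fderiv ℝ f y (x - c)) x := by
  have h1 : DifferentiableAt ℝ (fderiv ℝ f) x :=
    (hf.fderiv_right (m := 1) (by norm_num)).differentiableAt one_ne_zero
  have h2 : HasFDerivAt (fun y : E n => y - c) (.id ℝ _) x := (hasFDerivAt_id x).sub_const c
  rw [(h1.hasFDerivAt.clm_apply h2).fderiv,
    (h1.hasFDerivAt.clm_apply (hasFDerivAt_const (x - c) x)).fderiv]
  simp

namespace Sol
variable (S : Sol n) {x : E n}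

theorem ibp0 {U K : Set (E n)} (hU : IsOpen U) (hUΩ : U ⊆ S.Ω) (hK : IsCompact K) (hKU : K ⊆ U)
    {f g : E n → ℝ} (hf : ContDiffOn ℝ 2 f U) (hg : ContDiffOn ℝ 1 g U)
    (h0 : ∀ x ∈ U, x ∉ K → g x = 0) :
    ∫ x in K, (g x * S.L0 f x + S.G0 g f x) * (S.H x).det = 0 := by
  have hc : ∀ i j, ContDiffOn ℝ 1 (fun y => (S.H y).det * S.Hi y i j) U := fun i j =>
    ((S.contDiffOn_det.mul (S.contDiffOn_Hi i j)).mono hUΩ).of_le ENat.LEInfty.out
  have hd : ∀ j, ContDiffOn ℝ 1 (fun y => fderiv ℝ f y (ee j)) U := fun j =>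
    (hf.fderiv_of_isOpen hU (by norm_num)).clm_apply contDiffOn_const
  rw [← integral_div_eq_zero hU hK hKU
    (fun i y => g y * ∑ j, ((S.H y).det * S.Hi y i j) * fderiv ℝ f y (ee j))
    (fun i => hg.mul (ContDiffOn.sum fun j _ => (hc i j).mul (hd j)))
    (fun i y hy hy' => by rw [h0 y hy hy', zero_mul])]
  refine setIntegral_congr_fun hK.measurableSet fun x hx => ?_
  have hx' := hU.mem_nhds (hKU hx)
  have h1 := fun i => ((hg.differentiableOn_one.differentiableAt hx').hasFDerivAt.fun_mul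
    (HasFDerivAt.fun_sum (u := Finset.univ) fun j _ =>
      ((hc i j).differentiableOn_one.differentiableAt hx').hasFDerivAt.fun_mul
        ((hd j).differentiableOn_one.differentiableAt hx').hasFDerivAt)).fderiv
  have h2 : ∑ i, ∑ j, fderiv ℝ f x (ee j)
      * fderiv ℝ (fun y => (S.H y).det * S.Hi y i j) x (ee i) = 0 := by
    rw [Finset.sum_comm]
    simp only [← Finset.mul_sum, S.div_cof (hUΩ (hKU hx)), mul_zero, Finset.sum_const_zero]
  simp only [h1, add_apply, smul_apply, sum_apply, smul_eq_mul, Finset.sum_add_distrib, mul_add,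
    ← Finset.mul_sum, h2, mul_zero, add_zero, add_mul]
  simp only [L0, G0, B, Finset.mul_sum, Finset.sum_mul]
  congr 1 <;> refine Finset.sum_congr rfl fun i _ => Finset.sum_congr rfl fun j _ => ?_
  · change g x * (S.Hi x i j * fderiv ℝ (fun y => fderiv ℝ f y (ee j)) x (ee i)) * _ = _
    ring
  · ring

theorem ibp {U K : Set (E n)} (hU : IsOpen U) (hUΩ : U ⊆ S.Ω) (hK : IsCompact K) (hKU : K ⊆ U)
    {f g : E n → ℝ} (hf : ContDiffOn ℝ 2 f U) (hg : ContDiffOn ℝ 1 g U)
    (h0 : ∀ x ∈ U, x ∉ K → g x = 0) :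
    ∫ x in K, (g x * S.Lap f x + S.G g f x) * (S.rho x)⁻¹ = 0 := by
  have hl : ContDiffOn ℝ 1 S.lr U := (S.contDiffOn_lr.mono hUΩ).of_le ENat.LEInfty.out
  rw [← S.ibp0 hU hUΩ hK hKU (g := fun y => g y * Real.exp (n * S.lr y)) hf
    (hg.mul (contDiffOn_const.mul hl).exp) (fun y hy hy' => by rw [h0 y hy hy', zero_mul])]
  refine setIntegral_congr_fun hK.measurableSet fun x hx => ?_
  have hx' := hU.mem_nhds (hKU hx)
  have hΩ := hUΩ (hKU hx)
  have h1 := ((hg.differentiableOn_one.differentiableAt hx').hasFDerivAt.fun_mul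
    ((hl.differentiableOn_one.differentiableAt hx').hasFDerivAt.const_mul (n : ℝ)).exp).fderiv
  have h2 := (S.rho_pos hΩ).ne'
  simp only [Lap, G, G0, h1, B_add_left, B_smul_left, S.det_eq_rho hΩ]
  rw [Real.exp_nat_mul, lr, Real.exp_log (S.rho_pos hΩ)]
  field_simp
  ring

theorem nb_add (v w : V n) : S.nb x (v + w) = S.nb x v + S.nb x w := by
  simp only [nb, Prod.snd_add, Prod.fst_add, map_add]; ring
theorem nb_sub (v w : V n) : S.nb x (v - w) = S.nb x v - S.nb x w := by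
  simp only [nb, Prod.snd_sub, Prod.fst_sub, map_sub]; ring
theorem nb_smul (c : ℝ) (v : V n) : S.nb x (c • v) = c * S.nb x v := by
  simp only [nb, Prod.smul_snd, Prod.smul_fst, map_smul, smul_eq_mul]; ring
theorem nb_sum {ι : Type*} (s : Finset ι) (v : ι → V n) :
    S.nb x (∑ i ∈ s, v i) = ∑ i ∈ s, S.nb x (v i) := by
  simp only [nb, Prod.snd_sum, Prod.fst_sum, map_sum, Finset.sum_sub_distrib]
theorem nb_up : S.nb x (up n) = 1 := by simp [nb]
/-- `nb x` as a continuous linear functional -/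
def nbL (x : E n) : V n →L[ℝ] ℝ :=
  ContinuousLinearMap.snd ℝ (E n) ℝ - (fderiv ℝ S.u x).comp (ContinuousLinearMap.fst ℝ (E n) ℝ)
theorem nbL_apply (v : V n) : S.nbL x v = S.nb x v := rfl

theorem fderiv_af (hx : x ∈ S.Ω) (φ : V n →L[ℝ] ℝ) (o : V n) (v : E n) :
    fderiv ℝ (S.af φ o) x v = φ (v, fderiv ℝ S.u x v) := by
  have h := φ.hasFDerivAt.comp x (((hasFDerivAt_id x).prodMk
    (jac_diff S.isOpen S.smooth hx).hasFDerivAt).sub_const o)
  exact congrArg (fun L : E n →L[ℝ] ℝ => L v) h.fderiv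
theorem G_af_base (hx : x ∈ S.Ω) (f : E n → ℝ) (φ : V n →L[ℝ] ℝ) (o o' : V n) :
    S.G f (S.af φ o) x = S.G f (S.af φ o') x := by
  have h : fderiv ℝ (S.af φ o) x = fderiv ℝ (S.af φ o') x := by
    ext v
    rw [S.fderiv_af hx, S.fderiv_af hx]
  simp only [G, G0, h]

theorem tp_eq_radial (z : V n) :
    (fun y => S.tp y z) = fun y => z.2 - S.u y + fderiv ℝ S.u y (y - z.1) := by
  funext y
  simp only [tp, nb, X, Prod.snd_sub, Prod.fst_sub, map_sub]
  ring

theorem fderiv_tp (hx : x ∈ S.Ω) (z : V n) :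
    fderiv ℝ (fun y => S.tp y z) x = fderiv ℝ (fun y => fderiv ℝ S.u y (x - z.1)) x := by
  have h1 := jac_at S.isOpen S.smooth hx
  have h2 : DifferentiableAt ℝ (fun y => fderiv ℝ S.u y (y - z.1)) x :=
    ((h1.fderiv_right (m := 1) (by norm_num)).differentiableAt one_ne_zero).clm_apply
      (differentiableAt_id.sub_const _)
  rw [tp_eq_radial, (((h1.differentiableAt two_ne_zero).hasFDerivAt.const_sub z.2).fun_add
    h2.hasFDerivAt).fderiv, fderiv_radial h1, neg_add_cancel_left]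

theorem G0_tp (hx : x ∈ S.Ω) (z : V n) (f : E n → ℝ) :
    S.G0 (fun y => S.tp y z) f x = fderiv ℝ f x (x - z.1) := by
  rw [G0, S.fderiv_tp hx, S.B_du _ hx]
theorem L0_tp (hx : x ∈ S.Ω) (z : V n) :
    S.L0 (fun y => S.tp y z) x = n - ((n : ℝ) + 2) * fderiv ℝ S.lr x (x - z.1) := by
  have h1 : ∀ i j, hessianMat (fun y => S.tp y z) x i j
      = hessianMat S.u x i j + fderiv ℝ (fun y => S.H y i j) x (x - z.1) := fun i j => by
    have h2 : (fun y => fderiv ℝ (fun y => S.tp y z) y (ee j)) =ᶠ[𝓝 x]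
        fun y => fderiv ℝ (fun y => fderiv ℝ S.u y (ee j)) y (y - z.1) := by
      filter_upwards [S.isOpen.mem_nhds hx] with y hy
      rw [S.fderiv_tp hy, jac_symm (jac_at S.isOpen S.smooth hy)]
    have h3 := jac_at S.isOpen (contDiffOn_fderiv_apply S.isOpen S.smooth (ee j)) hx
    change fderiv ℝ (fun y => fderiv ℝ (fun y => S.tp y z) y (ee j)) x (ee i) = _
    rw [h2.fderiv_eq, fderiv_radial h3, add_apply, jac_symm h3]
    rfl
  have h4 := S.L0_u hx
  have h5 := S.jacobi hx (x - z.1)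
  simp only [L0, h1, mul_add, Finset.sum_add_distrib] at h4 ⊢
  linarith

theorem fderiv_rho (hx : x ∈ S.Ω) : fderiv ℝ S.rho x = S.rho x • fderiv ℝ S.lr x := by
  have h := ((jac_diff S.isOpen S.contDiffOn_rho hx).hasFDerivAt.log (S.rho_pos hx).ne').fderiv
  change _ = S.rho x • fderiv ℝ (fun y => Real.log (S.rho y)) x
  rw [h, smul_smul, mul_inv_cancel₀ (S.rho_pos hx).ne', one_smul]

theorem G_rho (hx : x ∈ S.Ω) (f : E n → ℝ) : S.G S.rho f x = S.G0 S.lr f x := by
  rw [G, G0, S.fderiv_rho hx, B_smul_left, inv_mul_cancel_left₀ (S.rho_pos hx).ne', G0]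

theorem Lap_rho (hx : x ∈ S.Ω) : S.Lap S.rho x = 0 := by
  have h1 := S.L0_log (jac_at S.isOpen S.contDiffOn_rho hx) (S.rho_pos hx)
  have h2 := (S.rho_pos hx).ne'
  change S.L0 S.lr x = _ at h1
  simp only [S.L0_lr hx, G0, S.fderiv_rho hx, B_smul_left, B_smul_right] at h1
  simp only [Lap, G0, S.fderiv_rho hx, B_smul_right]
  field_simp at h1 ⊢
  linarith

theorem G0_nb (hx : x ∈ S.Ω) (v : V n) (f : E n → ℝ) :
    S.G0 (fun y => S.nb y v) f x = -fderiv ℝ f x v.1 := by
  simp only [G0, nb, fderiv_const_sub, B_neg_left, S.B_du _ hx]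

theorem G0_comm (hx : x ∈ S.Ω) (f g : E n → ℝ) : S.G0 f g x = S.G0 g f x := S.B_comm _ _ hx

theorem Lap_nu (hx : x ∈ S.Ω) (v : V n) : S.Lap (S.nu v) x = 0 := by
  have h1 := S.Lap_mul hx (jac_at S.isOpen S.contDiffOn_rho hx)
    (jac_at S.isOpen (S.contDiffOn_nb v) hx)
  have h2 := S.L0_sub (f := fun _ => v.2) contDiffAt_const
    (jac_at S.isOpen (contDiffOn_fderiv_apply S.isOpen S.smooth v.1) hx)
  change S.L0 (fun y => S.nb y v) x = _ at h2
  change S.Lap (S.nu v) x = _ at h1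
  rw [h1, S.Lap_rho hx, S.G_rho hx, Lap, mul_inv_cancel_left₀ (S.rho_pos hx).ne', h2, L0_const,
    S.L0_du hx, S.G0_comm hx, S.G0_nb hx]
  ring
theorem Lap_af (hx : x ∈ S.Ω) (φ : V n →L[ℝ] ℝ) (o : V n) :
    S.Lap (S.af φ o) x = n * S.xi φ x := by
  have h1 : S.af φ o = fun y => (φ.comp (ContinuousLinearMap.inl ℝ (E n) ℝ) y
      + φ (up n) * S.u y) - φ o := by
    funext y
    rw [af, map_sub, mul_comm, ← smul_eq_mul, ← map_smul, ContinuousLinearMap.comp_apply, ← map_add]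
    simp [X]
  have hu := jac_at S.isOpen S.smooth hx
  have h2 : S.L0 (S.af φ o) x = φ (up n) * n := by
    rw [h1, S.L0_sub (by fun_prop) contDiffAt_const, S.L0_add (by fun_prop) (by fun_prop),
      L0_clm, L0_const, S.L0_const_mul _ hu, S.L0_u hx]
    ring
  rw [xi, S.G_af_base hx _ _ 0 o, Lap, h2, G]
  ring
theorem G_nu_af (hx : x ∈ S.Ω) (v : V n) (φ : V n →L[ℝ] ℝ) (o : V n) :
    S.G (S.nu v) (S.af φ o) x = S.nu v x * S.xi φ x - φ v := by
  have h1 := S.G_mul_left (h := S.af φ o) (jac_diff S.isOpen S.contDiffOn_rho hx)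
    (jac_diff S.isOpen (S.contDiffOn_nb v) hx)
  have h2 : φ v = φ (v.1, fderiv ℝ S.u x v.1) + S.nb x v * φ (up n) := by
    rw [← smul_eq_mul, ← map_smul, ← map_add]
    simp [nb]
  have h3 := (S.rho_pos hx).ne'
  change S.G (S.nu v) _ x = _ at h1
  rw [h1, S.G_rho hx, xi, S.G_af_base hx _ _ 0 o, G, G, S.G0_nb hx, S.fderiv_af hx, nu, h2]
  field_simp
  ring
theorem Lap_q (hx : x ∈ S.Ω) (z : V n) : S.Lap (S.q z) x = n := by
  have h1 := S.Lap_mul hx (jac_at S.isOpen S.contDiffOn_rho hx)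
    (jac_at S.isOpen (S.contDiffOn_tp z) hx)
  change S.Lap (S.q z) x = _ at h1
  rw [h1, S.Lap_rho hx, S.G_rho hx, Lap, mul_inv_cancel_left₀ (S.rho_pos hx).ne', S.L0_tp hx,
    S.G0_comm hx, S.G0_tp hx]
  ring
theorem G_q_af (hx : x ∈ S.Ω) (z : V n) (φ : V n →L[ℝ] ℝ) (o : V n) :
    S.G (S.q z) (S.af φ o) x = S.q z x * S.xi φ x + φ (S.X x - z) := by
  have h1 := S.G_mul_left (h := S.af φ o) (jac_diff S.isOpen S.contDiffOn_rho hx)
    (jac_diff S.isOpen (S.contDiffOn_tp z) hx)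
  have h2 : φ (x - z.1, fderiv ℝ S.u x (x - z.1)) = φ (S.X x - z) + S.tp x z * φ (up n) := by
    rw [← smul_eq_mul, ← map_smul, ← map_add]
    congr 1
    ext <;> simp [tp, nb, X]
    ring
  have h3 := (S.rho_pos hx).ne'
  change S.G (S.q z) _ x = _ at h1
  rw [h1, S.G_rho hx, xi, S.G_af_base hx _ _ 0 o, G, G, S.G0_tp hx, S.fderiv_af hx, q, h2]
  field_simp
  ring

end Sol
end Crest.Agent.R236
end
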