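import Crest.Agent.R236.Calc

/-!
# Third and fourth order identities (Jacobi's formula, cofactor divergence, the equation)

Recipes.  Jacobi: for a `C¹` matrix field `M` with `det ≠ 0`,
`d(det M) = det M · Σᵢⱼ M⁻¹ i j · d(M j i)` (e.g. via `Matrix.det_apply` + `HasFDerivAt.finset_prod`
and `Matrix.adjugate`/`det_updateCol`/`cramer`; or differentiate `t ↦ det (M + tN)` with
`Matrix.det_one_add_smul`).  Inverse: differentiate `M⁻¹ M = 1`, giving `d(M⁻¹) = -M⁻¹ dM M⁻¹`.
Third derivatives of `u` are totally symmetric (apply `hess_symm` to `u` near `x` and to `∂ₖu`).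
`detPower n u = rho^(n+1) = exp((n+1) lr)` near `x`; `affineMaximalOp = det H * L0 (detPower)`.
-/

set_option autoImplicit false
open scoped ContDiff Topology
open Crest.GeometryTopology.CoordMetric Crest.GeometryTopology.AffineMaximal
open MeasureTheory Set

noncomputable section
namespace Crest.Agent.R236

variable {n : ℕ}

/-- Jacobi's formula with the adjugate -/
theorem jac_fderiv_det {M : E n → Matrix (Fin n) (Fin n) ℝ} {x : E n}
    (hM : ∀ i j, DifferentiableAt ℝ (fun y => M y i j) x) (v : E n) :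
    fderiv ℝ (fun y => (M y).det) x v
      = ∑ i, ∑ k, (M x).adjugate i k * fderiv ℝ (fun y => M y k i) x v := by
  have h1 := HasFDerivAt.fun_sum (u := Finset.univ) fun (σ : Equiv.Perm (Fin n)) _ =>
    (HasFDerivAt.finsetProd (u := Finset.univ) (g := fun i y => M y (σ i) i)
      fun i _ => (hM (σ i) i).hasFDerivAt).const_mul ((Equiv.Perm.sign σ : ℤ) : ℝ)
  simp only [Matrix.det_apply']
  rw [h1.fderiv]
  have h2 : ∀ i, ∑ k, (M x).adjugate i k * fderiv ℝ (fun y => M y k i) x v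
      = ((M x).updateCol i fun k => fderiv ℝ (fun y => M y k i) x v).det := fun i => by
    rw [← Matrix.cramer_apply, Matrix.cramer_eq_adjugate_mulVec]
    rfl
  simp only [h2, Matrix.det_apply', sum_apply, smul_apply, smul_eq_mul,
    Finset.mul_sum]
  rw [Finset.sum_comm]
  refine Finset.sum_congr rfl fun i _ => Finset.sum_congr rfl fun σ _ => ?_
  rw [← Finset.prod_erase_mul _ _ (Finset.mem_univ i), Matrix.updateCol_self]
  congr 2
  exact Finset.prod_congr rfl fun j hj => (Matrix.updateCol_ne (Finset.ne_of_mem_erase hj)).symm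

theorem jac_symm {f : E n → ℝ} {x : E n} (hf : ContDiffAt ℝ 2 f x) (v w : E n) :
    fderiv ℝ (fun y => fderiv ℝ f y w) x v = fderiv ℝ (fun y => fderiv ℝ f y v) x w := by
  rw [fderiv_fderiv_eq hf, fderiv_fderiv_eq hf, Finset.sum_comm]
  refine Finset.sum_congr rfl fun i _ => Finset.sum_congr rfl fun j _ => ?_
  rw [hess_symm hf]
  ring

theorem jac_at {U : Set (E n)} (hU : IsOpen U) {f : E n → ℝ} (hf : ContDiffOn ℝ ∞ f U) {x : E n}
    (hx : x ∈ U) : ContDiffAt ℝ 2 f x :=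
  (hf.contDiffAt (hU.mem_nhds hx)).of_le ENat.LEInfty.out

theorem jac_diff {U : Set (E n)} (hU : IsOpen U) {f : E n → ℝ} (hf : ContDiffOn ℝ ∞ f U) {x : E n}
    (hx : x ∈ U) : DifferentiableAt ℝ f x :=
  (jac_at hU hf hx).differentiableAt two_ne_zero

theorem jac_hess_d {U : Set (E n)} (hU : IsOpen U) {f : E n → ℝ} (hf : ContDiffOn ℝ ∞ f U)
    {x : E n} (hx : x ∈ U) (v : E n) (i j : Fin n) :
    hessianMat (fun y => fderiv ℝ f y v) x i j = fderiv ℝ (fun y => hessianMat f y i j) x v := by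
  have h1 : (fun y => fderiv ℝ (fun z => fderiv ℝ f z v) y (ee j)) =ᶠ[𝓝 x]
      fun y => fderiv ℝ (fun z => fderiv ℝ f z (ee j)) y v := by
    filter_upwards [hU.mem_nhds hx] with y hy using jac_symm (jac_at hU hf hy) _ _
  change fderiv ℝ (fun y => fderiv ℝ (fun z => fderiv ℝ f z v) y (ee j)) x (ee i) = _
  rw [h1.fderiv_eq, jac_symm (jac_at hU (contDiffOn_fderiv_apply hU hf (ee j)) hx)]
  rfl

namespace Sol
variable (S : Sol n) {x : E n}

theorem jac_dH (hx : x ∈ S.Ω) (i j : Fin n) : DifferentiableAt ℝ (fun y => S.H y i j) x :=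
  jac_diff S.isOpen (S.contDiffOn_H i j) hx

theorem jac_dHi (hx : x ∈ S.Ω) (i j : Fin n) : DifferentiableAt ℝ (fun y => S.Hi y i j) x :=
  jac_diff S.isOpen (S.contDiffOn_Hi i j) hx

theorem jac_det (hx : x ∈ S.Ω) (v : E n) : fderiv ℝ (fun y => (S.H y).det) x v
    = (S.H x).det * ∑ i, ∑ j, S.Hi x i j * fderiv ℝ (fun y => S.H y i j) x v := by
  rw [jac_fderiv_det (S.jac_dH hx), Finset.sum_comm, Finset.mul_sum]
  refine Finset.sum_congr rfl fun i _ => ?_
  rw [Finset.mul_sum]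
  refine Finset.sum_congr rfl fun j _ => ?_
  rw [S.Hi_symm hx, Hi, Matrix.inv_def, Ring.inverse_eq_inv', Matrix.smul_apply, smul_eq_mul,
    ← mul_assoc, ← mul_assoc, mul_inv_cancel₀ (S.det_pos hx).ne', one_mul]

theorem jac_lr_eq (hx : x ∈ S.Ω) :
    S.lr =ᶠ[𝓝 x] fun y => -(1 : ℝ) / ((n : ℝ) + 2) * Real.log (S.H y).det := by
  filter_upwards [S.isOpen.mem_nhds hx] with y hy
  rw [lr, rho, Real.log_rpow (S.det_pos hy)]

/-- Jacobi's formula, in terms of `lr = -(1/(n+2)) log det H` -/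
theorem jacobi (hx : x ∈ S.Ω) (v : E n) :
    ∑ i, ∑ j, S.Hi x i j * fderiv ℝ (fun y => S.H y i j) x v = -((n : ℝ) + 2) * fderiv ℝ S.lr x v := by
  have h0 := (S.det_pos hx).ne'
  have h1 := ((jac_diff S.isOpen S.contDiffOn_det hx).hasFDerivAt.log h0).const_mul
    (-(1 : ℝ) / ((n : ℝ) + 2))
  rw [(S.jac_lr_eq hx).fderiv_eq, h1.fderiv]
  simp only [smul_apply, smul_eq_mul]
  rw [S.jac_det hx]
  field_simp

theorem fderiv_Hi (hx : x ∈ S.Ω) (v : E n) (i j : Fin n) :
    fderiv ℝ (fun y => S.Hi y i j) x v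
      = -∑ a, ∑ b, S.Hi x i a * fderiv ℝ (fun y => S.H y a b) x v * S.Hi x b j := by
  have hu : ∀ y ∈ S.Ω, IsUnit (S.H y).det := fun y hy => (S.det_pos hy).ne'.isUnit
  have h1 : (Matrix.of fun i j => fderiv ℝ (fun y => S.Hi y i j) x v) * S.H x
      + S.Hi x * (Matrix.of fun i j => fderiv ℝ (fun y => S.H y i j) x v) = 0 := by
    ext a c
    have h2 : (fun y => ∑ b, S.Hi y a b * S.H y b c) =ᶠ[𝓝 x]
        fun _ => (1 : Matrix (Fin n) (Fin n) ℝ) a c := by
      filter_upwards [S.isOpen.mem_nhds hx] with y hy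
      rw [← Matrix.nonsing_inv_mul _ (hu y hy), Matrix.mul_apply]
      rfl
    have h3 := HasFDerivAt.fun_sum (u := Finset.univ) fun b _ =>
      (S.jac_dHi hx a b).hasFDerivAt.fun_mul (S.jac_dH hx b c).hasFDerivAt
    have h4 := congrArg (fun L : E n →L[ℝ] ℝ => L v) (h3.fderiv.symm.trans h2.fderiv_eq)
    simp only [sum_apply, add_apply, smul_apply, smul_eq_mul, fderiv_fun_const,
      Pi.zero_apply, zero_apply] at h4
    simp only [Matrix.add_apply, Matrix.mul_apply, Matrix.of_apply, Matrix.zero_apply,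
      ← Finset.sum_add_distrib]
    rw [← h4]
    exact Finset.sum_congr rfl fun b _ => by ring
  have h2 := congrArg (· * S.Hi x) h1
  simp only [add_mul, zero_mul] at h2
  rw [Matrix.mul_assoc, Hi, Matrix.mul_nonsing_inv _ (hu x hx), Matrix.mul_one, ← Hi,
    add_eq_zero_iff_eq_neg] at h2
  have h3 := congrFun (congrFun h2 i) j
  simp only [Matrix.of_apply, Matrix.neg_apply, Matrix.mul_apply, Finset.sum_mul] at h3
  rw [h3, Finset.sum_comm]

/-- the Hessian of `∂_v u` is `∂_v` of the Hessian -/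
theorem hess_du (hx : x ∈ S.Ω) (v : E n) (i j : Fin n) :
    hessianMat (fun y => fderiv ℝ S.u y v) x i j = fderiv ℝ (fun y => S.H y i j) x v :=
  jac_hess_d S.isOpen S.smooth hx v i j

theorem L0_du (hx : x ∈ S.Ω) (v : E n) :
    S.L0 (fun y => fderiv ℝ S.u y v) x = -((n : ℝ) + 2) * fderiv ℝ S.lr x v := by
  simp only [L0, S.hess_du hx, S.jacobi hx]

/-- the cofactor matrix of the Hessian is divergence free -/
theorem div_cof (hx : x ∈ S.Ω) (j : Fin n) :
    ∑ i, fderiv ℝ (fun y => (S.H y).det * S.Hi y i j) x (ee i) = 0 := by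
  have h1 : ∀ i, fderiv ℝ (fun y => (S.H y).det * S.Hi y i j) x (ee i) = (S.H x).det *
      (∑ a, ∑ b, S.Hi x a b * fderiv ℝ (fun y => S.H y a b) x (ee i) * S.Hi x i j
        - ∑ a, ∑ b, S.Hi x i a * fderiv ℝ (fun y => S.H y a b) x (ee i) * S.Hi x b j) := fun i => by
    rw [((jac_diff S.isOpen S.contDiffOn_det hx).hasFDerivAt.fun_mul
      (S.jac_dHi hx i j).hasFDerivAt).fderiv]
    simp only [add_apply, smul_apply, smul_eq_mul]
    rw [S.jac_det hx, S.fderiv_Hi hx]
    simp only [← Finset.sum_mul]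
    ring
  simp only [h1]
  rw [← Finset.mul_sum, Finset.sum_sub_distrib, Finset.sum_comm, mul_eq_zero]
  right
  rw [sub_eq_zero]
  refine Finset.sum_congr rfl fun i _ => ?_
  rw [Finset.sum_comm]
  refine Finset.sum_congr rfl fun a _ => Finset.sum_congr rfl fun b _ => ?_
  rw [← S.hess_du hx (ee b) i a]
  rfl

theorem contDiffOn_detPower : ContDiffOn ℝ ∞ (detPower n S.u) S.Ω :=
  S.contDiffOn_det.rpow_const_of_ne fun _ hy => (S.det_pos hy).ne'
theorem detPower_eq (hx : x ∈ S.Ω) : detPower n S.u x = S.rho x ^ (n + 1) := by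
  rw [rho, ← Real.rpow_natCast, ← Real.rpow_mul (S.det_pos hx).le, detPower]
  congr 1
  push_cast
  ring
theorem L0_detPower (hx : x ∈ S.Ω) : S.L0 (detPower n S.u) x = 0 := by
  have h := S.eqn x hx
  simp only [affineMaximalOp, mul_assoc, ← Finset.mul_sum] at h
  exact (mul_eq_zero.1 h).resolve_left (S.det_pos hx).ne'

/-- the affine maximal equation for `log rho` -/
theorem L0_lr (hx : x ∈ S.Ω) : S.L0 S.lr x = -((n : ℝ) + 1) * S.G0 S.lr S.lr x := by
  have h1 : detPower n S.u =ᶠ[𝓝 x] fun y => Real.exp (((n : ℝ) + 1) * S.lr y) := by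
    filter_upwards [S.isOpen.mem_nhds hx] with y hy
    rw [S.detPower_eq hy, ← Nat.cast_succ, Real.exp_nat_mul, lr, Real.exp_log (S.rho_pos hy)]
  have h2 : ∀ c : ℝ, deriv (fun t => c * Real.exp (((n : ℝ) + 1) * t))
      = fun t => c * ((n : ℝ) + 1) * Real.exp (((n : ℝ) + 1) * t) := fun c => funext fun t => by
    rw [(((hasDerivAt_id' t).const_mul ((n : ℝ) + 1)).exp.const_mul c).deriv]
    ring
  have h3 := S.L0_comp (φ := fun t => 1 * Real.exp (((n : ℝ) + 1) * t)) (f := S.lr) (x := x)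
    (by fun_prop) (jac_at S.isOpen S.contDiffOn_lr hx)
  rw [h2, h2] at h3
  simp only [one_mul] at h3
  rw [← S.L0_congr h1, S.L0_detPower hx] at h3
  have h4 : ((n : ℝ) + 1) * Real.exp (((n : ℝ) + 1) * S.lr x) ≠ 0 := by positivity
  apply mul_left_cancel₀ h4
  linarith

/-- second directional derivative `u_{vv}` -/
def uvv (v : E n) (y : E n) : ℝ := ∑ i, ∑ j, S.H y i j * v i * v j

theorem contDiffOn_uvv (v : E n) : ContDiffOn ℝ ∞ (S.uvv v) S.Ω :=
  ContDiffOn.sum fun i _ => ContDiffOn.sum fun j _ =>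
    ((S.contDiffOn_H i j).mul contDiffOn_const).mul contDiffOn_const

theorem jac_uvv_eq (hx : x ∈ S.Ω) (v : E n) :
    S.uvv v =ᶠ[𝓝 x] fun y => fderiv ℝ (fun z => fderiv ℝ S.u z v) y v := by
  filter_upwards [S.isOpen.mem_nhds hx] with y hy
  rw [fderiv_fderiv_eq (jac_at S.isOpen S.smooth hy)]
  rfl

theorem jac_dH_symm (hx : x ∈ S.Ω) (v : E n) (i j : Fin n) :
    fderiv ℝ (fun y => S.H y i j) x v = fderiv ℝ (fun y => S.H y j i) x v := by
  rw [← S.hess_du hx, ← S.hess_du hx,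
    hess_symm (jac_at S.isOpen (contDiffOn_fderiv_apply S.isOpen S.smooth v) hx)]

/-- Monge-Ampère case: differentiate `Σ Hi i j ∂_v H i j = 0` once more in direction `v`.
With `T i j = ∂_v H i j` one gets `L0 u_{vv} = tr (Hi T Hi T)`; moreover `∂ₖ u_{vv} = (T v)ₖ`. -/
theorem L0_uvv (hdet : ∃ d, ∀ y ∈ S.Ω, (S.H y).det = d) (hx : x ∈ S.Ω) (v : E n) :
    S.L0 (S.uvv v) x
      = (S.Hi x * (Matrix.of fun i j => fderiv ℝ (fun y => S.H y i j) x v) * S.Hi x
          * (Matrix.of fun i j => fderiv ℝ (fun y => S.H y i j) x v)).trace := by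
  obtain ⟨d, hd⟩ := hdet
  have h1 : ∀ i j, hessianMat (S.uvv v) x i j
      = fderiv ℝ (fun y => fderiv ℝ (fun z => S.H z i j) y v) x v := fun i j => by
    rw [hess_congr (S.jac_uvv_eq hx v),
      jac_hess_d S.isOpen (contDiffOn_fderiv_apply S.isOpen S.smooth v) hx]
    congr 1
    apply Filter.EventuallyEq.fderiv_eq
    filter_upwards [S.isOpen.mem_nhds hx] with y hy using S.hess_du hy v i j
  have h2 : (fun y => ∑ i, ∑ j, S.Hi y i j * fderiv ℝ (fun z => S.H z i j) y v) =ᶠ[𝓝 x]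
      fun _ => 0 := by
    filter_upwards [S.isOpen.mem_nhds hx] with y hy
    have h3 : (fun z => (S.H z).det) =ᶠ[𝓝 y] fun _ => d := by
      filter_upwards [S.isOpen.mem_nhds hy] with z hz using hd z hz
    have h4 := S.jac_det hy v
    rw [h3.fderiv_eq, fderiv_fun_const] at h4
    exact (mul_eq_zero.1 h4.symm).resolve_left (S.det_pos hy).ne'
  have h3 := HasFDerivAt.fun_sum (u := Finset.univ) fun i _ =>
    HasFDerivAt.fun_sum (u := Finset.univ) fun j _ => (S.jac_dHi hx i j).hasFDerivAt.fun_mul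
      (jac_diff S.isOpen (contDiffOn_fderiv_apply S.isOpen (S.contDiffOn_H i j) v) hx).hasFDerivAt
  have h4 := congrArg (fun L : E n →L[ℝ] ℝ => L v) (h3.fderiv.symm.trans h2.fderiv_eq)
  simp only [sum_apply, add_apply, smul_apply, smul_eq_mul, fderiv_fun_const,
    Pi.zero_apply, zero_apply, Finset.sum_add_distrib, S.fderiv_Hi hx] at h4
  simp only [L0, h1]
  rw [eq_neg_of_add_eq_zero_left h4]
  simp only [Matrix.trace, Matrix.diag_apply, Matrix.mul_apply, Matrix.of_apply, mul_neg,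
    Finset.sum_neg_distrib, neg_neg]
  refine Finset.sum_congr rfl fun i _ => Finset.sum_congr rfl fun j _ => ?_
  rw [S.jac_dH_symm hx v i j, mul_comm, Finset.sum_comm]
  simp only [Finset.sum_mul]

theorem fderiv_uvv (hx : x ∈ S.Ω) (v : E n) (k : Fin n) :
    fderiv ℝ (S.uvv v) x (ee k)
      = (Matrix.of fun i j => fderiv ℝ (fun y => S.H y i j) x v).mulVec v k := by
  rw [(S.jac_uvv_eq hx v).fderiv_eq,
    fderiv_fderiv_eq (jac_at S.isOpen (contDiffOn_fderiv_apply S.isOpen S.smooth v) hx),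
    Finset.sum_eq_single k (fun i _ hi => by simp [hi]) (by simp)]
  simp [Matrix.mulVec, dotProduct, S.hess_du hx]

theorem dH_isSymm (hx : x ∈ S.Ω) (v : E n) :
    (Matrix.of fun i j => fderiv ℝ (fun y => S.H y i j) x v).IsSymm :=
  Matrix.IsSymm.ext fun i j => S.jac_dH_symm hx v j i

end Sol
end Crest.Agent.R236
end
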