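import Crest.Agent.R236.Cell

/-!
# The key identity (this is where `n ≤ 9` enters)

`σ = Σ_b ν(e_b) ξ(y_b)`, `k = n/2`, `B = 4/(2n-3)`.  `Lap pp = n - 2j + (n+2)σ`,
`Σ_b [G ν_b y_b + ν_b Lap y_b] = (n+1)σ - j`, `G pp y_a = pp ξ(y_a) + ZG y_a`, hence with
`π = ZG pp`, `ζ = Σ_a ν_a ZG y_a ≥ 0`, `Π = G pp pp`: `π = pp σ + ζ`, `π² ≤ Π ζ` (`B_sq_le` for the covectors
`d pp` and `Σ ν_b d y_b`).  `ibp` with `(g,f) = (χ pp^{-k}, pp)` and `(χ pp^{-k} ν_b, y_b)` gives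
`∫ mp [χ D + B G χ pp + (1-B) ZG χ] = 0`, where
`pp · D = -(j - (n-j)B) pp - [(n+1+B) ζ + k B Π - (k+1)(1+B) π]`, and the bracket is `≥ 0` because
`(k+1)²(1+B)² ≤ 4 k B (n+1+B)` for `3 ≤ n ≤ 9` (`interval_cases n; norm_num`);
`j - (n-j)B ≥ 2 - (n-2)B = 2/(2n-3)`.
-/

set_option autoImplicit false
open scoped ContDiff Topology
open Crest.GeometryTopology.CoordMetric Crest.GeometryTopology.AffineMaximal
open MeasureTheory Set

noncomputable section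
namespace Crest.Agent.R236

variable {n : ℕ}
namespace Sol
variable (S : Sol n) {j : ℕ} {η Λ : ℝ} (F : Cfg S.C j η Λ) {x : E n}

theorem key_at {f : E n → ℝ} (hf : ContDiffOn ℝ ∞ f S.Ω) (hx : x ∈ S.Ω) : ContDiffAt ℝ 2 f x :=
  (hf.contDiffAt (S.isOpen.mem_nhds hx)).of_le (WithTop.coe_le_coe.2 (le_top : (2 : ℕ∞) ≤ ⊤))

theorem key_diff {f : E n → ℝ} (hf : ContDiffOn ℝ ∞ f S.Ω) (hx : x ∈ S.Ω) :
    DifferentiableAt ℝ f x :=
  (S.key_at hf hx).differentiableAt (by norm_num)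

theorem key_pp_fun :
    S.pp F = fun y => S.q F.o y + (fun y => ∑ b, (fun y => S.nu (F.e b) y * S.yy F b y) y) y := rfl

theorem G_pp_yy (hx : x ∈ S.Ω) (a : Fin j) :
    S.G (S.pp F) (S.yy F a) x = S.pp F x * S.xi (F.y a) x + S.ZG F (S.yy F a) x := by
  have hq := S.key_diff (S.contDiffOn_q F.o) hx
  have hν := fun b => S.key_diff (S.contDiffOn_nu (F.e b)) hx
  have hy := fun b => S.key_diff (S.contDiffOn_yy F b) hx
  have hm : ∀ b ∈ (Finset.univ : Finset (Fin j)),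
      DifferentiableAt ℝ (fun y => S.nu (F.e b) y * S.yy F b y) x :=
    fun b _ => (hν b).mul (hy b)
  have h1 : S.G (S.pp F) (S.yy F a) x = S.G (S.q F.o) (S.yy F a) x
      + ∑ b, S.G (fun y => S.nu (F.e b) y * S.yy F b y) (S.yy F a) x := by
    rw [S.key_pp_fun F, S.G_add_left hq (by
      simpa using DifferentiableAt.fun_sum hm), S.G_sum_left _ hm]
  have h2 : ∀ b, S.G (fun y => S.nu (F.e b) y * S.yy F b y) (S.yy F a) x
      = S.nu (F.e b) x * S.G (S.yy F b) (S.yy F a) x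
        + S.nu (F.e b) x * S.yy F b x * S.xi (F.y a) x - if a = b then S.yy F b x else 0 := by
    intro b
    rw [S.G_mul_left (hν b) (hy b)]
    have := S.G_nu_af hx (F.e b) (F.y a) F.o
    rw [F.dual] at this
    change S.G (S.nu (F.e b)) (S.yy F a) x = _ at this
    rw [this]
    split_ifs <;> ring
  have h3 : S.G (S.q F.o) (S.yy F a) x = S.q F.o x * S.xi (F.y a) x + S.yy F a x :=
    S.G_q_af hx F.o (F.y a) F.o
  rw [h1, h3, Finset.sum_congr rfl fun b _ => h2 b, Finset.sum_sub_distrib, Finset.sum_add_distrib,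
    Finset.sum_ite_eq, ← Finset.sum_mul]
  simp only [Finset.mem_univ, if_true, pp, ZG]
  ring

theorem Lap_pp (hx : x ∈ S.Ω) :
    S.Lap (S.pp F) x = n - 2 * j + ((n : ℝ) + 2) * ∑ b, S.nu (F.e b) x * S.xi (F.y b) x := by
  have hq := S.key_at (S.contDiffOn_q F.o) hx
  have hν := fun b => S.key_at (S.contDiffOn_nu (F.e b)) hx
  have hy := fun b => S.key_at (S.contDiffOn_yy F b) hx
  have hm : ∀ b ∈ (Finset.univ : Finset (Fin j)),
      ContDiffAt ℝ 2 (fun y => S.nu (F.e b) y * S.yy F b y) x :=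
    fun b _ => (hν b).mul (hy b)
  have h1 : S.Lap (S.pp F) x = S.Lap (S.q F.o) x
      + ∑ b, S.Lap (fun y => S.nu (F.e b) y * S.yy F b y) x := by
    rw [S.key_pp_fun F, S.Lap_add hq (by
      simpa using ContDiffAt.sum hm), S.Lap_sum _ hm]
  have h2 : ∀ b, S.Lap (fun y => S.nu (F.e b) y * S.yy F b y) x
      = ((n : ℝ) + 2) * (S.nu (F.e b) x * S.xi (F.y b) x) - 2 := by
    intro b
    rw [S.Lap_mul hx (hν b) (hy b), S.Lap_nu hx]
    have h3 := S.G_nu_af hx (F.e b) (F.y b) F.o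
    rw [F.dual, if_pos rfl] at h3
    change S.G (S.nu (F.e b)) (S.yy F b) x = _ at h3
    have h4 : S.Lap (S.yy F b) x = n * S.xi (F.y b) x := S.Lap_af hx _ _
    rw [h3, h4]
    ring
  rw [h1, S.Lap_q hx, Finset.sum_congr rfl fun b _ => h2 b, Finset.sum_sub_distrib,
    ← Finset.mul_sum]
  simp only [Finset.sum_const, Finset.card_univ, Fintype.card_fin, nsmul_eq_mul]
  ring

/-- `ZG` as a pairing with the covector `Σ ν_b dy_b` -/
theorem ZG_eq_B (f : E n → ℝ) :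
    S.ZG F f x = (S.rho x)⁻¹ *
      S.B x (∑ b, S.nu (F.e b) x • fderiv ℝ (S.yy F b) x) (fderiv ℝ f x) := by
  rw [S.B_sum_left, Finset.mul_sum]
  refine Finset.sum_congr rfl fun b _ => ?_
  rw [S.B_smul_left]
  simp only [G, G0]
  ring

theorem zeta_eq_B :
    ∑ a, S.nu (F.e a) x * S.ZG F (S.yy F a) x = (S.rho x)⁻¹ *
      S.B x (∑ b, S.nu (F.e b) x • fderiv ℝ (S.yy F b) x)
        (∑ b, S.nu (F.e b) x • fderiv ℝ (S.yy F b) x) := by
  rw [S.B_sum_right, Finset.mul_sum]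
  refine Finset.sum_congr rfl fun b _ => ?_
  rw [S.B_smul_right, S.ZG_eq_B F]
  ring

theorem zeta_nonneg (hx : x ∈ S.Ω) : 0 ≤ ∑ a, S.nu (F.e a) x * S.ZG F (S.yy F a) x := by
  rw [S.zeta_eq_B F]
  exact mul_nonneg (inv_nonneg.2 (S.rho_pos hx).le) (S.B_nonneg _ hx)

theorem ZG_sq_le (hx : x ∈ S.Ω) (f : E n → ℝ) :
    S.ZG F f x ^ 2 ≤ (∑ a, S.nu (F.e a) x * S.ZG F (S.yy F a) x) * S.G f f x := by
  rw [S.zeta_eq_B F, S.ZG_eq_B F f]
  have h := S.B_sq_le (∑ b, S.nu (F.e b) x • fderiv ℝ (S.yy F b) x) (fderiv ℝ f x) hx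
  have h2 := mul_le_mul_of_nonneg_left h (sq_nonneg (S.rho x)⁻¹)
  simp only [G, G0]
  nlinarith [h2]

theorem ZG_pp (hx : x ∈ S.Ω) :
    S.ZG F (S.pp F) x = S.pp F x * (∑ b, S.nu (F.e b) x * S.xi (F.y b) x)
      + ∑ a, S.nu (F.e a) x * S.ZG F (S.yy F a) x := by
  rw [Finset.mul_sum, ← Finset.sum_add_distrib]
  conv_lhs => unfold ZG
  refine Finset.sum_congr rfl fun b _ => ?_
  rw [S.G_comm hx, S.G_pp_yy F hx]
  ring

end Sol

theorem key_quad {a b c ζ P π : ℝ} (ha : 0 < a) (hb : 0 < b) (hc : c ^ 2 ≤ 4 * a * b)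
    (hζ : 0 ≤ ζ) (hP : 0 ≤ P) (hπ : π ^ 2 ≤ ζ * P) : c * π ≤ a * ζ + b * P := by
  have h0 : 0 ≤ a * ζ + b * P := by positivity
  refine le_trans (le_abs_self _) (abs_le_of_sq_le_sq' ?_ h0).2 |>.trans' (le_refl _)
  rw [sq_abs, mul_pow]
  have h1 : c ^ 2 * π ^ 2 ≤ (4 * a * b) * (ζ * P) :=
    mul_le_mul hc hπ (sq_nonneg _) (by positivity)
  nlinarith [sq_nonneg (a * ζ - b * P)]

theorem key_disc (hn : 3 ≤ n) (hn' : n ≤ 9) :
    (((n : ℝ) / 2 + 1) * (1 + 4 / (2 * (n : ℝ) - 3))) ^ 2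
      ≤ 4 * ((n : ℝ) + 1 + 4 / (2 * (n : ℝ) - 3)) * ((n : ℝ) / 2 * (4 / (2 * (n : ℝ) - 3))) := by
  interval_cases n <;> norm_num

/-- the pointwise inequality `D ≤ -2/(2n-3)` -/
theorem key_alg (hn : 3 ≤ n) (hn' : n ≤ 9) {j : ℕ} (hj : 2 ≤ j) {p σ ζ P π : ℝ} (hp : 0 < p)
    (hζ : 0 ≤ ζ) (hP : 0 ≤ P) (hπ : π ^ 2 ≤ ζ * P) (hπ' : π = p * σ + ζ) :
    2 / (2 * (n : ℝ) - 3)
      + (4 / (2 * (n : ℝ) - 3) * (n - 2 * j + ((n : ℝ) + 2) * σ - n / 2 * p⁻¹ * P)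
        + (1 - 4 / (2 * (n : ℝ) - 3)) * (((n : ℝ) + 1) * σ - j - n / 2 * p⁻¹ * π)) ≤ 0 := by
  have hn3 : (3 : ℝ) ≤ n := by exact_mod_cast hn
  have hj2 : (2 : ℝ) ≤ j := by exact_mod_cast hj
  have hd : 0 < 2 * (n : ℝ) - 3 := by linarith
  have hdisc := key_disc hn hn'
  have hc : 2 / (2 * (n : ℝ) - 3) = 2 - (n - 2) * (4 / (2 * (n : ℝ) - 3)) := by
    field_simp; ring
  rw [hc]
  have hB : 0 < 4 / (2 * (n : ℝ) - 3) := by positivity
  generalize 4 / (2 * (n : ℝ) - 3) = B at *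
  have hq := key_quad (a := (n : ℝ) + 1 + B) (b := (n : ℝ) / 2 * B) (by positivity)
    (by positivity) hdisc hζ hP hπ
  have hσ : σ = p⁻¹ * (π - ζ) := by rw [hπ']; field_simp; ring
  have hq' := mul_le_mul_of_nonneg_left hq (inv_nonneg.2 hp.le)
  have hjB : 0 ≤ ((j : ℝ) - 2) * (1 + B) := mul_nonneg (by linarith) (by linarith)
  rw [hσ]
  nlinarith [hq', hjB]

namespace Sol
variable (S : Sol n) {j : ℕ} {η Λ : ℝ} (F : Cfg S.C j η Λ) {x : E n}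


theorem key_ineq (hn : 3 ≤ n) (hn' : n ≤ 9) (hj : 2 ≤ j) {U K : Set (E n)} (hU : IsOpen U)
    (hUΩ : U ⊆ S.Ω) (hK : IsCompact K) (hKU : K ⊆ U) (hp : ∀ x ∈ U, 0 < S.pp F x)
    {χ : E n → ℝ} (hχ : ContDiffOn ℝ 1 χ U) (hχ0 : ∀ x ∈ U, 0 ≤ χ x)
    (h0 : ∀ x ∈ U, x ∉ K → χ x = 0) :
    2 / (2 * (n : ℝ) - 3) * ∫ x in K, χ x * S.mp F x
      ≤ ∫ x in K, S.mp F x * (4 / (2 * (n : ℝ) - 3) * S.G χ (S.pp F) x
          + (1 - 4 / (2 * (n : ℝ) - 3)) * S.ZG F χ x) := by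
  have hsm : ∀ {f : E n → ℝ}, ContDiffOn ℝ ∞ f S.Ω → ContDiffOn ℝ 2 f U := fun hf =>
    (hf.mono hUΩ).of_le (WithTop.coe_le_coe.2 (le_top : (2 : ℕ∞) ≤ ⊤))
  have hsm1 : ∀ {f : E n → ℝ}, ContDiffOn ℝ ∞ f S.Ω → ContDiffOn ℝ 1 f U := fun hf =>
    (hsm hf).of_le (by norm_num)
  have hp2 := hsm (S.contDiffOn_pp F)
  have hp1 := hsm1 (S.contDiffOn_pp F)
  have hy2 := fun b => hsm (S.contDiffOn_yy F b)
  have hy1 := fun b => hsm1 (S.contDiffOn_yy F b)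
  have hν1 := fun b => hsm1 (S.contDiffOn_nu (F.e b))
  have hw1 : ContDiffOn ℝ 1 (fun y => S.pp F y ^ (-(n : ℝ) / 2)) U :=
    hp1.rpow_const_of_ne fun y hy => (hp y hy).ne'
  have hρ : ContinuousOn (fun y => (S.rho y)⁻¹) U :=
    (S.contDiffOn_rho.continuousOn.mono hUΩ).inv₀ fun y hy => (S.rho_pos (hUΩ hy)).ne'
  have hmp : ContinuousOn (S.mp F) U := hw1.continuousOn.mul hρ
  set g : E n → ℝ := fun y => χ y * S.pp F y ^ (-(n : ℝ) / 2) with hg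
  have hg1 : ContDiffOn ℝ 1 g U := hχ.mul hw1
  have hg0 : ∀ y ∈ U, y ∉ K → g y = 0 := fun y hy hyK => by simp [hg, h0 y hy hyK]
  set g' : Fin j → E n → ℝ := fun b y => g y * S.nu (F.e b) y with hg'
  have hg'1 : ∀ b, ContDiffOn ℝ 1 (g' b) U := fun b => hg1.mul (hν1 b)
  have hg'0 : ∀ b, ∀ y ∈ U, y ∉ K → g' b y = 0 := fun b y hy hyK => by simp [hg', hg0 y hy hyK]
  set A : E n → ℝ := fun y => (g y * S.Lap (S.pp F) y + S.G g (S.pp F) y) * (S.rho y)⁻¹ with hA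
  set A' : Fin j → E n → ℝ := fun b y =>
    (g' b y * S.Lap (S.yy F b) y + S.G (g' b) (S.yy F b) y) * (S.rho y)⁻¹ with hA'
  have hint : ∀ {f : E n → ℝ}, ContinuousOn f U → IntegrableOn f K := fun hf =>
    (hf.mono hKU).integrableOn_compact hK
  have hAi : IntegrableOn A K := hint
    (((hg1.continuousOn.mul (S.continuousOn_Lap hU hUΩ hp2)).add
      (S.continuousOn_G hU hUΩ hg1 hp1)).mul hρ)
  have hA'i : ∀ b, IntegrableOn (A' b) K := fun b => hint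
    ((((hg'1 b).continuousOn.mul (S.continuousOn_Lap hU hUΩ (hy2 b))).add
      (S.continuousOn_G hU hUΩ (hg'1 b) (hy1 b))).mul hρ)
  have hA0 : ∫ y in K, A y = 0 := S.ibp hU hUΩ hK hKU hp2 hg1 hg0
  have hA'0 : ∀ b, ∫ y in K, A' b y = 0 := fun b =>
    S.ibp hU hUΩ hK hKU (hy2 b) (hg'1 b) (hg'0 b)
  have hχi : IntegrableOn (fun y => χ y * S.mp F y) K := hint (hχ.continuousOn.mul hmp)
  have hZ : ContinuousOn (S.ZG F χ) U :=
    continuousOn_finsetSum _ fun b _ =>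
      (hν1 b).continuousOn.mul (S.continuousOn_G hU hUΩ (hy1 b) hχ)
  set B : ℝ := 4 / (2 * (n : ℝ) - 3) with hB
  set c : ℝ := 2 / (2 * (n : ℝ) - 3) with hc
  have hRi : IntegrableOn
      (fun y => S.mp F y * (B * S.G χ (S.pp F) y + (1 - B) * S.ZG F χ y)) K :=
    hint (hmp.mul (((S.continuousOn_G hU hUΩ hχ hp1).const_smul B).add (hZ.const_smul (1 - B))))
  have hS : IntegrableOn (fun y => ∑ b, A' b y) K := integrable_finsetSum _ fun b _ => hA'i b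
  have hT : IntegrableOn (fun y => B * A y + (1 - B) * ∑ b, A' b y) K :=
    (hAi.const_mul B).add (hS.const_mul (1 - B))
  have hL : c * ∫ y in K, χ y * S.mp F y
      = ∫ y in K, (c * (χ y * S.mp F y) + (B * A y + (1 - B) * ∑ b, A' b y)) := by
    rw [integral_add (hχi.const_mul c) hT,
      integral_add (hAi.const_mul B) (hS.const_mul (1 - B)), integral_const_mul,
      integral_const_mul, integral_const_mul, integral_finsetSum _ fun b _ => hA'i b, hA0]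
    simp [hA'0]
  rw [hL]
  refine setIntegral_mono_on
    ((hχi.const_mul c).add hT) hRi
    hK.measurableSet fun x hxK => ?_
  have hxU := hKU hxK
  have hx := hUΩ hxU
  have hpx := hp x hxU
  have hd : ∀ {f : E n → ℝ}, ContDiffOn ℝ 1 f U → DifferentiableAt ℝ f x := fun hf =>
    (hf.contDiffAt (hU.mem_nhds hxU)).differentiableAt (by norm_num)
  have hGw : ∀ f : E n → ℝ, S.G (fun y => S.pp F y ^ (-(n : ℝ) / 2)) f x
      = -(n / 2 * (S.pp F x)⁻¹ * S.pp F x ^ (-(n : ℝ) / 2)) * S.G (S.pp F) f x := by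
    intro f
    rw [S.G_comp_left (φ := fun t : ℝ => t ^ (-(n : ℝ) / 2))
      (Real.hasDerivAt_rpow_const (Or.inl hpx.ne')) (hd hp1), Real.rpow_sub_one hpx.ne']
    ring
  have hGg : ∀ f : E n → ℝ, S.G g f x = S.pp F x ^ (-(n : ℝ) / 2) *
      (S.G χ f x - χ x * (n / 2 * (S.pp F x)⁻¹ * S.G (S.pp F) f x)) := by
    intro f
    rw [hg, S.G_mul_left (hd hχ) (hd hw1), hGw]
    ring
  have hAx : A x = S.mp F x * (χ x * (n - 2 * j + ((n : ℝ) + 2) *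
      (∑ b, S.nu (F.e b) x * S.xi (F.y b) x)
        - n / 2 * (S.pp F x)⁻¹ * S.G (S.pp F) (S.pp F) x) + S.G χ (S.pp F) x) := by
    simp only [hA]
    rw [hGg, S.Lap_pp F hx]
    simp only [hg, mp]
    ring
  have hA'x : ∀ b, A' b x = S.mp F x * (χ x * (((n : ℝ) + 1) *
      (S.nu (F.e b) x * S.xi (F.y b) x) - 1
        - n / 2 * (S.pp F x)⁻¹ * (S.nu (F.e b) x * S.G (S.yy F b) (S.pp F) x))
        + S.nu (F.e b) x * S.G (S.yy F b) χ x) := by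
    intro b
    have h3 := S.G_nu_af hx (F.e b) (F.y b) F.o
    rw [F.dual, if_pos rfl] at h3
    change S.G (S.nu (F.e b)) (S.yy F b) x = _ at h3
    have h4 : S.Lap (S.yy F b) x = n * S.xi (F.y b) x := S.Lap_af hx _ _
    simp only [hA', hg']
    rw [S.G_mul_left (hd hg1) (hd (hν1 b)), hGg, h3, h4, S.G_comm hx (f := S.yy F b) (g := χ),
      S.G_comm hx (f := S.yy F b) (g := S.pp F)]
    simp only [hg, mp]
    ring
  have hSx : ∑ b, A' b x = S.mp F x * (χ x * (((n : ℝ) + 1) *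
      (∑ b, S.nu (F.e b) x * S.xi (F.y b) x) - j
        - n / 2 * (S.pp F x)⁻¹ * S.ZG F (S.pp F) x) + S.ZG F χ x) := by
    rw [Finset.sum_congr rfl fun b _ => hA'x b, ← Finset.mul_sum, Finset.sum_add_distrib,
      ← Finset.mul_sum, Finset.sum_sub_distrib, Finset.sum_sub_distrib, ← Finset.mul_sum,
      ← Finset.mul_sum]
    simp only [Finset.sum_const, Finset.card_univ, Fintype.card_fin, nsmul_eq_mul, mul_one, ZG]
  have hkey := key_alg hn hn' hj hpx (S.zeta_nonneg F hx) (S.G_nonneg (f := S.pp F) hx)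
    (S.ZG_sq_le F hx (S.pp F)) (S.ZG_pp F hx)
  have hm0 : 0 ≤ S.mp F x :=
    mul_nonneg (Real.rpow_nonneg hpx.le _) (inv_nonneg.2 (S.rho_pos hx).le)
  have hfin := mul_nonpos_of_nonneg_of_nonpos (mul_nonneg (hχ0 x hxU) hm0) hkey
  rw [hAx, hSx]
  rw [← hB, ← hc] at hfin
  nlinarith [hfin]

end Sol
end Crest.Agent.R236
end
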