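import Crest.Agent.R236.Basic

/-!
# Linear algebra lemmas for positive definite real matrices

Recipes: diagonalise (`Matrix.IsHermitian.eigenvalues`, `det_eq_prod_eigenvalues`,
`trace_eq_sum_eigenvalues`, `spectral_theorem`) or write `A = Bᵀ B` with `B` invertible
(`CFC.sqrt` / `Matrix.PosDef` square root) to reduce to `A = 1`;
AM-GM = `Real.inner_le_nnorm_mul_nnorm`-free: `Real.geom_mean_le_arith_mean_weighted` or
`inner_le_...`; it is convenient to prove first `det M ≤ (trace M / n)^n` for PosSemidef `M`.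
-/

set_option autoImplicit false
open scoped ContDiff Topology
open Crest.GeometryTopology.CoordMetric Crest.GeometryTopology.AffineMaximal
open MeasureTheory Set

noncomputable section
namespace Crest.Agent.R236

variable {n : ℕ}

open Matrix

theorem linAlg_quad (A : Matrix (Fin n) (Fin n) ℝ) (v w : Fin n → ℝ) :
    ∑ i, ∑ j, A i j * v i * w j = v ⬝ᵥ A *ᵥ w := by
  simp only [dotProduct, mulVec, Finset.mul_sum]
  exact Finset.sum_congr rfl fun i _ => Finset.sum_congr rfl fun j _ => by ring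

theorem linAlg_symm {M : Matrix (Fin n) (Fin n) ℝ} (hM : M.IsHermitian) (i j : Fin n) :
    M i j = M j i := by
  simpa using (hM.apply i j).symm

open scoped MatrixOrder in
/-- `A = Bᵀ B` with `B` invertible -/
theorem linAlg_fac {A : Matrix (Fin n) (Fin n) ℝ} (hA : A.PosDef) :
    ∃ B C : Matrix (Fin n) (Fin n) ℝ, B * C = 1 ∧ C * B = 1 ∧ A = Bᵀ * B ∧ A⁻¹ = C * Cᵀ := by
  obtain ⟨B, hB⟩ := CStarAlgebra.nonneg_iff_eq_star_mul_self.mp hA.posSemidef.nonneg
  rw [star_eq_conjTranspose, conjTranspose_eq_transpose_of_trivial] at hB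
  have hd : IsUnit B.det := by
    have := hA.det_pos.ne'
    rw [hB, det_mul, det_transpose] at this
    exact (right_ne_zero_of_mul this).isUnit
  refine ⟨B, B⁻¹, mul_nonsing_inv B hd, nonsing_inv_mul B hd, hB, ?_⟩
  rw [hB, Matrix.mul_inv_rev, transpose_nonsing_inv]

/-- diagonalisation of the quadratic form -/
theorem linAlg_diag {A : Matrix (Fin n) (Fin n) ℝ} (hA : A.IsHermitian) (v : Fin n → ℝ) :
    ∃ w : Fin n → ℝ, ∑ i, v i ^ 2 = ∑ i, w i ^ 2 ∧
      ∑ i, ∑ j, A i j * v i * v j = ∑ i, hA.eigenvalues i * w i ^ 2 := by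
  have h1 := hA.spectral_theorem
  rw [Unitary.conjStarAlgAut_apply] at h1
  have h2 : (hA.eigenvectorUnitary : Matrix (Fin n) (Fin n) ℝ) *
      star (hA.eigenvectorUnitary : Matrix (Fin n) (Fin n) ℝ) = 1 := Unitary.coe_mul_star_self _
  rw [star_eq_conjTranspose, conjTranspose_eq_transpose_of_trivial] at h1 h2
  generalize (hA.eigenvectorUnitary : Matrix (Fin n) (Fin n) ℝ) = U at h1 h2
  refine ⟨Uᵀ *ᵥ v, ?_, ?_⟩
  · have : v ⬝ᵥ v = (Uᵀ *ᵥ v) ⬝ᵥ (Uᵀ *ᵥ v) := by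
      conv_lhs => rw [← one_mulVec v, ← h2, ← mulVec_mulVec, dotProduct_comm, dotProduct_mulVec]
      rw [mulVec_mulVec, h2, one_mulVec, mulVec_transpose]
    simpa only [dotProduct, sq] using this
  · rw [linAlg_quad]
    generalize hA.eigenvalues = lam at h1
    rw [h1, ← mulVec_mulVec, ← mulVec_mulVec, dotProduct_mulVec, ← mulVec_transpose]
    simp only [dotProduct, mulVec_diagonal, Function.comp_apply, RCLike.ofReal_real_eq_id, id]
    exact Finset.sum_congr rfl fun i _ => by ring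

theorem linAlg_trace {M : Matrix (Fin n) (Fin n) ℝ} (hM : M.IsHermitian) :
    M.trace = ∑ i, hM.eigenvalues i := by
  simpa using hM.trace_eq_sum_eigenvalues

theorem linAlg_det {M : Matrix (Fin n) (Fin n) ℝ} (hM : M.IsHermitian) :
    M.det = ∏ i, hM.eigenvalues i := by
  simpa using hM.det_eq_prod_eigenvalues

theorem linAlg_conj {M : Matrix (Fin n) (Fin n) ℝ} (hM : M.PosSemidef)
    (C : Matrix (Fin n) (Fin n) ℝ) : (Cᵀ * M * C).PosSemidef := by
  simpa only [conjTranspose_eq_transpose_of_trivial] using hM.conjTranspose_mul_mul_same C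

theorem linAlg_trace_mul (P : Matrix (Fin n) (Fin n) ℝ) {M : Matrix (Fin n) (Fin n) ℝ}
    (hM : M.IsHermitian) : ∑ i, ∑ j, P i j * M i j = (P * M).trace := by
  simp only [trace, diag_apply, mul_apply]
  exact Finset.sum_congr rfl fun i _ => Finset.sum_congr rfl fun j _ => by rw [linAlg_symm hM i j]

/-- AM-GM for a positive semidefinite matrix -/
theorem det_le_trace_pow {M : Matrix (Fin n) (Fin n) ℝ} (hM : M.PosSemidef) :
    M.det ≤ (M.trace / n) ^ n := by
  rcases Nat.eq_zero_or_pos n with rfl | hn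
  · simp
  have hn' : (0 : ℝ) < n := by exact_mod_cast hn
  have h1 := Real.geom_mean_le_arith_mean Finset.univ (fun _ : Fin n => (1 : ℝ)) hM.1.eigenvalues
    (fun _ _ => zero_le_one) (by simpa using hn) (fun i _ => hM.eigenvalues_nonneg i)
  simp only [Real.rpow_one, one_mul, Finset.sum_const, Finset.card_univ, Fintype.card_fin,
    nsmul_eq_mul, mul_one] at h1
  rw [← linAlg_det, ← linAlg_trace] at h1
  have h2 := pow_le_pow_left₀ (Real.rpow_nonneg hM.det_nonneg _) h1 n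
  rwa [Real.rpow_inv_natCast_pow hM.det_nonneg hn.ne'] at h2

/-- AM-GM relative to a positive definite matrix: `det M ≤ det A · (tr(A⁻¹ M)/n)^n` -/
theorem det_le_rel {A M : Matrix (Fin n) (Fin n) ℝ} (hA : A.PosDef) (hM : M.PosSemidef) :
    M.det ≤ A.det * ((∑ i, ∑ j, A⁻¹ i j * M i j) / n) ^ n := by
  obtain ⟨B, C, h1, h2, h3, h4⟩ := linAlg_fac hA
  have h5 := det_le_trace_pow (linAlg_conj hM C)
  rw [trace_mul_comm, ← Matrix.mul_assoc, ← h4, ← linAlg_trace_mul _ hM.1] at h5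
  have h6 : B.det * C.det = 1 := by rw [← det_mul, h1, det_one]
  have h7 : M.det = A.det * (Cᵀ * M * C).det := by
    rw [h3, det_mul, det_mul, det_mul, det_transpose, det_transpose]
    linear_combination (-(M.det) * (1 + B.det * C.det)) * h6
  rw [h7]
  exact mul_le_mul_of_nonneg_left h5 hA.det_pos.le

/-- a PosDef matrix with bounded trace and determinant bounded below is bounded below -/
theorem quad_ge_of_trace_det {A : Matrix (Fin n) (Fin n) ℝ} (hA : A.PosDef) {a b : ℝ}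
    (ha : 0 < a) (hb : 0 < b) (htr : A.trace ≤ a) (hdet : b ≤ A.det) (v : Fin n → ℝ) :
    b / a ^ (n - 1) * ∑ i, v i ^ 2 ≤ ∑ i, ∑ j, A i j * v i * v j := by
  have _ := hb
  obtain ⟨w, h1, h2⟩ := linAlg_diag hA.1 v
  rw [h1, h2, Finset.mul_sum]
  refine Finset.sum_le_sum fun i _ => mul_le_mul_of_nonneg_right ?_ (sq_nonneg _)
  have h3 : ∀ j, hA.1.eigenvalues j ≤ a := fun j => by
    refine le_trans ?_ htr
    rw [linAlg_trace hA.1]
    exact Finset.single_le_sum (fun k _ => (hA.eigenvalues_pos k).le) (Finset.mem_univ j)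
  rw [div_le_iff₀ (pow_pos ha _)]
  refine hdet.trans ?_
  rw [linAlg_det hA.1, ← Finset.mul_prod_erase _ _ (Finset.mem_univ i)]
  refine mul_le_mul_of_nonneg_left ?_ (hA.eigenvalues_pos i).le
  refine (Finset.prod_le_prod (fun j _ => (hA.eigenvalues_pos j).le) fun j _ => h3 j).trans_eq ?_
  simp

theorem quad_le_trace {A : Matrix (Fin n) (Fin n) ℝ} (hA : A.PosSemidef) (v : Fin n → ℝ) :
    ∑ i, ∑ j, A i j * v i * v j ≤ A.trace * ∑ i, v i ^ 2 := by
  obtain ⟨w, h1, h2⟩ := linAlg_diag hA.1 v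
  rw [h1, h2, Finset.mul_sum]
  refine Finset.sum_le_sum fun i _ => mul_le_mul_of_nonneg_right ?_ (sq_nonneg _)
  rw [linAlg_trace hA.1]
  exact Finset.single_le_sum (fun k _ => hA.eigenvalues_nonneg k) (Finset.mem_univ i)

theorem posSemidef_of_quad {M : Matrix (Fin n) (Fin n) ℝ} (hs : ∀ i j, M i j = M j i)
    (h : ∀ v : Fin n → ℝ, 0 ≤ ∑ i, ∑ j, M i j * v i * v j) : M.PosSemidef := by
  refine PosSemidef.of_dotProduct_mulVec_nonneg (IsHermitian.ext fun i j => by simpa using hs j i)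
    fun x => ?_
  simpa only [star_trivial, ← linAlg_quad] using h x

/-- `A ≤ P`, both PosDef with the same determinant, forces equality
(`tr(P⁻¹A) ≥ n` by `det_le_rel`, so `tr(P⁻¹(P - A)) ≤ 0` with `P - A` PosSemidef). -/
theorem eq_of_le_of_det_eq {A P : Matrix (Fin n) (Fin n) ℝ} (hA : A.PosDef) (hP : P.PosDef)
    (hle : ∀ v : Fin n → ℝ, ∑ i, ∑ j, A i j * v i * v j ≤ ∑ i, ∑ j, P i j * v i * v j)
    (hdet : A.det = P.det) : A = P := by
  rcases Nat.eq_zero_or_pos n with rfl | hn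
  · exact Subsingleton.elim _ _
  have hn' : (0 : ℝ) < n := by exact_mod_cast hn
  have hD : (P - A).PosSemidef := by
    refine posSemidef_of_quad (fun i j => ?_) fun v => ?_
    · rw [Matrix.sub_apply, Matrix.sub_apply, linAlg_symm hA.1 i j, linAlg_symm hP.1 i j]
    · simp only [Matrix.sub_apply, sub_mul, Finset.sum_sub_distrib]
      exact sub_nonneg.2 (hle v)
  have h0 := det_le_rel hP hA.posSemidef
  rw [hdet, linAlg_trace_mul _ hA.1, le_mul_iff_one_le_right hP.det_pos] at h0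
  obtain ⟨B, C, h1, h2, h3, h4⟩ := linAlg_fac hP
  have h5 : 0 ≤ (P⁻¹ * A).trace := by
    have := (linAlg_conj hA.posSemidef C).trace_nonneg
    rwa [trace_mul_comm, ← Matrix.mul_assoc, ← h4] at this
  have h6 : 1 ≤ (P⁻¹ * A).trace / n := (one_le_pow_iff_of_nonneg (by positivity) hn.ne').1 h0
  rw [le_div_iff₀ hn', one_mul] at h6
  have hN := linAlg_conj hD C
  have h7 : (Cᵀ * (P - A) * C).trace = 0 := by
    refine le_antisymm ?_ hN.trace_nonneg
    rw [trace_mul_comm, ← Matrix.mul_assoc, ← h4, Matrix.mul_sub, trace_sub,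
      nonsing_inv_mul P hP.det_pos.ne'.isUnit, trace_one, Fintype.card_fin]
    linarith
  have h8 := hN.trace_eq_zero_iff.1 h7
  have h9 : P - A = Bᵀ * (Cᵀ * (P - A) * C) * B := by
    rw [← Matrix.mul_assoc, ← Matrix.mul_assoc, ← transpose_mul, h2, transpose_one, Matrix.one_mul,
      Matrix.mul_assoc, h2, Matrix.mul_one]
  rw [h8, Matrix.mul_zero, Matrix.zero_mul, sub_eq_zero] at h9
  exact h9.symm

/-- Pogorelov's inequality for `A = 1` -/
theorem linAlg_pog {T : Matrix (Fin n) (Fin n) ℝ} (hT : ∀ i j, T i j = T j i) (e : Fin n → ℝ) :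
    2 * (e ⬝ᵥ e) * ((T *ᵥ e) ⬝ᵥ (T *ᵥ e)) - (e ⬝ᵥ T *ᵥ e) ^ 2 ≤ (T * T).trace * (e ⬝ᵥ e) ^ 2 := by
  obtain ⟨g, hg⟩ : ∃ g, g = T *ᵥ e := ⟨_, rfl⟩
  rw [← hg]
  obtain ⟨s, hs⟩ : ∃ s, s = e ⬝ᵥ e := ⟨_, rfl⟩
  obtain ⟨γ, hγ⟩ : ∃ γ, γ = g ⬝ᵥ g := ⟨_, rfl⟩
  obtain ⟨τ, hτ⟩ : ∃ τ, τ = e ⬝ᵥ g := ⟨_, rfl⟩
  rw [← hs, ← hγ, ← hτ]
  have hs0 : 0 ≤ s := hs ▸ Finset.sum_nonneg fun i _ => mul_self_nonneg (e i)
  rcases hs0.eq_or_lt with h0 | h0
  · rw [← h0]
    nlinarith [sq_nonneg τ]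
  have e1 : ∑ i, ∑ j, T i j * T i j = (T * T).trace := by
    simp only [trace, diag_apply, mul_apply]
    exact Finset.sum_congr rfl fun i _ => Finset.sum_congr rfl fun j _ => by rw [hT j i]
  have e2 : ∑ i, ∑ j, T i j * g i * e j = γ := by rw [linAlg_quad, ← hg, hγ]
  have e3 : ∑ i, ∑ j, T i j * e i * g j = γ := by
    rw [← e2, Finset.sum_comm]
    exact Finset.sum_congr rfl fun i _ => Finset.sum_congr rfl fun j _ => by rw [hT j i]; ring
  have e4 : ∑ i, ∑ j, T i j * e i * e j = τ := by rw [linAlg_quad, ← hg, hτ]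
  have e5 : ∑ i, ∑ j, (g i * g i) * (e j * e j) = γ * s := by
    rw [hγ, hs, dotProduct, dotProduct, Finset.sum_mul_sum]
  have e6 : ∑ i, ∑ j, (e i * e i) * (g j * g j) = s * γ := by
    rw [hγ, hs, dotProduct, dotProduct, Finset.sum_mul_sum]
  have e7 : ∑ i, ∑ j, (e i * e i) * (e j * e j) = s * s := by
    rw [hs, dotProduct, Finset.sum_mul_sum]
  have e8 : ∑ i, ∑ j, (e i * g i) * (e j * g j) = τ * τ := by
    rw [hτ, dotProduct, Finset.sum_mul_sum]
  have e9 : ∑ i, ∑ j, (e i * g i) * (e j * e j) = τ * s := by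
    rw [hτ, hs, dotProduct, dotProduct, Finset.sum_mul_sum]
  have e10 : ∑ i, ∑ j, (e i * e i) * (e j * g j) = s * τ := by
    rw [hτ, hs, dotProduct, dotProduct, Finset.sum_mul_sum]
  have key : ∑ i, ∑ j, (s ^ 2 * T i j - s * (g i * e j) - s * (e i * g j) + τ * (e i * e j)) ^ 2 =
      s ^ 4 * (T * T).trace - 2 * s ^ 3 * γ - 2 * s ^ 3 * γ + 2 * s ^ 2 * τ * τ + s ^ 2 * (γ * s) +
        s ^ 2 * (s * γ) + τ ^ 2 * (s * s) + 2 * s ^ 2 * (τ * τ) - 2 * s * τ * (τ * s) -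
        2 * s * τ * (s * τ) := by
    rw [← e1, ← e5, ← e6, ← e7, ← e8, ← e9, ← e10]
    conv_rhs =>
      rw [show 2 * s ^ 2 * τ * τ = 2 * s ^ 2 * τ * ∑ i, ∑ j, T i j * e i * e j by rw [e4],
        show ∀ x : ℝ, x - 2 * s ^ 3 * γ - 2 * s ^ 3 * γ =
          x - 2 * s ^ 3 * (∑ i, ∑ j, T i j * g i * e j) -
            2 * s ^ 3 * ∑ i, ∑ j, T i j * e i * g j by intro x; rw [e2, e3]]
    simp only [Finset.mul_sum, ← Finset.sum_add_distrib, ← Finset.sum_sub_distrib]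
    exact Finset.sum_congr rfl fun i _ => Finset.sum_congr rfl fun j _ => by ring
  have h1 : 0 ≤ ∑ i, ∑ j,
      (s ^ 2 * T i j - s * (g i * e j) - s * (e i * g j) + τ * (e i * e j)) ^ 2 :=
    Finset.sum_nonneg fun i _ => Finset.sum_nonneg fun j _ => sq_nonneg _
  rw [key] at h1
  have h2 : 0 ≤ s ^ 2 * ((T * T).trace * s ^ 2 - (2 * s * γ - τ ^ 2)) := by
    convert h1 using 1
    ring
  exact sub_nonneg.1 ((mul_nonneg_iff_of_pos_left (pow_pos h0 2)).1 h2)

theorem linAlg_conj_symm {T : Matrix (Fin n) (Fin n) ℝ} (hT : T.IsSymm)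
    (C : Matrix (Fin n) (Fin n) ℝ) (i j : Fin n) : (Cᵀ * T * C) i j = (Cᵀ * T * C) j i := by
  have : (Cᵀ * T * C)ᵀ = Cᵀ * T * C := by
    rw [transpose_mul, transpose_mul, transpose_transpose, hT.eq, Matrix.mul_assoc]
  rw [← this, transpose_apply, this]

theorem linAlg_trace_conj (C T : Matrix (Fin n) (Fin n) ℝ) :
    (C * Cᵀ * T * (C * Cᵀ) * T).trace = (Cᵀ * T * C * (Cᵀ * T * C)).trace := by
  rw [show C * Cᵀ * T * (C * Cᵀ) * T = C * (Cᵀ * T * C * (Cᵀ * T)) by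
    simp only [Matrix.mul_assoc], trace_mul_comm]
  simp only [Matrix.mul_assoc]

/-- Pogorelov's algebraic inequality.  `A` PosDef, `T` symmetric, `g = T e`, `s = eᵀ A e`:
`tr(A⁻¹ T A⁻¹ T) s² ≥ 2 s gᵀA⁻¹g - (eᵀ g)²`.  (For `A = 1`, `|e| = 1`: expand
`|T - g eᵀ - e gᵀ + (e·g) e eᵀ|² ≥ 0`.) -/
theorem pogorelov_alg {A T : Matrix (Fin n) (Fin n) ℝ} (hA : A.PosDef) (hT : T.IsSymm)
    (e : Fin n → ℝ) :
    2 * (∑ i, ∑ j, A i j * e i * e j) * (∑ i, ∑ j, A⁻¹ i j * T.mulVec e i * T.mulVec e j)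
        - (∑ i, e i * T.mulVec e i) ^ 2
      ≤ (A⁻¹ * T * A⁻¹ * T).trace * (∑ i, ∑ j, A i j * e i * e j) ^ 2 := by
  obtain ⟨B, C, h1, h2, h3, h4⟩ := linAlg_fac hA
  have h5 := linAlg_pog (linAlg_conj_symm hT C) (B *ᵥ e)
  have e1 : (B *ᵥ e) ⬝ᵥ (B *ᵥ e) = e ⬝ᵥ A *ᵥ e := by
    rw [h3, ← mulVec_mulVec, dotProduct_mulVec e, vecMul_transpose]
  have e2 : (Cᵀ * T * C) *ᵥ (B *ᵥ e) = Cᵀ *ᵥ (T *ᵥ e) := by
    rw [mulVec_mulVec, mulVec_mulVec, Matrix.mul_assoc, h2, Matrix.mul_one]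
  have e3 : (Cᵀ *ᵥ (T *ᵥ e)) ⬝ᵥ (Cᵀ *ᵥ (T *ᵥ e)) = (T *ᵥ e) ⬝ᵥ A⁻¹ *ᵥ (T *ᵥ e) := by
    rw [h4, ← mulVec_mulVec, dotProduct_mulVec (T *ᵥ e) C, mulVec_transpose]
  have e4 : (B *ᵥ e) ⬝ᵥ (Cᵀ *ᵥ (T *ᵥ e)) = e ⬝ᵥ T *ᵥ e := by
    rw [dotProduct_mulVec, vecMul_transpose, mulVec_mulVec, h2, one_mulVec]
  rw [e1, e2, e3, e4, ← linAlg_trace_conj, ← h4] at h5
  rw [linAlg_quad, linAlg_quad]
  exact h5

theorem trace_inv_sq_nonneg {A T : Matrix (Fin n) (Fin n) ℝ} (hA : A.PosDef) (hT : T.IsSymm) :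
    0 ≤ (A⁻¹ * T * A⁻¹ * T).trace := by
  obtain ⟨B, C, h1, h2, h3, h4⟩ := linAlg_fac hA
  rw [h4, linAlg_trace_conj]
  simp only [trace, diag_apply, mul_apply (M := Cᵀ * T * C)]
  refine Finset.sum_nonneg fun i _ => Finset.sum_nonneg fun j _ => ?_
  rw [linAlg_conj_symm hT C j i]
  exact mul_self_nonneg _

theorem det_mat (T : E n →L[ℝ] E n) : (mat T).det = T.det := by
  rw [ContinuousLinearMap.det,
    ← LinearMap.det_toMatrix (EuclideanSpace.basisFun (Fin n) ℝ).toBasis]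
  congr 1

theorem apply_eq_mat (T : E n →L[ℝ] E n) (x : E n) (i : Fin n) : T x i = ∑ j, mat T i j * x j := by
  have hx : x = ∑ j, x j • ee j := by
    ext k
    simp [Pi.single_apply]
  conv_lhs => rw [hx, map_sum]
  simp [mat, mul_comm]

/-- Auerbach basis: a compact set `K ∋ 0` with `0` in its interior lies in the cube spanned by
`n` of its own points (maximise `|det|` over `Kⁿ`; Cramer's rule / multilinearity of `det`). -/
theorem exists_auerbach {K : Set (E n)} (hK : IsCompact K) (h0 : K ∈ 𝓝 (0 : E n)) :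
    ∃ T : E n ≃L[ℝ] E n, (∀ i, T (ee i) ∈ K) ∧ ∀ x, T x ∈ K → ∀ i, |x i| ≤ 1 := by
  let F : (Fin n → E n) → Matrix (Fin n) (Fin n) ℝ := fun v => Matrix.of fun i j => v j i
  have hF : Continuous fun v => |(F v).det| := by
    refine (Continuous.matrix_det ?_).abs
    refine continuous_matrix fun i j => ?_
    simp only [F, of_apply]
    fun_prop
  obtain ⟨ε, hε, hball⟩ := Metric.mem_nhds_iff.1 h0
  have h1 : (fun j => (ε / 2) • ee j : Fin n → E n) ∈ Set.pi univ fun _ => K := fun j _ =>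
    hball (by
      rw [mem_ball_zero_iff, norm_smul, PiLp.norm_single, norm_one, Real.norm_of_nonneg (by linarith)]
      linarith)
  obtain ⟨v, hv, hmax⟩ := (isCompact_univ_pi fun _ : Fin n => hK).exists_isMaxOn ⟨_, h1⟩
    hF.continuousOn
  have hpos : 0 < |(F v).det| := by
    refine lt_of_lt_of_le ?_ (hmax h1)
    have : F (fun j => (ε / 2) • ee j) = (ε / 2) • (1 : Matrix (Fin n) (Fin n) ℝ) := by
      ext i j
      simp [F, one_apply]
    simp only [this, det_smul, det_one, mul_one]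
    positivity
  have hinj : Function.Injective (Matrix.toEuclideanLin (F v)) := by
    intro x y hxy
    have h2 : F v *ᵥ x.ofLp = F v *ᵥ y.ofLp := congrArg WithLp.ofLp hxy
    exact WithLp.ofLp_injective 2
      (mulVec_injective_of_isUnit ((isUnit_iff_isUnit_det _).2 (abs_pos.1 hpos).isUnit) h2)
  let T := (LinearEquiv.ofInjectiveEndo _ hinj).toContinuousLinearEquiv
  have hT : ∀ x k, T x k = ∑ j, v j k * x j := fun x k => rfl
  refine ⟨T, fun i => ?_, fun x hx i => ?_⟩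
  · have : T (ee i) = v i := by
      ext k
      simp [hT]
    rw [this]
    exact hv i (mem_univ i)
  · have h2 : Function.update v i (T x) ∈ Set.pi univ fun _ => K := fun j _ => by
      rcases eq_or_ne j i with rfl | hj
      · rwa [Function.update_self]
      · rw [Function.update_of_ne hj]
        exact hv j (mem_univ j)
    have h3 : F (Function.update v i (T x)) =
        (F v).updateCol i fun k => ∑ j, x j • F v k j := by
      ext k j
      rcases eq_or_ne j i with rfl | hj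
      · simp [F, hT, mul_comm]
      · simp [F, hj]
    have h4 : |(F (Function.update v i (T x))).det| ≤ |(F v).det| := hmax h2
    rw [h3, det_updateCol_sum, smul_eq_mul, abs_mul] at h4
    exact (mul_le_iff_le_one_left hpos).1 h4

end Crest.Agent.R236
end
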