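import Crest.Agent.R236.Transform

/-!
# Auxiliary facts on normal caps (for `Mass.lean`)
-/

set_option autoImplicit false
open scoped ContDiff Topology
open Crest.GeometryTopology.CoordMetric Crest.GeometryTopology.AffineMaximal
open MeasureTheory Set

noncomputable section
namespace Crest.Agent.R236
namespace Mass

variable {n : ℕ}

theorem vol_cube (n : ℕ) (r : ℝ) (hr : 0 ≤ r) :
    volume {x : E n | ∀ i, |x i| ≤ r} = ENNReal.ofReal ((2 * r) ^ n) := by
  have h : {x : E n | ∀ i, |x i| ≤ r} =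
      (WithLp.ofLp : E n → Fin n → ℝ) ⁻¹' Icc (fun _ => -r) (fun _ => r) := by
    ext x
    simp only [mem_ofPred_eq, mem_preimage, mem_Icc, Pi.le_def, abs_le, forall_and]
  rw [h, (PiLp.volume_preserving_ofLp (Fin n)).measure_preimage
    measurableSet_Icc.nullMeasurableSet, Real.volume_Icc_pi, Finset.prod_const, Finset.card_univ,
    Fintype.card_fin, ← ENNReal.ofReal_pow (by linarith)]
  congr 2
  ring

theorem clm_eq_sum (α : E n →L[ℝ] ℝ) (v : E n) : α v = ∑ i, v i * α (ee i) := by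
  conv_lhs => rw [← (EuclideanSpace.basisFun (Fin n) ℝ).sum_repr v]
  simp [map_sum]

theorem norm_le_sum (v : E n) : ‖v‖ ≤ ∑ i, |v i| := by
  conv_lhs => rw [← (EuclideanSpace.basisFun (Fin n) ℝ).sum_repr v]
  refine (norm_sum_le _ _).trans (le_of_eq (Finset.sum_congr rfl fun i _ => ?_))
  simp [norm_smul]

theorem hasFDerivAt_pc (m : ℕ) {f : E n → ℝ} {f' : E n →L[ℝ] ℝ} {x : E n}
    (hf : HasFDerivAt f f' x) :
    HasFDerivAt (fun y => pc (m + 2) (f y)) ((((m : ℝ) + 2) * pc (m + 1) (f x)) • f') x :=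
  HasDerivAt.comp_hasFDerivAt (h₂ := pc (m + 2)) x (hasDerivAt_pc m (f x)) hf

theorem lev_mono (S : Sol n) {r r' : ℝ} (h : r ≤ r') : S.lev r ⊆ S.lev r' :=
  fun _ hx => ⟨hx.1, hx.2.trans h⟩

theorem lev_sub (S : Sol n) (r : ℝ) : S.lev r ⊆ S.Ω := fun _ hx => hx.1

theorem tp_zero (S : Sol n) (x : E n) : S.tp x 0 = -S.u x + fderiv ℝ S.u x x := by
  simp [Sol.tp, Sol.nb, Sol.X]

variable {S : Sol n} {c : ℝ} {K : Cap S c}

theorem sec_eq (h : K.Normal) (r : ℝ) : K.sec r = S.lev r := by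
  ext x
  simp [Cap.sec, Sol.lev, Sol.af, Sol.X, h.l_eq, h.z_eq]

theorem compact_lev (h : K.Normal) {r : ℝ} (hr : r ≤ 1) : IsCompact (S.lev r) :=
  sec_eq h r ▸ K.isCompact_sec hr

theorem zero_mem_C (h : K.Normal) : (0 : V n) ∈ S.C := h.z_eq ▸ K.z_mem

theorem zero_mem_lev (h : K.Normal) : (0 : E n) ∈ S.lev 0 := zero_mem_C h

theorem u_ge (h : K.Normal) {x : E n} (hx : x ∈ S.lev 1) : -2 ≤ S.u x := by
  have := K.low (S.X x) (S.X_mem hx.1)
  simp only [h.l_eq, h.z_eq, sub_zero, Sol.X, ContinuousLinearMap.coe_snd'] at this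
  exact this hx.2

theorem D_pos (hc : 0 < c) (h : K.Normal) {x : E n} (hx : x ∈ S.Ω) : 0 < S.tp x 0 :=
  h.z_eq ▸ K.tp_z_pos hc hx

theorem up_mem (h : K.Normal) : up n ∈ S.C :=
  ⟨(zero_mem_lev h).1, (zero_mem_lev h).2.trans zero_le_one⟩

theorem c_le_D (hc : 0 < c) (h : K.Normal) {x : E n} (hx : x ∈ S.Ω) : c ≤ S.tp x 0 := by
  have := K.abs_nb_le hc hx (up_mem h) (by simp [h.l_eq, h.z_eq]) (zero_mem_C h)
    (by simp [h.l_eq, h.z_eq])
  rwa [sub_zero, S.nb_up, abs_one, mul_one, h.z_eq] at this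

theorem du_le (hc : 0 < c) (h : K.Normal) {x : E n} (hx : x ∈ S.Ω) (i : Fin n) :
    c * |fderiv ℝ S.u x (ee i)| ≤ S.tp x 0 := by
  have h1 : ((ee i, 1) : V n) ∈ S.C := h.aue.ee_mem i
  have := K.abs_nb_le hc hx h1 (by simp [h.l_eq, h.z_eq]) (up_mem h) (by simp [h.l_eq, h.z_eq])
  rw [h.z_eq] at this
  simpa [Sol.nb] using this

theorem integral_le_of_le (h : K.Normal) {r : ℝ} (hr : r ≤ 1) {f : E n → ℝ}
    (hf : ContinuousOn f (S.lev r)) {M : ℝ} (hM : 0 ≤ M) (hfM : ∀ x ∈ S.lev r, f x ≤ M) :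
    ∫ x in S.lev r, f x ≤ M * 2 ^ n := by
  have hK := compact_lev h hr
  have h1 : ∫ x in S.lev r, f x ≤ ∫ _ in S.lev r, M :=
    setIntegral_mono_on (hf.integrableOn_compact hK) (integrableOn_const hK.measure_lt_top.ne)
      hK.measurableSet hfM
  rw [setIntegral_const, smul_eq_mul, mul_comm] at h1
  refine h1.trans (mul_le_mul_of_nonneg_left ?_ hM)
  have h2 : volume (S.lev r) ≤ ENNReal.ofReal (2 ^ n) := by
    have := vol_cube n 1 zero_le_one
    rw [mul_one] at this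
    rw [← this]
    exact measure_mono fun x hx => h.aue.cube x (lev_mono S hr hx)
  exact ENNReal.toReal_le_of_le_ofReal (by positivity) h2

theorem u_diff (S : Sol n) {x : E n} (hx : x ∈ S.Ω) : DifferentiableAt ℝ S.u x :=
  (S.u_at hx).differentiableAt (by simp)

theorem cont_D (S : Sol n) : ContinuousOn (fun x => S.tp x 0) S.Ω :=
  (S.contDiffOn_tp 0).continuousOn

/-- the weighted first moment -/
theorem V1_core (h : K.Normal) :
    ∫ x in S.lev 1, (1 - S.u x) * S.tp x 0 ≤ (6 + 9 * n / 2) * 2 ^ n := by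
  have hK := compact_lev h le_rfl
  have hu1 : ContDiffOn ℝ 1 (fun x => 1 - S.u x) S.Ω :=
    contDiffOn_const.sub (S.smooth.of_le (by simp))
  have hg : ContDiffOn ℝ 1 (fun x => pc 2 (1 - S.u x)) S.Ω :=
    (contDiff_one_pc 0).comp_contDiffOn hu1
  have hdiv := integral_div_eq_zero S.isOpen hK (lev_sub S 1)
    (fun i x => x i * pc 2 (1 - S.u x))
    (fun i => (EuclideanSpace.proj (𝕜 := ℝ) i).contDiff.contDiffOn.mul hg)
    (fun i x hx hx' => by
      have : 1 - S.u x ≤ 0 := by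
        by_contra h1
        exact hx' ⟨hx, by linarith⟩
      simp [pc_of_nonpos two_ne_zero this])
  have hd : ∀ x ∈ S.lev 1, ∑ i, fderiv ℝ (fun x : E n => x i * pc 2 (1 - S.u x)) x (ee i) =
      n * (1 - S.u x) ^ 2 - 2 * (1 - S.u x) * fderiv ℝ S.u x x := fun x hx => by
    have h0 : 0 ≤ 1 - S.u x := by linarith [hx.2]
    have h1 : HasFDerivAt (fun x => pc 2 (1 - S.u x))
        (((((0 : ℕ) : ℝ) + 2) * pc 1 (1 - S.u x)) • (-fderiv ℝ S.u x)) x :=
      hasFDerivAt_pc 0 ((u_diff S hx.1).hasFDerivAt.const_sub 1)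
    have h2 : ∀ i, fderiv ℝ (fun x : E n => x i * pc 2 (1 - S.u x)) x (ee i) =
        (1 - S.u x) ^ 2 - 2 * (1 - S.u x) * (x i * fderiv ℝ S.u x (ee i)) := fun i => by
      have h3 := ((EuclideanSpace.proj (𝕜 := ℝ) i).hasFDerivAt (x := x)).mul h1
      have h4 : fderiv ℝ (fun x : E n => x i * pc 2 (1 - S.u x)) x = _ := h3.fderiv
      rw [h4]
      simp [pc_of_nonneg _ h0]
      ring
    simp only [h2, Finset.sum_sub_distrib, ← Finset.mul_sum]
    rw [← clm_eq_sum]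
    simp
  rw [setIntegral_congr_fun hK.measurableSet hd] at hdiv
  have cu : ContinuousOn S.u (S.lev 1) := S.smooth.continuousOn.mono (lev_sub S 1)
  have cD : ContinuousOn (fun x => S.tp x 0) (S.lev 1) := (cont_D S).mono (lev_sub S 1)
  have cdu : ContinuousOn (fun x => fderiv ℝ S.u x x) (S.lev 1) :=
    (cD.add cu).congr fun x _ => by simp [tp_zero]
  have e1 : ∫ x in S.lev 1, (1 - S.u x) * S.tp x 0 =
      ∫ x in S.lev 1, ((1 - S.u x) * (-S.u x) + n / 2 * (1 - S.u x) ^ 2) := by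
    have i1 : IntegrableOn (fun x => (1 - S.u x) * S.tp x 0) (S.lev 1) :=
      ContinuousOn.integrableOn_compact hK (by fun_prop)
    have i2 : IntegrableOn (fun x => (1 / 2 : ℝ) *
        (n * (1 - S.u x) ^ 2 - 2 * (1 - S.u x) * fderiv ℝ S.u x x)) (S.lev 1) :=
      ContinuousOn.integrableOn_compact hK (by fun_prop)
    have e2 := integral_add i1 i2
    rw [integral_const_mul, hdiv, mul_zero, add_zero] at e2
    rw [← e2]
    refine setIntegral_congr_fun hK.measurableSet fun x _ => ?_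
    simp only [tp_zero]
    ring
  rw [e1]
  refine integral_le_of_le h le_rfl (by fun_prop) (by positivity) fun x hx => ?_
  have h1 := hx.2
  have h2 := u_ge h hx
  have h3 : (1 - S.u x) ^ 2 ≤ 9 := by nlinarith
  have h4 : (n : ℝ) / 2 * (1 - S.u x) ^ 2 ≤ n / 2 * 9 :=
    mul_le_mul_of_nonneg_left h3 (by positivity)
  nlinarith

/-- the gradient map -/
def grad (S : Sol n) (x : E n) : E n := WithLp.toLp 2 fun i => fderiv ℝ S.u x (ee i)

theorem grad_diff (S : Sol n) {x : E n} (hx : x ∈ S.Ω) : DifferentiableAt ℝ (grad S) x :=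
  differentiableAt_euclidean.2 fun i =>
    ((contDiffOn_fderiv_apply S.isOpen S.smooth (ee i)).contDiffAt
      (S.isOpen.mem_nhds hx)).differentiableAt (by simp)

theorem det_grad (S : Sol n) {x : E n} (hx : x ∈ S.Ω) :
    (fderiv ℝ (grad S) x).det = (S.H x).det := by
  rw [← det_mat, ← Matrix.det_transpose]
  congr 1
  ext i j
  have h := ((EuclideanSpace.proj (𝕜 := ℝ) j).hasFDerivAt.comp x (grad_diff S hx).hasFDerivAt).fderiv
  have h' : fderiv ℝ (fun y => fderiv ℝ S.u y (ee j)) x =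
      (EuclideanSpace.proj (𝕜 := ℝ) j).comp (fderiv ℝ (grad S) x) := h
  show fderiv ℝ (grad S) x (ee i) j = fderiv ℝ (fun y => fderiv ℝ S.u y (ee j)) x (ee i)
  rw [h']
  rfl

theorem grad_inj (S : Sol n) : InjOn (grad S) S.Ω := fun x hx y hy hxy => by
  refine S.injOn_fderiv hx hy (ContinuousLinearMap.ext fun v => ?_)
  rw [clm_eq_sum, clm_eq_sum (fderiv ℝ S.u y)]
  refine Finset.sum_congr rfl fun i _ => ?_
  have : grad S x i = grad S y i := by rw [hxy]
  exact congrArg _ this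

theorem one_add_grad_le (hc : 0 < c) (h : K.Normal) {x : E n} (hx : x ∈ S.Ω) :
    1 + ‖grad S x‖ ≤ (n + 1) / c * S.tp x 0 := by
  have h1 : c * ‖grad S x‖ ≤ n * S.tp x 0 := by
    refine (mul_le_mul_of_nonneg_left (norm_le_sum _) hc.le).trans ?_
    rw [Finset.mul_sum]
    refine (Finset.sum_le_sum fun i _ => du_le hc h hx i).trans ?_
    simp
  have h2 := c_le_D hc h hx
  rw [div_mul_eq_mul_div, le_div_iff₀ hc]
  nlinarith

end Mass
end Crest.Agent.R236
end
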