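import Crest.Agent.R236.NoWedgeAux

/-!
# No approximate wedge for `3 ≤ n ≤ 9` (Følner argument), and uniform strict convexity
-/

set_option autoImplicit false
open scoped ContDiff Topology
open Crest.GeometryTopology.CoordMetric Crest.GeometryTopology.AffineMaximal
open MeasureTheory Set

noncomputable section
namespace Crest.Agent.R236

variable {n : ℕ}

theorem exists_cell {N : ℕ} (hN : 1 ≤ N) {t : ℝ} (h1 : -(N : ℝ) ≤ t) (h2 : t ≤ N) :
    ∃ m : Fin N, -(N : ℝ) + 2 * (m : ℕ) ≤ t ∧ t ≤ -(N : ℝ) + 2 * (m : ℕ) + 2 := by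
  have h0 : 0 ≤ (t + N) / 2 := by linarith
  by_cases hlt : ⌊(t + N) / 2⌋₊ < N
  · refine ⟨⟨_, hlt⟩, ?_, ?_⟩
    · have := Nat.floor_le h0; simp only; linarith
    · have := Nat.lt_floor_add_one ((t + N) / 2); simp only; linarith
  · refine ⟨⟨N - 1, by omega⟩, ?_, ?_⟩
    · have h3 : (N : ℝ) ≤ (t + N) / 2 :=
        le_trans (by exact_mod_cast not_lt.mp hlt) (Nat.floor_le h0)
      simp only [Nat.cast_sub hN]; push_cast; linarith
    · simp only [Nat.cast_sub hN]; push_cast; linarith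

theorem exp_le_iff {lb y r : ℝ} (hlb : 0 < lb) (hy : 0 < y) :
    Real.exp (r * lb) ≤ y ↔ r ≤ Real.log y / lb := by
  rw [le_div_iff₀ hlb, Real.le_log_iff_exp_le hy]

theorem le_exp_iff {lb y r : ℝ} (hlb : 0 < lb) (hy : 0 < y) :
    y ≤ Real.exp (r * lb) ↔ Real.log y / lb ≤ r := by
  rw [div_le_iff₀ hlb, Real.log_le_iff_le_exp hy]

theorem lt_exp_iff {lb y r : ℝ} (hlb : 0 < lb) (hy : 0 < y) :
    y < Real.exp (r * lb) ↔ Real.log y / lb < r := by
  rw [div_lt_iff₀ hlb, Real.log_lt_iff_lt_exp hy]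

namespace Sol
variable (S : Sol n) {j : ℕ} {η Λ : ℝ}

/-- a closed cell -/
def cell (F : Cfg S.C j η Λ) (lb : ℝ) (r : Fin j → ℝ) : Set (E n) :=
  {x | x ∈ S.Ω ∧ ∀ a, Real.exp ((r a - 2) * lb) ≤ S.yy F a x ∧ S.yy F a x ≤ Real.exp (r a * lb)}

theorem folner (hn : 3 ≤ n) (hn' : n ≤ 9) (hj : 2 ≤ j) (F : Cfg S.C j η Λ) {lb A c₂ : ℝ}
    (hlb : 0 < lb) {P : ℕ} (hP : 1 ≤ P)
    (hU : ∀ r : Fin j → ℝ, (∀ a, |r a| ≤ 2 * P) → IsCompact (S.cell F lb r) ∧
      (∀ x ∈ S.cell F lb r, 0 < S.pp F x) ∧ ∀ a, ∫ x in S.cell F lb r, S.err F a x ≤ A)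
    (hL : ∀ r : Fin j → ℝ, (∀ a, |r a| ≤ 2 * P) → ∃ R : Set (E n), MeasurableSet R ∧
      (∀ x ∈ R, x ∈ S.Ω ∧ ∀ a, Real.exp ((r a - 1) * lb) ≤ S.yy F a x ∧
        S.yy F a x < Real.exp ((r a + 1) * lb)) ∧ c₂ ≤ ∫ x in R, S.mp F x) :
    2 / (2 * (n : ℝ) - 3) * ((P : ℝ) ^ j * ((9 / 16) ^ j * c₂))
      ≤ 8 / (2 * P * lb) * (j * ((2 * P : ℝ) ^ j * A)) := by
  classical
  have hP' : (1 : ℝ) ≤ P := by exact_mod_cast hP
  have hn3 : (3 : ℝ) ≤ n := by exact_mod_cast hn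
  set L : ℝ := 2 * P * lb with hLdef
  have hL0 : 0 < L := by positivity
  set rU : (Fin j → Fin (2 * P)) → Fin j → ℝ :=
    fun m a => -(2 * P : ℝ) + 2 * (m a : ℕ) + 2 with hrU
  have hrUb : ∀ m a, |rU m a| ≤ 2 * P := by
    intro m a
    have h1 : ((m a : ℕ) : ℝ) + 1 ≤ 2 * P := by exact_mod_cast (m a).2
    have h0 : (0 : ℝ) ≤ (m a : ℕ) := Nat.cast_nonneg _
    rw [abs_le]; constructor <;> simp only [hrU] <;> linarith
  set K : Set (E n) := ⋃ m, S.cell F lb (rU m) with hKdef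
  have hK : IsCompact K := isCompact_iUnion fun m => (hU _ (hrUb m)).1
  set U : Set (E n) := {x | x ∈ S.Ω ∧ (∀ a, 0 < S.yy F a x) ∧ 0 < S.pp F x} with hUdef
  have hUΩ : U ⊆ S.Ω := fun x hx => hx.1
  have hUo : IsOpen U := by
    have e : U = (⋂ a, S.Ω ∩ S.yy F a ⁻¹' Ioi 0) ∩ (S.Ω ∩ S.pp F ⁻¹' Ioi 0) := by
      ext x; simp only [hUdef, mem_ofPred_eq, mem_inter_iff, mem_iInter, mem_preimage, mem_Ioi]
      exact ⟨fun h => ⟨fun a => ⟨h.1, h.2.1 a⟩, h.1, h.2.2⟩,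
        fun h => ⟨h.2.1, fun a => (h.1 a).2, h.2.2⟩⟩
    rw [e]
    exact (isOpen_iInter_of_finite fun a =>
      (S.contDiffOn_yy F a).continuousOn.isOpen_inter_preimage S.isOpen isOpen_Ioi).inter
      ((S.contDiffOn_pp F).continuousOn.isOpen_inter_preimage S.isOpen isOpen_Ioi)
  have hKU : K ⊆ U := by
    intro x hx
    obtain ⟨m, hm⟩ := mem_iUnion.1 hx
    exact ⟨hm.1, fun a => (Real.exp_pos _).trans_le (hm.2 a).1, (hU _ (hrUb m)).2.1 x hm⟩
  have hmemK : ∀ x ∈ S.Ω, (∀ a, 0 < S.yy F a x) →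
      (∀ a, |Real.log (S.yy F a x) / lb| ≤ 2 * P) → x ∈ K := by
    intro x hx hy ht
    have : ∀ a, ∃ m : Fin (2 * P), -((2 * P : ℕ) : ℝ) + 2 * (m : ℕ) ≤ Real.log (S.yy F a x) / lb ∧
        Real.log (S.yy F a x) / lb ≤ -((2 * P : ℕ) : ℝ) + 2 * (m : ℕ) + 2 := fun a =>
      exists_cell (by omega) (by push_cast; exact (abs_le.1 (ht a)).1)
        (by push_cast; exact (abs_le.1 (ht a)).2)
    choose m hm using this
    refine mem_iUnion.2 ⟨m, hx, fun a => ?_⟩
    have := hm a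
    push_cast at this
    rw [exp_le_iff hlb (hy a), le_exp_iff hlb (hy a)]
    simp only [hrU]; constructor <;> linarith [this.1, this.2]
  have hdivL : ∀ y : ℝ, Real.log y / L = Real.log y / lb / (2 * P) := by
    intro y; rw [hLdef]; field_simp
  have h0 : ∀ x ∈ U, x ∉ K → chi F L x = 0 := by
    intro x hx hxK
    by_contra hne
    refine hxK (hmemK x hx.1 hx.2.1 fun a => ?_)
    by_contra hlt
    refine hne (Finset.prod_eq_zero (Finset.mem_univ a) (pc_of_nonpos (by norm_num) ?_))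
    rw [hdivL, div_pow, sub_nonpos, le_div_iff₀ (by positivity), one_mul]
    have := sq_abs (Real.log (S.yy F a x) / lb)
    have h2 : (0 : ℝ) ≤ 2 * P := by positivity
    nlinarith [not_le.1 hlt]
  have hB0 : 0 ≤ 4 / (2 * (n : ℝ) - 3) := div_nonneg (by norm_num) (by linarith)
  have hB2 : 4 / (2 * (n : ℝ) - 3) ≤ 2 := by rw [div_le_iff₀ (by linarith)]; linarith
  have hχ := contDiffOn_chi F L hUΩ fun x hx => hx.2.1
  have key := S.key_ineq F hn hn' hj hUo hUΩ hK hKU (fun x hx => hx.2.2) hχ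
    (fun x _ => chi_nonneg F L x) h0
  have hmpc : ContinuousOn (S.mp F) U := continuousOn_mp F hUΩ fun x hx => hx.2.2
  have herrc : ∀ a, ContinuousOn (S.err F a) U :=
    continuousOn_err F hUo hUΩ (fun x hx => hx.2.2) fun x hx => hx.2.1
  have hint : ∀ {f : E n → ℝ}, ContinuousOn f U → IntegrableOn f K := fun hf =>
    (hf.mono hKU).integrableOn_compact hK
  have hmp0 : ∀ x ∈ U, 0 ≤ S.mp F x := fun x hx =>
    mul_nonneg (Real.rpow_nonneg hx.2.2.le _) (inv_nonneg.mpr (S.rho_pos hx.1).le)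
  -- upper bound
  have hup : ∫ x in K, S.mp F x * (4 / (2 * (n : ℝ) - 3) * S.G (chi F L) (S.pp F) x
      + (1 - 4 / (2 * (n : ℝ) - 3)) * S.ZG F (chi F L) x) ≤ 8 / L * (j * ((2 * P : ℝ) ^ j * A)) := by
    have h1 : ∫ x in K, S.mp F x * (4 / (2 * (n : ℝ) - 3) * S.G (chi F L) (S.pp F) x
        + (1 - 4 / (2 * (n : ℝ) - 3)) * S.ZG F (chi F L) x)
        ≤ ∫ x in K, 8 / L * ∑ a, S.err F a x := by
      refine setIntegral_mono_on (hint ?_) (hint ?_) hK.measurableSet fun x hx =>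
        rhs_le F hL0 hB0 hB2 (hKU hx).1 (hKU hx).2.1 (hKU hx).2.2
      · exact hmpc.mul ((continuousOn_const.mul (S.continuousOn_G hUo hUΩ hχ
          (((S.contDiffOn_pp F).mono hUΩ).of_le (by simp)))).add
          (continuousOn_const.mul (continuousOn_ZG F hUo hUΩ hχ)))
      · exact continuousOn_const.mul (continuousOn_finsetSum _ fun a _ => herrc a)
    refine h1.trans ?_
    rw [integral_const_mul, integral_finsetSum _ fun a _ => hint (herrc a)]
    refine mul_le_mul_of_nonneg_left ?_ (by positivity)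
    calc ∑ a, ∫ x in K, S.err F a x ≤ ∑ _a : Fin j, ((2 * P : ℝ) ^ j * A) := by
          refine Finset.sum_le_sum fun a _ => ?_
          refine (setIntegral_le_sum hK.measurableSet (fun m => S.cell F lb (rU m))
            (fun m => (hU _ (hrUb m)).1.measurableSet) (fun m => subset_iUnion
              (fun m => S.cell F lb (rU m)) m) (fun x hx => mem_iUnion.1 hx) (hint (herrc a))
            fun x hx => err_nonneg F (hKU hx).1 (hKU hx).2.2 ((hKU hx).2.1 a)).trans ?_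
          refine (Finset.sum_le_sum fun m _ => (hU _ (hrUb m)).2.2 a).trans (le_of_eq ?_)
          simp
      _ = j * ((2 * P : ℝ) ^ j * A) := by simp
  -- lower bound
  set rL : (Fin j → Fin P) → Fin j → ℝ := fun m a => -(P : ℝ) + 2 * (m a : ℕ) + 1 with hrL
  have hrLb : ∀ m a, |rL m a| ≤ P - 1 := by
    intro m a
    have h1 : ((m a : ℕ) : ℝ) + 1 ≤ P := by exact_mod_cast (m a).2
    have h0 : (0 : ℝ) ≤ (m a : ℕ) := Nat.cast_nonneg _
    rw [abs_le]; constructor <;> simp only [hrL] <;> linarith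
  choose R hRm hR hRc using fun m => hL (rL m) fun a => (hrLb m a).trans (by linarith)
  have hRy : ∀ m, ∀ x ∈ R m, ∀ a, 0 < S.yy F a x := fun m x hx a =>
    (Real.exp_pos _).trans_le ((hR m x hx).2 a).1
  have hRt : ∀ m, ∀ x ∈ R m, ∀ a, rL m a - 1 ≤ Real.log (S.yy F a x) / lb ∧
      Real.log (S.yy F a x) / lb < rL m a + 1 := fun m x hx a =>
    ⟨(exp_le_iff hlb (hRy m x hx a)).1 ((hR m x hx).2 a).1,
      (lt_exp_iff hlb (hRy m x hx a)).1 ((hR m x hx).2 a).2⟩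
  have hRP : ∀ m, ∀ x ∈ R m, ∀ a, |Real.log (S.yy F a x) / lb| ≤ P := by
    intro m x hx a
    have := hRt m x hx a
    have h2 := abs_le.1 (hrLb m a)
    rw [abs_le]; constructor <;> linarith [this.1, this.2, h2.1, h2.2]
  have hRK : ∀ m, R m ⊆ K := fun m x hx =>
    hmemK x (hR m x hx).1 (hRy m x hx) fun a => (hRP m x hx a).trans (by linarith)
  have hlow : (P : ℝ) ^ j * ((9 / 16) ^ j * c₂) ≤ ∫ x in K, chi F L x * S.mp F x := by
    refine le_trans ?_ (sum_setIntegral_le hK.measurableSet R hRm hRK ?_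
      (f := fun x => (9 / 16) ^ j * S.mp F x) (hint (continuousOn_const.mul hmpc))
      (hint (hχ.continuousOn.mul hmpc))
      (fun x hx => mul_nonneg (chi_nonneg F L x) (hmp0 x (hKU hx))) ?_)
    · calc (P : ℝ) ^ j * ((9 / 16) ^ j * c₂) = ∑ _m : Fin j → Fin P, (9 / 16) ^ j * c₂ := by simp
        _ ≤ _ := by
          refine Finset.sum_le_sum fun m _ => ?_
          rw [integral_const_mul]
          exact mul_le_mul_of_nonneg_left (hRc m) (by positivity)
    · intro m m' x hx hx'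
      funext a
      have h1 := hRt m x hx a
      have h2 := hRt m' x hx' a
      simp only [hrL] at h1 h2
      have h3 : ((m a : ℕ) : ℝ) < (m' a : ℕ) + 1 := by linarith [h1.1, h2.2]
      have h4 : ((m' a : ℕ) : ℝ) < (m a : ℕ) + 1 := by linarith [h1.2, h2.1]
      have h5 : (m a : ℕ) < m' a + 1 := by exact_mod_cast h3
      have h6 : (m' a : ℕ) < m a + 1 := by exact_mod_cast h4
      exact Fin.ext (by omega)
    · intro m x hx
      refine mul_le_mul_of_nonneg_right ?_ (hmp0 x (hKU (hRK m hx)))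
      calc ((9 : ℝ) / 16) ^ j = ∏ _a : Fin j, (9 / 16 : ℝ) := by simp [div_pow]
        _ ≤ _ := by
          refine Finset.prod_le_prod (fun _ _ => by norm_num) fun a _ => ?_
          have h1 : (Real.log (S.yy F a x) / L) ^ 2 ≤ 1 / 4 := by
            rw [hdivL, div_pow, div_le_iff₀ (by positivity)]
            have := hRP m x hx a
            have h2 := sq_abs (Real.log (S.yy F a x) / lb)
            nlinarith [abs_nonneg (Real.log (S.yy F a x) / lb)]
          rw [pc_of_nonneg _ (by linarith)]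
          nlinarith [sq_nonneg (Real.log (S.yy F a x) / L)]
  have hδ : 0 ≤ 2 / (2 * (n : ℝ) - 3) := div_nonneg (by norm_num) (by linarith)
  exact (mul_le_mul_of_nonneg_left hlow hδ).trans (key.trans hup)

end Sol

theorem Sol.not_hasOrth (S : Sol n) (hn : 3 ≤ n) (hn' : n ≤ 9) : ¬ HasOrth S.C 2 := by
  intro h2
  have hC := S.convex_C
  obtain ⟨j, hj, hP, c, hc, η₁, hη₁, Λ₁, hΛ₁, hcen⟩ := exists_centered hC h2
  obtain ⟨c₁, hc₁, c₂, hc₂, hc₁1, hlow⟩ := cell_lower n j (by omega) hj hc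
  have hj' : (2 : ℝ) ≤ j := by exact_mod_cast hj
  have hn3 : (3 : ℝ) ≤ n := by exact_mod_cast hn
  set B₀ : ℝ := max c₁⁻¹ (2 * j + 1) with hB₀
  have hB₀1 : 1 < B₀ := lt_of_lt_of_le (by linarith) (le_max_right _ _)
  set lb := Real.log B₀ with hlb
  have hlb0 : 0 < lb := Real.log_pos hB₀1
  have hexp : Real.exp lb = B₀ := Real.exp_log (by linarith)
  obtain ⟨A, hup⟩ := cell_upper n j (by omega) (by omega) hc (b := Real.exp (-2 * lb))
    (Real.exp_pos _) (by rw [Real.exp_lt_one_iff]; linarith)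
  set δ : ℝ := 2 / (2 * (n : ℝ) - 3) * ((9 / 16) ^ j * c₂) with hδ
  have hδ0 : 0 < δ := mul_pos (div_pos (by norm_num) (by linarith)) (by positivity)
  obtain ⟨P, hPgt⟩ := exists_nat_gt (max 1 (4 * j * 2 ^ j * A / (lb * δ)))
  have hP1 : (1 : ℝ) < P := (le_max_left _ _).trans_lt hPgt
  have hP1' : 1 ≤ P := by exact_mod_cast hP1.le
  set η' : ℝ := min (min η₁ c₁) 1 with hη'
  have hη'0 : 0 < η' := lt_min (lt_min hη₁ hc₁) one_pos
  set Λ' : ℝ := max Λ₁ (4 * j) with hΛ'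
  have hΛ'0 : 0 ≤ Λ' := hΛ₁.le.trans (le_max_left _ _)
  set m₀ : ℝ := Real.exp (-(2 * P) * lb)
  set M₀ : ℝ := Real.exp (2 * P * lb)
  have hm₀ : 0 < m₀ := Real.exp_pos _
  have hM₀ : 0 < M₀ := Real.exp_pos _
  obtain ⟨F⟩ := hP (η' * m₀) (mul_pos hη'0 hm₀) (M₀ * (Λ' + j * η') + 1) (by positivity)
  have hres : ∀ r : Fin j → ℝ, (∀ a, |r a| ≤ 2 * P) → ∃ F' : Cfg S.C j η' Λ',
      S.Resc F F' (fun a => Real.exp (r a * lb)) ∧ F'.Centered c := by
    intro r hr
    refine ⟨F.rescale hC (fun a => Real.exp (r a * lb)) hm₀ (M := M₀) (fun a => ⟨?_, ?_⟩) hη'0.le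
      le_rfl hΛ'0 hM₀.le (lt_add_one _), ⟨fun a => Real.exp_pos _, rfl, fun _ => rfl, fun _ => rfl⟩,
      hcen _ ((min_le_left _ _).trans (min_le_left _ _)) _ (le_max_left _ _) _⟩
    · exact Real.exp_le_exp.2 (mul_le_mul_of_nonneg_right (abs_le.1 (hr a)).1 hlb0.le)
    · exact Real.exp_le_exp.2 (mul_le_mul_of_nonneg_right (abs_le.1 (hr a)).2 hlb0.le)
  have h4j : 4 * (j : ℝ) ≤ Λ' := le_max_right _ _
  have main := S.folner hn hn' hj F (A := A) (c₂ := c₂) hlb0 hP1' ?_ ?_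
  · have h1 : (P : ℝ) ^ j * δ ≤ (P : ℝ) ^ j * (4 * j * 2 ^ j * A / (P * lb)) := by
      calc (P : ℝ) ^ j * δ = 2 / (2 * (n : ℝ) - 3) * ((P : ℝ) ^ j * ((9 / 16) ^ j * c₂)) := by
            rw [hδ]; ring
        _ ≤ _ := main
        _ = _ := by rw [mul_pow]; field_simp; ring
    have h2 := le_of_mul_le_mul_left h1 (by positivity)
    have h3 := (le_max_right _ _).trans_lt hPgt
    rw [div_lt_iff₀ (by positivity)] at h3
    rw [le_div_iff₀ (by positivity)] at h2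
    nlinarith
  · intro r hr
    obtain ⟨F', hF', hcF'⟩ := hres r hr
    obtain ⟨h1, h2, h3⟩ := hup S η' Λ' F' (min_le_right _ _) (by linarith) hcF'
    have e : {x | x ∈ S.Ω ∧ ∀ a, Real.exp (-2 * lb) ≤ S.yy F' a x ∧ S.yy F' a x ≤ 1}
        = S.cell F lb r := by
      ext x
      simp only [Sol.cell, mem_ofPred_eq, hF'.yy]
      refine and_congr_right fun _ => forall_congr' fun a => ?_
      have hs := Real.exp_pos (r a * lb)
      rw [le_inv_mul_iff₀ hs, inv_mul_le_iff₀ hs, ← Real.exp_add, mul_one]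
      have : r a * lb + -2 * lb = (r a - 2) * lb := by ring
      rw [this]
    rw [e] at h1 h3
    refine ⟨h1, fun x hx => ?_, fun a => ?_⟩
    · rw [← e] at hx; rw [← hF'.pp]; exact h2 x hx.1 hx.2
    · refine le_trans (le_of_eq ?_) (h3 a)
      exact setIntegral_congr_fun h1.measurableSet fun x hx => (hF'.err hx.1 a).symm
  · intro r hr
    obtain ⟨F', hF', hcF'⟩ := hres r hr
    have h1 := hlow S η' Λ' F' ((min_le_left _ _).trans (min_le_right _ _)) h4j hcF'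
    refine ⟨_, ?_, ?_, by rw [hF'.mp] at h1; exact h1⟩
    · have e : {x | x ∈ S.Ω ∧ (∀ a, c₁ ≤ S.yy F' a x) ∧ ∑ a, S.yy F' a x ≤ 2 * j}
          = (⋂ a, {x | x ∈ S.Ω ∧ c₁ ≤ S.yy F' a x}) ∩ {x | x ∈ S.Ω ∧ ∑ a, S.yy F' a x ≤ 2 * j} := by
        ext x; simp only [mem_ofPred_eq, mem_inter_iff, mem_iInter]
        exact ⟨fun h => ⟨fun a => ⟨h.1, h.2.1 a⟩, h.1, h.2.2⟩,
          fun h => ⟨h.2.1, fun a => (h.1 a).2, h.2.2⟩⟩
      rw [e]
      exact (MeasurableSet.iInter fun a => measurableSet_ge S.isOpen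
        (S.contDiffOn_yy F' a).continuousOn _).inter (measurableSet_le' S.isOpen
        (continuousOn_finsetSum _ fun a _ => (S.contDiffOn_yy F' a).continuousOn) _)
    · rintro x ⟨hx, hy, hsum⟩
      refine ⟨hx, fun a => ?_⟩
      have hle : S.yy F' a x ≤ 2 * j :=
        (Finset.single_le_sum (f := fun a => S.yy F' a x) (fun b _ => hc₁.le.trans (hy b))
          (Finset.mem_univ a)).trans hsum
      have hge := hy a
      have hs := Real.exp_pos (r a * lb)
      simp only [hF'.yy] at hle hge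
      rw [le_inv_mul_iff₀ hs] at hge
      rw [inv_mul_le_iff₀ hs] at hle
      have e1 : Real.exp ((r a - 1) * lb) = Real.exp (r a * lb) * B₀⁻¹ := by
        rw [← hexp, ← Real.exp_neg, ← Real.exp_add]; congr 1; ring
      have e2 : Real.exp ((r a + 1) * lb) = Real.exp (r a * lb) * B₀ := by
        rw [← hexp, ← Real.exp_add]; congr 1; ring
      have h5 : B₀⁻¹ ≤ c₁ := inv_le_of_inv_le₀ hc₁ (le_max_left _ _)
      have h6 : 2 * (j : ℝ) + 1 ≤ B₀ := le_max_right _ _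
      rw [e1, e2]
      constructor
      · exact (mul_le_mul_of_nonneg_left h5 hs.le).trans hge
      · nlinarith

theorem Sol.exists_SC (S : Sol n) (hn : 3 ≤ n) (hn' : n ≤ 9) :
    ∃ η > (0 : ℝ), η ≤ 1 ∧ S.SC η := by
  obtain ⟨η, hη, h⟩ := strict_of_not_hasOrth S.convex_C (S.not_hasOrth hn hn')
  refine ⟨min η 1, lt_min hη one_pos, min_le_right _ _, ?_⟩
  intro x hx x' hx' W₀ hW₀ W' hW' hpos hle
  have e : ∀ y w, S.nbL y (w - S.X y) = S.tp y w := fun y w => S.nbL_apply _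
  have e' : ∀ w, S.nbL x' w + -S.nb x' (S.X x') = S.tp x' w := fun w => by
    rw [S.nbL_apply, Sol.tp, S.nb_sub]; ring
  have := h (S.X x) (S.X_mem hx) (S.nbL x) (fun w hw => by rw [e]; exact S.tp_nonneg hx hw)
    (fun r => by simp only [e]; exact S.bdd_tp hx r) W₀ hW₀ (by rw [e]; exact hpos) (S.nbL x')
    (-S.nb x' (S.X x')) (fun w hw => by rw [e']; exact S.tp_nonneg hx' hw) W' hW'
    (by rw [e, e]; exact hle)
  rw [e', e', e'] at this
  exact (mul_le_mul_of_nonneg_right (min_le_left _ _) (S.tp_nonneg hx' hW')).trans this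

end Crest.Agent.R236
end
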