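import Crest.Agent.R236.Key

/-!
# No approximate wedge: auxiliary lemmas (rescaling invariance, cut-off, covering)
-/

set_option autoImplicit false
open scoped ContDiff Topology
open Crest.GeometryTopology.CoordMetric Crest.GeometryTopology.AffineMaximal
open MeasureTheory Set

noncomputable section
namespace Crest.Agent.R236

variable {n : ℕ}

theorem setIntegral_le_sum {ι : Type*} [Fintype ι] {K : Set (E n)} (hK : MeasurableSet K)
    (c : ι → Set (E n)) (hc : ∀ i, MeasurableSet (c i)) (hcK : ∀ i, c i ⊆ K)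
    (hcov : ∀ x ∈ K, ∃ i, x ∈ c i) {f : E n → ℝ} (hf : IntegrableOn f K)
    (h0 : ∀ x ∈ K, 0 ≤ f x) : ∫ x in K, f x ≤ ∑ i, ∫ x in c i, f x := by
  classical
  have hi : ∀ i, Integrable ((c i).indicator f) := fun i =>
    (integrable_indicator_iff (hc i)).2 (hf.mono_set (hcK i))
  simp_rw [← integral_indicator hK, fun i => (integral_indicator (μ := volume) (f := f) (hc i)).symm]
  rw [← integral_finsetSum _ (fun i _ => hi i)]
  refine integral_mono ((integrable_indicator_iff hK).2 hf) (integrable_finsetSum _ fun i _ => hi i)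
    fun x => ?_
  have hn : ∀ i, 0 ≤ (c i).indicator f x := fun i =>
    Set.indicator_nonneg (fun y hy => h0 y (hcK i hy)) x
  by_cases hx : x ∈ K
  · obtain ⟨i, hi⟩ := hcov x hx
    calc K.indicator f x = (c i).indicator f x := by simp [hx, hi]
      _ ≤ ∑ i, (c i).indicator f x := Finset.single_le_sum (fun i _ => hn i) (Finset.mem_univ i)
  · simp only [hx, not_false_eq_true, indicator_of_notMem]
    exact Finset.sum_nonneg fun i _ => hn i

theorem sum_setIntegral_le {ι : Type*} [Fintype ι] {K : Set (E n)} (hK : MeasurableSet K)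
    (c : ι → Set (E n)) (hc : ∀ i, MeasurableSet (c i)) (hcK : ∀ i, c i ⊆ K)
    (hdis : ∀ i i' x, x ∈ c i → x ∈ c i' → i = i') {f g : E n → ℝ} (hf : IntegrableOn f K)
    (hg : IntegrableOn g K) (h0 : ∀ x ∈ K, 0 ≤ g x) (hfg : ∀ i, ∀ x ∈ c i, f x ≤ g x) :
    ∑ i, ∫ x in c i, f x ≤ ∫ x in K, g x := by
  classical
  have hi : ∀ i, Integrable ((c i).indicator f) := fun i =>
    (integrable_indicator_iff (hc i)).2 (hf.mono_set (hcK i))
  simp_rw [← integral_indicator hK, fun i => (integral_indicator (μ := volume) (f := f) (hc i)).symm]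
  rw [← integral_finsetSum _ (fun i _ => hi i)]
  refine integral_mono (integrable_finsetSum _ fun i _ => hi i) ((integrable_indicator_iff hK).2 hg)
    fun x => ?_
  by_cases hx : ∃ i, x ∈ c i
  · obtain ⟨i, hi⟩ := hx
    have : ∑ i', (c i').indicator f x = f x := by
      rw [Finset.sum_eq_single i]
      · simp [hi]
      · intro b _ hb
        have : x ∉ c b := fun h => hb (hdis b i x h hi)
        simp [this]
      · simp
    simp only [this, indicator_of_mem (hcK i hi)]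
    exact hfg i x hi
  · push Not at hx
    have : ∑ i', (c i').indicator f x = 0 := Finset.sum_eq_zero fun i _ => by simp [hx i]
    simp only [this]
    exact Set.indicator_nonneg h0 x

theorem measurableSet_ge {Ω : Set (E n)} (hΩ : IsOpen Ω) {f : E n → ℝ} (hf : ContinuousOn f Ω)
    (a : ℝ) : MeasurableSet {x | x ∈ Ω ∧ a ≤ f x} := by
  have h1 : IsOpen (Ω ∩ f ⁻¹' Iio a) := hf.isOpen_inter_preimage hΩ isOpen_Iio
  have : {x | x ∈ Ω ∧ a ≤ f x} = Ω \ (Ω ∩ f ⁻¹' Iio a) := by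
    ext x; simp only [mem_ofPred_eq, mem_sdiff, mem_inter_iff, mem_preimage, mem_Iio, not_and, not_lt]
    tauto
  rw [this]; exact hΩ.measurableSet.diff h1.measurableSet

theorem measurableSet_le' {Ω : Set (E n)} (hΩ : IsOpen Ω) {f : E n → ℝ} (hf : ContinuousOn f Ω)
    (a : ℝ) : MeasurableSet {x | x ∈ Ω ∧ f x ≤ a} := by
  have := measurableSet_ge hΩ hf.neg (-a)
  simpa using this

namespace Sol
variable (S : Sol n) {j : ℕ} {η Λ η' Λ' : ℝ}

/-- `F'` is `F` with the axes rescaled by `s` -/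
structure Resc (F : Cfg S.C j η Λ) (F' : Cfg S.C j η' Λ') (s : Fin j → ℝ) : Prop where
  pos : ∀ a, 0 < s a
  o_eq : F'.o = F.o
  e_eq : ∀ a, F'.e a = s a • F.e a
  y_eq : ∀ a, F'.y a = (s a)⁻¹ • F.y a

variable {S} {F : Cfg S.C j η Λ} {F' : Cfg S.C j η' Λ'} {s : Fin j → ℝ}

theorem Resc.yy (h : S.Resc F F' s) (a : Fin j) : S.yy F' a = fun x => (s a)⁻¹ * S.yy F a x := by
  funext x; simp [Sol.yy, Sol.af, h.o_eq, h.y_eq]

theorem Resc.nu (h : S.Resc F F' s) (a : Fin j) (x : E n) :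
    S.nu (F'.e a) x = s a * S.nu (F.e a) x := by
  simp only [Sol.nu, h.e_eq, S.nb_smul]; ring

theorem Resc.pp (h : S.Resc F F' s) : S.pp F' = S.pp F := by
  funext x
  simp only [Sol.pp, h.o_eq, h.nu, h.yy]
  congr 1
  refine Finset.sum_congr rfl fun b _ => ?_
  have := (h.pos b).ne'
  field_simp

theorem Resc.mp (h : S.Resc F F' s) : S.mp F' = S.mp F := by
  funext x; simp only [Sol.mp, h.pp]

theorem G_const_mul_left {f g : E n → ℝ} {x : E n} (c : ℝ) (hf : DifferentiableAt ℝ f x) :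
    S.G (fun y => c * f y) g x = c * S.G f g x :=
  S.G_comp_left (φ := fun t => c * t) (by simpa using (hasDerivAt_id (f x)).const_mul c) hf

theorem diff_af {x : E n} (hx : x ∈ S.Ω) (φ : V n →L[ℝ] ℝ) (o : V n) :
    DifferentiableAt ℝ (S.af φ o) x :=
  ((S.contDiffOn_af φ o).contDiffAt (S.isOpen.mem_nhds hx)).differentiableAt (by simp)

theorem diff_yy {x : E n} (hx : x ∈ S.Ω) (F : Cfg S.C j η Λ) (a : Fin j) :
    DifferentiableAt ℝ (S.yy F a) x := diff_af hx _ _

theorem xi_smul {x : E n} (hx : x ∈ S.Ω) (c : ℝ) (φ : V n →L[ℝ] ℝ) :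
    S.xi (c • φ) x = c * S.xi φ x := by
  have e : S.af (c • φ) 0 = fun y => c * S.af φ 0 y := by funext y; simp [Sol.af]
  simp only [Sol.xi, e]
  rw [S.G_comm hx, G_const_mul_left c (diff_af hx φ 0), S.G_comm hx]
  simp only [smul_apply, smul_eq_mul]; ring

theorem Resc.ZG (h : S.Resc F F' s) {x : E n} (hx : x ∈ S.Ω) (f : E n → ℝ) :
    S.ZG F' f x = S.ZG F f x := by
  simp only [Sol.ZG, h.nu, h.yy]
  refine Finset.sum_congr rfl fun b _ => ?_
  rw [G_const_mul_left _ (diff_yy hx F b)]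
  have := (h.pos b).ne'
  field_simp

theorem ZG_const_mul {x : E n} (hx : x ∈ S.Ω) (c : ℝ) {f : E n → ℝ} (hf : DifferentiableAt ℝ f x) :
    S.ZG F (fun y => c * f y) x = c * S.ZG F f x := by
  simp only [Sol.ZG, Finset.mul_sum]
  refine Finset.sum_congr rfl fun b _ => ?_
  rw [S.G_comm hx, G_const_mul_left c hf, S.G_comm hx]; ring

theorem Resc.err (h : S.Resc F F' s) {x : E n} (hx : x ∈ S.Ω) (a : Fin j) :
    S.err F' a x = S.err F a x := by
  have hs := h.pos a
  simp only [Sol.err, h.mp, h.pp, h.ZG hx, h.y_eq, xi_smul hx]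
  rw [h.yy, ZG_const_mul hx _ (diff_yy hx F a)]
  have e1 : S.pp F x * ((s a)⁻¹ * S.xi (F.y a) x) = (s a)⁻¹ * (S.pp F x * S.xi (F.y a) x) := by ring
  rw [e1, abs_mul, abs_mul (s a)⁻¹, abs_of_pos (inv_pos.mpr hs)]
  congr 1
  rw [← mul_add, mul_div_mul_left _ _ (inv_pos.mpr hs).ne']

/-- the Følner cut-off -/
def chi (F : Cfg S.C j η Λ) (L : ℝ) (x : E n) : ℝ :=
  ∏ a, pc 2 (1 - (Real.log (S.yy F a x) / L) ^ 2)

theorem chi_nonneg (F : Cfg S.C j η Λ) (L : ℝ) (x : E n) : 0 ≤ chi F L x :=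
  Finset.prod_nonneg fun _ _ => pc_nonneg _ _

theorem pc_two_le_one (t : ℝ) : pc 2 (1 - t ^ 2) ≤ 1 := by
  unfold pc
  have h1 : max (1 - t ^ 2) 0 ≤ 1 := max_le (by nlinarith [sq_nonneg t]) zero_le_one
  have h0 : 0 ≤ max (1 - t ^ 2) 0 := le_max_right _ _
  nlinarith

theorem abs_pc_one_mul (t : ℝ) : |pc 1 (1 - t ^ 2) * t| ≤ 1 := by
  unfold pc
  rcases le_total (1 - t ^ 2) 0 with h | h
  · simp [max_eq_right h]
  · rw [max_eq_left h, pow_one, abs_mul, abs_of_nonneg h]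
    have : |t| ≤ 1 := by
      rw [← sq_le_one_iff_abs_le_one]; linarith
    nlinarith [abs_nonneg t, sq_nonneg t]

theorem contDiffOn_chi (F : Cfg S.C j η Λ) (L : ℝ) {U : Set (E n)} (hU : U ⊆ S.Ω)
    (hy : ∀ x ∈ U, ∀ a, 0 < S.yy F a x) : ContDiffOn ℝ 1 (chi F L) U := by
  unfold chi
  refine contDiffOn_prod fun a _ => ?_
  refine (contDiff_one_pc 0).comp_contDiffOn ?_
  refine contDiffOn_const.sub (ContDiffOn.pow (ContDiffOn.div_const ?_ L) 2)
  exact (((S.contDiffOn_yy F a).mono hU).of_le (by simp)).log fun x hx => (hy x hx a).ne'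

theorem G_chi (F : Cfg S.C j η Λ) {L : ℝ} (hL : 0 < L) {x : E n} (hx : x ∈ S.Ω)
    (hy : ∀ a, 0 < S.yy F a x) :
    ∃ w : Fin j → ℝ, (∀ a, |w a| ≤ 4 / L) ∧
      ∀ h : E n → ℝ, S.G (chi F L) h x = ∑ a, w a / S.yy F a x * S.G (S.yy F a) h x := by
  classical
  set t : Fin j → ℝ := fun a => Real.log (S.yy F a x) / L with ht
  have hd : ∀ a, HasFDerivAt (fun y => pc 2 (1 - (Real.log (S.yy F a y) / L) ^ 2))
      ((-4 * (pc 1 (1 - t a ^ 2) * t a) / L / S.yy F a x) • fderiv ℝ (S.yy F a) x) x := by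
    intro a
    have h1 : HasDerivAt (fun r : ℝ => pc 2 (1 - (Real.log r / L) ^ 2))
        (-4 * (pc 1 (1 - t a ^ 2) * t a) / L / S.yy F a x) (S.yy F a x) := by
      have h2 : HasDerivAt (fun r : ℝ => 1 - (Real.log r / L) ^ 2)
          (-(2 * t a * ((S.yy F a x)⁻¹ / L))) (S.yy F a x) := by
        have := (((Real.hasDerivAt_log (hy a).ne').div_const L).pow 2).const_sub 1
        simpa [ht] using this
      have h3 := (hasDerivAt_pc 0 (1 - t a ^ 2)).comp (S.yy F a x) h2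
      refine h3.congr_deriv ?_
      have := (hy a).ne'
      have := hL.ne'
      simp only [zero_add, Nat.cast_zero]
      field_simp
      ring
    exact h1.comp_hasFDerivAt x (diff_yy hx F a).hasFDerivAt
  have hprod := HasFDerivAt.finsetProd (u := Finset.univ) (fun a _ => hd a)
  refine ⟨fun a => (∏ b ∈ Finset.univ.erase a, pc 2 (1 - t b ^ 2))
    * (-4 * (pc 1 (1 - t a ^ 2) * t a) / L), fun a => ?_, fun h => ?_⟩
  · have h1 : |∏ b ∈ Finset.univ.erase a, pc 2 (1 - t b ^ 2)| ≤ 1 := by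
      rw [abs_of_nonneg (Finset.prod_nonneg fun _ _ => pc_nonneg _ _)]
      exact Finset.prod_le_one (fun _ _ => pc_nonneg _ _) fun b _ => pc_two_le_one _
    have h2 : |-4 * (pc 1 (1 - t a ^ 2) * t a) / L| ≤ 4 / L := by
      rw [abs_div, abs_of_pos hL, abs_mul]
      gcongr
      have := abs_pc_one_mul (t a)
      have h4 : |(-4 : ℝ)| = 4 := by norm_num
      rw [h4]; linarith
    rw [abs_mul]
    calc _ ≤ 1 * (4 / L) := mul_le_mul h1 h2 (abs_nonneg _) zero_le_one
      _ = 4 / L := one_mul _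
  · have e : fderiv ℝ (chi F L) x = _ := hprod.fderiv
    simp only [Sol.G, Sol.G0, e, S.B_sum_left, S.B_smul_left, Finset.mul_sum]
    refine Finset.sum_congr rfl fun a _ => ?_
    simp only [ht]; ring

/-- the right side of `key_ineq` for the Følner cut-off -/
theorem rhs_le (F : Cfg S.C j η Λ) {L B : ℝ} (hL : 0 < L) (hB0 : 0 ≤ B) (hB : B ≤ 2) {x : E n}
    (hx : x ∈ S.Ω) (hy : ∀ a, 0 < S.yy F a x) (hp : 0 < S.pp F x) :
    S.mp F x * (B * S.G (chi F L) (S.pp F) x + (1 - B) * S.ZG F (chi F L) x)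
      ≤ 8 / L * ∑ a, S.err F a x := by
  obtain ⟨w, hw, hG⟩ := G_chi F hL hx hy
  have hmp : 0 ≤ S.mp F x :=
    mul_nonneg (Real.rpow_nonneg hp.le _) (inv_nonneg.mpr (S.rho_pos hx).le)
  have e1 : S.ZG F (chi F L) x = ∑ a, w a / S.yy F a x * S.ZG F (S.yy F a) x := by
    simp only [Sol.ZG, Finset.mul_sum]
    rw [Finset.sum_comm]
    refine Finset.sum_congr rfl fun b _ => ?_
    rw [S.G_comm hx, hG, Finset.mul_sum]
    refine Finset.sum_congr rfl fun a _ => ?_
    rw [S.G_comm hx]; ring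
  rw [hG, e1, Finset.mul_sum, Finset.mul_sum, ← Finset.sum_add_distrib, Finset.mul_sum,
    Finset.mul_sum]
  refine Finset.sum_le_sum fun a _ => ?_
  rw [S.G_comm hx, S.G_pp_yy F hx a, Sol.err]
  set P := S.pp F x * S.xi (F.y a) x
  set Z := S.ZG F (S.yy F a) x
  have hya := hy a
  have h1 : w a * (B * P + Z) ≤ 8 / L * (|P| + |Z|) := by
    have h2 : |B * P + Z| ≤ 2 * (|P| + |Z|) := by
      refine (abs_add_le _ _).trans ?_
      rw [abs_mul, abs_of_nonneg hB0]
      nlinarith [abs_nonneg P, abs_nonneg Z]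
    calc w a * (B * P + Z) ≤ |w a| * |B * P + Z| := by rw [← abs_mul]; exact le_abs_self _
      _ ≤ 4 / L * (2 * (|P| + |Z|)) := mul_le_mul (hw a) h2 (abs_nonneg _) (by positivity)
      _ = 8 / L * (|P| + |Z|) := by ring
  calc S.mp F x * (B * (w a / S.yy F a x * (P + Z)) + (1 - B) * (w a / S.yy F a x * Z))
      = S.mp F x * ((w a * (B * P + Z)) / S.yy F a x) := by ring
    _ ≤ S.mp F x * ((8 / L * (|P| + |Z|)) / S.yy F a x) := by gcongr
    _ = _ := by ring

theorem continuousOn_mp (F : Cfg S.C j η Λ) {U : Set (E n)} (hU : U ⊆ S.Ω)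
    (hp : ∀ x ∈ U, 0 < S.pp F x) : ContinuousOn (S.mp F) U := by
  unfold Sol.mp
  refine ContinuousOn.mul (((S.contDiffOn_pp F).continuousOn.mono hU).rpow_const
    fun x hx => Or.inl (hp x hx).ne') ?_
  exact (S.contDiffOn_rho.continuousOn.mono hU).inv₀ fun x hx => (S.rho_pos (hU hx)).ne'

theorem continuousOn_ZG (F : Cfg S.C j η Λ) {U : Set (E n)} (hUo : IsOpen U) (hU : U ⊆ S.Ω)
    {f : E n → ℝ} (hf : ContDiffOn ℝ 1 f U) : ContinuousOn (S.ZG F f) U := by
  unfold Sol.ZG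
  refine continuousOn_finsetSum _ fun b _ => ?_
  exact ((S.contDiffOn_nu _).continuousOn.mono hU).mul
    (S.continuousOn_G hUo hU (((S.contDiffOn_yy F b).mono hU).of_le (by simp)) hf)

theorem continuousOn_err (F : Cfg S.C j η Λ) {U : Set (E n)} (hUo : IsOpen U) (hU : U ⊆ S.Ω)
    (hp : ∀ x ∈ U, 0 < S.pp F x) (hy : ∀ x ∈ U, ∀ a, 0 < S.yy F a x) (a : Fin j) :
    ContinuousOn (S.err F a) U := by
  unfold Sol.err
  refine (continuousOn_mp F hU hp).mul (ContinuousOn.div (ContinuousOn.add ?_ ?_)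
    ((S.contDiffOn_yy F a).continuousOn.mono hU) fun x hx => (hy x hx a).ne')
  · exact (((S.contDiffOn_pp F).continuousOn.mono hU).mul
      ((S.contDiffOn_xi _).continuousOn.mono hU)).abs
  · exact (continuousOn_ZG F hUo hU (((S.contDiffOn_yy F a).mono hU).of_le (by simp))).abs

theorem err_nonneg (F : Cfg S.C j η Λ) {x : E n} (hx : x ∈ S.Ω) (hp : 0 < S.pp F x) {a : Fin j}
    (hy : 0 < S.yy F a x) : 0 ≤ S.err F a x := by
  have hmp : 0 ≤ S.mp F x :=
    mul_nonneg (Real.rpow_nonneg hp.le _) (inv_nonneg.mpr (S.rho_pos hx).le)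
  unfold Sol.err; positivity

end Sol

end Crest.Agent.R236
end
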