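import Crest.Agent.R236.Geom
import Crest.Agent.R236.LinAlg

/-!
# Affine changes of variables and normalisation

`S.tr T x₀ a β γ` has `u' x = a u(x₀ + T x) + β x + γ` on `{x | x₀ + T x ∈ Ω}`.  The map of graphs is
`Â (x, s) = (x₀ + T x, (s - β x - γ)/a)`, so `(x,s) ∈ C' ↔ Â (x,s) ∈ C`, `Â (X' x) = X (A x)`,
`tp' x w = a · tp (A x) (Â w)`, `H' = a (mat T)ᵀ H (mat T)` (`fderiv_fderiv_eq`, chain rule),
`Hi' = a⁻¹ (mat T)⁻¹ Hi (mat T)⁻ᵀ`, `L0' (f ∘ A) = a⁻¹ (L0 f) ∘ A`, `detPower' = const · detPower ∘ A` near `x`.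
Prove the Hessian/L0 rules first for plain functions (so that they can be used in the field `eqn`).
Integrals: `MeasureTheory.integral_image_eq_integral_abs_det_fderiv_smul` or
`Measure.addHaar_preimage_continuousLinearEquiv`, `integral_comp_...` + translation invariance.
-/

set_option autoImplicit false
open scoped ContDiff Topology
open Crest.GeometryTopology.CoordMetric Crest.GeometryTopology.AffineMaximal
open MeasureTheory Set

noncomputable section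
namespace Crest.Agent.R236

variable {n : ℕ}

/-- the affine map `x ↦ x₀ + T x` -/
def aff (T : E n ≃L[ℝ] E n) (x₀ : E n) (x : E n) : E n := x₀ + T x

/-- the induced map of `V n` -/
def affV (T : E n ≃L[ℝ] E n) (x₀ : E n) (a : ℝ) (β : E n →L[ℝ] ℝ) (γ : ℝ) (w : V n) : V n :=
  (aff T x₀ w.1, (w.2 - β w.1 - γ) / a)

theorem continuous_aff (T : E n ≃L[ℝ] E n) (x₀ : E n) : Continuous (aff T x₀) := by
  unfold aff; fun_prop

theorem contDiff_aff (T : E n ≃L[ℝ] E n) (x₀ : E n) {m : WithTop ℕ∞} : ContDiff ℝ m (aff T x₀) :=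
  contDiff_const.add (T : E n →L[ℝ] E n).contDiff

theorem hasFDerivAt_aff (T : E n ≃L[ℝ] E n) (x₀ x : E n) :
    HasFDerivAt (aff T x₀) (T : E n →L[ℝ] E n) x :=
  (T : E n →L[ℝ] E n).hasFDerivAt.const_add x₀

theorem aff_injective (T : E n ≃L[ℝ] E n) (x₀ : E n) : Function.Injective (aff T x₀) :=
  fun _ _ h => T.injective (add_left_cancel h)

theorem aff_surjective (T : E n ≃L[ℝ] E n) (x₀ : E n) : Function.Surjective (aff T x₀) :=
  fun y => ⟨T.symm (y - x₀), by simp [aff]⟩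

theorem aff_zero (T : E n ≃L[ℝ] E n) (x₀ : E n) : aff T x₀ 0 = x₀ := by simp [aff]

theorem aff_sub (T : E n ≃L[ℝ] E n) (x₀ x y : E n) : aff T x₀ x - aff T x₀ y = T (x - y) := by
  simp [aff]

theorem fderiv_comp_aff (T : E n ≃L[ℝ] E n) (x₀ : E n) (g : E n → ℝ) (x : E n) :
    fderiv ℝ (fun y => g (aff T x₀ y)) x
      = (fderiv ℝ g (aff T x₀ x)).comp (T : E n →L[ℝ] E n) := by
  have h := T.comp_right_fderiv (f := fun z => g (x₀ + z)) (x := x)
  rw [fderiv_comp_add_left] at h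
  exact h

theorem hess_comp_aff (T : E n ≃L[ℝ] E n) (x₀ : E n) {f : E n → ℝ} {x : E n}
    (hf : ContDiffAt ℝ 2 f (aff T x₀ x)) :
    hessianMat (fun y => f (aff T x₀ y)) x
      = (mat (T : E n →L[ℝ] E n)).transpose * hessianMat f (aff T x₀ x) * mat (T : E n →L[ℝ] E n) := by
  ext i j
  have h1 : (fun y => pderiv j (fun y => f (aff T x₀ y)) y)
      = fun y => (fun z => fderiv ℝ f z (T (ee j))) (aff T x₀ y) := by
    funext y
    rw [pderiv_eq, fderiv_comp_aff]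
    rfl
  have h2 : hessianMat (fun y => f (aff T x₀ y)) x i j
      = fderiv ℝ (fun z => fderiv ℝ f z (T (ee j))) (aff T x₀ x) (T (ee i)) := by
    unfold hessianMat
    rw [h1, pderiv_eq, fderiv_comp_aff T x₀ (fun z => fderiv ℝ f z (T (ee j)))]
    rfl
  rw [h2, fderiv_fderiv_eq hf, Finset.sum_comm]
  simp only [Matrix.mul_apply, Matrix.transpose_apply, mat, Finset.sum_mul,
    ContinuousLinearEquiv.coe_coe]
  exact Finset.sum_congr rfl fun b _ => Finset.sum_congr rfl fun a _ => by ring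

theorem volume_preimage_aff (T : E n ≃L[ℝ] E n) (x₀ : E n) (s : Set (E n)) :
    volume s = ENNReal.ofReal |(T : E n →L[ℝ] E n).det| * volume (aff T x₀ ⁻¹' s) := by
  have h1 : volume s = volume ((fun z => x₀ + z) ⁻¹' s) := (measure_preimage_add _ _ _).symm
  have h2 : (fun z => x₀ + z) ⁻¹' s = T '' (aff T x₀ ⁻¹' s) := by
    have : aff T x₀ ⁻¹' s = T ⁻¹' ((fun z => x₀ + z) ⁻¹' s) := rfl
    rw [this, image_preimage_eq _ T.surjective]
  rw [h1, h2, Measure.addHaar_image_continuousLinearEquiv]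
  rfl

theorem setIntegral_comp_aff (T : E n ≃L[ℝ] E n) (x₀ : E n) (s : Set (E n)) (hs : MeasurableSet s)
    (f : E n → ℝ) :
    ∫ x in s, f x = |(T : E n →L[ℝ] E n).det| * ∫ x in aff T x₀ ⁻¹' s, f (aff T x₀ x) := by
  have hm : MeasurableSet (aff T x₀ ⁻¹' s) := (continuous_aff T x₀).measurable hs
  have h := integral_image_eq_integral_abs_det_fderiv_smul (μ := (volume : Measure (E n))) hm
    (f := aff T x₀) (f' := fun _ => (T : E n →L[ℝ] E n))
    (fun x _ => (hasFDerivAt_aff T x₀ x).hasFDerivWithinAt) (aff_injective T x₀).injOn f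
  rw [image_preimage_eq _ (aff_surjective T x₀)] at h
  rw [h, ← integral_const_mul]
  rfl

/-! ### the rules for plain functions -/

theorem det_equiv_ne_zero (T : E n ≃L[ℝ] E n) : (T : E n →L[ℝ] E n).det ≠ 0 :=
  (LinearEquiv.isUnit_det' T.toLinearEquiv).ne_zero

theorem isUnit_det_mat (T : E n ≃L[ℝ] E n) : IsUnit (mat (T : E n →L[ℝ] E n)).det := by
  rw [det_mat]
  exact (det_equiv_ne_zero T).isUnit

theorem contDiffAt_comp_aff (T : E n ≃L[ℝ] E n) (x₀ : E n) {f : E n → ℝ} {x : E n}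
    {m : WithTop ℕ∞} (hf : ContDiffAt ℝ m f (aff T x₀ x)) :
    ContDiffAt ℝ m (fun y => f (aff T x₀ y)) x :=
  hf.comp x (contDiff_aff T x₀).contDiffAt

theorem hess_tr (T : E n ≃L[ℝ] E n) (x₀ : E n) (a : ℝ) (β : E n →L[ℝ] ℝ) (γ : ℝ) {u : E n → ℝ}
    {x : E n} (hu : ContDiffAt ℝ 2 u (aff T x₀ x)) :
    hessianMat (fun x => a * u (aff T x₀ x) + β x + γ) x
      = a • ((mat (T : E n →L[ℝ] E n)).transpose * hessianMat u (aff T x₀ x)
        * mat (T : E n →L[ℝ] E n)) := by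
  have h1 := contDiffAt_comp_aff T x₀ hu
  have h2 : ContDiffAt ℝ 2 (fun x => a * u (aff T x₀ x)) x := contDiffAt_const.mul h1
  have h3 : ContDiffAt ℝ 2 (fun x => β x) x := β.contDiff.contDiffAt
  rw [hess_add (h2.add h3) contDiffAt_const, hess_add h2 h3, hess_const, hess_clm,
    hess_const_mul a h1, hess_comp_aff T x₀ hu, add_zero, add_zero]

theorem fderiv_tr (T : E n ≃L[ℝ] E n) (x₀ : E n) (a : ℝ) (β : E n →L[ℝ] ℝ) (γ : ℝ) {u : E n → ℝ}
    {x : E n} (hu : DifferentiableAt ℝ u (aff T x₀ x)) :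
    fderiv ℝ (fun x => a * u (aff T x₀ x) + β x + γ) x
      = a • (fderiv ℝ u (aff T x₀ x)).comp (T : E n →L[ℝ] E n) + β := by
  have h1 : HasFDerivAt (fun y => u (aff T x₀ y))
      ((fderiv ℝ u (aff T x₀ x)).comp (T : E n →L[ℝ] E n)) x :=
    hu.hasFDerivAt.comp x (hasFDerivAt_aff T x₀ x)
  exact (((h1.const_mul a).add β.hasFDerivAt).add_const γ).fderiv

theorem det_conj (a : ℝ) (M A : Matrix (Fin n) (Fin n) ℝ) :
    (a • (M.transpose * A * M)).det = a ^ n * M.det ^ 2 * A.det := by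
  rw [Matrix.det_smul, Matrix.det_mul, Matrix.det_mul, Matrix.det_transpose, Fintype.card_fin]
  ring

theorem posDef_conj {a : ℝ} (ha : 0 < a) {M A : Matrix (Fin n) (Fin n) ℝ} (hM : IsUnit M.det)
    (hA : A.PosDef) : (a • (M.transpose * A * M)).PosDef := by
  have h1 : Function.Injective M.mulVec :=
    Matrix.mulVec_injective_iff_isUnit.2 ((Matrix.isUnit_iff_isUnit_det M).2 hM)
  have h2 := hA.conjTranspose_mul_mul_same h1
  rw [Matrix.conjTranspose_eq_transpose_of_trivial] at h2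
  exact h2.smul ha

theorem sum_mul_eq_trace (A B : Matrix (Fin n) (Fin n) ℝ) :
    ∑ i, ∑ j, A i j * B i j = (A * B.transpose).trace := by
  simp [Matrix.trace, Matrix.mul_apply]

theorem sum_inv_conj {a : ℝ} (ha : a ≠ 0) {M : Matrix (Fin n) (Fin n) ℝ} (hM : IsUnit M.det)
    (A B : Matrix (Fin n) (Fin n) ℝ) :
    ∑ i, ∑ j, (a • (M.transpose * A * M))⁻¹ i j * (M.transpose * B * M) i j
      = a⁻¹ * ∑ i, ∑ j, A⁻¹ i j * B i j := by
  have hMt : IsUnit M.transpose.det := by rwa [Matrix.det_transpose]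
  have h1 : (a • (M.transpose * A * M))⁻¹ = a⁻¹ • (M⁻¹ * A⁻¹ * M.transpose⁻¹) := by
    have : a • (M.transpose * A * M) = (a • (1 : Matrix (Fin n) (Fin n) ℝ)) * (M.transpose * A * M) := by
      simp
    have h2 : (a • (1 : Matrix (Fin n) (Fin n) ℝ))⁻¹ = a⁻¹ • 1 :=
      Matrix.inv_eq_left_inv (by simp [smul_smul, ha])
    rw [this, Matrix.mul_inv_rev, h2, Matrix.mul_inv_rev, Matrix.mul_inv_rev]
    simp [Matrix.mul_assoc]
  rw [sum_mul_eq_trace, sum_mul_eq_trace, h1, Matrix.smul_mul, Matrix.trace_smul, smul_eq_mul]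
  congr 1
  rw [Matrix.transpose_mul, Matrix.transpose_mul, Matrix.transpose_transpose]
  have h3 : M⁻¹ * A⁻¹ * M.transpose⁻¹ * (M.transpose * (B.transpose * M))
      = M⁻¹ * (A⁻¹ * B.transpose * M) := by
    simp only [Matrix.mul_assoc, Matrix.nonsing_inv_mul_cancel_left _ _ hMt]
  rw [h3, Matrix.trace_mul_comm, Matrix.mul_assoc, Matrix.mul_nonsing_inv _ hM, Matrix.mul_one]

theorem affineMaximalOp_eq (u : E n → ℝ) (x : E n) :
    affineMaximalOp n u x = (hessianMat u x).det *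
      ∑ i, ∑ j, (hessianMat u x)⁻¹ i j * hessianMat (detPower n u) x i j := by
  simp only [affineMaximalOp, Finset.mul_sum, mul_assoc]

theorem continuous_affV (T : E n ≃L[ℝ] E n) (x₀ : E n) (a : ℝ) (β : E n →L[ℝ] ℝ) (γ : ℝ) :
    Continuous (affV T x₀ a β γ) := by
  unfold affV aff; fun_prop

theorem le_affV_iff {a : ℝ} (ha : 0 < a) (t b g s : ℝ) :
    a * t + b + g ≤ s ↔ t ≤ (s - b - g) / a := by
  rw [le_div_iff₀ ha]
  constructor <;> intro h <;> linarith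

namespace Sol
variable (S : Sol n)

theorem tr_eqn (T : E n ≃L[ℝ] E n) (x₀ : E n) {a : ℝ} (ha : 0 < a) (β : E n →L[ℝ] ℝ) (γ : ℝ)
    {x : E n} (hx : aff T x₀ x ∈ S.Ω) :
    affineMaximalOp n (fun x => a * S.u (aff T x₀ x) + β x + γ) x = 0 := by
  set c : ℝ := (a ^ n * (mat (T : E n →L[ℝ] E n)).det ^ 2) ^ (-((n : ℝ) + 1) / ((n : ℝ) + 2))
    with hc
  have h1 : detPower n (fun x => a * S.u (aff T x₀ x) + β x + γ)
      =ᶠ[𝓝 x] fun y => c * detPower n S.u (aff T x₀ y) := by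
    filter_upwards [(S.isOpen.preimage (continuous_aff T x₀)).mem_nhds hx] with y hy
    unfold detPower
    rw [hess_tr T x₀ a β γ (S.u_at_two hy), det_conj]
    exact Real.mul_rpow (by positivity) (S.det_pos hy).le
  have h2 : ContDiffAt ℝ 2 (detPower n S.u) (aff T x₀ x) :=
    (S.contDiffOn_detPower.contDiffAt (S.isOpen.mem_nhds hx)).of_le (by norm_cast)
  rw [affineMaximalOp_eq, hess_congr h1, hess_const_mul c (contDiffAt_comp_aff T x₀ h2),
    hess_comp_aff T x₀ h2, hess_tr T x₀ a β γ (S.u_at_two hx)]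
  have h3 := S.L0_detPower hx
  have h4 := sum_inv_conj ha.ne' (isUnit_det_mat T) (hessianMat S.u (aff T x₀ x))
    (hessianMat (detPower n S.u) (aff T x₀ x))
  unfold Sol.L0 Sol.Hi Sol.H at h3
  rw [h3, mul_zero] at h4
  simp only [Matrix.smul_apply, smul_eq_mul, mul_left_comm _ c, ← Finset.mul_sum]
  rw [h4, mul_zero, mul_zero]

def tr (T : E n ≃L[ℝ] E n) (x₀ : E n) {a : ℝ} (ha : 0 < a) (β : E n →L[ℝ] ℝ) (γ : ℝ) : Sol n where
  Ω := aff T x₀ ⁻¹' S.Ω
  u := fun x => a * S.u (aff T x₀ x) + β x + γ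
  isOpen := S.isOpen.preimage (continuous_aff T x₀)
  convex := fun x hx y hy s t hs ht hst => by
    have h : aff T x₀ (s • x + t • y) = s • aff T x₀ x + t • aff T x₀ y := by
      simp only [aff, map_add, map_smul, smul_add]
      rw [add_add_add_comm, ← add_smul, hst, one_smul]
    rw [mem_preimage, h]
    exact S.convex hx hy hs ht hst
  smooth := ((contDiffOn_const.mul (S.smooth.comp (contDiff_aff T x₀).contDiffOn
    fun _ hx => hx)).add β.contDiff.contDiffOn).add contDiffOn_const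
  pos := fun x hx => by
    rw [hess_tr T x₀ a β γ (S.u_at_two hx)]
    exact posDef_conj ha (isUnit_det_mat T) (S.pos _ hx)
  eqn := fun x hx => S.tr_eqn T x₀ ha β γ hx
  closed := by
    have h := S.closed.preimage (continuous_affV T x₀ a β γ)
    convert h using 1
    ext w
    simp only [mem_ofPred_eq, mem_preimage, affV, le_affV_iff ha]

variable (T : E n ≃L[ℝ] E n) (x₀ : E n) {a : ℝ} (ha : 0 < a) (β : E n →L[ℝ] ℝ) (γ : ℝ)

theorem tr_Ω : (S.tr T x₀ ha β γ).Ω = aff T x₀ ⁻¹' S.Ω := rfl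
theorem tr_u (x : E n) : (S.tr T x₀ ha β γ).u x = a * S.u (aff T x₀ x) + β x + γ := rfl
theorem tr_fderiv {x : E n} (hx : aff T x₀ x ∈ S.Ω) : fderiv ℝ (S.tr T x₀ ha β γ).u x
    = a • (fderiv ℝ S.u (aff T x₀ x)).comp (T : E n →L[ℝ] E n) + β :=
  fderiv_tr T x₀ a β γ ((S.u_at hx).differentiableAt (by simp))

theorem tr_mem_C (w : V n) : w ∈ (S.tr T x₀ ha β γ).C ↔ affV T x₀ a β γ w ∈ S.C := by
  simp only [Sol.C, mem_ofPred_eq, tr_Ω, tr_u, mem_preimage, affV, le_affV_iff ha]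
theorem affV_surj (ha : 0 < a) (w : V n) : ∃ w', affV T x₀ a β γ w' = w := by
  refine ⟨(T.symm (w.1 - x₀), a * w.2 + β (T.symm (w.1 - x₀)) + γ), ?_⟩
  ext1
  · simp [affV, aff]
  · simp only [affV]
    field_simp
    ring
theorem tr_X (x : E n) : affV T x₀ a β γ ((S.tr T x₀ ha β γ).X x) = S.X (aff T x₀ x) := by
  ext1
  · rfl
  · simp only [affV, Sol.X, tr_u]
    field_simp
    ring
theorem tr_tp {x : E n} (hx : aff T x₀ x ∈ S.Ω) (w : V n) :
    (S.tr T x₀ ha β γ).tp x w = a * S.tp (aff T x₀ x) (affV T x₀ a β γ w) := by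
  simp only [Sol.tp, Sol.nb, Sol.X, S.tr_fderiv T x₀ ha β γ hx, tr_u, affV, Prod.fst_sub,
    Prod.snd_sub, aff_sub, add_apply, smul_apply,
    ContinuousLinearMap.comp_apply, ContinuousLinearEquiv.coe_coe, smul_eq_mul, map_sub β]
  field_simp
  ring
theorem tr_H {x : E n} (hx : aff T x₀ x ∈ S.Ω) :
    (S.tr T x₀ ha β γ).H x = a • ((mat (T : E n →L[ℝ] E n)).transpose * S.H (aff T x₀ x)
      * mat (T : E n →L[ℝ] E n)) := hess_tr T x₀ a β γ (S.u_at_two hx)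
theorem tr_det {x : E n} (hx : aff T x₀ x ∈ S.Ω) :
    ((S.tr T x₀ ha β γ).H x).det
      = a ^ n * (T : E n →L[ℝ] E n).det ^ 2 * (S.H (aff T x₀ x)).det := by
  rw [S.tr_H T x₀ ha β γ hx, det_conj, det_mat]
theorem tr_uvv {x : E n} (hx : aff T x₀ x ∈ S.Ω) (v : E n) :
    (S.tr T x₀ ha β γ).uvv v x = a * S.uvv (T v) (aff T x₀ x) := by
  have hq : ∀ (A : Matrix (Fin n) (Fin n) ℝ) (w : Fin n → ℝ),
      ∑ i, ∑ j, A i j * w i * w j = w ⬝ᵥ A.mulVec w := fun A w => by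
    simp only [dotProduct, Matrix.mulVec, Finset.mul_sum]
    exact Finset.sum_congr rfl fun i _ => Finset.sum_congr rfl fun j _ => by ring
  have hT : (fun i => T v i) = (mat (T : E n →L[ℝ] E n)).mulVec fun i => v i := by
    funext i
    exact apply_eq_mat (T : E n →L[ℝ] E n) v i
  unfold Sol.uvv
  rw [hq _ fun i => v i, hq _ fun i => T v i, hT, S.tr_H T x₀ ha β γ hx, Matrix.smul_mulVec,
    dotProduct_smul, smul_eq_mul, Matrix.mul_assoc, ← Matrix.mulVec_mulVec,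
    Matrix.dotProduct_mulVec, Matrix.vecMul_transpose, Matrix.mulVec_mulVec]
theorem tr_L0 {x : E n} (hx : aff T x₀ x ∈ S.Ω) {f : E n → ℝ} (hf : ContDiffAt ℝ 2 f (aff T x₀ x)) :
    (S.tr T x₀ ha β γ).L0 (fun y => f (aff T x₀ y)) x = a⁻¹ * S.L0 f (aff T x₀ x) := by
  unfold Sol.L0 Sol.Hi
  rw [S.tr_H T x₀ ha β γ hx, hess_comp_aff T x₀ hf]
  exact sum_inv_conj ha.ne' (isUnit_det_mat T) _ _
theorem tr_SC {η : ℝ} (h : S.SC η) : (S.tr T x₀ ha β γ).SC η := by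
  intro x hx x' hx' W₀ hW₀ W' hW' h1 h2
  rw [S.tr_tp T x₀ ha β γ hx] at h1
  rw [S.tr_tp T x₀ ha β γ hx, S.tr_tp T x₀ ha β γ hx] at h2
  have h3 := h _ hx _ hx' _ ((S.tr_mem_C T x₀ ha β γ _).1 hW₀) _ ((S.tr_mem_C T x₀ ha β γ _).1 hW')
    ((mul_pos_iff_of_pos_left ha).1 h1) (le_of_mul_le_mul_left h2 ha)
  rw [S.tr_tp T x₀ ha β γ hx', S.tr_tp T x₀ ha β γ hx', S.tr_tp T x₀ ha β γ hx', tr_X]
  nlinarith [mul_le_mul_of_nonneg_left h3 ha.le]

/-- `mu z = (tp z)^(-n/2) √(det H)` -/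
theorem mu_eq {x : E n} (hx : x ∈ S.Ω) {z : V n} (hz : 0 < S.tp x z) :
    S.mu z x = S.tp x z ^ (-(n : ℝ) / 2) * Real.sqrt (S.H x).det := by
  have hd := S.det_pos hx
  have hr := S.rho_pos hx
  have hn : (n : ℝ) + 2 ≠ 0 := by positivity
  unfold Sol.mu Sol.q
  rw [Real.mul_rpow hr.le hz.le, mul_right_comm, mul_comm, ← Real.rpow_neg_one,
    ← Real.rpow_add hr, Sol.rho, ← Real.rpow_mul hd.le, Real.sqrt_eq_rpow]
  congr 2
  field_simp
  ring
theorem tr_mu {x : E n} (hx : aff T x₀ x ∈ S.Ω) (z : V n)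
    (hz : 0 < S.tp (aff T x₀ x) (affV T x₀ a β γ z)) :
    (S.tr T x₀ ha β γ).mu z x
      = |(T : E n →L[ℝ] E n).det| * S.mu (affV T x₀ a β γ z) (aff T x₀ x) := by
  have hz' : 0 < (S.tr T x₀ ha β γ).tp x z := by
    rw [S.tr_tp T x₀ ha β γ hx]
    exact mul_pos ha hz
  have h1 : a ^ (-(n : ℝ) / 2) * Real.sqrt (a ^ n) = 1 := by
    rw [Real.sqrt_eq_rpow, ← Real.rpow_natCast, ← Real.rpow_mul ha.le, ← Real.rpow_add ha,
      show -(n : ℝ) / 2 + n * (1 / 2) = 0 by ring, Real.rpow_zero]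
  rw [(S.tr T x₀ ha β γ).mu_eq hx hz', S.mu_eq hx hz, S.tr_tp T x₀ ha β γ hx,
    S.tr_det T x₀ ha β γ hx, Real.mul_rpow ha.le hz.le, Real.sqrt_mul (by positivity),
    Real.sqrt_mul (by positivity), Real.sqrt_sq_eq_abs]
  linear_combination (S.tp (aff T x₀ x) (affV T x₀ a β γ z) ^ (-(n : ℝ) / 2) *
    |(T : E n →L[ℝ] E n).det| * Real.sqrt (S.H (aff T x₀ x)).det) * h1

/-- Auerbach basis for a compact neighbourhood of `x₀` -/
theorem _root_.Crest.Agent.R236.exists_auerbach_at {K : Set (E n)} (hK : IsCompact K) {x₀ : E n}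
    (h0 : K ∈ 𝓝 x₀) : ∃ T : E n ≃L[ℝ] E n, (∀ i, aff T x₀ (ee i) ∈ K) ∧
      ∀ x, aff T x₀ x ∈ K → ∀ i, |x i| ≤ 1 := by
  have h1 : IsCompact ((fun z => x₀ + z) ⁻¹' K) :=
    (Homeomorph.addLeft x₀).isCompact_preimage.2 hK
  have h2 : (fun z => x₀ + z) ⁻¹' K ∈ 𝓝 (0 : E n) :=
    (continuous_const_add x₀).continuousAt.preimage_mem_nhds (by simpa using h0)
  exact exists_auerbach h1 h2

/-- Normalisation of the section of height `h` at `x₀`:  `a = h⁻¹`, `β = -h⁻¹ Du(x₀) ∘ T`,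
`γ = -h⁻¹ u x₀`, `T` an Auerbach basis of `sec x₀ h - x₀`. -/
theorem exists_normB {η : ℝ} (hsc : S.SC η) {x₀ : E n} (hx₀ : x₀ ∈ S.Ω) {h : ℝ} (hh : 0 < h) :
    ∃ (T : E n ≃L[ℝ] E n) (β : E n →L[ℝ] ℝ) (γ : ℝ),
      (S.tr T x₀ (inv_pos.mpr hh) β γ).NormB η ∧
      ∀ r, (S.tr T x₀ (inv_pos.mpr hh) β γ).lev r = aff T x₀ ⁻¹' S.sec x₀ (r * h) := by
  have hc : ContinuousAt (fun x => S.tp x₀ (S.X x)) x₀ := by
    have := (S.u_at hx₀).continuousAt
    unfold Sol.tp Sol.nb Sol.X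
    fun_prop
  have hnb : S.sec x₀ h ∈ 𝓝 x₀ := by
    have h1 : ∀ᶠ x in 𝓝 x₀, S.tp x₀ (S.X x) < h :=
      hc.eventually (gt_mem_nhds (by simpa [S.tp_X] using hh))
    filter_upwards [S.isOpen.mem_nhds hx₀, h1] with x hx h2
    exact ⟨hx, h2.le⟩
  obtain ⟨T, hT1, hT2⟩ := exists_auerbach_at (S.isCompact_sec hx₀ h) hnb
  set β : E n →L[ℝ] ℝ := -(h⁻¹ • (fderiv ℝ S.u x₀).comp (T : E n →L[ℝ] E n)) with hβ
  have hu : ∀ x, (S.tr T x₀ (inv_pos.mpr hh) β (-(h⁻¹ * S.u x₀))).u x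
      = h⁻¹ * S.tp x₀ (S.X (aff T x₀ x)) := fun x => by
    simp only [tr_u, hβ, Sol.tp, Sol.nb, Sol.X, Prod.fst_sub, Prod.snd_sub, aff,
      add_sub_cancel_left, neg_apply, smul_apply,
      ContinuousLinearMap.comp_apply, ContinuousLinearEquiv.coe_coe, smul_eq_mul]
    ring
  have hlev : ∀ r, (S.tr T x₀ (inv_pos.mpr hh) β (-(h⁻¹ * S.u x₀))).lev r
      = aff T x₀ ⁻¹' S.sec x₀ (r * h) := fun r => by
    ext x
    simp only [Sol.lev, Sol.sec, mem_ofPred_eq, mem_preimage, tr_Ω, hu, inv_mul_le_iff₀ hh,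
      mul_comm h r]
  have h0 : aff T x₀ 0 ∈ S.Ω := by rwa [aff_zero]
  refine ⟨T, β, -(h⁻¹ * S.u x₀), ⟨⟨fun i => ?_, fun x hx => ?_⟩, h0, ?_, ?_, S.tr_SC _ _ _ _ _ hsc⟩,
    hlev⟩
  · rw [hlev, one_mul]
    exact hT1 i
  · rw [hlev, one_mul] at hx
    exact hT2 x hx
  · rw [hu, aff_zero, S.tp_X, mul_zero]
  · rw [S.tr_fderiv T x₀ _ β _ h0, aff_zero, hβ, add_neg_cancel]
end Sol

theorem isBounded_preimage_affV (T : E n ≃L[ℝ] E n) (x₀ : E n) {a : ℝ} (ha : 0 < a)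
    (β : E n →L[ℝ] ℝ) (γ : ℝ) {s : Set (V n)} (hs : Bornology.IsBounded s) :
    Bornology.IsBounded (affV T x₀ a β γ ⁻¹' s) := by
  have hc : Continuous fun w : V n =>
      ((T.symm (w.1 - x₀), a * w.2 + β (T.symm (w.1 - x₀)) + γ) : V n) := by fun_prop
  refine (hs.isCompact_closure.image hc).isBounded.subset fun w hw => ⟨_, subset_closure hw, ?_⟩
  ext1
  · simp [affV, aff]
  · simp only [affV, aff, add_sub_cancel_left, ContinuousLinearEquiv.symm_apply_apply]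
    field_simp
    ring

/-- a cap in normal position: `l = snd`, `z = 0`, Auerbach -/
structure Cap.Normal {S : Sol n} {c : ℝ} (K : Cap S c) : Prop where
  l_eq : K.l = ContinuousLinearMap.snd ℝ (E n) ℝ
  z_eq : K.z = 0
  aue : S.Aue

/-- Every cap can be normalised, preserving the masses of `mu`: `a = l up`, `x₀ = z.1`,
`β = l (T ·, 0)`, `γ = -a z.2`, so that `u' = af l z ∘ A` and `affV 0 = z`;
`T` an Auerbach basis of `K.sec 1 - z.1` (a neighbourhood of `0` as `af l z z.1 ≤ 0 < 1`). -/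
theorem Cap.exists_normal {S : Sol n} {c : ℝ} (hc : 0 < c) (K : Cap S c) :
    ∃ (S' : Sol n) (K' : Cap S' c), K'.Normal ∧
      ∀ r ≤ (1 : ℝ), ∫ x in K.sec r, S.mu K.z x = ∫ x in K'.sec r, S'.mu K'.z x := by
  have ha := K.l_up_pos
  set a := K.l (up n) with ha_def
  have hl : ∀ (v : E n) (t : ℝ), K.l (v, t) = K.l (v, 0) + t * a := fun v t => by
    have : ((v, t) : V n) = (v, 0) + t • up n := by simp
    rw [this, map_add, map_smul, smul_eq_mul]
  have hz1 : K.z.1 ∈ S.Ω := K.z_mem.1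
  have hnb : K.sec 1 ∈ 𝓝 K.z.1 := by
    have h0 : S.af K.l K.z K.z.1 < 1 := by
      have h1 : S.X K.z.1 - K.z = (0, S.u K.z.1 - K.z.2) := by ext1 <;> simp [Sol.X]
      have h2 : S.u K.z.1 ≤ K.z.2 := K.z_mem.2
      have h3 : K.l ((0 : E n), (0 : ℝ)) = 0 := map_zero K.l
      rw [Sol.af, h1, hl, h3]
      nlinarith
    have h1 : ∀ᶠ x in 𝓝 K.z.1, S.af K.l K.z x < 1 :=
      ((S.contDiffOn_af K.l K.z).continuousOn.continuousAt
        (S.isOpen.mem_nhds hz1)).eventually (gt_mem_nhds h0)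
    filter_upwards [S.isOpen.mem_nhds hz1, h1] with x hx h2
    exact ⟨hx, h2.le⟩
  obtain ⟨T, hT1, hT2⟩ := exists_auerbach_at (K.isCompact_sec le_rfl) hnb
  set β : E n →L[ℝ] ℝ :=
    K.l.comp ((ContinuousLinearMap.inl ℝ (E n) ℝ).comp (T : E n →L[ℝ] E n)) with hβ
  have hβ' : ∀ x, β x = K.l (T x, 0) := fun x => rfl
  set γ : ℝ := -(a * K.z.2) with hγ
  have hlV : ∀ w : V n, K.l (affV T K.z.1 a β γ w - K.z) = w.2 := fun w => by
    have h1 : affV T K.z.1 a β γ w - K.z = (T w.1, (w.2 - β w.1 - γ) / a - K.z.2) := by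
      ext1 <;> simp [affV, aff]
    rw [h1, hl, ← hβ', hγ]
    field_simp
    ring
  have hV0 : affV T K.z.1 a β γ 0 = K.z := by
    ext1
    · simp [affV, aff]
    · simp only [affV, hγ, Prod.snd_zero, Prod.fst_zero, map_zero]
      field_simp
      ring
  have hsnd : ∀ w : V n, ContinuousLinearMap.snd ℝ (E n) ℝ (w - 0)
      = K.l (affV T K.z.1 a β γ w - K.z) := fun w => by rw [hlV, sub_zero]; rfl
  let K' : Cap (S.tr T K.z.1 ha β γ) c :=
    { l := ContinuousLinearMap.snd ℝ (E n) ℝ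
      z := 0
      z_mem := by rw [S.tr_mem_C, hV0]; exact K.z_mem
      low := fun w hw h1 => by
        rw [hsnd] at h1 ⊢
        exact K.low _ ((S.tr_mem_C _ _ _ _ _ _).1 hw) h1
      bdd := (isBounded_preimage_affV T K.z.1 ha β γ K.bdd).subset fun w hw =>
        ⟨(S.tr_mem_C _ _ _ _ _ _).1 hw.1, by rw [← hsnd]; exact hw.2⟩
      cen := fun x hx w hw h1 => by
        rw [hsnd] at h1
        have h2 := K.cen _ hx _ ((S.tr_mem_C _ _ _ _ _ _).1 hw) h1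
        rw [S.tr_tp _ _ _ _ _ hx, S.tr_tp _ _ _ _ _ hx, hV0]
        nlinarith [mul_le_mul_of_nonneg_left h2 ha.le] }
  have hu : ∀ x, (S.tr T K.z.1 ha β γ).u x = S.af K.l K.z (aff T K.z.1 x) := fun x => by
    rw [Sol.af, ← S.tr_X T K.z.1 ha β γ, hlV]
    rfl
  have hsec : ∀ r, K'.sec r = aff T K.z.1 ⁻¹' K.sec r := fun r => by
    ext x
    have : (S.tr T K.z.1 ha β γ).af K'.l K'.z x = S.af K.l K.z (aff T K.z.1 x) := by
      rw [← hu]
      simp [K', Sol.af, Sol.X]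
    simp only [Cap.sec, mem_ofPred_eq, mem_preimage, this, Sol.tr_Ω]
  have hlev : (S.tr T K.z.1 ha β γ).lev 1 = aff T K.z.1 ⁻¹' K.sec 1 := by
    ext x
    simp only [Sol.lev, Cap.sec, mem_ofPred_eq, mem_preimage, hu, Sol.tr_Ω]
  refine ⟨S.tr T K.z.1 ha β γ, K', ⟨rfl, rfl, ⟨fun i => ?_, fun x hx => ?_⟩⟩, fun r hr => ?_⟩
  · rw [hlev]
    exact hT1 i
  · rw [hlev] at hx
    exact hT2 x hx
  · have hm := (K.isCompact_sec hr).measurableSet
    rw [setIntegral_comp_aff T K.z.1 _ hm, hsec, ← integral_const_mul]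
    refine setIntegral_congr_fun ((continuous_aff T K.z.1).measurable hm) fun x hx => ?_
    have h1 := S.tr_mu T K.z.1 ha β γ hx.1 0 (by rw [hV0]; exact K.tp_z_pos hc hx.1)
    rw [hV0] at h1
    exact h1.symm

end Crest.Agent.R236
end
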